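import Vale.Agent.P018.Elim

namespace Vale.Agent.P018

section aux

open Polynomial

theorem rm_pow_bc {P : ℂ[X]} (hP : P ≠ 0) (t : ℂ) (k : ℕ) :
    rootMultiplicity t (P ^ k) = k * rootMultiplicity t P := by
  induction k with
  | zero => simp
  | succ k ih => rw [pow_succ, rootMultiplicity_mul (mul_ne_zero (pow_ne_zero _ hP) hP), ih]; ring

theorem key_bc {k : ℕ} (hk : 2 ≤ k) {P Q g h : ℂ[X]} {t : ℂ} (hg : rootMultiplicity t g = 1)
    (hh : h.eval t ≠ 0) (e : P ^ k * g = Q ^ k * h) : P = 0 ∧ Q = 0 := by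
  have hg0 : g ≠ 0 := by
    rintro rfl
    simp at hg
  have hh0 : h ≠ 0 := by
    rintro rfl
    simp at hh
  have hP : P = 0 := by
    by_contra hP
    have h1 : P ^ k * g ≠ 0 := mul_ne_zero (pow_ne_zero _ hP) hg0
    have h2 : Q ^ k * h ≠ 0 := e ▸ h1
    have hQ : Q ≠ 0 := by
      rintro rfl
      exact h2 (by rw [zero_pow (by omega), zero_mul])
    have h3 := congrArg (rootMultiplicity t) e
    rw [rootMultiplicity_mul h1, rootMultiplicity_mul h2, rm_pow_bc hP, rm_pow_bc hQ, hg,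
      rootMultiplicity_eq_zero hh, add_zero] at h3
    have h4 : k ∣ 1 := (Nat.dvd_add_right (dvd_mul_right k _)).1 (h3 ▸ dvd_mul_right k _)
    have := Nat.le_of_dvd one_pos h4
    omega
  refine ⟨hP, ?_⟩
  rw [hP, zero_pow (by omega), zero_mul] at e
  exact pow_eq_zero_iff (by omega) |>.1 ((mul_eq_zero.1 e.symm).resolve_right hh0)

theorem simple_bc {k : ℕ} (hk : 2 ≤ k) {u e : ℂ} (hu : u ≠ 0) (he : e ≠ 0) :
    ∃ t : ℂ, u * t ^ k + e = 0 ∧ rootMultiplicity t (C u * X ^ k + C e) = 1 := by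
  obtain ⟨t, ht⟩ := IsAlgClosed.exists_pow_nat_eq (-e / u) (show 0 < k by omega)
  have h1 : u * t ^ k + e = 0 := by
    rw [ht]
    field_simp
    ring
  have ht0 : t ≠ 0 := by
    rintro rfl
    rw [zero_pow (by omega), mul_zero, zero_add] at h1
    exact he h1
  have hg : (C u * X ^ k + C e : ℂ[X]) ≠ 0 := by
    intro h
    have := congrArg (eval 0) h
    simp [zero_pow (show k ≠ 0 by omega), he] at this
  refine ⟨t, h1, le_antisymm ?_ ?_⟩
  · by_contra h
    rw [not_le, one_lt_rootMultiplicity_iff_isRoot hg] at h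
    have h2 := h.2
    simp [ht0, hu, derivative_X_pow] at h2
    omega
  · refine (rootMultiplicity_pos hg).2 ?_
    simpa using h1

theorem irr_bc {k : ℕ} (hk : 2 ≤ k) {g : ℂ[X]} {t : ℂ} (hg : rootMultiplicity t g = 1) :
    Irreducible (X ^ k - C g : ℂ[X][X]) := by
  have hg0 : g ≠ 0 := by
    rintro rfl
    simp at hg
  have hm : (X ^ k - C g : ℂ[X][X]).Monic := monic_X_pow_sub_C g (by omega)
  have hP : (Ideal.span {(X - C t : ℂ[X])}).IsPrime :=
    (Ideal.span_singleton_prime (X_sub_C_ne_zero t)).2 (prime_X_sub_C t)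
  have hd : (X ^ k - C g : ℂ[X][X]).degree = k := degree_X_pow_sub_C (by omega) g
  refine irreducible_of_eisenstein_criterion hP ?_ (fun n hn => ?_) ?_ ?_ hm.isPrimitive
  · rw [hm.leadingCoeff]
    exact (Ideal.ne_top_iff_one _).1 hP.ne_top
  · rw [hd, Nat.cast_lt] at hn
    rw [coeff_sub, coeff_X_pow, if_neg hn.ne, zero_sub, coeff_C]
    refine neg_mem ?_
    split_ifs
    · rw [Ideal.mem_span_singleton, ← pow_one (X - C t), ← le_rootMultiplicity_iff hg0, hg]
    · exact zero_mem _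
  · rw [hd]
    exact_mod_cast (by omega : 0 < k)
  · rw [coeff_sub, coeff_X_pow, if_neg (by omega), zero_sub, coeff_C_zero, neg_mem_iff,
      Ideal.span_singleton_pow, Ideal.mem_span_singleton, ← le_rootMultiplicity_iff hg0, hg]
    omega

theorem ndvd_bc {k : ℕ} (hk : 2 ≤ k) {A B D g₁ g₂ : ℂ[X]} {t₁ t₂ : ℂ}
    (h1 : rootMultiplicity t₁ g₁ = 1) (h2 : rootMultiplicity t₂ g₂ = 1) (h3 : g₂.eval t₁ ≠ 0)
    (h : (X ^ k - C g₁ : ℂ[X][X]) ∣ (C A + C B * X) ^ k - C (D ^ k * g₂)) :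
    A = 0 ∧ B = 0 ∧ D = 0 := by
  obtain ⟨c, hc⟩ := h
  have hm : (X ^ k - C g₁ : ℂ[X][X]).Monic := monic_X_pow_sub_C g₁ (by omega)
  have hd : ((C A + C B * X) ^ k - C (D ^ k * g₂) : ℂ[X][X]).natDegree ≤ k := by
    rw [natDegree_sub_C]
    refine natDegree_pow_le.trans ?_
    have : (C A + C B * X : ℂ[X][X]).natDegree ≤ 1 := by compute_degree
    nlinarith
  have hc0 : c.natDegree = 0 := by
    rcases eq_or_ne c 0 with rfl | h0
    · simp
    · rw [hc, hm.natDegree_mul' h0, natDegree_X_pow_sub_C] at hd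
      omega
  rw [eq_C_of_natDegree_eq_zero hc0] at hc
  generalize c.coeff 0 = c0 at hc
  have hk0 : (k : ℂ[X]) ≠ 0 := Nat.cast_ne_zero.2 (by omega)
  have hk1 : k - 1 ≠ 0 := by omega
  have e0 := congrArg (eval 0) hc
  have e1 := congrArg (fun f => eval 0 (derivative f)) hc
  have e2 := congrArg (fun f => eval 1 (derivative f)) hc
  simp only [eval_sub, eval_pow, eval_add, eval_mul, eval_C, eval_X, mul_zero, add_zero,
    zero_pow (show k ≠ 0 by omega), zero_sub] at e0
  simp only [derivative_sub, derivative_pow, derivative_add, derivative_mul, derivative_C,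
    derivative_X, eval_sub, eval_pow, eval_add, eval_mul, eval_C, eval_X, eval_zero, eval_one,
    mul_zero, add_zero, zero_add, zero_mul, mul_one, sub_zero, zero_pow hk1, one_pow,
    map_natCast, eval_natCast] at e1 e2
  have e3 : (A + B) ^ (k - 1) * B = c0 := mul_left_cancel₀ hk0 (by linear_combination e2)
  have e4 : A = 0 ∨ B = 0 := by
    rcases mul_eq_zero.1 e1 with h | h
    · exact Or.inl (pow_eq_zero_iff hk1 |>.1 ((mul_eq_zero.1 h).resolve_left hk0))
    · exact Or.inr h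
  rcases e4 with rfl | rfl
  · rw [zero_add, ← pow_succ, Nat.sub_add_cancel (by omega)] at e3
    rw [zero_pow (by omega), ← e3] at e0
    have := key_bc hk (P := B) (Q := D) h1 h3 (by linear_combination e0)
    exact ⟨rfl, this⟩
  · rw [mul_zero] at e3
    rw [← e3] at e0
    have := key_bc hk (P := D) (Q := A) (h := 1) h2 (by simp) (by linear_combination -e0)
    exact ⟨this.2, rfl, this.1⟩

/-- all coefficients have degree at most `m` -/
def DgBc (m : ℕ) (f : ℂ[X][X]) : Prop := ∀ i, (f.coeff i).natDegree ≤ m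

theorem DgBc.mono {m m' : ℕ} {f : ℂ[X][X]} (h : DgBc m f) (hm : m ≤ m') : DgBc m' f :=
  fun i => (h i).trans hm

theorem DgBc.add {m : ℕ} {f g : ℂ[X][X]} (h : DgBc m f) (h' : DgBc m g) : DgBc m (f + g) :=
  fun i => by
    rw [coeff_add]
    exact (natDegree_add_le _ _).trans (max_le (h i) (h' i))

theorem DgBc.sub {m : ℕ} {f g : ℂ[X][X]} (h : DgBc m f) (h' : DgBc m g) : DgBc m (f - g) :=
  fun i => by
    rw [coeff_sub]
    exact (natDegree_sub_le _ _).trans (max_le (h i) (h' i))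

theorem DgBc.mul {m m' : ℕ} {f g : ℂ[X][X]} (h : DgBc m f) (h' : DgBc m' g) :
    DgBc (m + m') (f * g) := fun i => by
  rw [coeff_mul]
  exact natDegree_sum_le_of_forall_le _ _ fun x _ =>
    natDegree_mul_le.trans (add_le_add (h _) (h' _))

theorem dgBc_C {m : ℕ} {a : ℂ[X]} (h : a.natDegree ≤ m) : DgBc m (C a) := fun i => by
  rw [coeff_C]
  split_ifs
  · exact h
  · simp

theorem dgBc_X : DgBc 0 X := fun i => by
  rw [coeff_X]
  split_ifs <;> simp

theorem DgBc.pow {m : ℕ} {f : ℂ[X][X]} (h : DgBc m f) (k : ℕ) : DgBc (k * m) (f ^ k) := by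
  induction k with
  | zero => simpa using dgBc_C (m := 0) (a := 1) (by simp)
  | succ k ih =>
    rw [pow_succ, add_mul, one_mul]
    exact ih.mul h

theorem res_deg_bc {m : ℕ} {f g : ℂ[X][X]} (h : DgBc m f) (h' : DgBc m g) (a b : ℕ) :
    (resultant f g a b).natDegree ≤ (a + b) * m := by
  rw [resultant, Matrix.det_apply]
  refine natDegree_sum_le_of_forall_le _ _ fun σ _ => (natDegree_smul_le _ _).trans ?_
  refine (natDegree_prod_le _ _).trans ((Finset.sum_le_card_nsmul _ _ m fun i _ => ?_).trans ?_)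
  · rw [sylvester, Matrix.of_apply]
    refine Fin.addCases (fun j => ?_) (fun j => ?_) i
    · rw [Fin.addCases_left]
      split_ifs
      · exact h' _
      · simp
    · rw [Fin.addCases_right]
      split_ifs
      · exact h _
      · simp
  · simp

theorem bconst_aux (k B : ℕ) (hk : 2 ≤ k) (W : Finset ℕ) (x : ℕ → ℂ)
    (a : Fin 3 → ℕ → ℂ) (γ μ : Fin 3 → ℂ) (hμ : Function.Injective μ) (hγ : ∀ j, γ j ≠ 0)
    (he : ∀ n ∈ W, ∀ j, a j n ^ k * γ j = x n - μ j) (hi : Set.InjOn (a 0) W)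
    (hR : Rm B W (a 0) ![fun _ => 1, a 1, a 2]) : W.card ≤ (k + k) * (k * B + k) := by
  classical
  obtain ⟨A, hA0, hAd, hA⟩ := hR
  set g : Fin 3 → ℂ[X] := fun j => C (γ 0 / γ j) * X ^ k + C ((μ 0 - μ j) / γ j) with hg
  have hs : ∀ j, j ≠ 0 → ∃ t : ℂ, γ 0 / γ j * t ^ k + (μ 0 - μ j) / γ j = 0 ∧
      rootMultiplicity t (g j) = 1 := fun j hj =>
    simple_bc hk (div_ne_zero (hγ 0) (hγ j))
      (div_ne_zero (sub_ne_zero.2 fun h => hj (hμ h).symm) (hγ j))
  obtain ⟨t₁, ht₁, h1⟩ := hs 1 (by decide)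
  obtain ⟨t₂, -, h2⟩ := hs 2 (by decide)
  have h3 : (g 2).eval t₁ ≠ 0 := by
    intro h
    simp only [hg, eval_add, eval_mul, eval_C, eval_pow, eval_X] at h
    have e1 := hγ 1
    have e2 := hγ 2
    field_simp at h ht₁
    exact absurd (hμ (show μ 1 = μ 2 by linear_combination h - ht₁)) (by decide)
  have hgd : ∀ j, (g j).natDegree ≤ k := fun j => by
    simp only [hg]
    compute_degree
  have hge : ∀ n ∈ W, ∀ j, (g j).eval (a 0 n) = a j n ^ k := by
    intro n hn j
    simp only [hg, eval_add, eval_mul, eval_C, eval_pow, eval_X]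
    have e1 := hγ j
    field_simp
    linear_combination he n hn 0 - he n hn j
  set F : ℂ[X][X] := X ^ k - C (g 1) with hF
  set Ψ : ℂ[X][X] := (C (A 0) + C (A 1) * X) ^ k - C ((-A 2) ^ k * g 2) with hΨ
  have hFd : F.natDegree = k := natDegree_X_pow_sub_C
  have hΨd : Ψ.natDegree ≤ k := by
    rw [hΨ, natDegree_sub_C]
    refine natDegree_pow_le.trans ?_
    have : (C (A 0) + C (A 1) * X : ℂ[X][X]).natDegree ≤ 1 := by compute_degree
    nlinarith
  have hnd : ¬ F ∣ Ψ := by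
    intro h
    obtain ⟨e0, e1, e2⟩ := ndvd_bc hk h1 h2 h3 h
    obtain ⟨i, hi⟩ := hA0
    fin_cases i
    · exact hi e0
    · exact hi e1
    · exact hi (neg_eq_zero.1 e2)
  have hne := res_ne_zero F Ψ (irr_bc hk h1) (by omega) hnd
  have hDF : DgBc (k * B + k) F :=
    ((dgBc_X.pow k).mono (by omega)).sub (dgBc_C ((hgd 1).trans (by omega)))
  have hDΨ : DgBc (k * B + k) Ψ := by
    refine ((((dgBc_C (hAd 0)).add ((dgBc_C (hAd 1)).mul dgBc_X)).pow k).mono (by omega)).sub
      (dgBc_C (natDegree_mul_le.trans (add_le_add (natDegree_pow_le.trans ?_) (hgd 2))))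
    rw [natDegree_neg]
    exact Nat.mul_le_mul_left _ (hAd 2)
  have hdeg := res_deg_bc hDF hDΨ F.natDegree Ψ.natDegree
  obtain ⟨p, q, -, -, hpq⟩ := exists_mul_add_mul_eq_C_resultant F Ψ le_rfl le_rfl
    (Or.inl (by omega))
  rw [← Finset.card_image_of_injOn hi]
  refine (card_le_degree_of_subset_roots (fun s hs => ?_)).trans
    (hdeg.trans (Nat.mul_le_mul_right _ (by omega)))
  obtain ⟨n, hn, rfl⟩ := Finset.mem_image.1 hs
  rw [mem_roots hne, IsRoot.def]
  have e := congrArg (evalEval (a 0 n) (a 1 n)) hpq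
  have eF : evalEval (a 0 n) (a 1 n) F = 0 := by
    rw [hF, evalEval_sub, evalEval_pow, evalEval_C, evalEval_X, hge n hn, sub_self]
  have eΨ : evalEval (a 0 n) (a 1 n) Ψ = 0 := by
    have h4 := hA n hn
    simp only [Fin.sum_univ_three, Matrix.cons_val_zero, Matrix.cons_val_one, Matrix.cons_val_two,
      Matrix.head_cons, Matrix.tail_cons, mul_one] at h4
    rw [hΨ, evalEval_sub, evalEval_pow, evalEval_add, evalEval_mul, evalEval_C, evalEval_C,
      evalEval_C, evalEval_X, eval_mul, eval_pow, eval_neg, hge n hn, ← mul_pow, sub_eq_zero]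
    congr 1
    linear_combination h4
  rw [evalEval_add, evalEval_mul, evalEval_mul, eF, eΨ, evalEval_C] at e
  simpa using e.symm

end aux

open NumberField MvPolynomial

theorem bconst (k B : ℕ) (hk : 2 ≤ k) : ∃ D : ℕ, ∀ (W : Finset ℕ) (x : ℕ → ℂ)
    (a : Fin 3 → ℕ → ℂ) (γ μ : Fin 3 → ℂ), Function.Injective μ → (∀ j, γ j ≠ 0) →
    (∀ n ∈ W, ∀ j, a j n ^ k * γ j = x n - μ j) → Set.InjOn (a 0) W →
    Rm B W (a 0) ![fun _ => 1, a 1, a 2] → W.card ≤ D :=
  ⟨_, bconst_aux k B hk⟩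

end Vale.Agent.P018
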