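import Vale.Agent.P018.Count
import Vale.Agent.P018.NFc

namespace Vale.Agent.P018

open NumberField MvPolynomial

open Filter Topology

theorem eval_ne_Big (f : Polynomial ℤ) (hf : Irreducible (f.map (Int.castRingHom ℚ)))
    (hd : 4 ≤ f.natDegree) (n : ℤ) : f.eval n ≠ 0 := by
  intro h
  have h1 : (f.map (Int.castRingHom ℚ)).IsRoot (n : ℚ) := by
    rw [Polynomial.IsRoot, show (n : ℚ) = Int.castRingHom ℚ n from rfl, Polynomial.eval_map,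
      Polynomial.eval₂_hom, h, map_zero]
  have h2 : (f.map (Int.castRingHom ℚ)).natDegree = 1 := Polynomial.natDegree_eq_of_degree_eq_some
    (Polynomial.degree_eq_one_of_irreducible_of_root hf h1)
  rw [Polynomial.natDegree_map_eq_of_injective (RingHom.injective_int _)] at h2
  omega

theorem eval_le_Big (f : Polynomial ℤ) : ∃ Cf : ℝ, ∀ n X : ℕ, 1 ≤ n → n ≤ X →
    ((|f.eval (n : ℤ)| : ℤ) : ℝ) ≤ Cf * (X : ℝ) ^ f.natDegree := by
  refine ⟨∑ i ∈ Finset.range (f.natDegree + 1), |(f.coeff i : ℝ)|, fun n X h1 h2 => ?_⟩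
  rw [Polynomial.eval_eq_sum_range, Finset.sum_mul]
  push_cast
  refine (Finset.abs_sum_le_sum_abs _ _).trans (Finset.sum_le_sum fun i hi => ?_)
  rw [abs_mul, abs_pow, Nat.abs_cast]
  refine mul_le_mul_of_nonneg_left ?_ (abs_nonneg _)
  have hX : (1 : ℝ) ≤ X := by exact_mod_cast h1.trans h2
  exact (pow_le_pow_left₀ (Nat.cast_nonneg _) (by exact_mod_cast h2) i).trans
    (pow_le_pow_right₀ hX (by have := Finset.mem_range.1 hi; omega))

theorem pow_Big {C ξ : ℝ} (hC : 1 ≤ C) (hξ : 1 ≤ ξ) {a b : ℕ} (hab : a ≤ b) (hb : 1 ≤ b) :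
    C * ξ ^ a ≤ (C * ξ) ^ b := by
  rw [mul_pow]
  refine mul_le_mul ?_ (pow_le_pow_right₀ hξ hab) (by positivity) (by positivity)
  simpa using pow_le_pow_right₀ hC hb

theorem one_Big (f : Polynomial ℤ) (hf : Irreducible (f.map (Int.castRingHom ℚ))) (d k : ℕ)
    (hd : f.natDegree = d) (h4 : 4 ≤ d) (hk : d = k + 2) (W v : ℕ) (hW : 2 ≤ W)
    (hv : 999 * (W + 1 + k + k ^ 2) ≤ 1000 * (d + 1) * v) (s : ℕ) :
    ∃ K ξ0 : ℝ, W < d * (s + 1) → k * s ≤ W → ∀ (X : ℕ) (ξ : ℝ), ξ0 ≤ ξ → ξ ^ W = X →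
      ∀ N : Finset ℕ, (∀ n ∈ N, 1 ≤ n ∧ n ≤ X ∧ ∃ p : ℕ, p.Prime ∧ X < p ∧
        (p : ℤ) ^ k ∣ f.eval (n : ℤ) ∧ (ξ ^ d) ^ s ≤ p ∧ (p : ℝ) < (ξ ^ d) ^ (s + 1)) →
      (N.card : ℝ) ≤ K * ξ ^ ((v + d) * (d + 1)) := by
  by_cases hs : W < d * (s + 1) ∧ k * s ≤ W
  swap
  · exact ⟨0, 0, fun h1 h2 => absurd ⟨h1, h2⟩ hs⟩
  obtain ⟨hs1, hs2⟩ := hs
  obtain ⟨L, _, _, C, hC, H⟩ := nf f hf d k hd (by omega) (by omega)
  obtain ⟨wb, hwb⟩ : ∃ wb, W + 1 = wb + k * s := ⟨W + 1 - k * s, by omega⟩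
  have hw0 : k * (s + 1 + k) + wb = W + 1 + k + k ^ 2 := by rw [hwb]; ring
  have hN : Num d k (s + 1 + k) wb v := by
    refine num_of d k _ wb v h4 hk (by omega) (by omega) ?_ (by rw [hw0]; exact hv)
    rw [hw0]
    have : d * (s + 1 + k) = d * (s + 1) + k ^ 2 + 2 * k := by rw [hk]; ring
    omega
  obtain ⟨M, C1, Y0, hc⟩ := count hN (Module.finrank ℚ L)
  refine ⟨C1 * (2 ^ (M + 1) * C) ^ ((v + d) * (d + 1)), max (max 1 Y0) (2 ^ (M + 1) * C),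
    fun _ _ X ξ hξ hX N hN' => ?_⟩
  have x1 : 1 ≤ ξ := (le_max_left _ _).trans ((le_max_left _ _).trans hξ)
  have x2 : Y0 ≤ ξ := (le_max_right _ _).trans ((le_max_left _ _).trans hξ)
  have x3 : 2 ^ (M + 1) * C ≤ ξ := (le_max_right _ _).trans hξ
  have t1 : (1 : ℝ) ≤ 2 ^ (M + 1) := one_le_pow₀ (by norm_num)
  have x4 : C ≤ ξ := le_trans (by nlinarith) x3
  have x5 : ξ ^ 2 ≤ X := by rw [← hX]; exact pow_le_pow_right₀ x1 hW
  have y1 : ξ ≤ C * ξ := by nlinarith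
  have y2 : C ≤ C * ξ := by nlinarith
  have hN'' : ∀ n : ℕ, ∃ p : ℕ, n ∈ N → p.Prime ∧ X < p ∧
      (p : ℤ) ^ k ∣ f.eval (n : ℤ) ∧ (ξ ^ d) ^ s ≤ p ∧ (p : ℝ) < (ξ ^ d) ^ (s + 1) := by
    intro n
    by_cases hn : n ∈ N
    · obtain ⟨p, hp⟩ := (hN' n hn).2.2
      exact ⟨p, fun _ => hp⟩
    · exact ⟨0, fun h => absurd h hn⟩
  choose p hp using hN''
  obtain ⟨P, hPY, hPN, hcop, a, ha⟩ := H (s + 1 + k) wb X (C * ξ) N p (by nlinarith)
    (x1.trans y1) (by rw [← hX]; exact pow_Big hC x1 (by omega) (by omega)) (fun n hn => by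
      obtain ⟨p1, p2, p3, p4, p5⟩ := hp n hn
      refine ⟨(hN' n hn).1, (hN' n hn).2.1, p1, p2, p3, ?_, ?_⟩
      · refine le_trans ?_ (pow_Big hC x1 (a := d * (s + 1)) ?_ ?_)
        · rw [pow_mul]
          exact mul_le_mul_of_nonneg_left p5.le (by linarith)
        · rw [mul_comm]; exact Nat.mul_le_mul_right _ (by omega)
        · exact Nat.mul_pos (by omega) (by omega)
      · have e1 : C * ξ ^ (wb * d) ≤ (C * ξ) ^ (wb * d) :=
          pow_Big hC x1 le_rfl (Nat.mul_pos (by omega) (by omega))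
        have e2 : ((ξ ^ d) ^ s) ^ k ≤ (p n : ℝ) ^ k := pow_le_pow_left₀ (by positivity) p4 k
        have e3 : (X : ℝ) ^ d ≤ ξ ^ (wb * d) * ((ξ ^ d) ^ s) ^ k := by
          rw [← hX, ← pow_mul, ← pow_mul, ← pow_mul, ← pow_add]
          refine pow_le_pow_right₀ x1 ?_
          have : wb * d + d * (s * k) = (W + 1) * d := by rw [hwb]; ring
          rw [this]
          exact Nat.mul_le_mul_right _ (by omega)
        calc C * (X : ℝ) ^ d ≤ C * (ξ ^ (wb * d) * ((ξ ^ d) ^ s) ^ k) :=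
              mul_le_mul_of_nonneg_left e3 (by linarith)
          _ = C * ξ ^ (wb * d) * ((ξ ^ d) ^ s) ^ k := by ring
          _ ≤ _ := mul_le_mul e1 e2 (by positivity) (by positivity))
  obtain ⟨T, hT, hT'⟩ := pool_exists M (C * ξ) (x1.trans y1)
  have hQ := hc L P T ⌊2 ^ (M + 1) * (C * ξ)⌋₊ a rfl (by rw [hPY]; linarith) hT
    (fun q hq => by
      obtain ⟨q1, q2, q3⟩ := hT' q hq
      refine ⟨q1, by rw [hPY]; exact q2, ?_⟩
      rw [hPN]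
      refine hcop q q1 (y2.trans q2) ?_
      have : (q : ℝ) ≤ X := by nlinarith
      exact_mod_cast this)
    (fun q hq => Nat.le_floor (hT' q hq).2.2) (by rw [hPN]; exact ha)
  rw [hPN] at hQ
  have hQ' : (N.card : ℝ) ≤ C1 * (⌊2 ^ (M + 1) * (C * ξ)⌋₊ : ℝ) ^ ((v + d) * (d + 1)) := by
    exact_mod_cast hQ
  refine hQ'.trans ?_
  rw [mul_assoc (C1 : ℝ), ← mul_pow, mul_assoc]
  exact mul_le_mul_of_nonneg_left
    (pow_le_pow_left₀ (Nat.cast_nonneg _) (Nat.floor_le (by positivity)) _) (Nat.cast_nonneg _)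

open Classical in
theorem big (f : Polynomial ℤ) (hf : Irreducible (f.map (Int.castRingHom ℚ)))
    (hd : 4 ≤ f.natDegree) (k : ℕ) (hk : f.natDegree - 2 ≤ k) :
    Tendsto (fun X : ℕ => (((Finset.Icc 1 X).filter (fun n : ℕ =>
      ∃ p : ℕ, p.Prime ∧ X < p ∧ (p : ℤ) ^ k ∣ f.eval (n : ℤ))).card : ℝ) / X) atTop (𝓝 0) := by
  obtain ⟨d, hd'⟩ : ∃ d, f.natDegree = d := ⟨_, rfl⟩
  rw [hd'] at hd hk
  obtain ⟨κ, hκ⟩ : ∃ κ, d = κ + 2 := ⟨d - 2, by omega⟩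
  obtain ⟨v, hv⟩ : ∃ v, v = 999 * (d * (d + 1) + κ ^ 2 + κ + 2) := ⟨_, rfl⟩
  obtain ⟨E, hE⟩ : ∃ E, E = (v + d) * (d + 1) := ⟨_, rfl⟩
  have hE1 : 1 ≤ E := by rw [hE]; exact Nat.mul_pos (by omega) (by omega)
  have hv' : 999 * (E + 1 + 1 + κ + κ ^ 2) ≤ 1000 * (d + 1) * v := by
    have h1 : 999 * (E + 1 + 1 + κ + κ ^ 2) = 999 * (d + 1) * v + v := by
      rw [hE]; conv_rhs => rw [hv]
      rw [hv]; ring
    have h2 : 1000 * (d + 1) * v = 999 * (d + 1) * v + v + d * v := by ring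
    omega
  choose K ξ0 H using one_Big f hf d κ hd' hd hκ (E + 1) v (by omega) hv'
  obtain ⟨Cf, hCf⟩ := eval_le_Big f
  rw [hd'] at hCf
  obtain ⟨ξ, hξ⟩ : ∃ ξ : ℕ → ℝ, ξ = fun X : ℕ => (X : ℝ) ^ (((E + 1 : ℕ) : ℝ)⁻¹) := ⟨_, rfl⟩
  have hξ1 : ∀ X : ℕ, ξ X ^ (E + 1) = X := fun X => by
    rw [hξ]; exact Real.rpow_inv_natCast_pow (Nat.cast_nonneg _) (by omega)
  have hξ2 : Tendsto ξ atTop atTop := by
    rw [hξ]
    exact (tendsto_rpow_atTop (by positivity)).comp tendsto_natCast_atTop_atTop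
  have lim : Tendsto (fun X => (∑ s ∈ Finset.range (E + 2), |K s|) / ξ X) atTop (𝓝 0) :=
    hξ2.const_div_atTop _
  refine squeeze_zero' (Eventually.of_forall fun X => by positivity) ?_ lim
  have ev1 : ∀ᶠ X in atTop, ∀ s ∈ Finset.range (E + 2), ξ0 s ≤ ξ X :=
    (eventually_all_finset _).2 fun s _ => hξ2.eventually_ge_atTop _
  filter_upwards [ev1, hξ2.eventually_gt_atTop 1, hξ2.eventually_gt_atTop Cf] with X h1 h2 h3
  obtain ⟨N, hN⟩ : ∃ N : ℕ → Finset ℕ, N = fun s => (Finset.Icc 1 X).filter (fun n : ℕ =>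
      ∃ p : ℕ, p.Prime ∧ X < p ∧ (p : ℤ) ^ κ ∣ f.eval (n : ℤ) ∧ (ξ X ^ d) ^ s ≤ p ∧
        (p : ℝ) < (ξ X ^ d) ^ (s + 1)) := ⟨_, rfl⟩
  have hd1 : 1 < ξ X ^ d := one_lt_pow₀ h2 (by omega)
  have hxd : ξ X ≤ ξ X ^ d := by simpa using pow_le_pow_right₀ h2.le (by omega : 1 ≤ d)
  have cond : ∀ s, ∀ n ∈ N s, E + 1 < d * (s + 1) ∧ κ * s ≤ E + 1 := by
    intro s n hn
    rw [hN] at hn
    obtain ⟨hn1, p, p1, p2, p3, p4, p5⟩ := Finset.mem_filter.1 hn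
    obtain ⟨n1, n2⟩ := Finset.mem_Icc.1 hn1
    constructor
    · have : ξ X ^ (E + 1) < ξ X ^ (d * (s + 1)) := by
        rw [hξ1, pow_mul]
        exact lt_trans (by exact_mod_cast p2) p5
      exact (pow_lt_pow_iff_right₀ h2).1 this
    · by_contra hc
      have e1 : (p : ℤ) ^ κ ≤ |f.eval (n : ℤ)| :=
        Int.le_of_dvd (abs_pos.2 (eval_ne_Big f hf (by omega) _)) ((dvd_abs _ _).2 p3)
      have e2 : (p : ℝ) ^ κ ≤ ((|f.eval (n : ℤ)| : ℤ) : ℝ) := by exact_mod_cast e1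
      have e3 := e2.trans (hCf n X n1 n2)
      have e4 : ((ξ X ^ d) ^ s) ^ κ ≤ (p : ℝ) ^ κ := pow_le_pow_left₀ (by positivity) p4 κ
      have e5 : (ξ X ^ d) ^ (E + 1 + 1) ≤ ((ξ X ^ d) ^ s) ^ κ := by
        rw [← pow_mul (ξ X ^ d)]
        exact pow_le_pow_right₀ hd1.le (by rw [mul_comm]; omega)
      have e6 : (ξ X ^ d) ^ (E + 1 + 1) = ξ X ^ d * (X : ℝ) ^ d := by
        rw [← hξ1 X]; ring
      have e7 : (0 : ℝ) < (X : ℝ) ^ d := by rw [← hξ1 X]; positivity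
      have e8 : ξ X ^ d * (X : ℝ) ^ d ≤ Cf * (X : ℝ) ^ d := by linarith
      have := le_of_mul_le_mul_right e8 e7
      linarith
  have sub : (Finset.Icc 1 X).filter (fun n : ℕ =>
      ∃ p : ℕ, p.Prime ∧ X < p ∧ (p : ℤ) ^ k ∣ f.eval (n : ℤ)) ⊆
      (Finset.range (E + 2)).biUnion N := by
    intro n hn
    obtain ⟨hn1, p, p1, p2, p3⟩ := Finset.mem_filter.1 hn
    obtain ⟨s, s1, s2⟩ := exists_nat_pow_near (x := (p : ℝ)) (by exact_mod_cast p1.one_le) hd1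
    have hm : n ∈ N s := by
      rw [hN]
      exact Finset.mem_filter.2 ⟨hn1, p, p1, p2, (pow_dvd_pow _ (by omega)).trans p3, s1, s2⟩
    refine Finset.mem_biUnion.2 ⟨s, Finset.mem_range.2 ?_, hm⟩
    have c1 := (cond s n hm).2
    have c2 : s ≤ κ * s := Nat.le_mul_of_pos_left _ (by omega)
    omega
  have bd : ∀ s ∈ Finset.range (E + 2), ((N s).card : ℝ) ≤ |K s| * ξ X ^ E := by
    intro s hs
    rcases (N s).eq_empty_or_nonempty with h0 | ⟨n, hn⟩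
    · rw [h0, Finset.card_empty, Nat.cast_zero]; positivity
    · have := H s (cond s n hn).1 (cond s n hn).2 X (ξ X) (h1 s hs) (hξ1 X) (N s) fun n hn => by
        rw [hN] at hn
        obtain ⟨hn1, hp⟩ := Finset.mem_filter.1 hn
        exact ⟨(Finset.mem_Icc.1 hn1).1, (Finset.mem_Icc.1 hn1).2, hp⟩
      rw [← hE] at this
      exact this.trans (mul_le_mul_of_nonneg_right (le_abs_self _) (by positivity))
  have tot := Finset.sum_le_sum bd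
  rw [← Finset.sum_mul, ← Nat.cast_sum] at tot
  have c3 := (Finset.card_le_card sub).trans Finset.card_biUnion_le
  have c4 := (Nat.cast_le (α := ℝ)).2 c3
  have x0 : 0 < ξ X := by linarith
  have hXp : (0 : ℝ) < X := by rw [← hξ1 X]; positivity
  rw [div_le_div_iff₀ hXp x0]
  conv_rhs => rw [← hξ1 X]
  rw [pow_succ, ← mul_assoc]
  exact mul_le_mul_of_nonneg_right (c4.trans tot) x0.le

end Vale.Agent.P018
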