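import Vale.Agent.P018.Def2
import Vale.Agent.P018.NFc

namespace Vale.Agent.P018

open NumberField MvPolynomial

theorem nf2 (f : Polynomial ℤ) (hf : Irreducible (f.map (Int.castRingHom ℚ))) (d k : ℕ)
    (hd : f.natDegree = d) (h2 : 2 ≤ d) (hk : 1 ≤ k) :
    ∃ (L : Type) (_ : Field L) (_ : NumberField L) (C : ℝ), 1 ≤ C ∧
      ∀ (wa wb X : ℕ) (Y : ℝ) (N : Finset ℕ) (p : ℕ → ℕ), C ≤ X → 1 ≤ Y →
      C * X ≤ Y ^ (k * wa + wb) →
      (∀ n ∈ N, 1 ≤ n ∧ n ≤ X ∧ (p n).Prime ∧ X < p n ∧ (p n : ℤ) ^ k ∣ f.eval (n : ℤ) ∧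
        C * p n ≤ Y ^ (wa * d) ∧ C * (X : ℝ) ^ d ≤ Y ^ (wb * d) * (p n : ℝ) ^ k) →
      ∃ P : Pts L d k wa wb, P.Y = Y ∧ P.N = N ∧
        (∀ q : ℕ, q.Prime → C ≤ q → q ≤ X → ∀ n ∈ N, ∀ j, IsCoprime (P.al n j) (q : 𝓞 L)) ∧
        ∀ q : ℕ, q.Prime → C ≤ q → ∀ π : 𝓞 L →+* ZMod q, ∀ n ∈ N, ∀ n' ∈ N,
          (∀ s, π (P.u n s) = π (P.u n' s)) → ∀ s, (q : 𝓞 L) ∣ P.u n s - P.u n' s := by
  classical
  obtain ⟨L, iF, iN, θ, hθi, hθp, hθl, hθc⟩ := nf_field f hf d hd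
  obtain ⟨M, C1, hM, hC1, hpt⟩ := nf_point d k (by omega) hk θ hθl
  obtain ⟨D, hD0, hD⟩ := delta_NFc θ hθi
  have hf0 : f ≠ 0 := by
    rintro rfl
    exact hf.ne_zero (Polynomial.map_zero _)
  set c0 := f.leadingCoeff with hc0
  have hc : c0 ≠ 0 := Polynomial.leadingCoeff_ne_zero.2 hf0
  obtain ⟨Θ, hΘ0, hΘ⟩ : ∃ Θ : ℝ, 0 ≤ Θ ∧ ∀ j, ht (θ j) ≤ Θ :=
    ⟨∑ j, ht (θ j), Finset.sum_nonneg fun j _ => ht_nonneg _, fun j =>
      Finset.single_le_sum (f := fun j => ht (θ j)) (fun j _ => ht_nonneg _) (Finset.mem_univ j)⟩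
  obtain ⟨C, hCa, hCb, hCc, hCd, hCe, hCf, hCg, hCh⟩ : ∃ C : ℝ, C1 ≤ C ∧ (M : ℝ) + 1 ≤ C ∧
      |(c0 : ℝ)| ≤ C ∧ (D : ℝ) ≤ C ∧ (M : ℝ) ^ k * |(c0 : ℝ)| ≤ C ∧
      C1 * (|(c0 : ℝ)| + Θ) ^ d ≤ C ∧ |(c0 : ℝ)| + 1 ≤ C ∧ (D : ℝ) + 1 ≤ C := by
    have e1 : 0 ≤ C1 := by linarith
    have e2 : (0 : ℝ) ≤ (M : ℝ) + 1 := by positivity
    have e3 : (0 : ℝ) ≤ |(c0 : ℝ)| := abs_nonneg _
    have e4 : (0 : ℝ) ≤ (D : ℝ) := Nat.cast_nonneg _
    have e5 : (0 : ℝ) ≤ (M : ℝ) ^ k * |(c0 : ℝ)| := by positivity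
    have e6 : (0 : ℝ) ≤ C1 * (|(c0 : ℝ)| + Θ) ^ d := by positivity
    refine ⟨C1 + ((M : ℝ) + 1) + |(c0 : ℝ)| + D + (M : ℝ) ^ k * |(c0 : ℝ)| +
      C1 * (|(c0 : ℝ)| + Θ) ^ d, ?_, ?_, ?_, ?_, ?_, ?_, ?_, ?_⟩ <;> linarith [Nat.cast_nonneg (α := ℝ) M]
  refine ⟨L, iF, iN, C, hC1.trans hCa, fun wa wb X Y N p hCX hY hXY hN => ?_⟩
  have hex : ∀ n : ℕ, ∃ (A : Fin d → ℤ) (α β : Fin d → 𝓞 L), n ∈ N → A ≠ 0 ∧
        (∀ j, α j = ∑ t, (A t : 𝓞 L) * θ j ^ (t : ℕ)) ∧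
        (p n : 𝓞 L) ∣ ∏ j, α j ∧ ∏ j, α j ∣ (p n : 𝓞 L) * M ∧
        (∀ j, α j ^ k * β j = (M : 𝓞 L) ^ k * (((c0 * n : ℤ) : 𝓞 L) - θ j)) ∧
        (∀ j, ht (α j) ^ d ≤ C1 * p n) ∧
        ∀ j, ht (β j) ^ d * (p n : ℝ) ^ k ≤ C1 * ht (((c0 * n : ℤ) : 𝓞 L) - θ j) ^ d := by
    intro n
    by_cases hn : n ∈ N
    · obtain ⟨-, -, hp, -, hdv, -⟩ := hN n hn
      obtain ⟨A, α, β, h⟩ := hpt (c0 * n) (p n) hp (by
        rw [hθp]
        have h1 := (Int.castRingHom (𝓞 L)).map_dvd (hdv.mul_left (c0 ^ (d - 1)))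
        simpa using h1)
      exact ⟨A, α, β, fun _ => h⟩
    · exact ⟨0, 0, 0, fun h => absurd h hn⟩
  choose A α β hA using hex
  have hML : (M : 𝓞 L) ≠ 0 := Nat.cast_ne_zero.2 hM.ne'
  have hMk : (M : 𝓞 L) ^ k ≠ 0 := pow_ne_zero k hML
  have hα0 : ∀ n ∈ N, ∀ j, α n j ≠ 0 := fun n hn j => by
    rw [(hA n hn).2.1]; exact hθl _ (hA n hn).1 j
  have heq : ∀ n ∈ N, ∀ j, α n j ^ k * β n j =
      (M : 𝓞 L) ^ k * (((c0 * n : ℤ) : 𝓞 L) - θ j) := fun n hn => (hA n hn).2.2.2.2.1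
  have hτα : ∀ n ∈ N, ∀ i j (τ : 𝓞 L →+* 𝓞 L), τ (θ j) = θ i → τ (α n j) = α n i := by
    intro n hn i j τ hτ
    rw [(hA n hn).2.1, (hA n hn).2.1, map_sum]
    refine Finset.sum_congr rfl fun t _ => ?_
    rw [map_mul, map_pow, map_intCast, hτ]
  have hτβ : ∀ n ∈ N, ∀ i j (τ : 𝓞 L →+* 𝓞 L), τ (θ j) = θ i → τ (β n j) = β n i := by
    intro n hn i j τ hτ
    have h1 := congrArg τ (heq n hn j)
    rw [map_mul, map_mul, map_pow, map_pow, map_sub, map_natCast, map_intCast, hτ,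
      hτα n hn i j τ hτ, ← heq n hn i] at h1
    exact mul_left_cancel₀ (pow_ne_zero k (hα0 n hn i)) h1
  have hdv : ∀ n ∈ N, ∀ j, α n j ∣ (M : 𝓞 L) ^ k * (((c0 * n : ℤ) : 𝓞 L) - θ j) := by
    intro n hn j
    rw [← heq n hn j]
    exact (dvd_pow_self _ (by omega)).mul_right _
  have hNC : ∀ n ∈ N, ∀ j, ¬ IsCoprime (α n j) (p n : 𝓞 L) := by
    intro n hn j h
    have h1 : ∀ i, IsCoprime (α n i) (p n : 𝓞 L) := by
      intro i
      obtain ⟨τ, hτ⟩ := hθc i j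
      have h2 := h.map τ
      rwa [hτα n hn i j τ hτ, map_natCast] at h2
    have h3 := (IsCoprime.prod_left (t := Finset.univ) fun i _ => h1 i).isUnit_of_dvd'
      (hA n hn).2.2.1 dvd_rfl
    have h4 := le_ht_of_dvd (p n) (one_ne_zero (α := 𝓞 L)) h3.dvd
    rw [ht_one] at h4
    have h5 := (hN n hn).2.2.1.one_lt
    have h6 : p n ≤ 1 := by exact_mod_cast h4
    omega
  have hsm : ∀ n ∈ N, ∀ z : ℤ, z ≠ 0 → |(z : ℝ)| ≤ C → IsCoprime (z : 𝓞 L) (p n : 𝓞 L) := by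
    intro n hn z hz h
    refine cop_NFc (hN n hn).2.2.1 hz ?_
    have h1 : (X : ℝ) < p n := by exact_mod_cast (hN n hn).2.2.2.1
    have h3 : |(z : ℝ)| < p n := by linarith
    exact_mod_cast h3
  have hcop : ∀ n ∈ N, ∀ n' ∈ N, n ≠ n' → IsCoprime
      ((M : 𝓞 L) ^ k * (D : 𝓞 L) * ((M : 𝓞 L) ^ k *
        (((c0 * n : ℤ) : 𝓞 L) - ((c0 * n' : ℤ) : 𝓞 L)))) (p n : 𝓞 L) := by
    intro n hn n' hn' hne
    have h1 : IsCoprime (M : 𝓞 L) (p n : 𝓞 L) := by
      have h3 := hsm n hn M (by omega) (by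
        rw [Int.cast_natCast, abs_of_nonneg (Nat.cast_nonneg _)]; linarith)
      rwa [Int.cast_natCast] at h3
    have h3 : IsCoprime (D : 𝓞 L) (p n : 𝓞 L) := by
      have h3 := hsm n hn D (by omega) (by
        rw [Int.cast_natCast, abs_of_nonneg (Nat.cast_nonneg _)]; linarith)
      rwa [Int.cast_natCast] at h3
    have h4 := hsm n hn c0 hc hCc
    have h5 : IsCoprime (((n : ℤ) - (n' : ℤ) : ℤ) : 𝓞 L) (p n : 𝓞 L) := by
      refine cop_NFc (hN n hn).2.2.1 (by omega) ?_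
      have h6 := hN n hn
      have h7 := hN n' hn'
      rw [abs_lt]
      constructor <;> omega
    have h6 : ((c0 * n : ℤ) : 𝓞 L) - ((c0 * n' : ℤ) : 𝓞 L) =
        (c0 : 𝓞 L) * (((n : ℤ) - (n' : ℤ) : ℤ) : 𝓞 L) := by
      push_cast
      ring
    rw [h6]
    exact (h1.pow_left.mul_left h3).mul_left (h1.pow_left.mul_left (h4.mul_left h5))
  obtain ⟨φ⟩ : Nonempty (L →+* ℂ) := inferInstance
  have hd0 : d ≠ 0 := by omega
  have hY0 : 0 ≤ Y := by linarith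
  let P : Pts L d k wa wb :=
    { Y := Y
      N := N
      x := fun n => (M : 𝓞 L) ^ k * ((c0 * n : ℤ) : 𝓞 L)
      al := α
      be := β
      mu := fun j => (M : 𝓞 L) ^ k * θ j
      io := φ.comp (algebraMap (𝓞 L) L)
      hio := φ.injective.comp RingOfIntegers.coe_injective
      hmu := fun i j h => hθi (mul_left_cancel₀ hMk h)
      eqn := fun n hn j => by rw [heq n hn j, mul_sub]
      al0 := hα0
      be0 := fun n hn j h => by
        have h1 := heq n hn j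
        rw [h, mul_zero] at h1
        have h3 := sub_eq_zero.1 ((mul_eq_zero.1 h1.symm).resolve_left hMk)
        have h4 : ∀ i, θ i = ((c0 * n : ℤ) : 𝓞 L) := by
          intro i
          obtain ⟨τ, hτ⟩ := hθc i j
          rw [← hτ, ← h3, map_intCast]
        have h5 := hθi ((h4 ⟨0, by omega⟩).trans (h4 ⟨1, by omega⟩).symm)
        simp at h5
      xinj := fun n _ n' _ h => by
        have h1 : c0 * n = c0 * n' := Int.cast_injective (mul_left_cancel₀ hMk h)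
        exact_mod_cast mul_left_cancel₀ hc h1
      alinj := fun n hn n' hn' j h => by
        by_contra hne
        refine hNC n hn j ((hcop n hn n' hn' hne).of_isCoprime_of_dvd_left ?_)
        have h1 := dvd_sub (hdv n hn j) (h ▸ hdv n' hn' j)
        rw [← mul_sub, sub_sub_sub_cancel_right] at h1
        exact h1.mul_left _
      ratio := fun n hn n' hn' i j hij h => by
        by_contra hne
        refine hNC n hn i ((hcop n hn n' hn' hne).of_isCoprime_of_dvd_left ?_)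
        obtain ⟨u, hu⟩ := hdv n hn i
        obtain ⟨v, hv⟩ := hdv n hn j
        obtain ⟨w, hw⟩ := hdv n' hn' i
        obtain ⟨e, he⟩ := hD i j hij
        refine ⟨e * ((M : 𝓞 L) ^ k * (θ j - θ i) * u - (u * α n' i - α n' j * v) * w), ?_⟩
        rw [he]
        linear_combination (e * ((M : 𝓞 L) ^ k * (θ j - θ i)) - e * α n' i * w) * hu +
          (e * α n' i * w) * hv - (e * ((M : 𝓞 L) ^ k * (θ j - θ i))) * hw - (e * v * w) * h
      beconj := fun n hn n' hn' i j h => by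
        obtain ⟨τ, hτ⟩ := hθc i j
        rw [← hτβ n hn i j τ hτ, ← hτβ n' hn' i j τ hτ, h]
      hY := hY
      hal := fun n hn j => by
        refine le_of_pow_le_pow_left₀ hd0 (pow_nonneg hY0 _) ?_
        rw [← pow_mul]
        refine ((hA n hn).2.2.2.2.2.1 j).trans (le_trans ?_ (hN n hn).2.2.2.2.2.1)
        exact mul_le_mul_of_nonneg_right hCa (Nat.cast_nonneg _)
      hbe := fun n hn j => by
        refine le_of_pow_le_pow_left₀ hd0 (pow_nonneg hY0 _) ?_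
        rw [← pow_mul]
        have hp0 : (0 : ℝ) < (p n : ℝ) ^ k := by
          have := (hN n hn).2.2.1.pos
          positivity
        refine le_of_mul_le_mul_right ?_ hp0
        refine ((hA n hn).2.2.2.2.2.2 j).trans (le_trans ?_ (hN n hn).2.2.2.2.2.2)
        have h1 : (1 : ℝ) ≤ n := by exact_mod_cast (hN n hn).1
        have h3 : (n : ℝ) ≤ X := by exact_mod_cast (hN n hn).2.1
        have h4 : ht (((c0 * n : ℤ) : 𝓞 L) - θ j) ≤ (|(c0 : ℝ)| + Θ) * X := by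
          refine (ht_sub_le _ _).trans ?_
          rw [ht_intCast, Int.cast_mul, abs_mul, Int.cast_natCast,
            abs_of_nonneg (Nat.cast_nonneg (α := ℝ) n), add_mul]
          refine add_le_add (mul_le_mul_of_nonneg_left h3 (abs_nonneg _)) ((hΘ j).trans ?_)
          exact le_mul_of_one_le_right hΘ0 (h1.trans h3)
        refine (mul_le_mul_of_nonneg_left (pow_le_pow_left₀ (ht_nonneg _) h4 d)
          (by linarith)).trans ?_
        rw [mul_pow, ← mul_assoc]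
        exact mul_le_mul_of_nonneg_right hCf (by positivity)
      hx := fun n hn => by
        refine le_trans ?_ hXY
        have h1 := ht_nat_mul (M ^ k) ((c0 * n : ℤ) : 𝓞 L)
        rw [Nat.cast_pow, Nat.cast_pow] at h1
        have h3 : (n : ℝ) ≤ X := by exact_mod_cast (hN n hn).2.1
        rw [h1, ht_intCast, Int.cast_mul, abs_mul, Int.cast_natCast,
          abs_of_nonneg (Nat.cast_nonneg (α := ℝ) n), ← mul_assoc]
        exact mul_le_mul hCe h3 (Nat.cast_nonneg _) (by linarith) }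
  refine ⟨P, rfl, rfl, fun q hq hCq hqX n hn j => ?_, fun q hq hCq π n hn n' hn' h s => ?_⟩
  · have h1 : Nat.Coprime (p n * M) q := by
      refine Nat.Coprime.mul_left ?_ ?_
      · have := (hN n hn).2.2.2.1
        exact (Nat.coprime_primes (hN n hn).2.2.1 hq).2 (by omega)
      · refine ((Nat.Prime.coprime_iff_not_dvd hq).2 fun hdd => ?_).symm
        have h3 := Nat.le_of_dvd hM hdd
        have h4 : (M : ℝ) + 1 ≤ q := hCb.trans hCq
        have h5 : M + 1 ≤ q := by exact_mod_cast h4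
        omega
    have h3 := isCoprime_natCast (L := L) h1
    rw [Nat.cast_mul] at h3
    exact h3.of_isCoprime_of_dvd_left
      ((Finset.dvd_prod_of_mem _ (Finset.mem_univ j)).trans (hA n hn).2.2.2.1)
  · haveI : Fact q.Prime := ⟨hq⟩
    have hz : ∀ z : ℤ, z ≠ 0 → |(z : ℝ)| + 1 ≤ C → (z : ZMod q) ≠ 0 := by
      intro z hz0 hz h0
      have h1 := (ZMod.intCast_zmod_eq_zero_iff_dvd z q).1 h0
      have h3 := Int.le_of_dvd (abs_pos.2 hz0) ((dvd_abs _ _).2 h1)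
      have h4 : (q : ℝ) ≤ |(z : ℝ)| := by exact_mod_cast h3
      linarith
    have hMq : (M : ZMod q) ≠ 0 := by
      have h1 := hz M (by omega) (by
        rw [Int.cast_natCast, abs_of_nonneg (Nat.cast_nonneg _)]; exact hCb)
      rwa [Int.cast_natCast] at h1
    have hDq : (D : ZMod q) ≠ 0 := by
      have h1 := hz D (by omega) (by
        rw [Int.cast_natCast, abs_of_nonneg (Nat.cast_nonneg _)]; exact hCh)
      rwa [Int.cast_natCast] at h1
    have hcq := hz c0 hc hCg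
    have cast : ∀ z z' : ℤ, (z : ZMod q) = (z' : ZMod q) →
        (q : 𝓞 L) ∣ (z : 𝓞 L) - (z' : 𝓞 L) := by
      intro z z' hzz
      have h1 : (q : ℤ) ∣ z - z' := by
        rw [← ZMod.intCast_zmod_eq_zero_iff_dvd, Int.cast_sub, hzz, sub_self]
      simpa using (Int.castRingHom (𝓞 L)).map_dvd h1
    cases s with
    | none =>
      have h0 : π ((M : 𝓞 L) ^ k * ((c0 * n : ℤ) : 𝓞 L)) =
          π ((M : 𝓞 L) ^ k * ((c0 * n' : ℤ) : 𝓞 L)) := h none
      rw [map_mul, map_mul, map_pow, map_natCast, map_intCast, map_intCast] at h0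
      have h1 := cast _ _ (mul_left_cancel₀ (pow_ne_zero k hMq) h0)
      show (q : 𝓞 L) ∣ (M : 𝓞 L) ^ k * ((c0 * n : ℤ) : 𝓞 L) - (M : 𝓞 L) ^ k * ((c0 * n' : ℤ) : 𝓞 L)
      rw [← mul_sub]
      exact h1.mul_left _
    | some j =>
      have hinj : Function.Injective fun i => π (θ i) := by
        intro i i' hii
        by_contra hne
        obtain ⟨e, he⟩ := hD i i' hne
        have h1 := congrArg π he
        rw [map_natCast, map_mul, map_sub] at h1
        simp only at hii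
        rw [hii, sub_self, zero_mul] at h1
        exact hDq h1
      have hv : (fun t => (A n t : ZMod q) - (A n' t : ZMod q)) = 0 := by
        refine Matrix.eq_zero_of_forall_index_sum_mul_pow_eq_zero hinj fun i => ?_
        have h0 : π (α n i) = π (α n' i) := h (some i)
        rw [(hA n hn).2.1, (hA n' hn').2.1, map_sum, map_sum] at h0
        simp only [map_mul, map_pow, map_intCast] at h0
        simp only [sub_mul, Finset.sum_sub_distrib]
        exact sub_eq_zero.2 h0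
      show (q : 𝓞 L) ∣ α n j - α n' j
      rw [(hA n hn).2.1, (hA n' hn').2.1, ← Finset.sum_sub_distrib]
      refine Finset.dvd_sum fun t _ => ?_
      rw [← sub_mul]
      exact (cast _ _ (sub_eq_zero.1 (congrFun hv t))).mul_right _

end Vale.Agent.P018
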