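import Vale.Agent.P018.Ht

namespace Vale.Agent.P018

open NumberField MvPolynomial

theorem exists_pb_SplA (L : Type) [Field L] [NumberField L] :
    ∃ B : PowerBasis ℚ L, IsIntegral ℤ B.gen := by
  let B0 := Field.powerBasisOfFiniteOfSeparable ℚ L
  have halg : IsAlgebraic ℤ B0.gen :=
    (IsFractionRing.isAlgebraic_iff ℤ ℚ L).2 (Algebra.IsAlgebraic.isAlgebraic _)
  obtain ⟨y, hy, hint⟩ := halg.exists_integral_multiple
  have htop : Algebra.adjoin ℚ {y • B0.gen} = ⊤ := by
    rw [eq_top_iff, ← B0.adjoin_gen_eq_top, Algebra.adjoin_le_iff, Set.singleton_subset_iff]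
    have h1 : y • B0.gen ∈ Algebra.adjoin ℚ {y • B0.gen} := Algebra.subset_adjoin rfl
    have h2 := Subalgebra.smul_mem _ h1 ((y : ℚ)⁻¹)
    have hy' : (y : ℚ) ≠ 0 := by exact_mod_cast hy
    have h3 : (y : ℚ)⁻¹ • y • B0.gen = B0.gen := by
      rw [← Int.cast_smul_eq_zsmul ℚ y, smul_smul, inv_mul_cancel₀ hy', one_smul]
    rw [h3] at h2
    exact h2
  refine ⟨PowerBasis.ofAdjoinEqTop (hint.tower_top) htop, ?_⟩
  simpa using hint

theorem exists_den_SplA (L : Type) [Field L] [NumberField L] :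
    ∃ (w : L) (c : ℤ), IsIntegral ℤ w ∧ c ≠ 0 ∧
      ∀ z : 𝓞 L, ∃ p : Polynomial ℤ, Polynomial.aeval w p = (c : L) * (z : L) := by
  obtain ⟨B, hB⟩ := exists_pb_SplA L
  have h1 : IsIntegral ℤ (Algebra.discr ℚ B.basis) :=
    Algebra.discr_isIntegral ℚ fun i => by rw [B.coe_basis]; exact hB.pow _
  obtain ⟨c, hc⟩ := IsIntegrallyClosed.isIntegral_iff.1 h1
  have h0 : Algebra.discr ℚ B.basis ≠ 0 := Algebra.discr_not_zero_of_basis ℚ B.basis
  refine ⟨B.gen, c, hB, ?_, fun z => ?_⟩
  · rintro rfl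
    exact h0 (by rw [← hc, map_zero])
  · have h2 := Algebra.discr_mul_isIntegral_mem_adjoin ℚ hB z.isIntegral_coe
    rw [Algebra.adjoin_singleton_eq_range_aeval] at h2
    obtain ⟨p, hp⟩ := h2
    refine ⟨p, ?_⟩
    have h3 : (Polynomial.aeval B.gen) p = Algebra.discr ℚ B.basis • (z : L) := hp
    rw [h3, ← hc, Algebra.smul_def]
    simp

/-- large primes dividing a value of a suitable polynomial have a degree one prime above them -/
theorem split_poly (L : Type) [Field L] [NumberField L] : ∃ (g : Polynomial ℤ) (p₀ : ℕ),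
    Irreducible (g.map (Int.castRingHom ℚ)) ∧
    ∀ q : ℕ, q.Prime → p₀ < q → ∀ m : ℤ, (q : ℤ) ∣ g.eval m → Nonempty (𝓞 L →+* ZMod q) := by
  obtain ⟨w, c, hw, hc, hp⟩ := exists_den_SplA L
  choose P hP using hp
  refine ⟨minpoly ℤ w, c.natAbs, ?_, fun q hq hlt m hm => ?_⟩
  · have h := minpoly.isIntegrallyClosed_eq_field_fractions' ℚ hw
    have h2 := minpoly.irreducible (A := ℚ) hw.tower_top
    rw [h] at h2
    exact h2
  · have := Fact.mk hq
    have hcq : (c : ZMod q) ≠ 0 := by
      rw [Ne, ZMod.intCast_zmod_eq_zero_iff_dvd]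
      intro h
      have := Nat.le_of_dvd (Int.natAbs_pos.2 hc) (Int.natCast_dvd.1 h)
      omega
    let ψ : Polynomial ℤ →+* ZMod q := (Int.castRingHom (ZMod q)).comp (Polynomial.evalRingHom m)
    have hψ : ∀ p p' : Polynomial ℤ, Polynomial.aeval w p = Polynomial.aeval w p' → ψ p = ψ p' := by
      intro p p' h
      have h1 : Polynomial.aeval w (p - p') = 0 := by rw [map_sub, h, sub_self]
      obtain ⟨r, hr⟩ := minpoly.isIntegrallyClosed_dvd hw h1
      have h2 : ψ (minpoly ℤ w) = 0 := (ZMod.intCast_zmod_eq_zero_iff_dvd _ _).2 hm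
      rw [← sub_eq_zero, ← map_sub, hr, map_mul, h2, zero_mul]
    have hC : ψ (Polynomial.C c) = c := by simp [ψ]
    have haC : Polynomial.aeval w (Polynomial.C c) = (c : L) := by simp
    refine ⟨{ toFun := fun z => ψ (P z) / c
              map_one' := ?_, map_mul' := ?_, map_zero' := ?_, map_add' := ?_ }⟩
    · rw [hψ (P 1) (Polynomial.C c) (by rw [hP, haC]; simp), hC, div_self hcq]
    · intro z z'
      have h := hψ (Polynomial.C c * P (z * z')) (P z * P z') (by
        rw [map_mul, map_mul, hP, hP, hP, haC]; push_cast; ring)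
      rw [map_mul, map_mul, hC] at h
      field_simp
      linear_combination h
    · rw [hψ (P 0) 0 (by rw [hP]; simp), map_zero, zero_div]
    · intro z z'
      rw [hψ (P (z + z')) (P z + P z') (by rw [map_add, hP, hP, hP]; push_cast; ring), map_add,
        add_div]

end Vale.Agent.P018
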