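import Vale.Agent.P018.Rho

namespace Vale.Agent.P018

open NumberField MvPolynomial

theorem mertens_SplB (N : ℕ) (s : Finset ℕ) (hs : ∀ p ∈ s, p.Prime ∧ p ≤ N) (hN : 1 ≤ N) :
    ∑ p ∈ s, Real.log p / p ≤ 2 * Real.log N := by
  have hN' : (0 : ℝ) < N := by exact_mod_cast hN
  have h1 : Real.log (N.factorial : ℕ) ≤ N * Real.log N := by
    rw [← Real.log_pow]
    exact Real.log_le_log (by exact_mod_cast N.factorial_pos)
      (by exact_mod_cast Nat.factorial_le_pow N)
  have h2 : ∑ p ∈ s, (N / 2 : ℝ) * (Real.log p / p) ≤ Real.log (N.factorial : ℕ) := by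
    rw [Real.log_nat_eq_sum_factorization, Finsupp.sum]
    refine le_trans (Finset.sum_le_sum fun p hp => ?_)
      (Finset.sum_le_sum_of_subset_of_nonneg (s := s) (fun p hp => ?_) fun p _ _ =>
        mul_nonneg (Nat.cast_nonneg _) (Real.log_natCast_nonneg _))
    · obtain ⟨hp1, hp2⟩ := hs p hp
      have a1 : N / p ≤ N.factorial.factorization p := by
        have b1 := Nat.factorization_factorial_mul (n := N / p) hp1
        have b2 : (p * (N / p)).factorial.factorization p ≤ N.factorial.factorization p :=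
          (Nat.factorization_le_iff_dvd (Nat.factorial_ne_zero _) (Nat.factorial_ne_zero _)).2
            (Nat.factorial_dvd_factorial (Nat.mul_div_le N p)) p
        omega
      have a2 : N ≤ 2 * (N / p) * p := by
        have b1 := Nat.div_add_mod N p
        have b2 := Nat.mod_lt N hp1.pos
        have b3 : 1 ≤ N / p := (Nat.le_div_iff_mul_le hp1.pos).2 (by simpa using hp2)
        nlinarith
      have hp0 : (0 : ℝ) < p := by exact_mod_cast hp1.pos
      have a3 : (N : ℝ) ≤ 2 * (N.factorial.factorization p : ℝ) * p := by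
        have : N ≤ 2 * N.factorial.factorization p * p :=
          a2.trans (Nat.mul_le_mul_right _ (Nat.mul_le_mul_left _ a1))
        exact_mod_cast this
      rw [mul_div_assoc', mul_comm, mul_div_assoc, mul_comm]
      refine mul_le_mul_of_nonneg_right ?_ (Real.log_natCast_nonneg _)
      rw [div_le_iff₀ hp0]
      linarith
    · obtain ⟨hp1, hp2⟩ := hs p hp
      rw [Nat.support_factorization, Nat.mem_primeFactors]
      exact ⟨hp1, hp1.dvd_factorial.2 hp2, Nat.factorial_ne_zero _⟩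
  rw [← Finset.mul_sum] at h2
  have h3 := h2.trans h1
  by_contra hc
  push Not at hc
  nlinarith

theorem geom_SplB {x : ℝ} (h0 : 0 ≤ x) (h1 : x ≤ 1 / 2) (L : ℕ) :
    ∑ j ∈ Finset.Icc 1 L, x ^ j ≤ 2 * x - 2 * x ^ (L + 1) := by
  induction L with
  | zero => simp
  | succ L ih =>
    rw [Finset.sum_Icc_succ_top (by omega), pow_succ x (L + 1)]
    have := pow_nonneg h0 (L + 1)
    nlinarith

theorem rho_shift_SplB (g : Polynomial ℤ) (t e : ℤ) (q : ℕ) (hq : 0 < q)
    (hc : IsCoprime (q : ℤ) e) :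
    rho (g.comp (Polynomial.C e * Polynomial.X + Polynomial.C t)) q ≤ rho g q := by
  unfold rho
  have hq' : (0 : ℤ) < q := by exact_mod_cast hq
  have key : ∀ a : ℕ, ((((e * a + t) % q).toNat : ℕ) : ℤ) = (e * a + t) % q := fun a =>
    Int.toNat_of_nonneg (Int.emod_nonneg _ hq'.ne')
  refine Finset.card_le_card_of_injOn (fun a : ℕ => ((e * a + t) % q).toNat) ?_ ?_
  · intro a ha
    simp only [Finset.coe_filter, Set.mem_setOf_eq, Finset.mem_range, Polynomial.eval_comp,
      Polynomial.eval_add, Polynomial.eval_mul, Polynomial.eval_C, Polynomial.eval_X] at ha ⊢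
    refine ⟨?_, ?_⟩
    · have := Int.emod_lt_of_pos (e * a + t) hq'
      have := key a
      omega
    · rw [key]
      have h2 : (q : ℤ) ∣ (e * a + t) - (e * a + t) % q := Int.dvd_self_sub_emod
      exact (dvd_sub_right ha.2).mp (h2.trans (Polynomial.sub_dvd_eval_sub _ _ g))
  · intro a ha b hb h
    simp only [Finset.coe_filter, Set.mem_setOf_eq, Finset.mem_range] at ha hb
    have h1 : (e * a + t) % q = (e * b + t) % q := by
      rw [← key a, ← key b]
      exact congrArg _ h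
    have h2 : (q : ℤ) ∣ e * (b - a) := by
      have := (Int.emod_emod_of_dvd (e * a + t) (dvd_refl (q : ℤ)))
      have h3 := Int.ModEq.dvd h1
      convert h3 using 1
      ring
    have h3 : (q : ℤ) ∣ (b : ℤ) - a := hc.dvd_of_dvd_mul_left h2
    have h4 : a ≡ b [MOD q] := (Nat.modEq_iff_dvd).2 h3
    exact Nat.ModEq.eq_of_lt_of_lt h4 ha.1 hb.1

theorem val_SplB (f : Polynomial ℤ) (h : ℕ → ℕ) (T H n p : ℕ) (hp : p.Prime) (hH : 1 ≤ H)
    (h0 : ∀ m ∈ Finset.Icc 1 T, h m ≠ 0 ∧ h m ≤ H ∧ (h m : ℤ) ∣ f.eval (m : ℤ))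
    (hr : ∀ j, 1 ≤ j → rho f (p ^ j) ≤ n) :
    ∑ m ∈ Finset.Icc 1 T, ((h m).factorization p : ℝ) * Real.log p ≤
      n * (2 * T * (Real.log p / p) + Real.log H) := by
  classical
  set L := Nat.log p H with hL
  have hp0 : (0 : ℝ) < p := by exact_mod_cast hp.pos
  have hp2 : (2 : ℝ) ≤ p := by exact_mod_cast hp.two_le
  have h1 : ∀ m ∈ Finset.Icc 1 T, ((h m).factorization p : ℝ) ≤
      ∑ j ∈ Finset.Icc 1 L, if ((p ^ j : ℕ) : ℤ) ∣ f.eval (m : ℤ) then 1 else 0 := by
    intro m hm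
    obtain ⟨a1, a2, a3⟩ := h0 m hm
    rw [Finset.sum_boole]
    have : Finset.Icc 1 ((h m).factorization p) ⊆
        (Finset.Icc 1 L).filter fun j => ((p ^ j : ℕ) : ℤ) ∣ f.eval (m : ℤ) := by
      intro j hj
      obtain ⟨b1, b2⟩ := Finset.mem_Icc.1 hj
      have b3 := (hp.pow_dvd_iff_le_factorization a1).2 b2
      refine Finset.mem_filter.2 ⟨Finset.mem_Icc.2 ⟨b1, Nat.le_log_of_pow_le hp.one_lt
        ((Nat.le_of_dvd (Nat.pos_of_ne_zero a1) b3).trans a2)⟩, ?_⟩
      exact (Int.natCast_dvd_natCast.2 b3).trans a3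
    have := Finset.card_le_card this
    rw [Nat.card_Icc] at this
    exact_mod_cast (by omega : (h m).factorization p ≤ _)
  have h2 : ∑ m ∈ Finset.Icc 1 T, ((h m).factorization p : ℝ) ≤ n * (T * (2 / p) + L) := by
    refine (Finset.sum_le_sum h1).trans ?_
    rw [Finset.sum_comm]
    have h3 : ∀ j ∈ Finset.Icc 1 L, (∑ m ∈ Finset.Icc 1 T,
        if ((p ^ j : ℕ) : ℤ) ∣ f.eval (m : ℤ) then (1 : ℝ) else 0) ≤
        n * (T * (1 / p : ℝ) ^ j + 1) := by
      intro j hj
      rw [Finset.sum_boole]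
      refine (cnt_le f (p ^ j) (pow_pos hp.pos j) T).trans ?_
      have := hr j (Finset.mem_Icc.1 hj).1
      rw [one_div, inv_pow, ← div_eq_mul_inv]
      push_cast
      gcongr
    refine (Finset.sum_le_sum h3).trans ?_
    rw [← Finset.mul_sum, Finset.sum_add_distrib, ← Finset.mul_sum]
    have h4 := geom_SplB (x := 1 / p) (by positivity)
      (one_div_le_one_div_of_le (by norm_num) hp2) L
    have h5 : (0 : ℝ) ≤ (1 / p : ℝ) ^ (L + 1) := by positivity
    simp only [Finset.sum_const, Nat.card_Icc, Nat.add_sub_cancel, nsmul_eq_mul, mul_one]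
    gcongr
    rw [show (2 : ℝ) / p = 2 * (1 / p) by ring]
    linarith
  have h6 : (L : ℝ) * Real.log p ≤ Real.log H :=
    Real.le_log_of_pow_le hp0 (by exact_mod_cast Nat.pow_log_le_self p (by omega : H ≠ 0))
  rw [← Finset.sum_mul]
  refine (mul_le_mul_of_nonneg_right h2 (Real.log_natCast_nonneg p)).trans ?_
  rw [mul_assoc]
  refine mul_le_mul_of_nonneg_left ?_ (Nat.cast_nonneg _)
  have : (T * (2 / p) + L) * Real.log p = 2 * T * (Real.log p / p) + L * Real.log p := by ring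
  linarith

theorem low_SplB (f : Polynomial ℤ) (hf : 0 < f.natDegree) (c : ℤ) (h : ℕ → ℤ) (T V : ℕ)
    (hV : 1 ≤ V) (h0 : ∀ m, f.eval ((m : ℕ) : ℤ) = c * h m ∧ h m ≠ 0) :
    ((T : ℝ) - f.natDegree * (2 * V + 1)) * Real.log V ≤
      ∑ m ∈ Finset.Icc 1 T, Real.log ((h m).natAbs : ℕ) := by
  classical
  set S := (Finset.Icc 1 T).filter fun m => (h m).natAbs ≤ V with hS
  have h1 : S.card ≤ f.natDegree * (2 * V + 1) := by
    have := Finset.card_le_mul_card_image_of_maps_to (f := h) (s := S)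
      (t := Finset.Icc (-(V : ℤ)) V) (fun a ha => by
        have := (Finset.mem_filter.1 ha).2
        rw [Finset.mem_Icc]
        omega) f.natDegree (fun b _ => by
        refine le_trans ?_ ((Multiset.toFinset_card_le _).trans
          (Polynomial.card_roots_sub_C' (p := f) (a := c * b)
            (Polynomial.natDegree_pos_iff_degree_pos.1 hf)))
        refine Finset.card_le_card_of_injOn (fun m : ℕ => (m : ℤ)) (fun m hm => ?_)
          fun a _ b _ e => Nat.cast_injective (R := ℤ) e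
        have e1 := (Finset.mem_filter.1 (Finset.mem_coe.1 hm)).2
        rw [Finset.mem_coe, Multiset.mem_toFinset, Polynomial.mem_roots_sub_C
          (Polynomial.natDegree_pos_iff_degree_pos.1 hf), (h0 m).1, e1])
    rw [Int.card_Icc] at this
    refine this.trans (Nat.mul_le_mul_left _ ?_)
    omega
  have hl : 0 ≤ Real.log V := Real.log_natCast_nonneg V
  have h2 : ∑ m ∈ Finset.Icc 1 T \ S, Real.log V ≤
      ∑ m ∈ Finset.Icc 1 T, Real.log ((h m).natAbs : ℕ) := by
    refine le_trans (Finset.sum_le_sum fun m hm => ?_)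
      (Finset.sum_le_sum_of_subset_of_nonneg Finset.sdiff_subset fun m _ _ =>
        Real.log_natCast_nonneg _)
    obtain ⟨a1, a2⟩ := Finset.mem_sdiff.1 hm
    have a3 : V ≤ (h m).natAbs := by
      by_contra hc
      exact a2 (Finset.mem_filter.2 ⟨a1, by omega⟩)
    exact Real.log_le_log (by exact_mod_cast hV) (by exact_mod_cast a3)
  refine le_trans ?_ h2
  rw [Finset.sum_const, nsmul_eq_mul]
  refine mul_le_mul_of_nonneg_right ?_ hl
  have h3 := Finset.card_sdiff_add_card_eq_card (Finset.filter_subset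
    (fun m => (h m).natAbs ≤ V) (Finset.Icc 1 T))
  rw [Nat.card_Icc, Nat.add_sub_cancel, ← hS] at h3
  have h4 : ((Finset.Icc 1 T \ S).card : ℝ) + S.card = T := by exact_mod_cast h3
  have h5 : (S.card : ℝ) ≤ f.natDegree * (2 * V + 1) := by exact_mod_cast h1
  linarith

theorem evl_SplB (f : Polynomial ℤ) : ∃ K : ℕ, 1 ≤ K ∧ ∀ m X : ℕ, 1 ≤ m → m ≤ X →
    (f.eval (m : ℤ)).natAbs ≤ K * X ^ f.natDegree := by
  refine ⟨∑ i ∈ Finset.range (f.natDegree + 1), (f.coeff i).natAbs + 1, by omega,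
    fun m X h1 h2 => ?_⟩
  refine le_trans ?_ (Nat.mul_le_mul_right _ (Nat.le_succ _))
  rw [Polynomial.eval_eq_sum_range, Finset.sum_mul]
  refine (Int.natAbs_sum_le _ _).trans (Finset.sum_le_sum fun i hi => ?_)
  rw [Int.natAbs_mul, Int.natAbs_pow, Int.natAbs_natCast]
  refine Nat.mul_le_mul_left _ ((Nat.pow_le_pow_left h2 i).trans
    (Nat.pow_le_pow_right (by omega) ?_))
  have := Finset.mem_range.1 hi
  omega

/-- many prime divisors of values of `g` in every window `[Z, Z ^ B]` -/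
theorem many_primes (g : Polynomial ℤ) (hg : Irreducible (g.map (Int.castRingHom ℚ))) :
    ∃ B : ℕ, 1 ≤ B ∧ ∀ M : ℕ, ∃ Z₀ : ℝ, ∀ Z : ℝ, Z₀ ≤ Z → ∃ T : Finset ℕ, T.card = M ∧
      ∀ q ∈ T, q.Prime ∧ Z ≤ q ∧ (q : ℝ) ≤ Z ^ B ∧ ∃ m : ℤ, (q : ℤ) ∣ g.eval m := by
  classical
  obtain ⟨p₀, hp₀⟩ := rho_le g hg
  have hn : 0 < g.natDegree := by
    have := hg.natDegree_pos
    rwa [Polynomial.natDegree_map_eq_of_injective (RingHom.injective_int _)] at this
  obtain ⟨t, ht⟩ : ∃ t : ℤ, g.eval t ≠ 0 := by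
    by_contra hc
    push Not at hc
    have : g = 0 := Polynomial.funext fun r => by simp [hc r]
    simp [this] at hn
  set c := g.eval t with hc
  set R : ℕ := (p₀ + c.natAbs + 2).factorial with hR
  have hR2 : 2 ≤ R := le_trans (by omega) (Nat.self_le_factorial _)
  set f := g.comp (Polynomial.C (c * R) * Polynomial.X + Polynomial.C t) with hf
  have hcR : c * R ≠ 0 := mul_ne_zero ht (by exact_mod_cast (by omega : R ≠ 0))
  have hfn : f.natDegree = g.natDegree := by
    rw [hf, Polynomial.natDegree_comp, Polynomial.natDegree_linear hcR, mul_one]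
  have hev : ∀ m : ℕ, f.eval (m : ℤ) = g.eval (c * R * m + t) := fun m => by
    simp [hf, Polynomial.eval_comp]
  have hk : ∀ m : ℕ, ∃ k : ℤ, f.eval (m : ℤ) = c * (1 + R * k) := fun m => by
    obtain ⟨k, hk⟩ := Polynomial.sub_dvd_eval_sub (c * R * m + t) t g
    exact ⟨m * k, by rw [hev]; linear_combination hk⟩
  choose k hk using hk
  set h : ℕ → ℤ := fun m => 1 + R * k m with hh
  have hcop : ∀ m (p : ℕ), p.Prime → (p : ℤ) ∣ h m → p₀ + c.natAbs + 2 < p := by
    intro m p hp hd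
    by_contra hlt
    have h1 : (p : ℤ) ∣ R := Int.natCast_dvd_natCast.2 (hp.dvd_factorial.2 (by omega))
    have h2 : (p : ℤ) ∣ 1 := (dvd_add_left (h1.mul_right (k m))).1 hd
    exact hp.one_lt.ne' (by exact_mod_cast Int.eq_one_of_dvd_one (by positivity) h2)
  have h0 : ∀ m, h m ≠ 0 := fun m e => by
    have := hcop m 2 Nat.prime_two (by rw [e]; exact dvd_zero _)
    omega
  obtain ⟨K, hK1, hK⟩ := evl_SplB f
  rw [hfn] at hK
  set n := g.natDegree with hn'
  set A := 14 * n + 2 with hA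
  refine ⟨2 * (A * n + 1), by omega, fun M =>
    ⟨2 + K + 6 * n + Real.exp M + 2 * (A * n + 1 : ℕ), fun Z hZ => ?_⟩⟩
  set N := ⌈Z⌉₊ with hN
  have hexp := Real.exp_pos M
  have hZN : Z ≤ N := Nat.le_ceil Z
  have hK0 : (0 : ℝ) ≤ K := Nat.cast_nonneg _
  have hn0 : (0 : ℝ) ≤ n := Nat.cast_nonneg _
  have hA0 : (0 : ℝ) ≤ (A * n + 1 : ℕ) := Nat.cast_nonneg _
  have hZ2 : 2 ≤ Z := by linarith
  have hNZ : (N : ℝ) ≤ Z ^ 2 := by
    have := Nat.ceil_lt_add_one (show 0 ≤ Z by linarith)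
    nlinarith
  have hN2 : 2 ≤ N := by exact_mod_cast (show ((2 : ℕ) : ℝ) ≤ N by push_cast; linarith)
  have hNK : K ≤ N := by exact_mod_cast (show (K : ℝ) ≤ N by linarith)
  have hNn : 6 * n ≤ N := by exact_mod_cast (show ((6 * n : ℕ) : ℝ) ≤ N by push_cast; linarith)
  have hNA : 2 * (A * n + 1) ≤ N := by
    exact_mod_cast (show ((2 * (A * n + 1) : ℕ) : ℝ) ≤ N by rw [Nat.cast_mul]; push_cast at *; linarith)
  have hN0 : (0 : ℝ) < N := by linarith
  have hML : (M : ℝ) ≤ Real.log N := (Real.le_log_iff_exp_le hN0).2 (by linarith)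
  have hlN : Real.log N ≤ N := (Real.log_le_sub_one_of_pos hN0).trans (by linarith)
  have hl0 : 0 < Real.log N := Real.log_pos (by exact_mod_cast hN2)
  set T := N ^ A with hT
  set H := N ^ (A * n + 1) with hH
  have hhH : ∀ m ∈ Finset.Icc 1 T, (h m).natAbs ≤ H := fun m hm => by
    obtain ⟨a1, a2⟩ := Finset.mem_Icc.1 hm
    have b1 := hK m T a1 a2
    rw [hk, Int.natAbs_mul] at b1
    have b2 : 1 ≤ c.natAbs := Int.natAbs_pos.2 ht
    calc (h m).natAbs ≤ c.natAbs * (h m).natAbs := Nat.le_mul_of_pos_left _ b2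
      _ ≤ K * T ^ n := b1
      _ ≤ N * T ^ n := Nat.mul_le_mul_right _ hNK
      _ = H := by rw [hH, hT, ← pow_mul, pow_succ']
  set P := (Finset.Icc 1 T).biUnion fun m => (h m).natAbs.primeFactors with hP
  have hPm : ∀ p ∈ P, p.Prime ∧ ∃ m ∈ Finset.Icc 1 T, p ∣ (h m).natAbs := fun p hp => by
    obtain ⟨m, a1, a2⟩ := Finset.mem_biUnion.1 hp
    exact ⟨Nat.prime_of_mem_primeFactors a2, m, a1, Nat.dvd_of_mem_primeFactors a2⟩
  by_cases hM : M ≤ (P.filter fun p => N ≤ p).card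
  · obtain ⟨S, s1, s2⟩ := Finset.exists_subset_card_eq hM
    refine ⟨S, s2, fun q hq => ?_⟩
    obtain ⟨a1, a2⟩ := Finset.mem_filter.1 (s1 hq)
    obtain ⟨b1, m, b2, b3⟩ := hPm q a1
    refine ⟨b1, hZN.trans (by exact_mod_cast a2), ?_, c * R * m + t, ?_⟩
    · have e1 : q ≤ H := (Nat.le_of_dvd (Int.natAbs_pos.2 (h0 m)) b3).trans (hhH m b2)
      calc (q : ℝ) ≤ (N : ℝ) ^ (A * n + 1) := by exact_mod_cast e1
        _ ≤ (Z ^ 2) ^ (A * n + 1) := pow_le_pow_left₀ hN0.le hNZ _
        _ = Z ^ (2 * (A * n + 1)) := by rw [← pow_mul]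
    · rw [← hev, hk]
      exact (Int.natCast_dvd.2 b3).mul_left _
  exfalso
  push Not at hM
  have hH1 : 1 ≤ H := Nat.one_le_pow _ _ (by omega)
  have u1 : ∑ m ∈ Finset.Icc 1 T, Real.log ((h m).natAbs : ℕ) ≤
      ∑ p ∈ P, n * (2 * T * (Real.log p / p) + Real.log H) := by
    have e1 : ∀ m ∈ Finset.Icc 1 T, Real.log ((h m).natAbs : ℕ) =
        ∑ p ∈ P, ((h m).natAbs.factorization p : ℝ) * Real.log p := fun m hm => by
      rw [Real.log_nat_eq_sum_factorization]
      refine Finsupp.sum_of_support_subset _ (fun p hp => ?_) _ fun p _ => by simp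
      exact Finset.mem_biUnion.2 ⟨m, hm, by simpa using hp⟩
    rw [Finset.sum_congr rfl e1, Finset.sum_comm]
    refine Finset.sum_le_sum fun p hp => ?_
    obtain ⟨b1, m, b2, b3⟩ := hPm p hp
    have b4 := hcop m p b1 (Int.natCast_dvd.2 b3)
    refine val_SplB f (fun m => (h m).natAbs) T H n p b1 hH1 (fun m hm => ⟨Int.natAbs_ne_zero.2
      (h0 m), hhH m hm, ?_⟩) fun j hj => ?_
    · rw [hk, Int.natAbs_dvd]
      exact Dvd.intro_left _ rfl
    · refine (rho_shift_SplB g t (c * R) (p ^ j) (pow_pos b1.pos j) ?_).trans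
        (hp₀ p b1 (by omega) j hj)
      push_cast
      refine IsCoprime.pow_left (IsCoprime.mul_right ?_ ?_)
      · rw [Int.isCoprime_iff_gcd_eq_one, Int.gcd_eq_natAbs, Int.natAbs_natCast]
        exact (b1.coprime_iff_not_dvd).2 fun hd =>
          absurd (Nat.le_of_dvd (Int.natAbs_pos.2 ht) hd) (by omega)
      · rw [Nat.isCoprime_iff_coprime]
        exact (b1.coprime_iff_not_dvd).2 fun hd => absurd (b1.dvd_factorial.1 hd) (by omega)
  have u2 : ∑ p ∈ P, Real.log p / p ≤ 3 * Real.log N := by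
    rw [← Finset.sum_filter_add_sum_filter_not P fun p => N ≤ p]
    have e1 := mertens_SplB N (P.filter fun p => ¬ N ≤ p) (fun p hp => by
      obtain ⟨a1, a2⟩ := Finset.mem_filter.1 hp
      exact ⟨(hPm p a1).1, by omega⟩) (by omega)
    have e2 : ∑ p ∈ P.filter (fun p => N ≤ p), Real.log p / p ≤
        (P.filter fun p => N ≤ p).card • (1 : ℝ) :=
      Finset.sum_le_card_nsmul _ _ _ fun p hp => by
        have hp0 : (0 : ℝ) < p := by exact_mod_cast (hPm p (Finset.mem_filter.1 hp).1).1.pos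
        rw [div_le_one hp0]
        exact (Real.log_le_sub_one_of_pos hp0).trans (by linarith)
    have e3 : ((P.filter fun p => N ≤ p).card : ℝ) ≤ M := by exact_mod_cast hM.le
    rw [nsmul_eq_mul, mul_one] at e2
    linarith
  have u3 : (P.card : ℝ) ≤ 2 * N := by
    have e1 := Finset.card_filter_add_card_filter_not (s := P) fun p => N ≤ p
    have e2 : (P.filter fun p => ¬ N ≤ p).card ≤ N := by
      refine le_trans (Finset.card_le_card (t := Finset.range N) fun p hp => ?_) (by simp)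
      have := (Finset.mem_filter.1 hp).2
      rw [Finset.mem_range]
      omega
    have e3 : M ≤ N := by exact_mod_cast hML.trans hlN
    exact_mod_cast (by omega : P.card ≤ 2 * N)
  have u4 := low_SplB f (by omega) c h T (N ^ (A - 1)) (Nat.one_le_pow _ _ (by omega))
    fun m => ⟨hk m, h0 m⟩
  rw [hfn] at u4
  have u5 : 2 * (n * (2 * N ^ (A - 1) + 1)) ≤ T := by
    have e1 : T = N * N ^ (A - 1) := by rw [hT, ← pow_succ']; congr 1
    have e2 : 1 ≤ N ^ (A - 1) := Nat.one_le_pow _ _ (by omega)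
    rw [e1]
    nlinarith
  have u6 : 2 * N * (A * n + 1) ≤ T := by
    have e1 : N ^ 2 ≤ T := Nat.pow_le_pow_right (by omega) (by omega)
    nlinarith
  have u5' : 2 * ((n : ℝ) * (2 * ((N ^ (A - 1) : ℕ) : ℝ) + 1)) ≤ T := by exact_mod_cast u5
  have u6' : 2 * (N : ℝ) * ((A * n + 1 : ℕ) : ℝ) ≤ T := by exact_mod_cast u6
  have u7 : Real.log ((N ^ (A - 1) : ℕ) : ℝ) = (14 * n + 1) * Real.log N := by
    rw [Nat.cast_pow, Real.log_pow, show A - 1 = 14 * n + 1 by omega]
    push_cast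
    ring
  have u8 : Real.log (H : ℝ) = ((A * n + 1 : ℕ) : ℝ) * Real.log N := by
    rw [hH, Nat.cast_pow, Real.log_pow]
  rw [← Finset.mul_sum, Finset.sum_add_distrib, ← Finset.mul_sum, Finset.sum_const,
    nsmul_eq_mul, u8] at u1
  rw [u7] at u4
  have hT0 : (0 : ℝ) < T := by exact_mod_cast Nat.pow_pos (by omega : 0 < N)
  have v1 : (P.card : ℝ) * (((A * n + 1 : ℕ) : ℝ) * Real.log N) ≤ T * Real.log N := by
    rw [← mul_assoc]
    refine mul_le_mul_of_nonneg_right (le_trans ?_ u6') hl0.le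
    exact mul_le_mul_of_nonneg_right u3 hA0
  have v2 : 2 * (T : ℝ) * ∑ p ∈ P, Real.log p / p ≤ 2 * T * (3 * Real.log N) :=
    mul_le_mul_of_nonneg_left u2 (by positivity)
  have v3 := mul_le_mul_of_nonneg_left (add_le_add v2 v1) hn0
  have v4 : (T : ℝ) / 2 * ((14 * n + 1) * Real.log N) ≤
      ((T : ℝ) - n * (2 * ((N ^ (A - 1) : ℕ) : ℝ) + 1)) * ((14 * n + 1) * Real.log N) :=
    mul_le_mul_of_nonneg_right (by linarith) (by positivity)
  have v5 := mul_pos hT0 hl0
  nlinarith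

end Vale.Agent.P018
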