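import Vale.Agent.P018.Count2
import Vale.Agent.P018.NF2
import Vale.Agent.P018.SplA
import Vale.Agent.P018.SplB
import Vale.Agent.P018.Big

namespace Vale.Agent.P018

open NumberField MvPolynomial

open Filter Topology

/-- the conclusion of the normal form lemma -/
def NFc_Big2 (f : Polynomial ℤ) (d k : ℕ) (L : Type) [Field L] [NumberField L] (C : ℝ) : Prop :=
  ∀ (wa wb X : ℕ) (Y : ℝ) (N : Finset ℕ) (p : ℕ → ℕ), C ≤ X → 1 ≤ Y →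
    C * X ≤ Y ^ (k * wa + wb) →
    (∀ n ∈ N, 1 ≤ n ∧ n ≤ X ∧ (p n).Prime ∧ X < p n ∧ (p n : ℤ) ^ k ∣ f.eval (n : ℤ) ∧
      C * p n ≤ Y ^ (wa * d) ∧ C * (X : ℝ) ^ d ≤ Y ^ (wb * d) * (p n : ℝ) ^ k) →
    ∃ P : Pts L d k wa wb, P.Y = Y ∧ P.N = N ∧
      (∀ q : ℕ, q.Prime → C ≤ q → q ≤ X → ∀ n ∈ N, ∀ j, IsCoprime (P.al n j) (q : 𝓞 L)) ∧
      ∀ q : ℕ, q.Prime → C ≤ q → ∀ π : 𝓞 L →+* ZMod q, ∀ n ∈ N, ∀ n' ∈ N,
        (∀ s, π (P.u n s) = π (P.u n' s)) → ∀ s, (q : 𝓞 L) ∣ P.u n s - P.u n' s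

theorem one_Big2 (f : Polynomial ℤ) (d k : ℕ) (h4 : 4 ≤ d) (hk : 2 ≤ k) (hkd : k < d)
    (L : Type) [Field L] [NumberField L] (C : ℝ) (hC : 1 ≤ C) (H : NFc_Big2 f d k L C) (w₀ : ℕ)
    (hF : ∀ wa wb : ℕ, 1 ≤ wa → 1 ≤ wb → k * wa + wb ≤ d * wa → w₀ ≤ k * wa + wb →
      ∃ E, Plan d k wa wb E ∧ E + (k + k ^ 2 + 4) ≤ k * wa + wb) (W s : ℕ) :
    ∃ (M : ℕ) (K ξ0 : ℝ), w₀ + 4 ≤ W → W < d * (s + 1) → k * s ≤ W →
      ∀ (X : ℕ) (ξ Q : ℝ) (T : Finset ℕ), ξ0 ≤ ξ → ξ ^ W = X → 1 ≤ Q → M ≤ T.card →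
      (∀ q ∈ T, q.Prime ∧ C * ξ ≤ q ∧ (q : ℝ) ≤ Q ∧ q ≤ X ∧ Nonempty (𝓞 L →+* ZMod q)) →
      ∀ N : Finset ℕ, (∀ n ∈ N, 1 ≤ n ∧ n ≤ X ∧ ∃ p : ℕ, p.Prime ∧ X < p ∧
        (p : ℤ) ^ k ∣ f.eval (n : ℤ) ∧ (ξ ^ d) ^ s ≤ p ∧ (p : ℝ) < (ξ ^ d) ^ (s + 1)) →
      (N.card : ℝ) ≤ K * Q ^ (W - 3) := by
  by_cases hs : w₀ + 4 ≤ W ∧ W < d * (s + 1) ∧ k * s ≤ W
  swap
  · exact ⟨0, 0, 0, fun h0 h1 h2 => absurd ⟨h0, h1, h2⟩ hs⟩
  obtain ⟨hW, hs1, hs2⟩ := hs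
  obtain ⟨wb, hwb⟩ : ∃ wb, W + 1 = wb + k * s := ⟨W + 1 - k * s, by omega⟩
  have hw0 : k * (s + 1 + k) + wb = W + 1 + k + k ^ 2 := by rw [hwb]; ring
  obtain ⟨E, hE, hE'⟩ := hF (s + 1 + k) wb (by omega) (by omega) (by
      rw [hw0]
      have h1 : d * (s + 1 + k) = d * (s + 1) + d * k := by ring
      have h2 : (k + 1) * k ≤ d * k := Nat.mul_le_mul_right _ hkd
      have h3 : (k + 1) * k = k + k ^ 2 := by ring
      omega) (by omega)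
  obtain ⟨M, C1, Y0, hc⟩ := count2 h4 hk (by omega) (by omega) hE (Module.finrank ℚ L)
  refine ⟨M, C1, max (max 1 Y0) C, fun _ _ _ X ξ Q T hξ hX hQ1 hM hT N hN' => ?_⟩
  have x1 : 1 ≤ ξ := (le_max_left _ _).trans ((le_max_left _ _).trans hξ)
  have x2 : Y0 ≤ ξ := (le_max_right _ _).trans ((le_max_left _ _).trans hξ)
  have x4 : C ≤ ξ := (le_max_right _ _).trans hξ
  have x5 : ξ ^ 2 ≤ X := by rw [← hX]; exact pow_le_pow_right₀ x1 (by omega)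
  have y1 : ξ ≤ C * ξ := by nlinarith
  have y2 : C ≤ C * ξ := by nlinarith
  have hN'' : ∀ n : ℕ, ∃ p : ℕ, n ∈ N → p.Prime ∧ X < p ∧
      (p : ℤ) ^ k ∣ f.eval (n : ℤ) ∧ (ξ ^ d) ^ s ≤ p ∧ (p : ℝ) < (ξ ^ d) ^ (s + 1) := by
    intro n
    by_cases hn : n ∈ N
    · obtain ⟨p, hp⟩ := (hN' n hn).2.2
      exact ⟨p, fun _ => hp⟩
    · exact ⟨0, fun h => absurd h hn⟩
  choose p hp using hN''
  obtain ⟨P, hPY, hPN, hcop, ha⟩ := H (s + 1 + k) wb X (C * ξ) N p (by nlinarith)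
    (x1.trans y1) (by rw [← hX]; exact pow_Big hC x1 (by omega) (by omega)) (fun n hn => by
      obtain ⟨p1, p2, p3, p4, p5⟩ := hp n hn
      refine ⟨(hN' n hn).1, (hN' n hn).2.1, p1, p2, p3, ?_, ?_⟩
      · refine le_trans ?_ (pow_Big hC x1 (a := d * (s + 1)) ?_ ?_)
        · rw [pow_mul]
          exact mul_le_mul_of_nonneg_left p5.le (by linarith)
        · rw [mul_comm]; exact Nat.mul_le_mul_right _ (by omega)
        · exact Nat.mul_pos (by omega) (by omega)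
      · have e1 : C * ξ ^ (wb * d) ≤ (C * ξ) ^ (wb * d) :=
          pow_Big hC x1 le_rfl (Nat.mul_pos (by omega) (by omega))
        have e2 : ((ξ ^ d) ^ s) ^ k ≤ (p n : ℝ) ^ k := pow_le_pow_left₀ (by positivity) p4 k
        have e3 : (X : ℝ) ^ d ≤ ξ ^ (wb * d) * ((ξ ^ d) ^ s) ^ k := by
          rw [← hX, ← pow_mul, ← pow_mul, ← pow_mul, ← pow_add]
          refine pow_le_pow_right₀ x1 ?_
          have : wb * d + d * (s * k) = (W + 1) * d := by rw [hwb]; ring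
          rw [this]
          exact Nat.mul_le_mul_right _ (by omega)
        calc C * (X : ℝ) ^ d ≤ C * (ξ ^ (wb * d) * ((ξ ^ d) ^ s) ^ k) :=
              mul_le_mul_of_nonneg_left e3 (by linarith)
          _ = C * ξ ^ (wb * d) * ((ξ ^ d) ^ s) ^ k := by ring
          _ ≤ _ := mul_le_mul e1 e2 (by positivity) (by positivity))
  have hQ := hc L P T ⌊Q⌋₊ rfl (by rw [hPY]; linarith) hM
    (fun q hq => by
      obtain ⟨q1, q2, q3, q4, -⟩ := hT q hq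
      refine ⟨q1, by rw [hPY]; exact q2, ?_⟩
      rw [hPN]
      exact hcop q q1 (y2.trans q2) q4)
    (fun q hq => by
      obtain ⟨q1, q2, -, -, ⟨π⟩⟩ := hT q hq
      refine ⟨π, ?_⟩
      rw [hPN]
      exact ha q q1 (y2.trans q2) π)
    (Nat.le_floor (by simpa using hQ1)) (fun q hq => Nat.le_floor (hT q hq).2.2.1)
  rw [hPN] at hQ
  have hQ' : (N.card : ℝ) ≤ C1 * (⌊Q⌋₊ : ℝ) ^ E := by exact_mod_cast hQ
  refine hQ'.trans (mul_le_mul_of_nonneg_left ?_ (Nat.cast_nonneg _))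
  exact (pow_le_pow_left₀ (Nat.cast_nonneg _) (Nat.floor_le (by linarith)) _).trans
    (pow_le_pow_right₀ hQ1 (by omega))

open Classical in
theorem cover_Big2 (f : Polynomial ℤ) (hf : Irreducible (f.map (Int.castRingHom ℚ))) (d k : ℕ)
    (hd : f.natDegree = d) (h4 : 4 ≤ d) (hk : 1 ≤ k) {Cf : ℝ}
    (hCf : ∀ n X : ℕ, 1 ≤ n → n ≤ X → ((|f.eval (n : ℤ)| : ℤ) : ℝ) ≤ Cf * (X : ℝ) ^ d)
    (W X : ℕ) (ξ : ℝ) (hξ1 : ξ ^ W = X) (h2 : 1 < ξ) (h3 : Cf < ξ) (b : ℕ → ℝ)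
    (hb0 : ∀ s, 0 ≤ b s)
    (hb : ∀ s ≤ W, W < d * (s + 1) → k * s ≤ W → ∀ N : Finset ℕ,
      (∀ n ∈ N, 1 ≤ n ∧ n ≤ X ∧ ∃ p : ℕ, p.Prime ∧ X < p ∧
        (p : ℤ) ^ k ∣ f.eval (n : ℤ) ∧ (ξ ^ d) ^ s ≤ p ∧ (p : ℝ) < (ξ ^ d) ^ (s + 1)) →
      (N.card : ℝ) ≤ b s) :
    (((Finset.Icc 1 X).filter (fun n : ℕ =>
      ∃ p : ℕ, p.Prime ∧ X < p ∧ (p : ℤ) ^ k ∣ f.eval (n : ℤ))).card : ℝ) ≤
      ∑ s ∈ Finset.range (W + 1), b s := by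
  obtain ⟨N, hN⟩ : ∃ N : ℕ → Finset ℕ, N = fun s => (Finset.Icc 1 X).filter (fun n : ℕ =>
      ∃ p : ℕ, p.Prime ∧ X < p ∧ (p : ℤ) ^ k ∣ f.eval (n : ℤ) ∧ (ξ ^ d) ^ s ≤ p ∧
        (p : ℝ) < (ξ ^ d) ^ (s + 1)) := ⟨_, rfl⟩
  have hd1 : 1 < ξ ^ d := one_lt_pow₀ h2 (by omega)
  have hxd : ξ ≤ ξ ^ d := by simpa using pow_le_pow_right₀ h2.le (by omega : 1 ≤ d)
  have cond : ∀ s, ∀ n ∈ N s, W < d * (s + 1) ∧ k * s ≤ W := by
    intro s n hn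
    rw [hN] at hn
    obtain ⟨hn1, p, p1, p2, p3, p4, p5⟩ := Finset.mem_filter.1 hn
    obtain ⟨n1, n2⟩ := Finset.mem_Icc.1 hn1
    constructor
    · have : ξ ^ W < ξ ^ (d * (s + 1)) := by
        rw [hξ1, pow_mul]
        exact lt_trans (by exact_mod_cast p2) p5
      exact (pow_lt_pow_iff_right₀ h2).1 this
    · by_contra hc
      have e1 : (p : ℤ) ^ k ≤ |f.eval (n : ℤ)| :=
        Int.le_of_dvd (abs_pos.2 (eval_ne_Big f hf (by omega) _)) ((dvd_abs _ _).2 p3)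
      have e2 : (p : ℝ) ^ k ≤ ((|f.eval (n : ℤ)| : ℤ) : ℝ) := by exact_mod_cast e1
      have e3 := e2.trans (hCf n X n1 n2)
      have e4 : ((ξ ^ d) ^ s) ^ k ≤ (p : ℝ) ^ k := pow_le_pow_left₀ (by positivity) p4 k
      have e5 : (ξ ^ d) ^ (W + 1) ≤ ((ξ ^ d) ^ s) ^ k := by
        rw [← pow_mul (ξ ^ d)]
        exact pow_le_pow_right₀ hd1.le (by rw [mul_comm]; omega)
      have e6 : (ξ ^ d) ^ (W + 1) = ξ ^ d * (X : ℝ) ^ d := by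
        rw [← hξ1]; ring
      have e7 : (0 : ℝ) < (X : ℝ) ^ d := by rw [← hξ1]; positivity
      have e8 : ξ ^ d * (X : ℝ) ^ d ≤ Cf * (X : ℝ) ^ d := by linarith
      have := le_of_mul_le_mul_right e8 e7
      linarith
  have sub : (Finset.Icc 1 X).filter (fun n : ℕ =>
      ∃ p : ℕ, p.Prime ∧ X < p ∧ (p : ℤ) ^ k ∣ f.eval (n : ℤ)) ⊆
      (Finset.range (W + 1)).biUnion N := by
    intro n hn
    obtain ⟨hn1, p, p1, p2, p3⟩ := Finset.mem_filter.1 hn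
    obtain ⟨s, s1, s2⟩ := exists_nat_pow_near (x := (p : ℝ)) (by exact_mod_cast p1.one_le) hd1
    have hm : n ∈ N s := by
      rw [hN]
      exact Finset.mem_filter.2 ⟨hn1, p, p1, p2, p3, s1, s2⟩
    refine Finset.mem_biUnion.2 ⟨s, Finset.mem_range.2 ?_, hm⟩
    have c1 := (cond s n hm).2
    have c2 : s ≤ k * s := Nat.le_mul_of_pos_left _ (by omega)
    omega
  have bd : ∀ s ∈ Finset.range (W + 1), ((N s).card : ℝ) ≤ b s := by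
    intro s hs
    rcases (N s).eq_empty_or_nonempty with h0 | ⟨n, hn⟩
    · rw [h0, Finset.card_empty, Nat.cast_zero]; exact hb0 s
    · refine hb s (by have := Finset.mem_range.1 hs; omega) (cond s n hn).1 (cond s n hn).2 _
        fun n hn => ?_
      rw [hN] at hn
      obtain ⟨hn1, hp⟩ := Finset.mem_filter.1 hn
      exact ⟨(Finset.mem_Icc.1 hn1).1, (Finset.mem_Icc.1 hn1).2, hp⟩
  have tot := Finset.sum_le_sum bd
  rw [← Nat.cast_sum] at tot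
  have c3 := (Finset.card_le_card sub).trans Finset.card_biUnion_le
  exact ((Nat.cast_le (α := ℝ)).2 c3).trans tot

theorem window_Big2 (u : ℕ → ℝ) {W0 W1 : ℕ} (h01 : W0 < W1) (M : ℕ) (T : Finset ℕ)
    (hT : T.card = (W1 - W0) * M) (h : ∀ q ∈ T, u W1 ≤ q ∧ (q : ℝ) ≤ u W0) :
    ∃ W, W0 < W ∧ W ≤ W1 ∧ ∃ T' ⊆ T, M ≤ T'.card ∧ ∀ q ∈ T', u W ≤ q ∧ (q : ℝ) ≤ u (W - 1) := by
  classical
  have h1 : ∀ q : ℕ, ∃ W, q ∈ T → W ∈ Finset.Ioc W0 W1 ∧ u W ≤ q ∧ (q : ℝ) ≤ u (W - 1) := by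
    intro q
    by_cases hq : q ∈ T
    swap
    · exact ⟨0, fun h => absurd h hq⟩
    have hex : ∃ W, W0 < W ∧ u W ≤ q := ⟨W1, h01, (h q hq).1⟩
    have h2 := Nat.find_spec hex
    refine ⟨Nat.find hex, fun _ => ⟨Finset.mem_Ioc.2 ⟨h2.1, Nat.find_min' hex ⟨h01, (h q hq).1⟩⟩,
      h2.2, ?_⟩⟩
    by_cases h3 : Nat.find hex - 1 = W0
    · rw [h3]; exact (h q hq).2
    · have h4 := Nat.find_min hex (show Nat.find hex - 1 < Nat.find hex by omega)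
      exact (not_le.1 fun h5 => h4 ⟨by omega, h5⟩).le
  choose φ hφ using h1
  obtain ⟨W, hW, hc⟩ := Finset.exists_le_card_fiber_of_mul_le_card_of_maps_to (f := φ) (s := T)
    (t := Finset.Ioc W0 W1) (n := M) (fun q hq => (hφ q hq).1) (Finset.nonempty_Ioc.2 h01)
    (by rw [Nat.card_Ioc, hT])
  refine ⟨W, (Finset.mem_Ioc.1 hW).1, (Finset.mem_Ioc.1 hW).2, _, Finset.filter_subset _ _, hc,
    fun q hq => ?_⟩
  obtain ⟨h5, rfl⟩ := Finset.mem_filter.1 hq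
  exact (hφ q h5).2

open Classical in
theorem big2 (f : Polynomial ℤ) (hf : Irreducible (f.map (Int.castRingHom ℚ))) (d k : ℕ)
    (hd : f.natDegree = d) (h4 : 4 ≤ d) (hk : 2 ≤ k) (hkd : k < d) (hF : Feas d k) :
    Tendsto (fun X : ℕ => (((Finset.Icc 1 X).filter (fun n : ℕ =>
      ∃ p : ℕ, p.Prime ∧ X < p ∧ (p : ℤ) ^ k ∣ f.eval (n : ℤ))).card : ℝ) / X) atTop (𝓝 0) := by
  obtain ⟨L, _, _, C, hC, H⟩ := nf2 f hf d k hd (by omega) (by omega)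
  obtain ⟨g, p₀, hg, hsp⟩ := split_poly L
  obtain ⟨B, hB, hpr⟩ := many_primes g hg
  obtain ⟨w₀, hw⟩ := hF (k + k ^ 2 + 4)
  choose M K ξ0 H1 using one_Big2 f d k h4 hk hkd L C hC H w₀ hw
  obtain ⟨Cf, hCf⟩ := eval_le_Big f
  rw [hd] at hCf
  obtain ⟨W0, hW0⟩ : ∃ W0, W0 = w₀ + 4 := ⟨_, rfl⟩
  obtain ⟨W1, hW1⟩ : ∃ W1, W1 = (B + 1) * W0 := ⟨_, rfl⟩
  have h01 : W0 < W1 := by rw [hW1]; nlinarith
  obtain ⟨S, hS⟩ : ∃ S, S = Finset.range (W1 + 1) ×ˢ Finset.range (W1 + 1) := ⟨_, rfl⟩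
  have mS : ∀ W s, W ≤ W1 → s ≤ W → (W, s) ∈ S := fun W s h1 h2 => by
    rw [hS, Finset.mem_product, Finset.mem_range, Finset.mem_range]
    constructor <;> simp only <;> omega
  obtain ⟨Mx, hMx⟩ := (S.image fun z => M z.1 z.2).bddAbove
  obtain ⟨Kx, hKx⟩ := (S.image fun z => |K z.1 z.2|).bddAbove
  obtain ⟨ξx, hξx⟩ := (S.image fun z => ξ0 z.1 z.2).bddAbove
  obtain ⟨Z0, hZ0⟩ := hpr ((W1 - W0) * Mx)
  obtain ⟨ξ, hξ⟩ : ∃ ξ : ℕ → ℕ → ℝ, ξ = fun W X : ℕ => (X : ℝ) ^ ((W : ℝ)⁻¹) := ⟨_, rfl⟩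
  have hξ1 : ∀ W X : ℕ, 1 ≤ W → ξ W X ^ W = X := fun W X hW => by
    rw [hξ]; exact Real.rpow_inv_natCast_pow (Nat.cast_nonneg _) (by omega)
  have hξ0 : ∀ W X : ℕ, 0 ≤ ξ W X := fun W X => by rw [hξ]; positivity
  have hξ2 : Tendsto (ξ W1) atTop atTop := by
    rw [hξ]
    have : (0 : ℝ) < W1 := by exact_mod_cast (by omega : 0 < W1)
    exact (tendsto_rpow_atTop (by positivity)).comp tendsto_natCast_atTop_atTop
  have hξ3 : ∀ W X : ℕ, 1 ≤ W → W ≤ W1 → 1 ≤ X → ξ W1 X ≤ ξ W X := fun W X h1 h2 h3 => by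
    rw [hξ]
    exact Real.rpow_le_rpow_of_exponent_le (by exact_mod_cast h3)
      (inv_anti₀ (by exact_mod_cast h1) (by exact_mod_cast h2))
  have lim : Tendsto (fun X => ((W1 + 1 : ℕ) * (|Kx| * C ^ W1)) / ξ W1 X) atTop (𝓝 0) :=
    hξ2.const_div_atTop _
  refine squeeze_zero' (Eventually.of_forall fun X => by positivity) ?_ lim
  filter_upwards [eventually_ge_atTop 1, hξ2.eventually_gt_atTop 1, hξ2.eventually_gt_atTop Cf,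
    hξ2.eventually_ge_atTop ξx, hξ2.eventually_ge_atTop Z0, hξ2.eventually_ge_atTop (C ^ B),
    hξ2.eventually_ge_atTop C, hξ2.eventually_gt_atTop p₀] with X hX g1 g2 g3 g4 g5 g6 g7
  have y1 : ξ W1 X ≤ C * ξ W1 X := by nlinarith
  obtain ⟨T, hT, hT'⟩ := hZ0 (C * ξ W1 X) (g4.trans y1)
  have e0 : ξ W0 X = ξ W1 X ^ (B + 1) := by
    refine (pow_left_inj₀ (hξ0 _ _) (by positivity) (by omega : W0 ≠ 0)).1 ?_
    rw [← pow_mul, ← hW1, hξ1 _ _ (by omega), hξ1 _ _ (by omega)]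
  have e1 : (C * ξ W1 X) ^ B ≤ C * ξ W0 X := by
    rw [e0, mul_pow, pow_succ']
    have h1 : (0 : ℝ) ≤ ξ W1 X ^ B := by positivity
    exact (mul_le_mul_of_nonneg_right g5 h1).trans (le_mul_of_one_le_left (by positivity) hC)
  obtain ⟨W, w1, w2, T', hsub, hM, hq⟩ := window_Big2 (fun W => C * ξ W X) h01 Mx T hT
    fun q hq => ⟨(hT' q hq).2.1, (hT' q hq).2.2.1.trans e1⟩
  have a1 := hξ3 W X (by omega) w2 hX
  have a2 := hξ3 (W - 1) X (by omega) (by omega) hX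
  have a3 := hξ1 (W - 1) X (by omega)
  set η := ξ (W - 1) X with hη
  have b1 : 1 ≤ η := by linarith
  have b2 : 1 ≤ C * η := by nlinarith
  have b3 : C * η ≤ X := by
    rw [← a3]
    refine le_trans ?_ (pow_le_pow_right₀ b1 (by omega : 2 ≤ W - 1))
    nlinarith
  have hcov := cover_Big2 f hf d k hd h4 (by omega) hCf W X (ξ W X) (hξ1 _ _ (by omega))
    (by linarith) (by linarith) (fun _ => |Kx| * (C * η) ^ (W - 3)) (fun _ => by positivity)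
    fun s hs c1 c2 N hN => by
      have m := mS W s w2 hs
      have m1 : M W s ≤ Mx := hMx (Finset.mem_coe.2 (Finset.mem_image_of_mem _ m))
      have m2 : |K W s| ≤ Kx := hKx (Finset.mem_coe.2 (Finset.mem_image_of_mem _ m))
      have m3 : ξ0 W s ≤ ξx := hξx (Finset.mem_coe.2 (Finset.mem_image_of_mem _ m))
      refine (H1 W s (by omega) c1 c2 X (ξ W X) (C * η) T' (by linarith) (hξ1 _ _ (by omega)) b2
        (m1.trans hM) (fun q hq' => ?_) N hN).trans (mul_le_mul_of_nonneg_right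
          ((le_abs_self _).trans (m2.trans (le_abs_self _))) (by positivity))
      obtain ⟨q1, q2, -, m, q3⟩ := hT' q (hsub hq')
      refine ⟨q1, (hq q hq').1, (hq q hq').2, ?_, hsp q q1 ?_ m q3⟩
      · exact_mod_cast (hq q hq').2.trans b3
      · exact_mod_cast g7.trans_le (y1.trans q2)
  rw [Finset.sum_const, Finset.card_range, nsmul_eq_mul] at hcov
  have hXp : (0 : ℝ) < X := by exact_mod_cast hX
  rw [div_le_div_iff₀ hXp (by linarith)]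
  have d1 : ((W + 1 : ℕ) : ℝ) ≤ (W1 + 1 : ℕ) := by exact_mod_cast (by omega : W + 1 ≤ W1 + 1)
  have d2 : C ^ (W - 3) ≤ C ^ W1 := pow_le_pow_right₀ hC (by omega)
  have d3 : η ^ (W - 3) * ξ W1 X ≤ X := by
    rw [← a3]
    refine le_trans (mul_le_mul_of_nonneg_left a2 (by positivity)) ?_
    rw [← pow_succ]
    exact pow_le_pow_right₀ b1 (by omega)
  calc _ ≤ (W + 1 : ℕ) * (|Kx| * (C * η) ^ (W - 3)) * ξ W1 X :=
        mul_le_mul_of_nonneg_right hcov (by linarith)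
    _ = (W + 1 : ℕ) * (|Kx| * C ^ (W - 3)) * (η ^ (W - 3) * ξ W1 X) := by rw [mul_pow]; ring
    _ ≤ _ := by gcongr

end Vale.Agent.P018
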