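import Vale.Agent.P018.Elim

namespace Vale.Agent.P018

open NumberField MvPolynomial

variable {L : Type} [Field L] [NumberField L] {d k wa wb : ℕ}

theorem Pts.Rel.mono {P : Pts L d k wa wb} {W W' : Finset ℕ} {J J' : Finset (Fin d)} {D D' : ℕ}
    (h : P.Rel W J D) (hW : W' ⊆ W) (hJ : J ⊆ J') (hD : D ≤ D') : P.Rel W' J' D' := by
  obtain ⟨G, h1, h2, h3, h4⟩ := h
  exact ⟨G, h1, fun j hj => h2 j fun h => hj (hJ h), h3.trans hD, fun n hn => h4 n (hW hn)⟩

theorem Pts.Rel.union {P : Pts L d k wa wb} {W W' : Finset ℕ} {J : Finset (Fin d)} {D D' : ℕ}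
    (h : P.Rel W J D) (h' : P.Rel W' J D') : P.Rel (W ∪ W') J (D + D') := by
  obtain ⟨G, h1, h2, h3, h4⟩ := h
  obtain ⟨G', g1, g2, g3, g4⟩ := h'
  refine ⟨G * G', mul_ne_zero h1 g1, fun j hj => ?_, (totalDegree_mul _ _).trans (add_le_add h3 g3),
    fun n hn => ?_⟩
  · rw [degreeOf_mul_eq h1 g1, h2 j hj, g2 j hj]
  · rw [map_mul]
    rcases Finset.mem_union.1 hn with h | h
    · rw [h4 n h, zero_mul]
    · rw [g4 n h, mul_zero]

theorem Pts.Rel.cover {P : Pts L d k wa wb} {ι : Type} (s : Finset ι) (Z : ι → Finset ℕ)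
    {W : Finset ℕ} {J : Finset (Fin d)} {D : ℕ} (h : ∀ i ∈ s, P.Rel (Z i) J D)
    (hW : ∀ n ∈ W, ∃ i ∈ s, n ∈ Z i) : P.Rel W J (s.card * D) := by
  choose! G h1 h2 h3 h4 using h
  refine ⟨∏ i ∈ s, G i, Finset.prod_ne_zero_iff.2 h1, fun j hj => ?_,
    (totalDegree_finsetProd _ _).trans (Finset.sum_le_card_nsmul _ _ _ h3), fun n hn => ?_⟩
  · exact Nat.le_zero.1 ((degreeOf_prod_le _ _ _).trans
      (Finset.sum_eq_zero fun i hi => h2 i hi j hj).le)
  · obtain ⟨i, hi, hn'⟩ := hW n hn
    rw [map_prod]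
    exact Finset.prod_eq_zero hi (h4 i hi n hn')

theorem Pts.Rel.of_card (P : Pts L d k wa wb) {W : Finset ℕ} (J : Finset (Fin d)) {D : ℕ}
    (h : W.card ≤ D) : P.Rel W J D := by
  refine (Pts.Rel.cover W (fun n => {n}) (D := 1) (fun n _ => ?_)
    fun n hn => ⟨n, hn, Finset.mem_singleton_self n⟩).mono subset_rfl subset_rfl (by simpa using h)
  refine ⟨X none - C (P.uc n none), fun h0 => ?_, fun j _ => ?_, ?_, fun m hm => ?_⟩
  · simpa using congrArg (eval fun _ => P.uc n none + 1) h0
  · refine Nat.le_zero.1 ((degreeOf_sub_le _ _ _).trans ?_)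
    rw [degreeOf_C, degreeOf_X_of_ne (by simp)]
    rfl
  · exact (totalDegree_sub _ _).trans (by simp)
  · rw [Finset.mem_singleton.1 hm]; simp

theorem Pts.Rel.card_le {P : Pts L d k wa wb} {W : Finset ℕ} {D : ℕ} (hW : W ⊆ P.N)
    (h : P.Rel W ∅ D) : W.card ≤ D := by
  obtain ⟨G, h1, h2, h3, h4⟩ := h
  have h5 : ∀ m ∈ G.support, ∀ j, m (some j) = 0 := fun m hm j =>
    Nat.le_zero.1 ((monomial_le_degreeOf _ hm).trans (h2 j (by simp)).le)
  let g : Polynomial ℂ := ∑ m ∈ G.support, Polynomial.monomial (m none) (coeff m G)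
  have g0 : g ≠ 0 := fun h0 => by
    obtain ⟨m, hm⟩ := support_nonempty.2 h1
    have := congrArg (Polynomial.coeff · (m none)) h0
    simp only [g, Polynomial.finsetSum_coeff, Polynomial.coeff_monomial, Polynomial.coeff_zero] at this
    rw [Finset.sum_eq_single m (fun b hb hne => if_neg fun e => hne (by
      ext t
      cases t with
      | none => exact e
      | some j => rw [h5 b hb, h5 m hm])) (fun h => absurd hm h), if_pos rfl] at this
    exact mem_support_iff.1 hm this
  have g1 : g.natDegree ≤ D := Polynomial.natDegree_sum_le_of_forall_le _ _ fun m hm =>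
    (Polynomial.natDegree_monomial_le _).trans
      ((monomial_le_degreeOf _ hm).trans ((degreeOf_le_totalDegree _ _).trans h3))
  rw [← Finset.card_image_of_injOn (f := fun n => P.uc n none)
    fun n hn n' hn' e => P.xinj n (hW hn) n' (hW hn') (P.hio e)]
  refine (Polynomial.card_le_degree_of_subset_roots fun z hz => ?_).trans g1
  obtain ⟨n, hn, rfl⟩ := Finset.mem_image.1 hz
  rw [Polynomial.mem_roots g0, Polynomial.IsRoot, ← h4 n hn, eval_eq', Polynomial.eval_finsetSum]
  refine Finset.sum_congr rfl fun m hm => ?_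
  simp [Fintype.prod_option, h5 m hm]

theorem Pts.eval_uc (P : Pts L d k wa wb) (n : ℕ) (F : MvPolynomial (Option (Fin d)) (𝓞 L)) :
    eval (P.uc n) (map P.io F) = P.io (eval (P.u n) F) := by
  exact (map_eval P.io _ F).symm

theorem Pts.supp_map (P : Pts L d k wa wb) (J : Finset (Fin d))
    (F : MvPolynomial (Option (Fin d)) (𝓞 L)) : Supp J (map P.io F) ↔ Supp J F := by
  simp only [Supp, degreeOf_eq_sup, support_map_of_injective F P.hio]

theorem Pts.totalDegree_map (P : Pts L d k wa wb) (F : MvPolynomial (Option (Fin d)) (𝓞 L)) :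
    (map P.io F).totalDegree = F.totalDegree := by
  simp only [totalDegree, support_map_of_injective F P.hio]

theorem Pts.Dat.rel {P : Pts L d k wa wb} {W : Finset ℕ} {J : Finset (Fin d)} {D : ℕ}
    {F : MvPolynomial (Option (Fin d)) (𝓞 L)} (h : P.Dat W J D F) : P.Rel W J D := by
  exact ⟨_, h.2.2.1.ne_zero, (P.supp_map J F).2 h.1, (P.totalDegree_map F).trans_le h.2.1,
    fun n hn => by rw [P.eval_uc, h.2.2.2 n hn, map_zero]⟩

theorem Pts.Rel.elim (P : Pts L d k wa wb) {W : Finset ℕ} {J : Finset (Fin d)} {i : Fin d}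
    {D : ℕ} (F G : MvPolynomial (Option (Fin d)) ℂ) (hF : Irreducible F) (hFG : ¬ F ∣ G)
    (hFJ : Supp (insert i J) F) (hGJ : Supp (insert i J) G) (hD : F.totalDegree ≤ D)
    (hD' : G.totalDegree ≤ D) (h0 : ∀ n ∈ W, eval (P.uc n) F = 0)
    (h0' : ∀ n ∈ W, eval (P.uc n) G = 0) : P.Rel W J (2 * D ^ 2 + D) := by
  obtain ⟨H, h1, h2, h3, h4, h5⟩ := P018.elim F G (some i) D hF hFG hD hD'
  refine ⟨H, h1, fun j hj => ?_, h3, fun n hn => h5 _ (h0 n hn) (h0' n hn)⟩
  by_cases e : j = i
  · rw [e, h2]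
  · have : j ∉ insert i J := by simp [e, hj]
    exact h4 _ (hFJ j this) (hGJ j this)

theorem supp_pderiv_RelA {σ : Type} (F : MvPolynomial σ ℂ) (s : σ) {m : σ →₀ ℕ}
    (hm : m ∈ (pderiv s F).support) : m + Finsupp.single s 1 ∈ F.support := by
  rw [mem_support_iff] at hm ⊢
  rw [coeff_pderiv] at hm
  exact left_ne_zero_of_mul hm

/-- points where the partial derivative of an irreducible relation vanishes -/
theorem Pts.Rel.of_pderiv (P : Pts L d k wa wb) {W : Finset ℕ} {J : Finset (Fin d)} {i : Fin d}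
    {D : ℕ} {F : MvPolynomial (Option (Fin d)) (𝓞 L)} (h : P.Dat W (insert i J) D F)
    (h0 : ∀ n ∈ W, eval (P.u n) (pderiv (some i) F) = 0) : P.Rel W J (2 * D ^ 2 + D) := by
  obtain ⟨G, h1, h2, h3, h4⟩ := h.rel
  have f1 := (P.supp_map _ F).2 h.1
  have f2 := (P.totalDegree_map F).trans_le h.2.1
  have f3 : ∀ n ∈ W, eval (P.uc n) (map P.io F) = 0 := fun n hn => by
    rw [P.eval_uc, h.2.2.2 n hn, map_zero]
  by_cases hd : degreeOf (some i) (map P.io F) = 0
  · refine ⟨_, h.2.2.1.ne_zero, fun j hj => ?_, f2.trans (by omega), f3⟩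
    by_cases e : j = i
    · rw [e, hd]
    · exact f1 j (by simp [e, hj])
  refine Pts.Rel.elim P _ (pderiv (some i) (map P.io F)) h.2.2.1 ?_ f1 (fun j hj => ?_) f2 ?_ f3
    fun n hn => by rw [pderiv_map, P.eval_uc, h0 n hn, map_zero]
  · rintro ⟨H, hH⟩
    have g0 : pderiv (some i) (map P.io F) ≠ 0 := fun e => hd (Nat.le_zero.1 (degreeOf_le_iff.2
      fun m hm => by
        by_contra h5
        have h6 := coeff_pderiv (i := some i) (map P.io F) (m - Finsupp.single (some i) 1)
        rw [e, coeff_zero, tsub_add_cancel_of_le (Finsupp.single_le_iff.2 (by omega))] at h6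
        exact mul_ne_zero (mem_support_iff.1 hm) (Nat.cast_add_one_ne_zero _) h6.symm))
    have g1 : degreeOf (some i) (pderiv (some i) (map P.io F)) < degreeOf (some i) (map P.io F) :=
      (degreeOf_lt_iff (Nat.pos_of_ne_zero hd)).2 fun m hm => by
        have := monomial_le_degreeOf (some i) (supp_pderiv_RelA _ _ hm)
        simp only [Finsupp.add_apply, Finsupp.single_eq_same] at this
        omega
    rw [hH] at g0 g1
    rw [degreeOf_mul_eq (left_ne_zero_of_mul g0) (right_ne_zero_of_mul g0)] at g1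
    omega
  · refine Nat.le_zero.1 (degreeOf_le_iff.2 fun m hm => ?_)
    have := monomial_le_degreeOf (some j) (supp_pderiv_RelA _ _ hm)
    rw [f1 j hj, Finsupp.add_apply] at this
    omega
  · refine Finset.sup_le fun m hm => le_trans ?_ ((le_totalDegree (supp_pderiv_RelA _ _ hm)).trans f2)
    rw [Finsupp.sum_add_index' (fun _ => rfl) (fun _ _ _ => rfl)]
    exact Nat.le_add_right _ _

theorem Pts.Rel.of_poly2 (P : Pts L d k wa wb) {W : Finset ℕ} (j : Fin d) {D D' : ℕ}
    (G : Polynomial (Polynomial ℂ)) (hG : G ≠ 0) (hD : G.natDegree ≤ D)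
    (hD' : ∀ i, (G.coeff i).natDegree ≤ D')
    (h0 : ∀ n ∈ W, G.evalEval (P.io (P.al n j)) (P.io (P.x n)) = 0) :
    P.Rel W {j} (D + D') := by
  let H : MvPolynomial (Option (Fin d)) ℂ := ∑ i ∈ Finset.range (D + 1),
    ∑ l ∈ Finset.range (D' + 1), C ((G.coeff i).coeff l) * X (some j) ^ l * X none ^ i
  have e : ∀ u : Option (Fin d) → ℂ, eval u H = G.evalEval (u (some j)) (u none) := fun u => by
    rw [Polynomial.evalEval, Polynomial.eval_eq_sum_range' (Nat.lt_succ_of_le hD),
      Polynomial.eval_finsetSum, map_sum]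
    refine Finset.sum_congr rfl fun i _ => ?_
    rw [Polynomial.eval_mul, Polynomial.eval_pow, Polynomial.eval_C,
      Polynomial.eval_eq_sum_range' (Nat.lt_succ_of_le (hD' i)), Finset.sum_mul, map_sum]
    simp
  refine ⟨H, fun h => hG ?_, fun t ht => ?_, ?_, fun n hn => (e _).trans (h0 n hn)⟩
  · ext1 i
    refine Polynomial.funext fun a => ?_
    have : G.map (Polynomial.evalRingHom a) = 0 := Polynomial.funext fun b => by
      have := e fun t => t.elim b fun _ => a
      rw [h, map_zero] at this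
      rw [Polynomial.map_evalRingHom_eval, Polynomial.eval_zero]
      exact this.symm
    simpa using congrArg (Polynomial.coeff · i) this
  · have ht' : some t ≠ some j := by simpa using ht
    refine Nat.le_zero.1 ((degreeOf_sum_le _ _ _).trans (Finset.sup_le fun i _ =>
      (degreeOf_sum_le _ _ _).trans (Finset.sup_le fun l _ => ?_)))
    rw [degreeOf_mul_X_pow_of_ne _ (by simp), degreeOf_mul_X_pow_of_ne _ ht', degreeOf_C]
  · refine totalDegree_finsetSum_le fun i hi => totalDegree_finsetSum_le fun l hl => ?_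
    rw [Finset.mem_range] at hi hl
    refine (totalDegree_mul _ _).trans ((add_le_add (totalDegree_mul _ _) le_rfl).trans ?_)
    rw [totalDegree_C, totalDegree_X_pow, totalDegree_X_pow]
    omega

/-- a linear relation free of `x` -/
theorem lin_of_deg_le_one (F : MvPolynomial (Option (Fin d)) ℂ) (i j : Fin d) (hij : i ≠ j)
    (hJ : Supp (insert i {j}) F) (hx : degreeOf none F = 0) (h1 : F.totalDegree ≤ 1)
    (hd : pderiv (some i) F ≠ 0) :
    ∃ ρ σ : ℂ, ∀ u : Option (Fin d) → ℂ, eval u F = 0 → u (some i) = ρ * u (some j) + σ := by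
  have hs : ∀ m ∈ F.support, m = 0 ∨ m = Finsupp.single (some i) 1 ∨
      m = Finsupp.single (some j) 1 := fun m hm => by
    have e : m = Finsupp.single (some i) (m (some i)) + Finsupp.single (some j) (m (some j)) := by
      ext t
      have := monomial_le_degreeOf t hm
      cases t with
      | none => simpa [hx] using this
      | some t =>
        by_cases h2 : t = i
        · simp [h2, hij]
        by_cases h3 : t = j
        · simp [h3, hij.symm]
        rw [hJ t (by simp [h2, h3])] at this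
        simpa [h2, h3] using this
    have h2 := (le_totalDegree hm).trans h1
    rw [e, Finsupp.sum_add_index' (fun _ => rfl) (fun _ _ _ => rfl), Finsupp.sum_single_index rfl,
      Finsupp.sum_single_index rfl] at h2
    rw [e]
    rcases (by omega : (m (some i) = 0 ∧ m (some j) = 0) ∨ (m (some i) = 1 ∧ m (some j) = 0) ∨
      (m (some i) = 0 ∧ m (some j) = 1)) with h | h | h <;> simp [h.1, h.2]
  have n1 : (Finsupp.single (some i) 1 : Option (Fin d) →₀ ℕ) ≠ 0 := by simp
  have n2 : (Finsupp.single (some j) 1 : Option (Fin d) →₀ ℕ) ≠ 0 := by simp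
  have n3 : (Finsupp.single (some i) 1 : Option (Fin d) →₀ ℕ) ≠ Finsupp.single (some j) 1 := by
    simp [Finsupp.single_left_inj, hij]
  have e : F = C (coeff 0 F) + C (coeff (Finsupp.single (some i) 1) F) * X (some i) +
      C (coeff (Finsupp.single (some j) 1) F) * X (some j) := by
    ext m
    simp only [coeff_add, coeff_C_mul, coeff_X, coeff_C]
    by_cases a1 : m = 0
    · simp [a1, n1, n2]
    by_cases a2 : m = Finsupp.single (some i) 1
    · simp [a2, n1.symm, n3.symm]
    by_cases a3 : m = Finsupp.single (some j) 1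
    · simp [a3, n2.symm, n3]
    rw [notMem_support_iff.1 fun hm => by simpa [a1, a2, a3] using hs m hm]
    simp [Ne.symm a1, Ne.symm a2, Ne.symm a3]
  generalize coeff 0 F = a at e
  generalize coeff (Finsupp.single (some i) 1) F = b at e
  generalize coeff (Finsupp.single (some j) 1) F = c at e
  subst e
  have hb : b ≠ 0 := by
    rintro rfl
    simp [pderiv_X, hij.symm] at hd
  refine ⟨-c / b, -a / b, fun u hu => ?_⟩
  simp only [map_add, map_mul, eval_C, eval_X] at hu
  field_simp
  linear_combination hu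

end Vale.Agent.P018
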