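import Vale.Agent.P018.Cram
import Vale.Agent.P018.RelA

namespace Vale.Agent.P018

open NumberField MvPolynomial

theorem one_Split {L : Type} [Field L] [NumberField L] {d k wa wb : ℕ} (P : Pts L d k wa wb)
    (J : Finset (Fin d)) (D h : ℕ)
    (H : ∀ W ⊆ P.N, ∀ D' ≤ D, P.Rel W J D' →
      ∃ F : MvPolynomial (Option (Fin d)) (𝓞 L), F ≠ 0 ∧ Supp J F ∧ F.totalDegree ≤ D' ∧
        (∀ n ∈ W, eval (P.u n) F = 0) ∧
        ∀ n ∈ P.N, ∀ j, ht (eval (P.u n) (pderiv (some j) F)) ≤ P.Y ^ h) (D' : ℕ) :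
    D' ≤ D → ∀ W ⊆ P.N, P.Rel W J D' →
      ∃ 𝒞 : Finset (Finset ℕ), 𝒞.card ≤ 2 ^ D' ∧ (∀ n ∈ W, ∃ Z ∈ 𝒞, n ∈ Z) ∧
        ∀ Z ∈ 𝒞, ∃ F, P.Dat Z J D F ∧
          ∀ n ∈ P.N, ∀ j, ht (eval (P.u n) (pderiv (some j) F)) ≤ P.Y ^ h := by
  classical
  induction D' using Nat.strong_induction_on with
  | _ D' ih =>
  intro hD W hW hR
  obtain ⟨F, f0, f1, f2, f3, f4⟩ := H W hW D' hD hR
  have g0 : map P.io F ≠ 0 := fun h0 => f0 (map_injective _ P.hio (by rw [h0, map_zero]))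
  have g3 : ∀ n ∈ W, eval (P.uc n) (map P.io F) = 0 := fun n hn => by
    rw [P.eval_uc, f3 n hn, map_zero]
  by_cases hi : Irreducible (map P.io F)
  · exact ⟨{W}, by simpa using Nat.one_le_two_pow, fun n hn => ⟨W, by simp, hn⟩, fun Z hZ => by
      rw [Finset.mem_singleton.1 hZ]; exact ⟨F, ⟨f1, f2.trans hD, hi, f3⟩, f4⟩⟩
  by_cases hu : IsUnit (map P.io F)
  · exact ⟨∅, by simp, fun n hn => absurd (g3 n hn) (hu.map (eval (P.uc n))).ne_zero, by simp⟩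
  rw [irreducible_iff, not_and] at hi
  have hi := hi hu
  push Not at hi
  obtain ⟨F₁, F₂, e, u₁, u₂⟩ := hi
  have n₁ : F₁ ≠ 0 := left_ne_zero_of_mul (e ▸ g0)
  have n₂ : F₂ ≠ 0 := right_ne_zero_of_mul (e ▸ g0)
  have pos : ∀ G : MvPolynomial (Option (Fin d)) ℂ, G ≠ 0 → ¬ IsUnit G → 0 < G.totalDegree :=
    fun G h0 h1 => Nat.pos_of_ne_zero fun h2 => h1 (by
      rw [totalDegree_eq_zero_iff_eq_C.1 h2] at h0 ⊢
      exact (Ne.isUnit fun h3 => h0 (by rw [h3, map_zero])).map C)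
  have td : F₁.totalDegree + F₂.totalDegree ≤ D' := by
    rw [← totalDegree_mul_of_isDomain n₁ n₂, ← e, P.totalDegree_map]; exact f2
  have p₁ := pos _ n₁ u₁
  have p₂ := pos _ n₂ u₂
  have sp : ∀ j ∉ J, degreeOf (some j) F₁ + degreeOf (some j) F₂ = 0 := fun j hj => by
    rw [← degreeOf_mul_eq n₁ n₂, ← e]; exact (P.supp_map J F).2 f1 j hj
  obtain ⟨𝒞₁, a1, a2, a3⟩ := ih (D' - 1) (by omega) (by omega)
    (W.filter fun n => eval (P.uc n) F₁ = 0) ((Finset.filter_subset _ _).trans hW)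
    ⟨F₁, n₁, fun j hj => by have := sp j hj; omega, by omega, fun n hn => (Finset.mem_filter.1 hn).2⟩
  obtain ⟨𝒞₂, b1, b2, b3⟩ := ih (D' - 1) (by omega) (by omega)
    (W.filter fun n => eval (P.uc n) F₂ = 0) ((Finset.filter_subset _ _).trans hW)
    ⟨F₂, n₂, fun j hj => by have := sp j hj; omega, by omega, fun n hn => (Finset.mem_filter.1 hn).2⟩
  refine ⟨𝒞₁ ∪ 𝒞₂, (Finset.card_union_le _ _).trans ?_, fun n hn => ?_, fun Z hZ => ?_⟩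
  · obtain ⟨m, rfl⟩ : ∃ m, D' = m + 1 := ⟨D' - 1, by omega⟩
    rw [Nat.add_sub_cancel] at a1 b1
    rw [pow_succ]; omega
  · have := g3 n hn
    rw [e, map_mul, mul_eq_zero] at this
    rcases this with h1 | h1
    · obtain ⟨Z, k1, k2⟩ := a2 n (Finset.mem_filter.2 ⟨hn, h1⟩)
      exact ⟨Z, Finset.mem_union_left _ k1, k2⟩
    · obtain ⟨Z, k1, k2⟩ := b2 n (Finset.mem_filter.2 ⟨hn, h1⟩)
      exact ⟨Z, Finset.mem_union_right _ k1, k2⟩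
  · exact (Finset.mem_union.1 hZ).elim (a3 Z) (b3 Z)

theorem split (d k wa wb D r : ℕ) : ∃ (h M : ℕ) (Y₀ : ℝ), ∀ (L : Type) [Field L] [NumberField L]
    (P : Pts L d k wa wb), Y₀ ≤ P.Y → ∀ W ⊆ P.N, (∀ J, J.card = r → P.Rel W J D) →
    ∃ 𝒞 : Finset (Finset ℕ), 𝒞.card ≤ M ∧ (∀ n ∈ W, ∃ Z ∈ 𝒞, n ∈ Z) ∧
      ∀ Z ∈ 𝒞, Z ⊆ W ∧ ∀ J, J.card = r → ∃ F, P.Dat Z J D F ∧
        ∀ n ∈ Z, ∀ j, ht (eval (P.u n) (pderiv (some j) F)) ≤ P.Y ^ h := by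
  classical
  obtain ⟨h, Y₀, H⟩ := intrel d k wa wb D
  refine ⟨h, (2 ^ D) ^ (Finset.univ : Finset (Finset (Fin d))).card, Y₀,
    fun L _ _ P hY W hW hR => ?_⟩
  have key : ∀ 𝒥 : Finset (Finset (Fin d)), ∃ 𝒞 : Finset (Finset ℕ),
      𝒞.card ≤ (2 ^ D) ^ 𝒥.card ∧ (∀ n ∈ W, ∃ Z ∈ 𝒞, n ∈ Z) ∧
      ∀ Z ∈ 𝒞, Z ⊆ W ∧ ∀ J ∈ 𝒥, J.card = r → ∃ F, P.Dat Z J D F ∧
        ∀ n ∈ P.N, ∀ j, ht (eval (P.u n) (pderiv (some j) F)) ≤ P.Y ^ h := fun 𝒥 => by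
    induction 𝒥 using Finset.induction_on with
    | empty => exact ⟨{W}, by simp, fun n hn => ⟨W, by simp, hn⟩, by simp⟩
    | insert J 𝒥 hJ ih =>
      obtain ⟨𝒞, a1, a2, a3⟩ := ih
      rw [Finset.card_insert_of_notMem hJ, pow_succ]
      by_cases hr : J.card = r
      · obtain ⟨𝒟, b1, b2, b3⟩ := one_Split P J D h (fun W hW => H L P hY W hW J) D le_rfl W hW
          (hR J hr)
        refine ⟨(𝒞 ×ˢ 𝒟).image fun x => x.1 ∩ x.2, Finset.card_image_le.trans ?_,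
          fun n hn => ?_, fun Z hZ => ?_⟩
        · rw [Finset.card_product]; exact Nat.mul_le_mul a1 b1
        · obtain ⟨Z, k1, k2⟩ := a2 n hn
          obtain ⟨Z', k3, k4⟩ := b2 n hn
          exact ⟨Z ∩ Z', Finset.mem_image.2 ⟨(Z, Z'), Finset.mem_product.2 ⟨k1, k3⟩, rfl⟩,
            Finset.mem_inter.2 ⟨k2, k4⟩⟩
        · obtain ⟨⟨Z₁, Z₂⟩, k1, rfl⟩ := Finset.mem_image.1 hZ
          obtain ⟨k2, k3⟩ := Finset.mem_product.1 k1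
          refine ⟨Finset.inter_subset_left.trans (a3 _ k2).1, fun J' hJ' hr' => ?_⟩
          rcases Finset.mem_insert.1 hJ' with rfl | hJ'
          · obtain ⟨F, ⟨c1, c2, c3, c4⟩, c5⟩ := b3 _ k3
            exact ⟨F, ⟨c1, c2, c3, fun n hn => c4 n (Finset.mem_inter.1 hn).2⟩, c5⟩
          · obtain ⟨F, ⟨c1, c2, c3, c4⟩, c5⟩ := (a3 _ k2).2 J' hJ' hr'
            exact ⟨F, ⟨c1, c2, c3, fun n hn => c4 n (Finset.mem_inter.1 hn).1⟩, c5⟩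
      · refine ⟨𝒞, a1.trans (Nat.le_mul_of_pos_right _ (by positivity)), a2, fun Z hZ =>
          ⟨(a3 Z hZ).1, fun J' hJ' hr' => ?_⟩⟩
        rcases Finset.mem_insert.1 hJ' with rfl | hJ'
        · exact absurd hr' hr
        · exact (a3 Z hZ).2 J' hJ' hr'
  obtain ⟨𝒞, a1, a2, a3⟩ := key Finset.univ
  refine ⟨𝒞, a1, a2, fun Z hZ => ⟨(a3 Z hZ).1, fun J hJ => ?_⟩⟩
  obtain ⟨F, c1, c2⟩ := (a3 Z hZ).2 J (Finset.mem_univ _) hJ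
  exact ⟨F, c1, fun n hn => c2 n (hW ((a3 Z hZ).1 hn))⟩

end Vale.Agent.P018
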