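import Vale.Agent.P018.Def2
import Vale.Agent.P018.Split

namespace Vale.Agent.P018

open NumberField MvPolynomial

section AuxChart

variable {σ R K : Type} [DecidableEq σ] [CommRing R] [CommRing K]

/-- specialisation of all variables but one -/
noncomputable def phi_Chart (π : R →+* K) (s : σ) (v : σ → K) (F : MvPolynomial σ R) :
    Polynomial K :=
  eval₂Hom (Polynomial.C.comp π) (fun t => if t = s then Polynomial.X else Polynomial.C (v t)) F

theorem eval_phi_Chart (π : R →+* K) (s : σ) (u : σ → R) (F : MvPolynomial σ R) :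
    (phi_Chart π s (fun t => π (u t)) F).eval (π (u s)) = π (eval u F) := by
  unfold phi_Chart
  induction F using MvPolynomial.induction_on with
  | C a => simp
  | add p p' hp hp' => simp only [map_add, Polynomial.eval_add, hp, hp']
  | mul_X p t hp =>
    simp only [map_mul, Polynomial.eval_mul, hp, eval₂Hom_X', eval_X]
    by_cases h : t = s <;> simp [h]

theorem der_phi_Chart (π : R →+* K) (s : σ) (v : σ → K) (F : MvPolynomial σ R) :
    Polynomial.derivative (phi_Chart π s v F) = phi_Chart π s v (pderiv s F) := by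
  unfold phi_Chart
  induction F using MvPolynomial.induction_on with
  | C a => simp
  | add p p' hp hp' => simp only [map_add, hp, hp']
  | mul_X p t hp =>
    rw [Derivation.leibniz, map_mul, Polynomial.derivative_mul, hp]
    by_cases h : t = s
    · subst h
      simp [mul_comm, add_comm]
    · simp [h, pderiv_X_of_ne h, mul_comm]

theorem deg_phi_Chart (π : R →+* K) (s : σ) (v : σ → K) (F : MvPolynomial σ R) :
    (phi_Chart π s v F).natDegree ≤ F.totalDegree := by
  unfold phi_Chart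
  rw [coe_eval₂Hom, eval₂_eq]
  refine Polynomial.natDegree_sum_le_of_forall_le _ _ fun m hm => ?_
  refine (Polynomial.natDegree_C_mul_le _ _).trans ?_
  refine (Polynomial.natDegree_prod_le _ _).trans (le_trans ?_ (le_totalDegree hm))
  refine Finset.sum_le_sum fun t _ => Polynomial.natDegree_pow_le.trans ?_
  refine mul_le_of_le_one_right' ?_
  split_ifs
  · exact Polynomial.natDegree_X_le
  · simp

theorem congr_phi_Chart (π : R →+* K) (s : σ) {v v' : σ → K} (F : MvPolynomial σ R)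
    (h : ∀ t, t ≠ s → degreeOf t F ≠ 0 → v t = v' t) :
    phi_Chart π s v F = phi_Chart π s v' F := by
  unfold phi_Chart
  refine eval₂Hom_congr' rfl (fun t ht _ => ?_) rfl
  by_cases e : t = s
  · simp [e]
  · simp [e, h t e (mem_vars_iff_degreeOf_ne_zero.1 ht)]

end AuxChart

theorem glue_Chart (𝒞 : Finset (Finset ℕ)) (K : ℕ) (Q : Finset ℕ → Prop)
    (h : ∀ Z ∈ 𝒞, ∃ 𝒟 : Finset (Finset ℕ), 𝒟.card ≤ K ∧ (∀ n ∈ Z, ∃ Z' ∈ 𝒟, n ∈ Z') ∧
      ∀ Z' ∈ 𝒟, Q Z') :
    ∃ 𝒟 : Finset (Finset ℕ), 𝒟.card ≤ 𝒞.card * K ∧ (∀ Z ∈ 𝒞, ∀ n ∈ Z, ∃ Z' ∈ 𝒟, n ∈ Z') ∧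
      ∀ Z' ∈ 𝒟, Q Z' := by
  classical
  choose! 𝒟 h1 h2 h3 using h
  refine ⟨𝒞.biUnion 𝒟, Finset.card_biUnion_le_card_mul _ _ _ h1, fun Z hZ n hn => ?_,
    fun Z' hZ' => ?_⟩
  · obtain ⟨Z', a, b⟩ := h2 Z hZ n hn
    exact ⟨Z', Finset.mem_biUnion.2 ⟨Z, hZ, a⟩, b⟩
  · obtain ⟨Z, a, b⟩ := Finset.mem_biUnion.1 hZ'
    exact h3 Z a Z' b

theorem dat_mono_Chart {L : Type} [Field L] [NumberField L] {d k wa wb : ℕ} {P : Pts L d k wa wb}
    {Z Z' : Finset ℕ} {J : Finset (Fin d)} {D : ℕ} {F : MvPolynomial (Option (Fin d)) (𝓞 L)}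
    (h : P.Dat Z J D F) (hZ : Z' ⊆ Z) : P.Dat Z' J D F :=
  ⟨h.1, h.2.1, h.2.2.1, fun n hn => h.2.2.2 n (hZ hn)⟩

/-- a chart: the coordinates outside `J` are simple roots of polynomials in the others -/
theorem cnt_of_chart {L : Type} [Field L] [NumberField L] {d k wa wb : ℕ} (P : Pts L d k wa wb)
    (Z : Finset ℕ) (J : Finset (Fin d)) (D h : ℕ)
    (F : Fin d → MvPolynomial (Option (Fin d)) (𝓞 L))
    (hF : ∀ i ∉ J, Supp (insert i J) (F i) ∧ (F i).totalDegree ≤ D ∧ ∀ n ∈ Z,
      eval (P.u n) (F i) = 0 ∧ eval (P.u n) (pderiv (some i) (F i)) ≠ 0 ∧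
        ht (eval (P.u n) (pderiv (some i) (F i))) ≤ P.Y ^ h) :
    P.Cnt Z (J.card + 1) ((D + 1) ^ d) h := by
  classical
  refine ⟨fun n i => if i ∈ J then 1 else eval (P.u n) (pderiv (some i) (F i)),
    fun n hn i => ?_, fun q π hq => ?_⟩
  · by_cases hi : i ∈ J
    · simp only [hi, if_true]
      exact ⟨one_ne_zero, by rw [ht_one]; exact one_le_pow₀ P.hY⟩
    · simp only [hi, if_false]
      exact ((hF i hi).2.2 n hn).2
  haveI := Fact.mk hq
  let S : Finset (Option (Fin d)) := Finset.insertNone J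
  let F' : Option (Fin d) → MvPolynomial (Option (Fin d)) (𝓞 L) := fun t => t.elim 0 F
  let A : Option (Fin d) → Finset (ZMod q) := fun t => if t ∈ S then Finset.univ else {0}
  let B : (Option (Fin d) → ZMod q) → Option (Fin d) → Finset (ZMod q) := fun y t =>
    if t ∈ S then {y t} else (phi_Chart π t y (F' t)).roots.toFinset
  refine ⟨((Fintype.piFinset A).biUnion fun y => Fintype.piFinset (B y)).image
    fun v s => (v s).val, Finset.card_image_le.trans ?_, fun n hn hc => ?_⟩
  · have hA : (Fintype.piFinset A).card = q ^ (J.card + 1) := by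
      rw [Fintype.card_piFinset]
      have : ∀ t, (A t).card = if t ∈ S then q else 1 := fun t => by
        simp only [A]
        split_ifs
        · simp
        · simp
      simp only [this]
      rw [Finset.prod_ite_mem, Finset.univ_inter, Finset.prod_const, Finset.card_insertNone]
    have hB : ∀ y, (Fintype.piFinset (B y)).card ≤ (D + 1) ^ d := fun y => by
      rw [Fintype.card_piFinset, Fintype.prod_option]
      have e0 : (B y none).card = 1 := by simp [B, S]
      rw [e0, one_mul]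
      refine (Finset.prod_le_pow_card _ _ (D + 1) fun i _ => ?_).trans (by simp)
      simp only [B]
      split_ifs with hi
      · simp
      · have hi' : i ∉ J := fun h => hi (by simpa [S] using h)
        refine (Multiset.toFinset_card_le _).trans ((Polynomial.card_roots' _).trans
          ((deg_phi_Chart _ _ _ _).trans ?_))
        exact (hF i hi').2.1.trans (Nat.le_succ D)
    refine (Finset.card_biUnion_le_card_mul _ _ _ fun y _ => hB y).trans ?_
    rw [hA, mul_comm]
  · refine Finset.mem_image.2 ⟨fun s => π (P.u n s), Finset.mem_biUnion.2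
      ⟨fun t => if t ∈ S then π (P.u n t) else 0, Fintype.mem_piFinset.2 fun t => ?_,
        Fintype.mem_piFinset.2 fun t => ?_⟩, rfl⟩
    · simp only [A]
      split_ifs <;> simp
    · simp only [B]
      split_ifs with ht
      · simp
      · cases t with
        | none => exact absurd (by simp [S]) ht
        | some i =>
          have hi : i ∉ J := fun h => ht (by simpa [S] using h)
          obtain ⟨f1, -, f3⟩ := hF i hi
          obtain ⟨g1, -, -⟩ := f3 n hn
          have e1 : phi_Chart π (some i) (fun t => if t ∈ S then π (P.u n t) else 0) (F' (some i)) =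
              phi_Chart π (some i) (fun t => π (P.u n t)) (F i) := by
            refine congr_phi_Chart π _ (F i) fun t h1 h2 => ?_
            have : t ∈ S := by
              cases t with
              | none => simp [S]
              | some j =>
                by_contra hj
                refine h2 (f1 j fun h => ?_)
                rcases Finset.mem_insert.1 h with h | h
                · exact h1 (by rw [h])
                · exact hj (by simpa [S] using h)
            simp [this]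
          rw [e1, Multiset.mem_toFinset, Polynomial.mem_roots']
          refine ⟨fun h0 => ?_, ?_⟩
          · have e2 := eval_phi_Chart π (some i) (P.u n) (pderiv (some i) (F i))
            rw [← der_phi_Chart, h0] at e2
            have e3 := (hc i).map π
            simp only [hi, if_false, map_natCast, ZMod.natCast_self, isCoprime_zero_right] at e3
            rw [← e2] at e3
            simp at e3
          · rw [Polynomial.IsRoot, eval_phi_Chart, g1, map_zero]

theorem Pts.Cnt.mono {L : Type} [Field L] [NumberField L] {d k wa wb : ℕ} {P : Pts L d k wa wb}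
    {Z Z' : Finset ℕ} {r r' c c' h h' : ℕ} (H : P.Cnt Z r c h) (hZ : Z' ⊆ Z) (hr : r ≤ r')
    (hc : c ≤ c') (hh : h ≤ h') : P.Cnt Z' r' c' h' := by
  obtain ⟨z, h1, h2⟩ := H
  refine ⟨z, fun n hn i => ⟨(h1 n (hZ hn) i).1,
    (h1 n (hZ hn) i).2.trans (pow_le_pow_right₀ P.hY hh)⟩, fun q π hq => ?_⟩
  obtain ⟨𝒱, a, b⟩ := h2 q π hq
  exact ⟨𝒱, a.trans (Nat.mul_le_mul hc (Nat.pow_le_pow_right hq.pos hr)),
    fun n hn => b n (hZ hn)⟩

theorem chart (d k wa wb r : ℕ) (hr : r ≤ d) (D : ℕ) : ∃ (h M c : ℕ) (Y₀ : ℝ),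
    ∀ (L : Type) [Field L] [NumberField L] (P : Pts L d k wa wb), Y₀ ≤ P.Y → ∀ W ⊆ P.N,
    (∀ J, J.card = r → P.Rel W J D) →
    ∃ 𝒞 : Finset (Finset ℕ), 𝒞.card ≤ M ∧ (∀ n ∈ W, ∃ Z ∈ 𝒞, n ∈ Z) ∧
      ∀ Z ∈ 𝒞, Z ⊆ W ∧ P.Cnt Z r c h := by
  classical
  induction r generalizing D with
  | zero =>
    refine ⟨0, D, 1, 0, fun L _ _ P _ W hW hR => ⟨W.image fun n => {n},
      Finset.card_image_le.trans (Pts.Rel.card_le hW (hR ∅ rfl)),
      fun n hn => ⟨{n}, Finset.mem_image_of_mem _ hn, Finset.mem_singleton_self n⟩,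
      fun Z hZ => ?_⟩⟩
    obtain ⟨n, hn, rfl⟩ := Finset.mem_image.1 hZ
    refine ⟨by simpa using hn, fun _ _ => 1, fun _ _ _ => ⟨one_ne_zero, by simp [ht_one]⟩,
      fun q π _ => ⟨{fun s => (π (P.u n s)).val}, by simp, fun m hm _ => ?_⟩⟩
    rw [Finset.mem_singleton.1 hm]
    exact Finset.mem_singleton_self _
  | succ r ih =>
    obtain ⟨h1, M1, Y1, H1⟩ := split d k wa wb D (r + 1)
    obtain ⟨h2, M2, c2, Y2, H2⟩ := ih (by omega) (d * (2 * D ^ 2 + D))
    refine ⟨max h1 h2, M1 * ((Finset.univ : Finset (Finset (Fin d))).card + M2),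
      max ((D + 1) ^ d) c2, max Y1 Y2, fun L _ _ P hY W hW hR => ?_⟩
    obtain ⟨𝒞, a1, a2, a3⟩ := H1 L P ((le_max_left _ _).trans hY) W hW hR
    obtain ⟨𝒟, b1, b2, b3⟩ := glue_Chart 𝒞 ((Finset.univ : Finset (Finset (Fin d))).card + M2)
      (fun Z => Z ⊆ W ∧ P.Cnt Z (r + 1) (max ((D + 1) ^ d) c2) (max h1 h2)) (fun Z hZ => by
        obtain ⟨hZW, hZ⟩ := a3 Z hZ
        choose! F f1 f2 using hZ
        let G : Finset (Fin d) → Finset ℕ := fun J => Z.filter fun n =>
          ∀ i ∉ J, eval (P.u n) (pderiv (some i) (F (insert i J))) ≠ 0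
        let R : Finset ℕ := Z.filter fun n => ∀ J : Finset (Fin d), J.card = r → n ∉ G J
        have hRZ : R ⊆ Z := Finset.filter_subset _ _
        obtain ⟨ℰ, c1, c2', c3⟩ := H2 L P ((le_max_right _ _).trans hY) R
          (hRZ.trans (hZW.trans hW)) (fun J hJ => by
            refine (Pts.Rel.cover (Finset.univ.filter fun i => i ∉ J)
              (fun i => Z.filter fun n => eval (P.u n) (pderiv (some i) (F (insert i J))) = 0)
              (D := 2 * D ^ 2 + D) (fun i hi => ?_) fun n hn => ?_).mono subset_rfl subset_rfl ?_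
            · have hi' : i ∉ J := (Finset.mem_filter.1 hi).2
              exact Pts.Rel.of_pderiv P (dat_mono_Chart (f1 (insert i J)
                (by rw [Finset.card_insert_of_notMem hi', hJ])) (Finset.filter_subset _ _))
                fun n hn => (Finset.mem_filter.1 hn).2
            · obtain ⟨k1, k2⟩ := Finset.mem_filter.1 hn
              have k3 := k2 J hJ
              simp only [G, Finset.mem_filter, k1, true_and, not_forall, not_not] at k3
              obtain ⟨i, hi, k4⟩ := k3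
              exact ⟨i, Finset.mem_filter.2 ⟨Finset.mem_univ _, hi⟩, Finset.mem_filter.2 ⟨k1, k4⟩⟩
            · refine Nat.mul_le_mul_right _ ((Finset.card_filter_le _ _).trans ?_)
              simp)
        refine ⟨((Finset.univ.filter fun J : Finset (Fin d) => J.card = r).image G) ∪ ℰ,
          (Finset.card_union_le _ _).trans (Nat.add_le_add (Finset.card_image_le.trans
            (Finset.card_filter_le _ _)) c1), fun n hn => ?_, fun Z' hZ' => ?_⟩
        · by_cases hn' : n ∈ R
          · obtain ⟨Z', k1, k2⟩ := c2' n hn'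
            exact ⟨Z', Finset.mem_union_right _ k1, k2⟩
          · simp only [R, Finset.mem_filter, hn, true_and, not_forall, not_not] at hn'
            obtain ⟨J, hJ, k1⟩ := hn'
            exact ⟨G J, Finset.mem_union_left _ (Finset.mem_image_of_mem _
              (Finset.mem_filter.2 ⟨Finset.mem_univ _, hJ⟩)), k1⟩
        · rcases Finset.mem_union.1 hZ' with k1 | k1
          · obtain ⟨J, hJ, rfl⟩ := Finset.mem_image.1 k1
            have hJ' : J.card = r := (Finset.mem_filter.1 hJ).2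
            refine ⟨(Finset.filter_subset _ _).trans hZW, ?_⟩
            refine (cnt_of_chart P (G J) J D h1 (fun i => F (insert i J)) fun i hi => ?_).mono
              subset_rfl (by omega) (le_max_left _ _) (le_max_left _ _)
            have hc : (insert i J).card = r + 1 := by rw [Finset.card_insert_of_notMem hi, hJ']
            obtain ⟨g1, g2, -, g4⟩ := f1 _ hc
            refine ⟨g1, g2, fun n hn => ?_⟩
            obtain ⟨k2, k3⟩ := Finset.mem_filter.1 hn
            exact ⟨g4 n k2, k3 i hi, f2 _ hc n k2 i⟩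
          · exact ⟨(c3 Z' k1).1.trans (hRZ.trans hZW), (c3 Z' k1).2.mono subset_rfl
              (Nat.le_succ r) (le_max_right _ _) (le_max_right _ _)⟩)
    refine ⟨𝒟, b1.trans (Nat.mul_le_mul_right _ a1), fun n hn => ?_, b3⟩
    obtain ⟨Z, k1, k2⟩ := a2 n hn
    exact b2 Z k1 n k2

theorem split2 (d k wa wb D r : ℕ) (hr : r ≤ d) : ∃ (h M c : ℕ) (Y₀ : ℝ),
    ∀ (L : Type) [Field L] [NumberField L] (P : Pts L d k wa wb), Y₀ ≤ P.Y → ∀ W ⊆ P.N,
    (∀ J, J.card = r → P.Rel W J D) →
    ∃ 𝒞 : Finset (Finset ℕ), 𝒞.card ≤ M ∧ (∀ n ∈ W, ∃ Z ∈ 𝒞, n ∈ Z) ∧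
      ∀ Z ∈ 𝒞, Z ⊆ W ∧ P.Cnt Z r c h ∧ ∀ J, J.card = r → ∃ F, P.Dat Z J D F ∧
        ∀ n ∈ Z, ∀ j, ht (eval (P.u n) (pderiv (some j) F)) ≤ P.Y ^ h := by
  obtain ⟨h1, M1, Y1, H1⟩ := split d k wa wb D r
  obtain ⟨h2, M2, c2, Y2, H2⟩ := chart d k wa wb r hr D
  refine ⟨max h1 h2, M1 * M2, c2, max Y1 Y2, fun L _ _ P hY W hW hR => ?_⟩
  obtain ⟨𝒞, a1, a2, a3⟩ := H1 L P ((le_max_left _ _).trans hY) W hW hR
  obtain ⟨𝒟, b1, b2, b3⟩ := glue_Chart 𝒞 M2
    (fun Z => Z ⊆ W ∧ P.Cnt Z r c2 (max h1 h2) ∧ ∀ J, J.card = r → ∃ F, P.Dat Z J D F ∧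
        ∀ n ∈ Z, ∀ j, ht (eval (P.u n) (pderiv (some j) F)) ≤ P.Y ^ (max h1 h2)) (fun Z hZ => by
      obtain ⟨hZW, hZ⟩ := a3 Z hZ
      obtain ⟨ℰ, c1, c2', c3⟩ := H2 L P ((le_max_right _ _).trans hY) Z (hZW.trans hW)
        (fun J hJ => by
          obtain ⟨F, f1, -⟩ := hZ J hJ
          exact f1.rel)
      refine ⟨ℰ, c1, c2', fun Z' hZ' => ⟨(c3 Z' hZ').1.trans hZW,
        (c3 Z' hZ').2.mono subset_rfl le_rfl le_rfl (le_max_right _ _), fun J hJ => ?_⟩⟩
      obtain ⟨F, f1, f2⟩ := hZ J hJ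
      exact ⟨F, dat_mono_Chart f1 (c3 Z' hZ').1, fun n hn j =>
        (f2 n ((c3 Z' hZ').1 hn) j).trans (pow_le_pow_right₀ P.hY (le_max_left _ _))⟩)
  refine ⟨𝒟, b1.trans (Nat.mul_le_mul_right _ a1), fun n hn => ?_, b3⟩
  obtain ⟨Z, k1, k2⟩ := a2 n hn
  exact b2 Z k1 n k2

end Vale.Agent.P018
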