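import Vale.Agent.P018.Defs

namespace Vale.Agent.P018

open NumberField MvPolynomial

theorem cnt_Free {m : ℕ} (T₀ : Finset ℕ) (i : Fin m) (c : ℕ) (F : (Fin m → ℕ) → Finset ℕ)
    (hF : ∀ s t, F (Function.update s i t) = F s) (hc : ∀ s, (F s).card ≤ c) :
    ((Fintype.piFinset fun _ : Fin m => T₀).filter fun s => s i ∈ F s).card * T₀.card ≤
      c * T₀.card ^ m := by
  classical
  rw [← Finset.card_product]
  have h1 : (((Fintype.piFinset fun _ : Fin m => T₀).filter fun s => s i ∈ F s) ×ˢ T₀).card ≤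
      ((Fintype.piFinset fun _ : Fin m => T₀).sigma F).card := by
    refine Finset.card_le_card_of_injOn
      (fun p => (⟨Function.update p.1 i p.2, p.1 i⟩ : Σ _ : Fin m → ℕ, ℕ)) ?_ ?_
    · rintro ⟨s, t⟩ h
      simp only [Finset.coe_product, Set.mem_prod, Finset.mem_coe, Finset.mem_filter,
        Fintype.mem_piFinset] at h
      simp only [Finset.mem_coe, Finset.mem_sigma, Fintype.mem_piFinset, hF]
      refine ⟨fun j => ?_, h.1.2⟩
      by_cases hj : j = i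
      · subst hj; rw [Function.update_self]; exact h.2
      · rw [Function.update_of_ne hj]; exact h.1.1 j
    · rintro ⟨s, t⟩ - ⟨s', t'⟩ - h
      simp only [Sigma.mk.injEq, heq_eq_eq] at h
      obtain ⟨h1, h2⟩ := h
      have ht : t = t' := by simpa using congrFun h1 i
      refine Prod.ext (funext fun j => ?_) ht
      by_cases hj : j = i
      · subst hj; exact h2
      · simpa [Function.update_of_ne hj] using congrFun h1 j
  refine h1.trans ?_
  rw [Finset.card_sigma]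
  refine (Finset.sum_le_card_nsmul _ _ c fun s _ => hc s).trans ?_
  simp [Fintype.card_piFinset, mul_comm]

theorem free_set (m b : ℕ) : ∃ M : ℕ, ∀ (T₀ : Finset ℕ), M ≤ T₀.card →
    ∀ bad : Finset ℕ → Finset ℕ, (∀ T, (bad T).card ≤ b) →
    ∃ S ⊆ T₀, S.card = m ∧ ∀ T ⊆ S, ∀ q ∈ S, q ∉ T → q ∉ bad T := by
  classical
  refine ⟨2 ^ m * m * (b + m) + 1, fun T₀ hT bad hb => ?_⟩
  set Pi := Fintype.piFinset fun _ : Fin m => T₀ with hPi
  set F : Finset (Fin m) × Fin m → (Fin m → ℕ) → Finset ℕ := fun z s =>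
    bad ((z.1.erase z.2).image s) ∪ (z.1.erase z.2).image s with hF
  set B := (Finset.univ : Finset (Finset (Fin m) × Fin m)).biUnion
    fun z => Pi.filter fun s => s z.2 ∈ F z s with hB
  have hN : 0 < T₀.card := by omega
  have h1 : B.card * T₀.card ≤ 2 ^ m * m * ((b + m) * T₀.card ^ m) := by
    refine (Nat.mul_le_mul_right _ Finset.card_biUnion_le).trans ?_
    rw [Finset.sum_mul]
    refine (Finset.sum_le_card_nsmul _ _ ((b + m) * T₀.card ^ m) fun z _ => ?_).trans ?_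
    · refine cnt_Free T₀ z.2 (b + m) (F z) (fun s t => ?_) (fun s => ?_)
      · have : (z.1.erase z.2).image (Function.update s z.2 t) = (z.1.erase z.2).image s :=
          Finset.image_congr fun j hj => Function.update_of_ne (Finset.ne_of_mem_erase hj) _ _
        simp only [hF, this]
      · refine (Finset.card_union_le _ _).trans (Nat.add_le_add (hb _) ?_)
        refine Finset.card_image_le.trans ?_
        simpa using Finset.card_le_univ (z.1.erase z.2)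
    · simp
  have h2 : B.card < Pi.card := by
    have h3 : Pi.card = T₀.card ^ m := by simp [hPi, Fintype.card_piFinset]
    rw [h3]
    refine lt_of_mul_lt_mul_right (h1.trans_lt ?_) hN.le
    have h4 : 0 < T₀.card ^ m := pow_pos hN m
    have h5 : 2 ^ m * m * (b + m) < T₀.card := hT
    calc 2 ^ m * m * ((b + m) * T₀.card ^ m) = T₀.card ^ m * (2 ^ m * m * (b + m)) := by ring
      _ < T₀.card ^ m * T₀.card := Nat.mul_lt_mul_of_pos_left h5 h4
  obtain ⟨s, hs, hsB⟩ := Finset.exists_mem_notMem_of_card_lt_card h2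
  have h6 : ∀ (I : Finset (Fin m)) (i : Fin m), i ∉ I → s i ∉ bad (I.image s) ∧ s i ∉ I.image s := by
    intro I i hi
    have : s i ∉ F (I, i) s := fun h => hsB (Finset.mem_biUnion.2
      ⟨(I, i), Finset.mem_univ _, Finset.mem_filter.2 ⟨hs, h⟩⟩)
    simp only [hF, Finset.erase_eq_of_notMem hi, Finset.mem_union, not_or] at this
    exact this
  have hinj : Function.Injective s := fun i j hij => by
    by_contra hne
    exact (h6 {j} i (by simpa using hne)).2 (by simp [hij])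
  refine ⟨Finset.univ.image s, fun q hq => ?_, ?_, fun T hT q hq hqT => ?_⟩
  · obtain ⟨i, -, rfl⟩ := Finset.mem_image.1 hq
    exact Fintype.mem_piFinset.1 hs i
  · rw [Finset.card_image_of_injective _ hinj]; simp
  · obtain ⟨i, -, rfl⟩ := Finset.mem_image.1 hq
    have hI : (Finset.univ.filter fun j => s j ∈ T).image s = T := by
      ext t
      simp only [Finset.mem_image, Finset.mem_filter, Finset.mem_univ, true_and]
      constructor
      · rintro ⟨j, h, rfl⟩; exact h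
      · intro h
        obtain ⟨j, -, rfl⟩ := Finset.mem_image.1 (hT h)
        exact ⟨j, h, rfl⟩
    have := (h6 (Finset.univ.filter fun j => s j ∈ T) i (by simpa using hqT)).1
    rwa [hI] at this

theorem pool_Free (n : ℕ) (hn : n ≠ 0) (M : ℕ) : ∃ T₀ : Finset ℕ, T₀.card = M ∧
    ∀ q ∈ T₀, q.Prime ∧ n ≤ q ∧ q ≤ 2 ^ M * n := by
  induction M with
  | zero => exact ⟨∅, rfl, by simp⟩
  | succ M ih =>
    obtain ⟨T, h1, h2⟩ := ih
    obtain ⟨p, hp, h3, h4⟩ := Nat.exists_prime_lt_and_le_two_mul (2 ^ M * n) (by positivity)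
    have h5 : n ≤ 2 ^ M * n := Nat.le_mul_of_pos_left _ (by positivity)
    have h6 : 2 ^ (M + 1) * n = 2 * (2 ^ M * n) := by ring
    refine ⟨insert p T, ?_, fun q hq => ?_⟩
    · rw [Finset.card_insert_of_notMem fun h => absurd (h2 p h).2.2 (not_le.2 h3), h1]
    · rcases Finset.mem_insert.1 hq with rfl | hq
      · exact ⟨hp, by omega, by omega⟩
      · obtain ⟨a, b, c⟩ := h2 q hq
        exact ⟨a, b, by omega⟩

theorem pool_exists (M : ℕ) (Y : ℝ) (hY : 1 ≤ Y) : ∃ T₀ : Finset ℕ, T₀.card = M ∧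
    ∀ q ∈ T₀, q.Prime ∧ Y ≤ q ∧ (q : ℝ) ≤ 2 ^ (M + 1) * Y := by
  have h0 : ⌈Y⌉₊ ≠ 0 := (Nat.ceil_pos.2 (by linarith)).ne'
  obtain ⟨T, h1, h2⟩ := pool_Free ⌈Y⌉₊ h0 M
  refine ⟨T, h1, fun q hq => ?_⟩
  obtain ⟨a, b, c⟩ := h2 q hq
  refine ⟨a, (Nat.le_ceil Y).trans (Nat.cast_le.2 b), ?_⟩
  have h3 : (⌈Y⌉₊ : ℝ) < Y + 1 := Nat.ceil_lt_add_one (by linarith)
  have h4 : (q : ℝ) ≤ 2 ^ M * (⌈Y⌉₊ : ℝ) := by exact_mod_cast c
  have h5 : (0 : ℝ) < 2 ^ M := by positivity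
  rw [pow_succ]
  nlinarith

theorem pw_Free (d : ℕ) (hd : 4 ≤ d) : 63 ^ d * (1000 * (d + 1)) < 999 * 100 ^ d := by
  induction d, hd using Nat.le_induction with
  | base => norm_num
  | succ d hd ih =>
    have h : 63 * (d + 1 + 1) ≤ 100 * (d + 1) := by omega
    calc 63 ^ (d + 1) * (1000 * (d + 1 + 1)) = 63 ^ d * 1000 * (63 * (d + 1 + 1)) := by ring
      _ ≤ 63 ^ d * 1000 * (100 * (d + 1)) := Nat.mul_le_mul_left _ h
      _ = 100 * (63 ^ d * (1000 * (d + 1))) := by ring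
      _ < 100 * (999 * 100 ^ d) := Nat.mul_lt_mul_of_pos_left ih (by norm_num)
      _ = 999 * 100 ^ (d + 1) := by ring

theorem cube_Free {D x v p c : ℕ} (hD : 4 ≤ D) (hp : 0 < p) (hc0 : 0 < c)
    (K1 : p * D ^ 2 ≤ 2 * x ^ 2) (hc : c * D ≤ 2 * x) (K2 : 999 * x ≤ 1250 * (D * v)) :
    p ^ 2 * c < x ^ 2 * v ^ 3 := by
  have h1 : (p * D ^ 2) ^ 2 * (c * D) ≤ (2 * x ^ 2) ^ 2 * (2 * x) :=
    Nat.mul_le_mul (Nat.pow_le_pow_left K1 2) hc
  have h2 : (999 * x) ^ 3 ≤ (1250 * (D * v)) ^ 3 := Nat.pow_le_pow_left K2 3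
  have h3 : D ^ 3 * (999 ^ 3 * (p ^ 2 * c * D ^ 2)) ≤ D ^ 3 * (8 * 1250 ^ 3 * (x ^ 2 * v ^ 3)) := by
    calc D ^ 3 * (999 ^ 3 * (p ^ 2 * c * D ^ 2)) = 999 ^ 3 * ((p * D ^ 2) ^ 2 * (c * D)) := by ring
      _ ≤ 999 ^ 3 * ((2 * x ^ 2) ^ 2 * (2 * x)) := Nat.mul_le_mul_left _ h1
      _ = 8 * x ^ 2 * (999 * x) ^ 3 := by ring
      _ ≤ 8 * x ^ 2 * (1250 * (D * v)) ^ 3 := Nat.mul_le_mul_left _ h2
      _ = _ := by ring
  have h4 := Nat.le_of_mul_le_mul_left h3 (by positivity)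
  have h5 : p ^ 2 * c * 16 ≤ p ^ 2 * c * D ^ 2 := Nat.mul_le_mul_left _ (by nlinarith)
  have h6 : 0 < p ^ 2 * c := by positivity
  omega

theorem c2_Free {k wa wb : ℕ} (hk2 : 2 ≤ k) (ha : 1 ≤ wa) (hba : wb ≤ 2 * wa) :
    1000 * (k + 2 + 1) * (wa * wb) < (wa + wb) * (999 * (k * wa + wb)) := by
  have e3 : k * wa * wb ≤ k * wa * (2 * wa) := Nat.mul_le_mul_left _ hba
  have e4 : 2 * (wa * wa) ≤ k * (wa * wa) := Nat.mul_le_mul_right _ hk2
  have e5 : 2001 * (wa * wb) < 1994 * (wa * wa) + 999 * (wb * wb) := by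
    have h : (1 : ℤ) ≤ wa := by omega
    zify
    nlinarith [sq_nonneg ((wa : ℤ) - wb), sq_nonneg (2 * (wa : ℤ) - wb)]
  nlinarith

theorem num_of (d k wa wb v : ℕ) (hd : 4 ≤ d) (hk : d = k + 2) (ha : 1 ≤ wa) (hb : 1 ≤ wb)
    (h1 : k * wa + wb ≤ d * wa) (h2 : 999 * (k * wa + wb) ≤ 1000 * (d + 1) * v) :
    Num d k wa wb v := by
  have hk2 : 2 ≤ k := by omega
  have hba : wb ≤ 2 * wa := by subst hk; nlinarith
  have hv : 1 ≤ v := by
    rcases Nat.eq_zero_or_pos v with rfl | h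
    · omega
    · exact h
  obtain ⟨x, hx⟩ : ∃ x, x = k * wa + wb := ⟨_, rfl⟩
  have hx0 : 0 < x := by omega
  have K1 : wa * wb * d ^ 2 ≤ 2 * x ^ 2 := by
    have e1 : (0 : ℤ) ≤ 2 * wa - wb := by omega
    have e2 : (0 : ℤ) ≤ (k : ℤ) ^ 2 * wa - 2 * wb := by
      have : (4 : ℤ) ≤ (k : ℤ) ^ 2 := by nlinarith
      have h3 : (0 : ℤ) ≤ wa := by omega
      nlinarith
    have e3 := mul_nonneg e1 e2
    subst hk hx
    zify
    nlinarith
  have Ka : wa * d ≤ 2 * x := by subst hk hx; nlinarith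
  have Kb : wb * d ≤ 2 * x := by subst hk hx; nlinarith
  have K2 : 999 * x ≤ 1250 * (d * v) := by subst hx; nlinarith
  have hp : 0 < wa * wb := by positivity
  have K3 : 3996 * (wa * wb) ≤ 2500 * (x * v) := by
    have e1 : d * (999 * (wa * wb * d)) ≤ d * (2500 * (x * v)) := by
      calc d * (999 * (wa * wb * d)) = 999 * (wa * wb * d ^ 2) := by ring
        _ ≤ 999 * (2 * x ^ 2) := Nat.mul_le_mul_left _ K1
        _ = 2 * x * (999 * x) := by ring
        _ ≤ 2 * x * (1250 * (d * v)) := Nat.mul_le_mul_left _ K2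
        _ = _ := by ring
    have e2 := Nat.le_of_mul_le_mul_left e1 (by omega)
    have e3 : wa * wb * 4 ≤ wa * wb * d := Nat.mul_le_mul_left _ hd
    omega
  have La : 999 * wa ≤ 2500 * v := by
    refine Nat.le_of_mul_le_mul_left (c := d) ?_ (by omega)
    nlinarith
  have Lb : 999 * wb ≤ 2500 * v := by
    refine Nat.le_of_mul_le_mul_left (c := d) ?_ (by omega)
    nlinarith
  have Lm : ∀ c, c ≤ wa → c ≤ wb → 2997 * c ≤ 5000 * v := fun c c1 c2 => by
    refine Nat.le_of_mul_le_mul_left (c := k + 1) ?_ (by omega)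
    have e1 : k * c ≤ k * wa := Nat.mul_le_mul_left _ c1
    have e2 : 2 * v ≤ k * v := Nat.mul_le_mul_right _ hk2
    subst hk
    nlinarith
  refine ⟨hd, hk2, ha, hb, hv, ?_, fun r hr => ?_, ?_, ?_, ?_, ?_, ?_, by omega, by omega⟩
  · rw [← hx]
    obtain ⟨e, rfl⟩ : ∃ e, d = e + 1 := ⟨d - 1, by omega⟩
    rw [Nat.add_sub_cancel]
    have e1 : (100 * (wa * wb)) ^ (e + 1) ≤ (63 * (x * v)) ^ (e + 1) :=
      Nat.pow_le_pow_left (by omega) _
    have e2 : 63 ^ (e + 1) * x < 100 ^ (e + 1) * v := by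
      have e3 := pw_Free (e + 1) hd
      refine lt_of_mul_lt_mul_left (a := 999) ?_ (by norm_num)
      rw [← hx] at h2
      calc 999 * (63 ^ (e + 1) * x) = 63 ^ (e + 1) * (999 * x) := by ring
        _ ≤ 63 ^ (e + 1) * (1000 * (e + 1 + 1) * v) := Nat.mul_le_mul_left _ h2
        _ = 63 ^ (e + 1) * (1000 * (e + 1 + 1)) * v := by ring
        _ < 999 * 100 ^ (e + 1) * v := Nat.mul_lt_mul_of_pos_right e3 hv
        _ = _ := by ring
    refine lt_of_mul_lt_mul_left (a := 100 ^ (e + 1)) ?_ (by positivity)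
    calc 100 ^ (e + 1) * (wa * wb) ^ (e + 1) = (100 * (wa * wb)) ^ (e + 1) := (mul_pow _ _ _).symm
      _ ≤ (63 * (x * v)) ^ (e + 1) := e1
      _ = 63 ^ (e + 1) * x * (x ^ e * v ^ (e + 1)) := by ring
      _ < 100 ^ (e + 1) * v * (x ^ e * v ^ (e + 1)) :=
        Nat.mul_lt_mul_of_pos_right e2 (by positivity)
      _ = _ := by ring
  · rw [← hx]
    obtain ⟨e, rfl⟩ : ∃ e, r = e + 3 := ⟨r - 3, by omega⟩
    have e0 : e + 3 - 1 = e + 2 := rfl
    rw [e0]
    have e1 : (wa * wb) ^ 3 < min wa wb * x ^ 2 * v ^ 3 := by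
      rcases le_total wa wb with h | h
      · rw [min_eq_left h]
        calc (wa * wb) ^ 3 = wa * ((wa * wb) ^ 2 * wb) := by ring
          _ < wa * (x ^ 2 * v ^ 3) :=
            Nat.mul_lt_mul_of_pos_left (cube_Free hd hp hb K1 Kb K2) ha
          _ = _ := by ring
      · rw [min_eq_right h]
        calc (wa * wb) ^ 3 = wb * ((wa * wb) ^ 2 * wa) := by ring
          _ < wb * (x ^ 2 * v ^ 3) :=
            Nat.mul_lt_mul_of_pos_left (cube_Free hd hp ha K1 Ka K2) hb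
          _ = _ := by ring
    have e2 : (wa * wb) ^ e ≤ (x * v) ^ e := Nat.pow_le_pow_left (by omega) _
    calc (wa * wb) ^ (e + 3) = (wa * wb) ^ 3 * (wa * wb) ^ e := by ring
      _ ≤ (wa * wb) ^ 3 * (x * v) ^ e := Nat.mul_le_mul_left _ e2
      _ < min wa wb * x ^ 2 * v ^ 3 * (x * v) ^ e :=
        Nat.mul_lt_mul_of_pos_right e1 (by positivity)
      _ = _ := by ring
  · rw [← hx]
    have e1 : 27 * (k * wa) ^ 2 * wb ≤ 4 * x ^ 3 := by
      have e2 : (0 : ℤ) ≤ ((k : ℤ) * wa - 2 * wb) ^ 2 * (4 * (k * wa) + wb) := by positivity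
      subst hx
      zify
      nlinarith
    have e2 : 999 * x ≤ 2500 * (k * v) := by subst hk hx; nlinarith
    have e3 : k ^ 2 * (27 * 999 ^ 2 * (wa ^ 2 * wb)) ≤ k ^ 2 * (4 * 2500 ^ 2 * (x * v ^ 2)) := by
      calc k ^ 2 * (27 * 999 ^ 2 * (wa ^ 2 * wb)) = 999 ^ 2 * (27 * (k * wa) ^ 2 * wb) := by ring
        _ ≤ 999 ^ 2 * (4 * x ^ 3) := Nat.mul_le_mul_left _ e1
        _ = 4 * x * (999 * x) ^ 2 := by ring
        _ ≤ 4 * x * (2500 * (k * v)) ^ 2 := Nat.mul_le_mul_left _ (Nat.pow_le_pow_left e2 2)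
        _ = _ := by ring
    have e4 := Nat.le_of_mul_le_mul_left e3 (by positivity)
    have e5 : 0 < wa ^ 2 * wb := by positivity
    have e6 : wa ^ 2 * wb < x * v ^ 2 := by omega
    calc (wa * wb) ^ 2 = wb * (wa ^ 2 * wb) := by ring
      _ < wb * (x * v ^ 2) := Nat.mul_lt_mul_of_pos_left e6 hb
      _ = _ := by ring
  · rw [← hx]
    have e3 : d ^ 2 * (999 ^ 2 * (wa * wb * wb * d)) ≤ d ^ 2 * (4 * 1250 ^ 2 * (x * v ^ 2)) := by
      calc d ^ 2 * (999 ^ 2 * (wa * wb * wb * d)) = 999 ^ 2 * (wa * wb * d ^ 2 * (wb * d)) := by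
            ring
        _ ≤ 999 ^ 2 * (2 * x ^ 2 * (2 * x)) := Nat.mul_le_mul_left _ (Nat.mul_le_mul K1 Kb)
        _ = 4 * x * (999 * x) ^ 2 := by ring
        _ ≤ 4 * x * (1250 * (d * v)) ^ 2 := Nat.mul_le_mul_left _ (Nat.pow_le_pow_left K2 2)
        _ = _ := by ring
    have e4 := Nat.le_of_mul_le_mul_left e3 (by positivity)
    have e5 : 0 < wa * wb * wb := by positivity
    have e7 : wa * wb * wb * 4 ≤ wa * wb * wb * d := Nat.mul_le_mul_left _ hd
    have e6 : wa * wb * wb < 2 * (x * v ^ 2) := by omega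
    calc (wa * wb) ^ 2 = wa * (wa * wb * wb) := by ring
      _ < wa * (2 * (x * v ^ 2)) := Nat.mul_lt_mul_of_pos_left e6 ha
      _ = _ := by ring
  · have e0 : 6 * wa ≤ 3 * k * wa := Nat.mul_le_mul_right _ (by omega)
    have e1 : 0 < v ^ 2 := by positivity
    rcases le_total wa wb with h | h
    · have e2 : (999 * wb) ^ 2 ≤ (2500 * v) ^ 2 := Nat.pow_le_pow_left Lb 2
      have e3 : wb ^ 2 < 7 * v ^ 2 := by nlinarith
      calc wa * wb ^ 2 < wa * (7 * v ^ 2) := Nat.mul_lt_mul_of_pos_left e3 ha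
        _ = 7 * wa * v ^ 2 := by ring
        _ ≤ _ := Nat.mul_le_mul_right _ (by omega)
    · have e2 : (2997 * wb) ^ 2 ≤ (5000 * v) ^ 2 := Nat.pow_le_pow_left (Lm wb h le_rfl) 2
      have e3 : wb ^ 2 < 6 * v ^ 2 := by nlinarith
      calc wa * wb ^ 2 < wa * (6 * v ^ 2) := Nat.mul_lt_mul_of_pos_left e3 ha
        _ = 6 * wa * v ^ 2 := by ring
        _ ≤ _ := Nat.mul_le_mul_right _ (by omega)
  · have := Lm _ (min_le_left wa wb) (min_le_right wa wb)
    omega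
  · refine lt_of_mul_lt_mul_left (a := 1000 * (d + 1)) ?_ (by positivity)
    have e1 : (wa + wb) * (999 * (k * wa + wb)) ≤ (wa + wb) * (1000 * (d + 1) * v) :=
      Nat.mul_le_mul_left _ h2
    have e2 : 1000 * (d + 1) * (wa * wb) < (wa + wb) * (999 * (k * wa + wb)) := by
      rw [hk]; exact c2_Free hk2 ha hba
    calc 1000 * (d + 1) * (wa * wb) < _ := e2
      _ ≤ _ := e1
      _ = _ := by ring

end Vale.Agent.P018
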