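import Vale.Agent.P018.Step
import Vale.Agent.P018.Split
import Vale.Agent.P018.Free

namespace Vale.Agent.P018

open NumberField MvPolynomial

/-- residues of the integer coordinates modulo the primes of `S` -/
def res_count {m : ℕ} (a : ℕ → Fin m → ℤ) (S : Finset ℕ) (n : ℕ) : ℕ → Fin m → ℤ :=
  fun q t => if q ∈ S then a n t % q else 0

def rstr_count {m : ℕ} (T : Finset ℕ) (c : ℕ → Fin m → ℤ) : ℕ → Fin m → ℤ :=
  fun q t => if q ∈ T then c q t else 0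

theorem rstr_res_count {m : ℕ} (a : ℕ → Fin m → ℤ) {S T : Finset ℕ} (h : T ⊆ S) (n : ℕ) :
    rstr_count T (res_count a S n) = res_count a T n := by
  funext q t
  unfold rstr_count res_count
  by_cases hq : q ∈ T
  · simp [hq, h hq]
  · simp [hq]

open Classical in
theorem card_res_count {m : ℕ} (a : ℕ → Fin m → ℤ) (S N : Finset ℕ) (Q : ℕ)
    (hS : ∀ q ∈ S, 0 < q ∧ q ≤ Q) :
    (N.image (res_count a S)).card ≤ Q ^ (S.card * m) := by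
  have hsub : N.image (res_count a S) ⊆
      (Fintype.piFinset (fun _ : S => Fintype.piFinset (fun _ : Fin m =>
        Finset.Ico (0 : ℤ) Q))).image
        (fun φ (q : ℕ) (t : Fin m) => if h : q ∈ S then φ ⟨q, h⟩ t else 0) := by
    intro c hc
    obtain ⟨n, -, rfl⟩ := Finset.mem_image.1 hc
    refine Finset.mem_image.2 ⟨fun q t => a n t % ((q : ℕ) : ℤ), ?_, ?_⟩
    · simp only [Fintype.mem_piFinset, Finset.mem_Ico]
      intro q t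
      obtain ⟨h1, h2⟩ := hS q q.2
      have h1' : (0 : ℤ) < (q : ℕ) := by exact_mod_cast h1
      have h2' : ((q : ℕ) : ℤ) ≤ Q := by exact_mod_cast h2
      exact ⟨Int.emod_nonneg _ h1'.ne', (Int.emod_lt_of_pos _ h1').trans_le h2'⟩
    · funext q t
      unfold res_count
      by_cases hq : q ∈ S <;> simp [hq]
  refine (Finset.card_le_card hsub).trans (Finset.card_image_le.trans ?_)
  simp only [Fintype.card_piFinset, Int.card_Ico, sub_zero, Int.toNat_natCast, Finset.prod_const,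
    Finset.card_univ, Fintype.card_fin, Fintype.card_coe]
  rw [← pow_mul, mul_comm]

theorem cls_res_count {L : Type} [Field L] [NumberField L] {d k wa wb : ℕ} (P : Pts L d k wa wb)
    (a : ℕ → Fin (d + 1) → ℤ)
    (ha : ∀ q : ℕ, ∀ n ∈ P.N, ∀ n' ∈ P.N, (∀ t, (q : ℤ) ∣ a n t - a n' t) →
      ∀ s, (q : 𝓞 L) ∣ P.u n s - P.u n' s) (S W : Finset ℕ) (c : ℕ → Fin (d + 1) → ℤ)
    (hW : ∀ n ∈ W, n ∈ P.N ∧ res_count a S n = c) : P.Cls W S := by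
  refine ⟨fun n hn => (hW n hn).1, fun q hq n hn n' hn' => ?_⟩
  refine ha q n (hW n hn).1 n' (hW n' hn').1 (fun t => ?_)
  have h := congrFun (congrFun ((hW n hn).2.trans (hW n' hn').2.symm) q) t
  simp only [res_count, hq, if_true] at h
  exact Int.ModEq.dvd (h.symm : Int.ModEq q (a n' t) (a n t))

/-- the statement of one level of the descent -/
def Lvl_count (d k wa wb v n₀ i : ℕ) : Prop :=
  ∃ (D M h b : ℕ) (Y₀ : ℝ), ∀ (L : Type) [Field L] [NumberField L] (P : Pts L d k wa wb)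
    (T₀ : Finset ℕ) (a : ℕ → Fin (d + 1) → ℤ), Module.finrank ℚ L = n₀ → Y₀ ≤ P.Y → P.Pool T₀ →
    (∀ q : ℕ, ∀ n ∈ P.N, ∀ n' ∈ P.N, (∀ t, (q : ℤ) ∣ a n t - a n' t) →
      ∀ s, (q : 𝓞 L) ∣ P.u n s - P.u n' s) →
    ∃ (𝓕 : Finset ℕ → (ℕ → Fin (d + 1) → ℤ) → Finset (Finset ℕ))
      (bad : ℕ → Finset ℕ → Finset ℕ), (∀ n T, (bad n T).card ≤ b) ∧
      (∀ S c, (𝓕 S c).card ≤ M ∧ ∀ Z ∈ 𝓕 S c, Z ⊆ P.N ∧ ∀ J, J.card = d - i →
        ∃ F, P.Dat Z J D F ∧ ∀ n ∈ Z, ∀ j, ht (eval (P.u n) (pderiv (some j) F)) ≤ P.Y ^ h) ∧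
      ∀ n ∈ P.N, ∀ S ⊆ T₀, S.card = v + i → (∀ T ⊆ S, ∀ q ∈ S, q ∉ T → q ∉ bad n T) →
        ∃ Z ∈ 𝓕 S (res_count a S n), n ∈ Z

theorem lvl_zero_count {d k wa wb v : ℕ} (hN : Num d k wa wb v) (n₀ : ℕ) :
    Lvl_count d k wa wb v n₀ 0 := by
  classical
  obtain ⟨D, Y₁, h₁⟩ := top hN
  obtain ⟨h, M, Y₂, h₂⟩ := split d k wa wb D d
  refine ⟨D, M, h, 0, max Y₁ Y₂, fun L _ _ P T₀ a _ hY hP ha => ?_⟩
  have key : ∀ (S : Finset ℕ) (c : ℕ → Fin (d + 1) → ℤ), ∃ 𝒞 : Finset (Finset ℕ),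
      (𝒞.card ≤ M ∧ ∀ Z ∈ 𝒞, Z ⊆ P.N ∧ ∀ J, J.card = d - 0 →
        ∃ F, P.Dat Z J D F ∧ ∀ n ∈ Z, ∀ j, ht (eval (P.u n) (pderiv (some j) F)) ≤ P.Y ^ h) ∧
      (S ⊆ T₀ → S.card = v + 0 → ∀ n ∈ P.N, res_count a S n = c → ∃ Z ∈ 𝒞, n ∈ Z) := by
    intro S c
    by_cases hS : S ⊆ T₀ ∧ S.card = v + 0
    · have hC := cls_res_count P a ha S (P.N.filter (fun n => res_count a S n = c)) c
        (fun n hn => Finset.mem_filter.1 hn)
      have hR := h₁ L P _ S ((le_max_left _ _).trans hY) (fun q hq => hP q (hS.1 hq)) hC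
        (by omega)
      obtain ⟨𝒞, c1, c2, c3⟩ := h₂ L P ((le_max_right _ _).trans hY) _ hC.1 (fun J hJ => by
        have : J = Finset.univ := (Finset.card_eq_iff_eq_univ J).1 (by simpa using hJ)
        rw [this]; exact hR)
      exact ⟨𝒞, ⟨c1, fun Z hZ => ⟨(c3 Z hZ).1.trans hC.1, (c3 Z hZ).2⟩⟩,
        fun _ _ n hn hc => c2 n (Finset.mem_filter.2 ⟨hn, hc⟩)⟩
    · exact ⟨∅, ⟨by simp, by simp⟩, fun h1 h2 => absurd ⟨h1, h2⟩ hS⟩
  choose 𝓕 h𝓕 h𝓕' using key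
  exact ⟨𝓕, fun _ _ => ∅, by simp, h𝓕, fun n hn S hS hc _ => h𝓕' S _ hS hc n hn rfl⟩

theorem lvl_succ_count {d k wa wb v : ℕ} (hN : Num d k wa wb v) (n₀ i : ℕ) (hi : i < d)
    (H : Lvl_count d k wa wb v n₀ i) : Lvl_count d k wa wb v n₀ (i + 1) := by
  classical
  obtain ⟨D, M, h, b, Y₀, H⟩ := H
  obtain ⟨D', Y₁, h₁⟩ := step hN (d - (i + 1)) D (v + (i + 1)) (by omega)
  obtain ⟨h', M', Y₂, h₂⟩ := split d k wa wb D' (d - (i + 1))
  refine ⟨D', M ^ (v + (i + 1)) * M', h', b + 2 ^ d * d * (n₀ * h), max (max Y₀ 2) (max Y₁ Y₂),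
    fun L _ _ P T₀ a hn₀ hY hP ha => ?_⟩
  have hY0 : Y₀ ≤ P.Y := ((le_max_left _ _).trans (le_max_left _ _)).trans hY
  have hY2 : 2 ≤ P.Y := ((le_max_right _ _).trans (le_max_left _ _)).trans hY
  have hY1 : Y₁ ≤ P.Y := ((le_max_left _ _).trans (le_max_right _ _)).trans hY
  have hY3 : Y₂ ≤ P.Y := ((le_max_right _ _).trans (le_max_right _ _)).trans hY
  obtain ⟨𝓕, bad, hb, h𝓕, hcov⟩ := H L P T₀ a hn₀ hY0 hP ha
  have eF : ∀ (Z : Finset ℕ) (J : Finset (Fin d)), ∃ F, (∃ F', P.Dat Z J D F' ∧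
      ∀ n ∈ Z, ∀ j, ht (eval (P.u n) (pderiv (some j) F')) ≤ P.Y ^ h) → P.Dat Z J D F ∧
      ∀ n ∈ Z, ∀ j, ht (eval (P.u n) (pderiv (some j) F)) ≤ P.Y ^ h := by
    intro Z J
    by_cases hx : ∃ F', P.Dat Z J D F' ∧
      ∀ n ∈ Z, ∀ j, ht (eval (P.u n) (pderiv (some j) F')) ≤ P.Y ^ h
    · obtain ⟨F', hF'⟩ := hx
      exact ⟨F', fun _ => hF'⟩
    · exact ⟨0, fun h => absurd h hx⟩
  choose Fc hFc using eF
  have eZ : ∀ (n : ℕ) (T : Finset ℕ), ∃ Z, (∃ Z' ∈ 𝓕 T (res_count a T n), n ∈ Z') →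
      Z ∈ 𝓕 T (res_count a T n) ∧ n ∈ Z := by
    intro n T
    by_cases hx : ∃ Z' ∈ 𝓕 T (res_count a T n), n ∈ Z'
    · obtain ⟨Z', hZ'⟩ := hx
      exact ⟨Z', fun _ => hZ'⟩
    · exact ⟨∅, fun h => absurd h hx⟩
  choose Zc hZc using eZ
  have key : ∀ (S : Finset ℕ) (c : ℕ → Fin (d + 1) → ℤ) (φ : S → Finset ℕ),
      ∃ 𝒞 : Finset (Finset ℕ),
      (𝒞.card ≤ M' ∧ ∀ Z ∈ 𝒞, Z ⊆ P.N ∧ ∀ J, J.card = d - (i + 1) →
        ∃ F, P.Dat Z J D' F ∧ ∀ n ∈ Z, ∀ j, ht (eval (P.u n) (pderiv (some j) F)) ≤ P.Y ^ h') ∧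
      (S ⊆ T₀ → S.card = v + (i + 1) →
        (∀ q : S, φ q ∈ 𝓕 (S.erase q) (rstr_count (S.erase q) c)) →
        ∀ n ∈ P.N, res_count a S n = c → (∀ q : S, n ∈ φ q ∧ ∀ J, J.card = d - i → ∀ j,
          eval (P.u n) (pderiv (some j) (Fc (φ q) J)) = 0 ∨
            IsCoprime (eval (P.u n) (pderiv (some j) (Fc (φ q) J))) ((q : ℕ) : 𝓞 L)) →
          ∃ Z ∈ 𝒞, n ∈ Z) := by
    intro S c φ
    by_cases hS : S ⊆ T₀ ∧ S.card = v + (i + 1) ∧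
        ∀ q : S, φ q ∈ 𝓕 (S.erase q) (rstr_count (S.erase q) c)
    · set W := P.N.filter (fun n => res_count a S n = c ∧ ∀ q : S, n ∈ φ q ∧
        ∀ J, J.card = d - i → ∀ j, eval (P.u n) (pderiv (some j) (Fc (φ q) J)) = 0 ∨
            IsCoprime (eval (P.u n) (pderiv (some j) (Fc (φ q) J))) ((q : ℕ) : 𝓞 L)) with hW
      have hC := cls_res_count P a ha S W c
        (fun n hn => ⟨(Finset.mem_filter.1 hn).1, (Finset.mem_filter.1 hn).2.1⟩)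
      have hR := h₁ L P W S (fun q J => if hq : q ∈ S then Fc (φ ⟨q, hq⟩) J else 0) hY1
        (fun q hq => hP q (hS.1 hq)) hC (by omega) (by omega) (fun q hq J hJ => by
          have hJ' : J.card = d - i := by omega
          simp only [hq, dif_pos]
          obtain ⟨⟨f1, f2, f3, f4⟩, -⟩ :=
            hFc _ J (((h𝓕 _ _).2 _ (hS.2.2 ⟨q, hq⟩)).2 J hJ')
          exact ⟨⟨f1, f2, f3, fun n hn => f4 n ((Finset.mem_filter.1 hn).2.2 ⟨q, hq⟩).1⟩,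
            fun n hn j => ((Finset.mem_filter.1 hn).2.2 ⟨q, hq⟩).2 J hJ' j⟩)
      obtain ⟨𝒞, c1, c2, c3⟩ := h₂ L P hY3 W hC.1 hR
      exact ⟨𝒞, ⟨c1, fun Z hZ => ⟨(c3 Z hZ).1.trans hC.1, (c3 Z hZ).2⟩⟩,
        fun _ _ _ n hn hc hq => c2 n (Finset.mem_filter.2 ⟨hn, hc, hq⟩)⟩
    · exact ⟨∅, ⟨by simp, by simp⟩, fun h1 h2 h3 => absurd ⟨h1, h2, h3⟩ hS⟩
  choose 𝒞 h𝒞 h𝒞' using key
  refine ⟨fun S c => if S.card = v + (i + 1) then
      (Fintype.piFinset (fun q : S => 𝓕 (S.erase q) (rstr_count (S.erase q) c))).biUnion (𝒞 S c)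
      else ∅,
    fun n T => bad n T ∪ (Finset.univ : Finset (Finset (Fin d) × Fin d)).biUnion (fun x =>
      T₀.filter (fun q => eval (P.u n) (pderiv (some x.2) (Fc (Zc n T) x.1)) ≠ 0 ∧
        ht (eval (P.u n) (pderiv (some x.2) (Fc (Zc n T) x.1))) ≤ P.Y ^ h ∧
        ¬ IsCoprime (eval (P.u n) (pderiv (some x.2) (Fc (Zc n T) x.1))) (q : 𝓞 L))),
    fun n T => ?_, fun S c => ⟨?_, ?_⟩, fun n hn S hS hc hfree => ?_⟩
  · refine (Finset.card_union_le _ _).trans (Nat.add_le_add (hb n T) ?_)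
    refine (Finset.card_biUnion_le_card_mul _ _ (n₀ * h) (fun x _ => ?_)).trans (by simp)
    by_cases hz : eval (P.u n) (pderiv (some x.2) (Fc (Zc n T) x.1)) ≠ 0 ∧
        ht (eval (P.u n) (pderiv (some x.2) (Fc (Zc n T) x.1))) ≤ P.Y ^ h
    · rw [← hn₀]
      refine bad_card hz.1 P.Y (by linarith) h hz.2 _ (fun q hq => ?_)
      obtain ⟨q1, q2⟩ := Finset.mem_filter.1 hq
      exact ⟨(hP q q1).1, (hP q q1).2.1, q2.2.2⟩
    · rw [Finset.filter_eq_empty_iff.2 (fun q _ hq => hz ⟨hq.1, hq.2.1⟩)]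
      simp
  · beta_reduce
    split_ifs with hS
    · refine (Finset.card_biUnion_le_card_mul _ _ M' (fun φ _ => (h𝒞 S c φ).1)).trans
        (Nat.mul_le_mul_right _ ?_)
      rw [Fintype.card_piFinset, ← hS]
      refine (Finset.prod_le_pow_card _ _ M (fun q _ => (h𝓕 _ _).1)).trans (by simp)
    · simp
  · intro Z hZ
    beta_reduce at hZ
    split_ifs at hZ with hS
    · obtain ⟨φ, -, hφ⟩ := Finset.mem_biUnion.1 hZ
      exact (h𝒞 S c φ).2 Z hφ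
    · simp at hZ
  · simp only [hc, if_true]
    have hq : ∀ q : S, Zc n (S.erase q) ∈ 𝓕 (S.erase q) (res_count a (S.erase q) n) ∧
        n ∈ Zc n (S.erase q) := by
      intro q
      refine hZc n _ (hcov n hn _ ((Finset.erase_subset _ _).trans hS) ?_ ?_)
      · rw [Finset.card_erase_of_mem q.2, hc]; omega
      · intro T hT q' hq' hq'T hbad
        exact hfree T (hT.trans (Finset.erase_subset _ _)) q' (Finset.mem_of_mem_erase hq') hq'T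
          (Finset.mem_union_left _ hbad)
    have hφ : ∀ q : S, Zc n (S.erase q) ∈
        𝓕 (S.erase q) (rstr_count (S.erase q) (res_count a S n)) := fun q => by
      rw [rstr_res_count a (Finset.erase_subset _ _)]; exact (hq q).1
    obtain ⟨Z, hZ, hnZ⟩ := h𝒞' S _ (fun q => Zc n (S.erase q)) hS hc hφ n hn rfl (fun q => by
      refine ⟨(hq q).2, fun J hJ j => ?_⟩
      by_contra hcon
      rw [not_or] at hcon
      refine hfree (S.erase q) (Finset.erase_subset _ _) q q.2 (Finset.notMem_erase _ _)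
        (Finset.mem_union_right _ (Finset.mem_biUnion.2 ⟨(J, j), Finset.mem_univ _, ?_⟩))
      refine Finset.mem_filter.2 ⟨hS q.2, hcon.1, ?_, hcon.2⟩
      exact (hFc _ J (((h𝓕 _ _).2 _ (hq q).1).2 J hJ)).2 n (hq q).2 j)
    exact ⟨Z, Finset.mem_biUnion.2 ⟨_, Fintype.mem_piFinset.2 hφ, hZ⟩, hnZ⟩

theorem lvl_count {d k wa wb v : ℕ} (hN : Num d k wa wb v) (n₀ : ℕ) :
    ∀ i ≤ d, Lvl_count d k wa wb v n₀ i := by
  intro i
  induction i with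
  | zero => exact fun _ => lvl_zero_count hN n₀
  | succ i ih => exact fun h => lvl_succ_count hN n₀ i (by omega) (ih (by omega))

theorem count {d k wa wb v : ℕ} (hN : Num d k wa wb v) (n₀ : ℕ) : ∃ (M C : ℕ) (Y₀ : ℝ),
    ∀ (L : Type) [Field L] [NumberField L] (P : Pts L d k wa wb) (T₀ : Finset ℕ) (Q : ℕ)
    (a : ℕ → Fin (d + 1) → ℤ), Module.finrank ℚ L = n₀ → Y₀ ≤ P.Y → T₀.card = M → P.Pool T₀ →
    (∀ q ∈ T₀, q ≤ Q) →
    (∀ q : ℕ, ∀ n ∈ P.N, ∀ n' ∈ P.N, (∀ t, (q : ℤ) ∣ a n t - a n' t) →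
      ∀ s, (q : 𝓞 L) ∣ P.u n s - P.u n' s) →
    P.N.card ≤ C * Q ^ ((v + d) * (d + 1)) := by
  classical
  obtain ⟨D, M, h, b, Y₀, H⟩ := lvl_count hN n₀ d le_rfl
  obtain ⟨M₀, hM₀⟩ := free_set (v + d) b
  refine ⟨M₀, 2 ^ M₀ * (M * D), Y₀, fun L _ _ P T₀ Q a hn₀ hY hT hP hQ ha => ?_⟩
  obtain ⟨𝓕, bad, hb, h𝓕, hcov⟩ := H L P T₀ a hn₀ hY hP ha
  have hsub : P.N ⊆ (T₀.powerset.filter (fun S => S.card = v + d)).biUnion (fun S =>
      (P.N.image (res_count a S)).biUnion (fun c => (𝓕 S c).biUnion id)) := by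
    intro n hn
    obtain ⟨S, hS, hc, hfree⟩ := hM₀ T₀ hT.ge (bad n) (hb n)
    obtain ⟨Z, hZ, hnZ⟩ := hcov n hn S hS hc hfree
    exact Finset.mem_biUnion.2 ⟨S, Finset.mem_filter.2 ⟨Finset.mem_powerset.2 hS, hc⟩,
      Finset.mem_biUnion.2 ⟨_, Finset.mem_image_of_mem _ hn, Finset.mem_biUnion.2 ⟨Z, hZ, hnZ⟩⟩⟩
  refine (Finset.card_le_card hsub).trans ?_
  refine (Finset.card_biUnion_le_card_mul _ _ (Q ^ ((v + d) * (d + 1)) * (M * D))
    (fun S hS => ?_)).trans ?_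
  · obtain ⟨hS1, hS2⟩ := Finset.mem_filter.1 hS
    have hS1' := Finset.mem_powerset.1 hS1
    refine (Finset.card_biUnion_le_card_mul _ _ (M * D) (fun c _ => ?_)).trans
      (Nat.mul_le_mul_right _ ?_)
    · refine (Finset.card_biUnion_le_card_mul _ _ D (fun Z hZ => ?_)).trans
        (Nat.mul_le_mul_right _ (h𝓕 S c).1)
      obtain ⟨z1, z2⟩ := (h𝓕 S c).2 Z hZ
      obtain ⟨F, hF, -⟩ := z2 ∅ (by simp)
      exact Pts.Rel.card_le z1 hF.rel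
    · rw [← hS2]
      exact card_res_count a S P.N Q (fun q hq => ⟨(hP q (hS1' hq)).1.pos, hQ q (hS1' hq)⟩)
  · have : (T₀.powerset.filter (fun S => S.card = v + d)).card ≤ 2 ^ M₀ :=
      (Finset.card_filter_le _ _).trans (by rw [Finset.card_powerset, hT])
    calc _ ≤ 2 ^ M₀ * (Q ^ ((v + d) * (d + 1)) * (M * D)) := Nat.mul_le_mul_right _ this
      _ = _ := by ring

end Vale.Agent.P018
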