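import Vale.Agent.P018.Step2
import Vale.Agent.P018.Chart
import Vale.Agent.P018.Free

namespace Vale.Agent.P018

open NumberField MvPolynomial

/-- residues modulo the primes of `S` -/
def res2 {ι : Type} (a : ℕ → ℕ → ι → ℕ) (S : Finset ℕ) (n : ℕ) : ℕ → ι → ℕ :=
  fun q t => if q ∈ S then a q n t else 0

def rstr2 {ι : Type} (T : Finset ℕ) (c : ℕ → ι → ℕ) : ℕ → ι → ℕ :=
  fun q t => if q ∈ T then c q t else 0

theorem rstr_res2 {ι : Type} (a : ℕ → ℕ → ι → ℕ) {S T : Finset ℕ} (h : T ⊆ S) (n : ℕ) :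
    rstr2 T (res2 a S n) = res2 a T n := by
  funext q t
  unfold rstr2 res2
  by_cases hq : q ∈ T
  · simp [hq, h hq]
  · simp [hq]

theorem res2_update {ι : Type} (a : ℕ → ℕ → ι → ℕ) {S : Finset ℕ} {q : ℕ} (hq : q ∈ S) (n : ℕ) :
    res2 a S n = Function.update (res2 a (S.erase q) n) q (a q n) := by
  funext q' t
  by_cases h : q' = q
  · subst h; simp [res2, hq]
  · simp [res2, h]

theorem all_res2 {ι : Type} [Fintype ι] (a : ℕ → ℕ → ι → ℕ) (S : Finset ℕ) (Q : ℕ)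
    (hS : ∀ q ∈ S, ∀ n t, a q n t < Q) :
    ∃ 𝒱 : Finset (ℕ → ι → ℕ), 𝒱.card ≤ Q ^ (S.card * Fintype.card ι) ∧ ∀ n, res2 a S n ∈ 𝒱 := by
  classical
  refine ⟨(Fintype.piFinset (fun _ : S => Fintype.piFinset (fun _ : ι => Finset.range Q))).image
        (fun φ (q : ℕ) (t : ι) => if h : q ∈ S then φ ⟨q, h⟩ t else 0), ?_, fun n => ?_⟩
  · refine Finset.card_image_le.trans ?_
    simp only [Fintype.card_piFinset, Finset.card_range, Finset.prod_const,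
      Finset.card_univ, Fintype.card_coe]
    rw [← pow_mul, mul_comm]
  · refine Finset.mem_image.2 ⟨fun q t => a q n t, ?_, ?_⟩
    · simp only [Fintype.mem_piFinset, Finset.mem_range]
      exact fun q t => hS q q.2 n t
    · funext q t
      unfold res2
      by_cases hq : q ∈ S <;> simp [hq]

/-- `a` lists the reductions of the coordinates -/
def Spa2 {L : Type} [Field L] [NumberField L] {d k wa wb : ℕ} (P : Pts L d k wa wb)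
    (T : Finset ℕ) (a : ℕ → ℕ → Option (Fin d) → ℕ) : Prop :=
  ∀ q ∈ T, ∃ π : 𝓞 L →+* ZMod q, (∀ n, a q n = fun s => (π (P.u n s)).val) ∧
    ∀ n ∈ P.N, ∀ n' ∈ P.N,
    (∀ s, π (P.u n s) = π (P.u n' s)) → ∀ s, (q : 𝓞 L) ∣ P.u n s - P.u n' s

theorem cls_res2 {L : Type} [Field L] [NumberField L] {d k wa wb : ℕ} (P : Pts L d k wa wb)
    {T : Finset ℕ} (hP : P.Pool T) {a : ℕ → ℕ → Option (Fin d) → ℕ} (ha : Spa2 P T a)
    {S : Finset ℕ} (hS : S ⊆ T) (W : Finset ℕ) (c : ℕ → Option (Fin d) → ℕ)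
    (hW : ∀ n ∈ W, n ∈ P.N ∧ res2 a S n = c) : P.Cls W S := by
  refine ⟨fun n hn => (hW n hn).1, fun q hq n hn n' hn' => ?_⟩
  obtain ⟨π, h1, h2⟩ := ha q (hS hq)
  refine h2 n (hW n hn).1 n' (hW n' hn').1 (fun t => ?_)
  have h := congrFun (congrFun ((hW n hn).2.trans (hW n' hn').2.symm) q) t
  simp only [res2, hq, if_true, h1] at h
  haveI : NeZero q := ⟨(hP q (hS hq)).1.ne_zero⟩
  exact ZMod.val_injective q h

/-- one stage of the descent: `s` primes, pieces of type `r`, at most `C Q ^ e` classes -/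
def Lvl2 (d k wa wb n₀ s r e : ℕ) : Prop :=
  ∃ (D M h c b C : ℕ) (Y₀ : ℝ), ∀ (L : Type) [Field L] [NumberField L] (P : Pts L d k wa wb)
    (T₀ : Finset ℕ) (Q : ℕ) (a : ℕ → ℕ → Option (Fin d) → ℕ), Module.finrank ℚ L = n₀ →
    Y₀ ≤ P.Y → P.Pool T₀ → Spa2 P T₀ a → 1 ≤ Q → (∀ q ∈ T₀, q ≤ Q) →
    ∃ (𝓕 : Finset ℕ → (ℕ → Option (Fin d) → ℕ) → Finset (Finset ℕ))
      (bad : ℕ → Finset ℕ → Finset ℕ), (∀ n T, (bad n T).card ≤ b) ∧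
      (∀ S c', (𝓕 S c').card ≤ M ∧ ∀ Z ∈ 𝓕 S c', Z ⊆ P.N ∧ P.Cnt Z r c h ∧ ∀ J, J.card = r →
        ∃ F, P.Dat Z J D F ∧ ∀ n ∈ Z, ∀ j, ht (eval (P.u n) (pderiv (some j) F)) ≤ P.Y ^ h) ∧
      (∀ n ∈ P.N, ∀ S ⊆ T₀, S.card = s → (∀ T ⊆ S, ∀ q ∈ S, q ∉ T → q ∉ bad n T) →
        ∃ Z ∈ 𝓕 S (res2 a S n), n ∈ Z) ∧
      ∀ S ⊆ T₀, S.card = s → ∃ 𝒱 : Finset (ℕ → Option (Fin d) → ℕ), 𝒱.card ≤ C * Q ^ e ∧
        ∀ n ∈ P.N, (∀ T ⊆ S, ∀ q ∈ S, q ∉ T → q ∉ bad n T) → res2 a S n ∈ 𝒱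

/-- the statement of a cutting step from type `r` to type `r'` with `m` primes -/
def Stp2 (d k wa wb m r r' : ℕ) : Prop :=
  ∀ D : ℕ, ∃ (D' : ℕ) (Y₀ : ℝ), ∀ (L : Type) [Field L] [NumberField L] (P : Pts L d k wa wb)
    (W S : Finset ℕ) (F : ℕ → Finset (Fin d) → MvPolynomial (Option (Fin d)) (𝓞 L)),
    Y₀ ≤ P.Y → P.Pool S → P.Cls W S → S.card = m →
    (∀ q ∈ S, ∀ J, J.card = r → P.Dat W J D (F q J) ∧ ∀ n ∈ W, ∀ j,
      eval (P.u n) (pderiv (some j) (F q J)) = 0 ∨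
        IsCoprime (eval (P.u n) (pderiv (some j) (F q J))) (q : 𝓞 L)) →
    ∀ J, J.card = r' → P.Rel W J D'

theorem stp2_same (d k wa wb m r : ℕ) : Stp2 d k wa wb (m + 1) r r := by
  intro D
  refine ⟨D, 0, fun L _ _ P W S F _ _ _ hS hF J hJ => ?_⟩
  obtain ⟨q, hq⟩ : S.Nonempty := Finset.card_pos.1 (by omega)
  exact (hF q hq J hJ).1.rel

theorem lvl2_zero {d k wa wb v : ℕ} (hd : 4 ≤ d) (hk : 2 ≤ k) (ha : 1 ≤ wa) (hb : 1 ≤ wb)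
    (hN : LevOK d k wa wb (d + 1) v) (n₀ : ℕ) : Lvl2 d k wa wb n₀ v d (v * (d + 1)) := by
  classical
  obtain ⟨D, Y₁, h₁⟩ := top2 hd hk ha hb hN
  obtain ⟨h, M, c, Y₂, h₂⟩ := split2 d k wa wb D d le_rfl
  refine ⟨D, M, h, c, 0, 1, max Y₁ Y₂, fun L _ _ P T₀ Q a _ hY hP hA _ hQ => ?_⟩
  have key : ∀ (S : Finset ℕ) (c' : ℕ → Option (Fin d) → ℕ), ∃ 𝒞 : Finset (Finset ℕ),
      (𝒞.card ≤ M ∧ ∀ Z ∈ 𝒞, Z ⊆ P.N ∧ P.Cnt Z d c h ∧ ∀ J, J.card = d →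
        ∃ F, P.Dat Z J D F ∧ ∀ n ∈ Z, ∀ j, ht (eval (P.u n) (pderiv (some j) F)) ≤ P.Y ^ h) ∧
      (S ⊆ T₀ → S.card = v → ∀ n ∈ P.N, res2 a S n = c' → ∃ Z ∈ 𝒞, n ∈ Z) := by
    intro S c'
    by_cases hS : S ⊆ T₀ ∧ S.card = v
    · have hC := cls_res2 P hP hA hS.1 (P.N.filter (fun n => res2 a S n = c')) c'
        (fun n hn => Finset.mem_filter.1 hn)
      have hR := h₁ L P _ S ((le_max_left _ _).trans hY) (fun q hq => hP q (hS.1 hq)) hC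
        (by omega)
      obtain ⟨𝒞, c1, c2, c3⟩ := h₂ L P ((le_max_right _ _).trans hY) _ hC.1 (fun J hJ => by
        have : J = Finset.univ := (Finset.card_eq_iff_eq_univ J).1 (by simpa using hJ)
        rw [this]; exact hR)
      exact ⟨𝒞, ⟨c1, fun Z hZ => ⟨(c3 Z hZ).1.trans hC.1, (c3 Z hZ).2⟩⟩,
        fun _ _ n hn hc => c2 n (Finset.mem_filter.2 ⟨hn, hc⟩)⟩
    · exact ⟨∅, ⟨by simp, by simp⟩, fun h1 h2 => absurd ⟨h1, h2⟩ hS⟩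
  choose 𝓕 h𝓕 h𝓕' using key
  refine ⟨𝓕, fun _ _ => ∅, by simp, h𝓕, fun n hn S hS hc _ => h𝓕' S _ hS hc n hn rfl,
    fun S hS hc => ?_⟩
  obtain ⟨𝒱, v1, v2⟩ := all_res2 a S Q (fun q hq n t => by
    obtain ⟨π, h1, -⟩ := hA q (hS hq)
    haveI : NeZero q := ⟨(hP q (hS hq)).1.ne_zero⟩
    rw [h1]
    exact (ZMod.val_lt _).trans_le (hQ q (hS hq)))
  exact ⟨𝒱, by simpa [hc] using v1, fun n _ _ => v2 n⟩

theorem lvl2_succ {d k wa wb n₀ s r r' e : ℕ} (hr : r' ≤ d) (hst : Stp2 d k wa wb (s + 1) r r')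
    (H : Lvl2 d k wa wb n₀ s r e) : Lvl2 d k wa wb n₀ (s + 1) r' (e + r) := by
  classical
  obtain ⟨D, M, h, c, b, C, Y₀, H⟩ := H
  obtain ⟨D', Y₁, h₁⟩ := hst D
  obtain ⟨h', M', c₁, Y₂, h₂⟩ := split2 d k wa wb D' r' hr
  refine ⟨D', M ^ (s + 1) * M', h', c₁, b + 2 ^ d * d * (n₀ * h) + d * (n₀ * h), C * (M * c),
    max (max Y₀ 2) (max Y₁ Y₂), fun L _ _ P T₀ Q a hn₀ hY hP hA hQ1 hQ => ?_⟩
  have hY0 : Y₀ ≤ P.Y := ((le_max_left _ _).trans (le_max_left _ _)).trans hY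
  have hY2 : 2 ≤ P.Y := ((le_max_right _ _).trans (le_max_left _ _)).trans hY
  have hY1 : Y₁ ≤ P.Y := ((le_max_left _ _).trans (le_max_right _ _)).trans hY
  have hY3 : Y₂ ≤ P.Y := ((le_max_right _ _).trans (le_max_right _ _)).trans hY
  obtain ⟨𝓕, bad, hb, h𝓕, hcov, hcnt⟩ := H L P T₀ Q a hn₀ hY0 hP hA hQ1 hQ
  have eF : ∀ (Z : Finset ℕ) (J : Finset (Fin d)), ∃ F, (∃ F', P.Dat Z J D F' ∧
      ∀ n ∈ Z, ∀ j, ht (eval (P.u n) (pderiv (some j) F')) ≤ P.Y ^ h) → P.Dat Z J D F ∧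
      ∀ n ∈ Z, ∀ j, ht (eval (P.u n) (pderiv (some j) F)) ≤ P.Y ^ h := by
    intro Z J
    by_cases hx : ∃ F', P.Dat Z J D F' ∧
      ∀ n ∈ Z, ∀ j, ht (eval (P.u n) (pderiv (some j) F')) ≤ P.Y ^ h
    · obtain ⟨F', hF'⟩ := hx
      exact ⟨F', fun _ => hF'⟩
    · exact ⟨0, fun h => absurd h hx⟩
  choose Fc hFc using eF
  have ez : ∀ Z : Finset ℕ, ∃ z : ℕ → Fin d → 𝓞 L, P.Cnt Z r c h →
      (∀ n ∈ Z, ∀ i, z n i ≠ 0 ∧ ht (z n i) ≤ P.Y ^ h) ∧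
      ∀ (q : ℕ) (π : 𝓞 L →+* ZMod q), q.Prime →
        ∃ 𝒱 : Finset (Option (Fin d) → ℕ), 𝒱.card ≤ c * q ^ r ∧
          ∀ n ∈ Z, (∀ i, IsCoprime (z n i) (q : 𝓞 L)) → (fun s => (π (P.u n s)).val) ∈ 𝒱 := by
    intro Z
    by_cases hx : P.Cnt Z r c h
    · obtain ⟨z, hz⟩ := hx
      exact ⟨z, fun _ => hz⟩
    · exact ⟨0, fun h => absurd h hx⟩
  choose zc hzc using ez
  have eZ : ∀ (n : ℕ) (T : Finset ℕ), ∃ Z, (∃ Z' ∈ 𝓕 T (res2 a T n), n ∈ Z') →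
      Z ∈ 𝓕 T (res2 a T n) ∧ n ∈ Z := by
    intro n T
    by_cases hx : ∃ Z' ∈ 𝓕 T (res2 a T n), n ∈ Z'
    · obtain ⟨Z', hZ'⟩ := hx
      exact ⟨Z', fun _ => hZ'⟩
    · exact ⟨∅, fun h => absurd h hx⟩
  choose Zc hZc using eZ
  have key : ∀ (S : Finset ℕ) (c' : ℕ → Option (Fin d) → ℕ) (φ : S → Finset ℕ),
      ∃ 𝒞 : Finset (Finset ℕ),
      (𝒞.card ≤ M' ∧ ∀ Z ∈ 𝒞, Z ⊆ P.N ∧ P.Cnt Z r' c₁ h' ∧ ∀ J, J.card = r' →
        ∃ F, P.Dat Z J D' F ∧ ∀ n ∈ Z, ∀ j, ht (eval (P.u n) (pderiv (some j) F)) ≤ P.Y ^ h') ∧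
      (S ⊆ T₀ → S.card = s + 1 →
        (∀ q : S, φ q ∈ 𝓕 (S.erase q) (rstr2 (S.erase q) c')) →
        ∀ n ∈ P.N, res2 a S n = c' → (∀ q : S, n ∈ φ q ∧ ∀ J, J.card = r → ∀ j,
          eval (P.u n) (pderiv (some j) (Fc (φ q) J)) = 0 ∨
            IsCoprime (eval (P.u n) (pderiv (some j) (Fc (φ q) J))) ((q : ℕ) : 𝓞 L)) →
          ∃ Z ∈ 𝒞, n ∈ Z) := by
    intro S c' φ
    by_cases hS : S ⊆ T₀ ∧ S.card = s + 1 ∧
        ∀ q : S, φ q ∈ 𝓕 (S.erase q) (rstr2 (S.erase q) c')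
    · set W := P.N.filter (fun n => res2 a S n = c' ∧ ∀ q : S, n ∈ φ q ∧
        ∀ J, J.card = r → ∀ j, eval (P.u n) (pderiv (some j) (Fc (φ q) J)) = 0 ∨
            IsCoprime (eval (P.u n) (pderiv (some j) (Fc (φ q) J))) ((q : ℕ) : 𝓞 L)) with hW
      have hC := cls_res2 P hP hA hS.1 W c'
        (fun n hn => ⟨(Finset.mem_filter.1 hn).1, (Finset.mem_filter.1 hn).2.1⟩)
      have hR := h₁ L P W S (fun q J => if hq : q ∈ S then Fc (φ ⟨q, hq⟩) J else 0) hY1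
        (fun q hq => hP q (hS.1 hq)) hC hS.2.1 (fun q hq J hJ' => by
          simp only [hq, dif_pos]
          obtain ⟨⟨f1, f2, f3, f4⟩, -⟩ :=
            hFc _ J (((h𝓕 _ _).2 _ (hS.2.2 ⟨q, hq⟩)).2.2 J hJ')
          exact ⟨⟨f1, f2, f3, fun n hn => f4 n ((Finset.mem_filter.1 hn).2.2 ⟨q, hq⟩).1⟩,
            fun n hn j => ((Finset.mem_filter.1 hn).2.2 ⟨q, hq⟩).2 J hJ' j⟩)
      obtain ⟨𝒞, c1, c2, c3⟩ := h₂ L P hY3 W hC.1 hR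
      exact ⟨𝒞, ⟨c1, fun Z hZ => ⟨(c3 Z hZ).1.trans hC.1, (c3 Z hZ).2⟩⟩,
        fun _ _ _ n hn hc hq => c2 n (Finset.mem_filter.2 ⟨hn, hc, hq⟩)⟩
    · exact ⟨∅, ⟨by simp, by simp⟩, fun h1 h2 h3 => absurd ⟨h1, h2, h3⟩ hS⟩
  choose 𝒞 h𝒞 h𝒞' using key
  have hbc : ∀ z : 𝓞 L, (T₀.filter (fun q : ℕ => z ≠ 0 ∧ ht z ≤ P.Y ^ h ∧
      ¬ IsCoprime z (q : 𝓞 L))).card ≤ n₀ * h := by
    intro z
    by_cases hz : z ≠ 0 ∧ ht z ≤ P.Y ^ h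
    · rw [← hn₀]
      refine bad_card hz.1 P.Y (by linarith) h hz.2 _ (fun q hq => ?_)
      obtain ⟨q1, q2⟩ := Finset.mem_filter.1 hq
      exact ⟨(hP q q1).1, (hP q q1).2.1, q2.2.2⟩
    · rw [Finset.filter_eq_empty_iff.2 (fun q _ hq => hz ⟨hq.1, hq.2.1⟩)]
      simp
  obtain ⟨bad', hbad'⟩ : ∃ bad' : ℕ → Finset ℕ → Finset ℕ, bad' = fun n T =>
      bad n T ∪ (Finset.univ : Finset (Finset (Fin d) × Fin d)).biUnion (fun x =>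
        T₀.filter (fun q : ℕ => eval (P.u n) (pderiv (some x.2) (Fc (Zc n T) x.1)) ≠ 0 ∧
          ht (eval (P.u n) (pderiv (some x.2) (Fc (Zc n T) x.1))) ≤ P.Y ^ h ∧
          ¬ IsCoprime (eval (P.u n) (pderiv (some x.2) (Fc (Zc n T) x.1))) (q : 𝓞 L))) ∪
      (Finset.univ : Finset (Fin d)).biUnion (fun i => T₀.filter (fun q : ℕ =>
        zc (Zc n T) n i ≠ 0 ∧ ht (zc (Zc n T) n i) ≤ P.Y ^ h ∧
          ¬ IsCoprime (zc (Zc n T) n i) (q : 𝓞 L))) := ⟨_, rfl⟩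
  have hfr : ∀ n (S : Finset ℕ), (∀ T ⊆ S, ∀ q ∈ S, q ∉ T → q ∉ bad' n T) → ∀ q,
      ∀ T ⊆ S.erase q, ∀ q' ∈ S.erase q, q' ∉ T → q' ∉ bad n T := by
    intro n S hfree q T hT q' hq' hq'T hbad
    refine hfree T (hT.trans (Finset.erase_subset _ _)) q' (Finset.mem_of_mem_erase hq') hq'T ?_
    rw [hbad']
    exact Finset.mem_union_left _ (Finset.mem_union_left _ hbad)
  have hZq : ∀ n ∈ P.N, ∀ S ⊆ T₀, S.card = s + 1 → (∀ T ⊆ S, ∀ q ∈ S, q ∉ T → q ∉ bad' n T) →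
      ∀ q ∈ S, Zc n (S.erase q) ∈ 𝓕 (S.erase q) (res2 a (S.erase q) n) ∧
        n ∈ Zc n (S.erase q) := by
    intro n hn S hS hc hfree q hq
    refine hZc n _ (hcov n hn _ ((Finset.erase_subset _ _).trans hS) ?_ (hfr n S hfree q))
    rw [Finset.card_erase_of_mem hq, hc]; omega
  refine ⟨fun S c' => if S.card = s + 1 then
      (Fintype.piFinset (fun q : S => 𝓕 (S.erase q) (rstr2 (S.erase q) c'))).biUnion (𝒞 S c')
      else ∅, bad',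
    fun n T => ?_, fun S c' => ⟨?_, ?_⟩, fun n hn S hS hc hfree => ?_, fun S hS hc => ?_⟩
  · rw [hbad']
    refine (Finset.card_union_le _ _).trans (Nat.add_le_add
      ((Finset.card_union_le _ _).trans (Nat.add_le_add (hb n T) ?_)) ?_)
    · exact (Finset.card_biUnion_le_card_mul _ _ (n₀ * h) (fun x _ => hbc _)).trans (by simp)
    · exact (Finset.card_biUnion_le_card_mul _ _ (n₀ * h) (fun x _ => hbc _)).trans (by simp)
  · beta_reduce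
    split_ifs with hS
    · refine (Finset.card_biUnion_le_card_mul _ _ M' (fun φ _ => (h𝒞 S c' φ).1)).trans
        (Nat.mul_le_mul_right _ ?_)
      rw [Fintype.card_piFinset, ← hS]
      refine (Finset.prod_le_pow_card _ _ M (fun q _ => (h𝓕 _ _).1)).trans (by simp)
    · simp
  · intro Z hZ
    beta_reduce at hZ
    split_ifs at hZ with hS
    · obtain ⟨φ, -, hφ⟩ := Finset.mem_biUnion.1 hZ
      exact (h𝒞 S c' φ).2 Z hφ
    · simp at hZ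
  · simp only [hc, if_true]
    have hq := hZq n hn S hS hc hfree
    have hφ : ∀ q : S, Zc n (S.erase q) ∈
        𝓕 (S.erase q) (rstr2 (S.erase q) (res2 a S n)) := fun q => by
      rw [rstr_res2 a (Finset.erase_subset _ _)]; exact (hq q q.2).1
    obtain ⟨Z, hZ, hnZ⟩ := h𝒞' S _ (fun q => Zc n (S.erase q)) hS hc hφ n hn rfl (fun q => by
      refine ⟨(hq q q.2).2, fun J hJ j => ?_⟩
      by_contra hcon
      rw [not_or] at hcon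
      refine hfree (S.erase q) (Finset.erase_subset _ _) q q.2 (Finset.notMem_erase _ _) ?_
      rw [hbad']
      refine Finset.mem_union_left _
        (Finset.mem_union_right _ (Finset.mem_biUnion.2 ⟨(J, j), Finset.mem_univ _, ?_⟩))
      refine Finset.mem_filter.2 ⟨hS q.2, hcon.1, ?_, hcon.2⟩
      exact (hFc _ J (((h𝓕 _ _).2 _ (hq q q.2).1).2.2 J hJ)).2 n (hq q q.2).2 j)
    exact ⟨Z, Finset.mem_biUnion.2 ⟨_, Fintype.mem_piFinset.2 hφ, hZ⟩, hnZ⟩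
  · obtain ⟨q, hq⟩ : S.Nonempty := Finset.card_pos.1 (by omega)
    obtain ⟨𝒱, v1, v2⟩ := hcnt (S.erase q) ((Finset.erase_subset _ _).trans hS)
      (by rw [Finset.card_erase_of_mem hq, hc]; omega)
    obtain ⟨π, hπ, -⟩ := hA q (hS hq)
    have eV : ∀ Z : Finset ℕ, ∃ 𝒰 : Finset (Option (Fin d) → ℕ), 𝒰.card ≤ c * Q ^ r ∧
        (P.Cnt Z r c h → ∀ n ∈ Z, (∀ i, IsCoprime (zc Z n i) (q : 𝓞 L)) → a q n ∈ 𝒰) := by
      intro Z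
      by_cases hx : P.Cnt Z r c h
      · obtain ⟨𝒰, u1, u2⟩ := (hzc Z hx).2 q π (hP q (hS hq)).1
        exact ⟨𝒰, u1.trans (Nat.mul_le_mul_left _ (Nat.pow_le_pow_left (hQ q (hS hq)) _)),
          fun _ n hn hi => by rw [hπ]; exact u2 n hn hi⟩
      · exact ⟨∅, by simp, fun h => absurd h hx⟩
    choose 𝒰 u1 u2 using eV
    refine ⟨𝒱.biUnion (fun c' => (𝓕 (S.erase q) c').biUnion (fun Z =>
      (𝒰 Z).image (fun w => Function.update c' q w))), ?_, fun n hn hfree => ?_⟩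
    · refine (Finset.card_biUnion_le_card_mul _ _ (M * (c * Q ^ r)) (fun c' _ => ?_)).trans ?_
      · refine (Finset.card_biUnion_le_card_mul _ _ (c * Q ^ r) (fun Z _ =>
          Finset.card_image_le.trans (u1 Z))).trans (Nat.mul_le_mul_right _ (h𝓕 _ _).1)
      · calc _ ≤ C * Q ^ e * (M * (c * Q ^ r)) := Nat.mul_le_mul_right _ v1
          _ = _ := by ring
    · obtain ⟨z1, z2⟩ := hZq n hn S hS hc hfree q hq
      have hcn := ((h𝓕 _ _).2 _ z1).2.1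
      refine Finset.mem_biUnion.2 ⟨_, v2 n hn (hfr n S hfree q), Finset.mem_biUnion.2 ⟨_, z1,
        Finset.mem_image.2 ⟨a q n, u2 _ hcn n z2 (fun i => ?_), (res2_update a hq n).symm⟩⟩⟩
      by_contra hcon
      refine hfree (S.erase q) (Finset.erase_subset _ _) q hq (Finset.notMem_erase _ _) ?_
      rw [hbad']
      exact Finset.mem_union_right _ (Finset.mem_biUnion.2 ⟨i, Finset.mem_univ _,
        Finset.mem_filter.2 ⟨hS hq, ((hzc _ hcn).1 n z2 i).1, ((hzc _ hcn).1 n z2 i).2, hcon⟩⟩)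

theorem lvl2_grow {d k wa wb n₀ s r e : ℕ} (hr : r ≤ d) (H : Lvl2 d k wa wb n₀ s r e) (t : ℕ) :
    Lvl2 d k wa wb n₀ (s + t) r (e + r * t) := by
  induction t with
  | zero => simpa using H
  | succ t ih =>
    have := lvl2_succ hr (stp2_same d k wa wb (s + t) r) ih
    rwa [add_assoc s, add_assoc e, ← mul_add_one] at this

theorem lvl2_all {d k wa wb : ℕ} (hd : 4 ≤ d) (hk : 2 ≤ k) (ha : 1 ≤ wa) (hb : 1 ≤ wb)
    (v : ℕ → ℕ) (h1 : ∀ r, 1 ≤ r → r ≤ d + 1 → LevOK d k wa wb r (v r))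
    (h2 : ∀ r, 1 ≤ r → r ≤ d → v (r + 1) ≤ v r) (n₀ : ℕ) : ∀ i r, r + i = d →
    ∃ e, e ≤ ∑ t ∈ Finset.Icc (r + 1) (d + 1), v t + r * v (r + 1) + i * d ∧
      Lvl2 d k wa wb n₀ (v (r + 1) + i) r e := by
  intro i
  induction i with
  | zero =>
    intro r hr
    obtain rfl : r = d := by omega
    exact ⟨_, by simp [mul_comm, add_mul, add_comm],
      lvl2_zero hd hk ha hb (h1 _ (by omega) le_rfl) n₀⟩
  | succ i ih =>
    intro r hr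
    obtain ⟨e, he, H⟩ := ih (r + 1) (by omega)
    obtain ⟨t, ht⟩ : ∃ t, v (r + 1) = v (r + 1 + 1) + t :=
      ⟨_, (Nat.add_sub_cancel' (h2 (r + 1) (by omega) (by omega))).symm⟩
    have H1 := lvl2_grow (by omega) H t
    have hst : Stp2 d k wa wb (v (r + 1 + 1) + i + t + 1) (r + 1) r := by
      intro D
      obtain ⟨D', Y₀, h⟩ := step2 hd hk ha hb r D (v (r + 1 + 1) + i + t + 1) (by omega)
        (h1 (r + 1) (by omega) (by omega))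
      exact ⟨D', Y₀, fun L _ _ P W S F hY hP hC hS hF => h L P W S F hY hP hC (by omega)
        (by omega) hF⟩
    have H2 := lvl2_succ (by omega) hst H1
    refine ⟨e + (r + 1) * t + (r + 1), ?_, by convert H2 using 1; omega⟩
    rw [← Finset.add_sum_Ioc_eq_sum_Icc (by omega : r + 1 ≤ d + 1),
      ← Finset.Icc_add_one_left_eq_Ioc]
    have : r + 1 ≤ d := by omega
    rw [ht] at *
    nlinarith

theorem count2 {d k wa wb E : ℕ} (hd : 4 ≤ d) (hk : 2 ≤ k) (ha : 1 ≤ wa) (hb : 1 ≤ wb)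
    (hN : Plan d k wa wb E) (n₀ : ℕ) : ∃ (M C : ℕ) (Y₀ : ℝ),
    ∀ (L : Type) [Field L] [NumberField L] (P : Pts L d k wa wb) (T₀ : Finset ℕ) (Q : ℕ),
    Module.finrank ℚ L = n₀ → Y₀ ≤ P.Y → M ≤ T₀.card → P.Pool T₀ → P.Spl T₀ → 1 ≤ Q →
    (∀ q ∈ T₀, q ≤ Q) → P.N.card ≤ C * Q ^ E := by
  classical
  obtain ⟨v, h1, h2, h3⟩ := hN
  obtain ⟨e, he, D, M, h, c, b, C, Y₀, H⟩ := lvl2_all hd hk ha hb v h1 h2 n₀ d 0 (by omega)
  have heE : e ≤ E := by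
    simp only [zero_add, zero_mul, add_zero] at he
    nlinarith
  obtain ⟨M₀, hM₀⟩ := free_set (v (0 + 1) + d) b
  refine ⟨M₀, 2 ^ M₀ * (C * (M * D)), Y₀, fun L _ _ P T₁ Q hn₀ hY hT hP hA hQ1 hQ => ?_⟩
  obtain ⟨T₀, hT₀, hT⟩ := Finset.exists_subset_card_eq hT
  have ea : ∀ q : ℕ, ∃ aq : ℕ → Option (Fin d) → ℕ, q ∈ T₀ → ∃ π : 𝓞 L →+* ZMod q,
      (∀ n, aq n = fun s => (π (P.u n s)).val) ∧ ∀ n ∈ P.N, ∀ n' ∈ P.N,
      (∀ s, π (P.u n s) = π (P.u n' s)) → ∀ s, (q : 𝓞 L) ∣ P.u n s - P.u n' s := by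
    intro q
    by_cases hq : q ∈ T₀
    · obtain ⟨π, hπ⟩ := hA q (hT₀ hq)
      exact ⟨fun n s => (π (P.u n s)).val, fun _ => ⟨π, fun _ => rfl, hπ⟩⟩
    · exact ⟨0, fun h => absurd h hq⟩
  choose a haq using ea
  obtain ⟨𝓕, bad, hb', h𝓕, hcov, hcnt⟩ := H L P T₀ Q a hn₀ hY (fun q hq => hP q (hT₀ hq))
    (fun q hq => haq q hq) hQ1 (fun q hq => hQ q (hT₀ hq))
  have eV : ∀ S : Finset ℕ, ∃ 𝒱 : Finset (ℕ → Option (Fin d) → ℕ), 𝒱.card ≤ C * Q ^ e ∧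
      (S ⊆ T₀ → S.card = v (0 + 1) + d →
        ∀ n ∈ P.N, (∀ T ⊆ S, ∀ q ∈ S, q ∉ T → q ∉ bad n T) → res2 a S n ∈ 𝒱) := by
    intro S
    by_cases hS : S ⊆ T₀ ∧ S.card = v (0 + 1) + d
    · obtain ⟨𝒱, v1, v2⟩ := hcnt S hS.1 hS.2
      exact ⟨𝒱, v1, fun _ _ => v2⟩
    · exact ⟨∅, by simp, fun h1 h2 => absurd ⟨h1, h2⟩ hS⟩
  choose 𝒱 v1 v2 using eV
  have hsub : P.N ⊆ T₀.powerset.biUnion (fun S =>
      (𝒱 S).biUnion (fun c' => (𝓕 S c').biUnion id)) := by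
    intro n hn
    obtain ⟨S, hS, hc, hfree⟩ := hM₀ T₀ hT.ge (bad n) (hb' n)
    obtain ⟨Z, hZ, hnZ⟩ := hcov n hn S hS hc hfree
    exact Finset.mem_biUnion.2 ⟨S, Finset.mem_powerset.2 hS,
      Finset.mem_biUnion.2 ⟨_, v2 S hS hc n hn hfree, Finset.mem_biUnion.2 ⟨Z, hZ, hnZ⟩⟩⟩
  refine (Finset.card_le_card hsub).trans ?_
  refine (Finset.card_biUnion_le_card_mul _ _ (C * Q ^ E * (M * D))
    (fun S _ => ?_)).trans ?_
  · refine (Finset.card_biUnion_le_card_mul _ _ (M * D) (fun c' _ => ?_)).trans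
      (Nat.mul_le_mul_right _ ((v1 S).trans
        (Nat.mul_le_mul_left _ (Nat.pow_le_pow_right hQ1 heE))))
    refine (Finset.card_biUnion_le_card_mul _ _ D (fun Z hZ => ?_)).trans
      (Nat.mul_le_mul_right _ (h𝓕 S c').1)
    obtain ⟨z1, -, z2⟩ := (h𝓕 S c').2 Z hZ
    obtain ⟨F, hF, -⟩ := z2 ∅ (by simp)
    exact Pts.Rel.card_le z1 hF.rel
  · rw [Finset.card_powerset, hT]
    exact le_of_eq (by ring)

end Vale.Agent.P018
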