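import Vale.Agent.P018.Ht

namespace Vale.Agent.P018

open NumberField MvPolynomial

theorem cramer (s : ℕ) : ∃ h : ℕ, ∀ (L : Type) [Field L] [NumberField L] (ι : Type) [Fintype ι],
    Fintype.card ι = s → ∀ (io : 𝓞 L →+* ℂ), Function.Injective io →
    ∀ (W : Finset ℕ) (a : ℕ → ι → 𝓞 L) (B : ℝ), (s : ℝ) + 2 ≤ B →
    (∀ n ∈ W, ∀ i, ht (a n i) ≤ B) → ∀ c : ι → ℂ, c ≠ 0 →
    (∀ n ∈ W, ∑ i, c i * io (a n i) = 0) →
    ∃ c' : ι → 𝓞 L, c' ≠ 0 ∧ (∀ i, ht (c' i) ≤ B ^ h) ∧ ∀ n ∈ W, ∑ i, c' i * a n i = 0 := by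
  induction s with
  | zero =>
    refine ⟨0, fun L _ _ ι _ hι io hio W a B hB ha c hc h => ?_⟩
    have := Fintype.card_eq_zero_iff.1 hι
    exact (hc (Subsingleton.elim _ _)).elim
  | succ s ih =>
    classical
    obtain ⟨h, ih⟩ := ih
    refine ⟨3 * h + 2, fun L _ _ ι _ hι io hio W a B hB ha c hc h0 => ?_⟩
    push_cast at hB
    have hs : (0 : ℝ) ≤ s := s.cast_nonneg
    have hB1 : 1 ≤ B := by linarith
    by_cases hz : ∀ n ∈ W, ∀ i, a n i = 0
    · obtain ⟨i⟩ : Nonempty ι := Fintype.card_pos_iff.1 (by omega)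
      exact ⟨1, fun e => one_ne_zero (congrFun e i), fun i => ht_one.trans_le (one_le_pow₀ hB1),
        fun n hn => by simp [hz n hn]⟩
    push Not at hz
    obtain ⟨n0, hn0, i0, hp⟩ := hz
    have hm : ∀ {x y : 𝓞 L} {X Y : ℝ}, ht x ≤ X → ht y ≤ Y → ht (x * y) ≤ X * Y :=
      fun hx hy => (ht_mul_le _ _).trans (mul_le_mul hx hy (ht_nonneg _) ((ht_nonneg _).trans hx))
    have hc' : Fintype.card {i // i ≠ i0} = s := by
      rw [Fintype.card_subtype_compl, Fintype.card_subtype_eq, hι]; rfl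
    obtain ⟨e, e0, e1, e2⟩ := ih L {i // i ≠ i0} hc' io hio W
      (fun n i => a n0 i0 * a n i - a n i0 * a n0 i) (B ^ 3) (by nlinarith [sq_nonneg B])
      (fun n hn i => (ht_sub_le _ _).trans <| (add_le_add (hm (ha _ hn0 _) (ha _ hn _))
        (hm (ha _ hn _) (ha _ hn0 _))).trans (by nlinarith [sq_nonneg B]))
      (fun i => c i) (fun e => hc <| funext fun i => by
        have h1 := h0 n0 hn0
        have h2 : ∀ j : {i // i ≠ i0}, c j = 0 := congrFun e
        rw [Fintype.sum_eq_add_sum_subtype_ne _ i0] at h1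
        by_cases hi : i = i0
        · subst hi
          simpa [h2, map_eq_zero_iff io hio, hp] using h1
        · exact h2 ⟨i, hi⟩)
      (fun n hn => by
        have h1 := h0 n0 hn0
        have h2 := h0 n hn
        rw [Fintype.sum_eq_add_sum_subtype_ne _ i0] at h1 h2
        have : ∀ i : {i // i ≠ i0}, c i * io (a n0 i0 * a n i - a n i0 * a n0 i) =
            io (a n0 i0) * (c i * io (a n i)) - io (a n i0) * (c i * io (a n0 i)) := fun i => by
          simp only [map_sub, map_mul]; ring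
        simp only [this, Finset.sum_sub_distrib, ← Finset.mul_sum]
        linear_combination io (a n0 i0) * h2 - io (a n i0) * h1)
    have hP : 0 ≤ (B ^ 3) ^ h := by positivity
    refine ⟨fun i => if hi : i = i0 then -∑ j : {i // i ≠ i0}, a n0 j * e j else
      a n0 i0 * e ⟨i, hi⟩, fun z => e0 <| funext fun j => ?_, fun i => ?_, fun n hn => ?_⟩
    · simpa [j.2, hp] using congrFun z j
    · rw [pow_add, pow_mul]
      beta_reduce
      split_ifs with hi
      · rw [ht_neg]
        refine (ht_sum_le _ _).trans <| (Finset.sum_le_card_nsmul _ _ _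
          fun j _ => hm (ha _ hn0 _) (e1 j)).trans ?_
        rw [Finset.card_univ, hc', nsmul_eq_mul]
        nlinarith [mul_nonneg (mul_nonneg hP (zero_le_one.trans hB1)) (by linarith : 0 ≤ B - s)]
      · refine (hm (ha _ hn0 _) (e1 _)).trans ?_
        nlinarith [mul_nonneg (mul_nonneg hP (zero_le_one.trans hB1)) (by linarith : 0 ≤ B - 1)]
    · beta_reduce
      rw [Fintype.sum_eq_add_sum_subtype_ne _ i0, ← e2 n hn, dif_pos rfl, neg_mul, Finset.sum_mul,
        ← Finset.sum_neg_distrib, ← Finset.sum_add_distrib]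
      refine Finset.sum_congr rfl fun j _ => ?_
      rw [dif_neg j.2]; ring

/-- a complex relation can be replaced by an integral one of controlled height -/
theorem intrel (d k wa wb D : ℕ) : ∃ (h : ℕ) (Y₀ : ℝ), ∀ (L : Type) [Field L] [NumberField L]
    (P : Pts L d k wa wb), Y₀ ≤ P.Y → ∀ W ⊆ P.N, ∀ (J : Finset (Fin d)) (D' : ℕ), D' ≤ D →
    P.Rel W J D' →
    ∃ F : MvPolynomial (Option (Fin d)) (𝓞 L), F ≠ 0 ∧ Supp J F ∧ F.totalDegree ≤ D' ∧
      (∀ n ∈ W, eval (P.u n) F = 0) ∧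
      ∀ n ∈ P.N, ∀ j, ht (eval (P.u n) (pderiv (some j) F)) ≤ P.Y ^ h := by
  classical
  choose H hH using cramer
  let T := (Finsupp.finite_of_degree_le (σ := Option (Fin d)) D).toFinset
  let w := k * wa + wb + wa
  let h0 := (Finset.range (T.card + 1)).sup H
  refine ⟨(w * D + 1) * h0 + w * D + 2, T.card + D + 2,
    fun L _ _ P hY W hW J D' hD ⟨G, G0, G1, G2, G3⟩ => ?_⟩
  have hY1 := P.hY
  have hdeg : ∀ m ∈ G.support, ∑ i, m i ≤ D := fun m hm => by
    have := (le_totalDegree hm).trans (G2.trans hD)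
    rwa [Finsupp.sum_fintype _ _ (fun _ => rfl)] at this
  have hcard : G.support.card ≤ T.card := Finset.card_le_card fun m hm => by
    simpa [T, Finsupp.degree_eq_sum] using hdeg m hm
  have hcR : (G.support.card : ℝ) ≤ T.card := by exact_mod_cast hcard
  have hD0 : (0 : ℝ) ≤ D := D.cast_nonneg
  have hT0 : (0 : ℝ) ≤ T.card := T.card.cast_nonneg
  have hu : ∀ n ∈ P.N, ∀ s, ht (P.u n s) ≤ P.Y ^ w := fun n hn s => by
    cases s with
    | none => exact (P.hx n hn).trans (pow_le_pow_right₀ hY1 (by omega))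
    | some j => exact (P.hal n hn j).trans (pow_le_pow_right₀ hY1 (by omega))
  have hmon : ∀ n ∈ P.N, ∀ m : Option (Fin d) → ℕ, ∑ i, m i ≤ D →
      ht (∏ i, P.u n i ^ m i) ≤ P.Y ^ (w * D) := fun n hn m hm => by
    refine (ht_prod_le _ _).trans <| (Finset.prod_le_prod (fun i _ => ht_nonneg _) fun i _ =>
      (ht_pow_le _ _).trans (pow_le_pow_left₀ (ht_nonneg _) (hu n hn i) _)).trans ?_
    rw [Finset.prod_pow_eq_pow_sum, pow_mul]
    exact pow_le_pow_right₀ (one_le_pow₀ hY1) hm
  obtain ⟨c, c0, c1, c2⟩ := hH _ L G.support (Fintype.card_coe _) P.io P.hio W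
    (fun n m => ∏ i, P.u n i ^ m.1 i) (P.Y ^ (w * D + 1))
    (le_trans (by linarith) (le_self_pow₀ hY1 (by omega)))
    (fun n hn m => (hmon n (hW hn) _ (hdeg _ m.2)).trans (pow_le_pow_right₀ hY1 (by omega)))
    (fun m => G.coeff m) (fun e => by
      obtain ⟨m, hm⟩ := support_nonempty.2 G0
      exact mem_support_iff.1 hm (congrFun e ⟨m, hm⟩))
    (fun n hn => by
      rw [← G3 n hn, eval_eq', ← Finset.sum_coe_sort G.support]
      simp [Pts.uc])
  have hsup : (∑ m : G.support, monomial m.1 (c m)).support ⊆ G.support := fun m hm => by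
    obtain ⟨j, -, hj⟩ := Finset.mem_biUnion.1 (support_sum hm)
    rw [Finset.mem_singleton.1 (support_monomial_subset hj)]
    exact j.2
  refine ⟨∑ m : G.support, monomial m.1 (c m), fun e => c0 <| funext fun m => ?_, fun j hj => ?_,
    (Finset.sup_mono hsup).trans G2, fun n hn => ?_, fun n hn j => ?_⟩
  · have := congrArg (coeff m.1) e
    simpa [coeff_sum, coeff_monomial, Subtype.val_inj] using this
  · exact Nat.le_zero.1 (degreeOf_le_iff.2 fun m hm =>
      (monomial_le_degreeOf _ (hsup hm)).trans (G1 j hj).le)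
  · rw [← c2 n hn, map_sum]
    exact Finset.sum_congr rfl fun m _ => by rw [eval_monomial, Finsupp.prod_fintype _ _ (by simp)]
  · rw [map_sum, map_sum]
    refine (ht_sum_le _ _).trans <| (Finset.sum_le_card_nsmul _ _
      (P.Y ^ ((w * D + 1) * h0) * P.Y * P.Y ^ (w * D)) fun m _ => ?_).trans ?_
    · rw [pderiv_monomial, eval_monomial, Finsupp.prod_fintype _ _ (by simp)]
      have a1 : ht (c m) ≤ P.Y ^ ((w * D + 1) * h0) := (c1 m).trans <| by
        rw [pow_mul P.Y (w * D + 1)]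
        exact pow_le_pow_right₀ (one_le_pow₀ hY1)
          (Finset.le_sup (f := H) (Finset.mem_range.2 (by omega)))
      have a2 : (m.1 (some j) : ℝ) ≤ D := by
        exact_mod_cast (Finset.single_le_sum (fun _ _ => Nat.zero_le _)
          (Finset.mem_univ _)).trans (hdeg _ m.2)
      refine (ht_mul_le _ _).trans (mul_le_mul ((ht_mul_le _ _).trans (mul_le_mul a1
        (by rw [ht_natCast]; linarith) (ht_nonneg _) (by positivity))) (hmon n hn _
        ((Finset.sum_le_sum fun i _ => ?_).trans (hdeg _ m.2))) (ht_nonneg _) (by positivity))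
      simp
    · rw [Finset.card_univ, Fintype.card_coe, nsmul_eq_mul, pow_add, pow_add]
      have : 0 ≤ P.Y ^ ((w * D + 1) * h0) * P.Y * P.Y ^ (w * D) := by positivity
      nlinarith [mul_nonneg this (by linarith : 0 ≤ P.Y - G.support.card)]

end Vale.Agent.P018
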