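import Vale.Agent.P018.Defs

namespace Vale.Agent.P018

open NumberField MvPolynomial

theorem card_le_CurA {W : Finset ℕ} {s : ℕ → ℂ} (hs : Set.InjOn s W) {H : Polynomial ℂ}
    (hH : H ≠ 0) (h : ∀ n ∈ W, H.eval (s n) = 0) : W.card ≤ H.natDegree := by
  classical
  by_contra hc
  refine hH (Polynomial.eq_zero_of_natDegree_lt_card_of_eval_eq_zero' H (W.image s)
    (fun z hz => ?_) ?_)
  · obtain ⟨n, hn, rfl⟩ := Finset.mem_image.1 hz
    exact h n hn
  · rw [Finset.card_image_of_injOn hs]; omega

theorem deg_le_CurA {g P A : Polynomial ℂ} (hg : g ≠ 0) (h : A = g * P) :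
    P.natDegree ≤ A.natDegree := by
  by_cases hP : P = 0
  · simp [hP]
  · rw [h, Polynomial.natDegree_mul hg hP]; omega

theorem poly_param (B : ℕ) (W : Finset ℕ) (s y : ℕ → ℂ) (hs : Set.InjOn s W)
    (h1 : Rm B W s ![fun _ => 1, y]) (h2 : Rs B W s y) :
    W.card ≤ B ^ 2 + 3 * B ∨ ∃ Q : Polynomial ℂ, Q.natDegree ≤ B ∧
      ∃ E : Finset ℕ, E.card ≤ B ∧ ∀ n ∈ W, n ∉ E → y n = Q.eval (s n) := by
  classical
  obtain ⟨A, a0, a1, a2⟩ := h1
  obtain ⟨A₁, A₂, b0, b1, b2, b3, b4⟩ := h2
  simp only [Fin.sum_univ_two, Matrix.cons_val_zero, Matrix.cons_val_one, mul_one] at a2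
  by_cases hA : A 1 = 0
  · left
    have h0 : A 0 ≠ 0 := by
      obtain ⟨i, hi⟩ := a0
      fin_cases i
      · exact hi
      · exact absurd hA hi
    have := card_le_CurA hs h0 fun n hn => by simpa [hA] using a2 n hn
    have := a1 0
    omega
  by_cases hA2 : A₂ = 0
  · left
    have := card_le_CurA hs (b0.resolve_right (not_not.2 hA2))
      fun n hn => by simpa [hA2] using b4 n hn
    omega
  obtain ⟨P, R, e1, e2, hcop⟩ := extract_gcd (A 0) (A 1)
  generalize gcd (A 0) (A 1) = g at e1 e2
  have hg : g ≠ 0 := fun h => hA (by rw [e2, h, zero_mul])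
  have hR : R ≠ 0 := fun h => hA (by rw [e2, h, mul_zero])
  have dP : P.natDegree ≤ B := (deg_le_CurA hg e1).trans (a1 0)
  have dR : R.natDegree ≤ B := (deg_le_CurA hg e2).trans (a1 1)
  have dg : g.natDegree ≤ B := (deg_le_CurA hR (e2.trans (mul_comm _ _))).trans (a1 1)
  have hE : (W.filter fun n => g.eval (s n) = 0).card ≤ B :=
    (card_le_CurA (hs.mono (Finset.coe_subset.2 (Finset.filter_subset _ _))) hg
      fun n hn => (Finset.mem_filter.1 hn).2).trans dg
  have hy : ∀ n ∈ W, g.eval (s n) ≠ 0 → -P.eval (s n) = R.eval (s n) * y n := by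
    intro n hn h
    have := a2 n hn
    rw [e1, e2, Polynomial.eval_mul, Polynomial.eval_mul] at this
    refine mul_left_cancel₀ h ?_
    linear_combination -this
  by_cases hH : R ^ A₂.natDegree * A₁ + ∑ i ∈ Finset.range (A₂.natDegree + 1),
      Polynomial.C (A₂.coeff i) * ((-P) ^ i * R ^ (A₂.natDegree - i)) = 0
  · right
    have he : A₂.natDegree ≠ 0 := fun h => hA2 (by
      rw [Polynomial.eq_C_of_natDegree_eq_zero h, b1, map_zero])
    rw [Finset.sum_range_succ, Nat.sub_self, pow_zero, mul_one, ← add_assoc,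
      add_eq_zero_iff_neg_eq] at hH
    have h3 : R ∣ Polynomial.C (A₂.coeff A₂.natDegree) * (-P) ^ A₂.natDegree := by
      rw [← hH, dvd_neg]
      refine dvd_add ((dvd_pow_self R he).mul_right _) (Finset.dvd_sum fun i hi => ?_)
      have := Finset.mem_range.1 hi
      exact ((dvd_pow_self R (by omega)).mul_left _).mul_left _
    have h4 : IsUnit (Polynomial.C (A₂.coeff A₂.natDegree)) :=
      Polynomial.isUnit_C.2 (IsUnit.mk0 _ (Polynomial.leadingCoeff_ne_zero.2 hA2))
    rw [h4.dvd_mul_left] at h3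
    have h5 : IsCoprime P R := (gcd_isUnit_iff P R).1 hcop
    have h6 : IsUnit R := (h5.neg_left.pow_left (m := A₂.natDegree)).isUnit_of_dvd' h3 dvd_rfl
    obtain ⟨r, hr, rfl⟩ := Polynomial.isUnit_iff.1 h6
    refine ⟨Polynomial.C (-r⁻¹) * P, (Polynomial.natDegree_C_mul_le _ _).trans dP, _, hE,
      fun n hn h => ?_⟩
    have h7 := hy n hn fun h' => h (Finset.mem_filter.2 ⟨hn, h'⟩)
    rw [Polynomial.eval_C] at h7
    have h8 := hr.ne_zero
    rw [Polynomial.eval_mul, Polynomial.eval_C]
    field_simp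
    linear_combination -h7
  · left
    have h3 := card_le_CurA (W := W.filter fun n => ¬ g.eval (s n) = 0)
      (hs.mono (Finset.coe_subset.2 (Finset.filter_subset _ _))) hH fun n hn => by
        obtain ⟨hn1, hn2⟩ := Finset.mem_filter.1 hn
        have h4 := b4 n hn1
        rw [Polynomial.eval_eq_sum_range (p := A₂)] at h4
        rw [← mul_zero (R.eval (s n) ^ A₂.natDegree), ← h4, mul_add, Finset.mul_sum,
          Polynomial.eval_add, Polynomial.eval_mul, Polynomial.eval_pow,
          Polynomial.eval_finset_sum]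
        congr 1
        refine Finset.sum_congr rfl fun i hi => ?_
        have h5 : A₂.natDegree = i + (A₂.natDegree - i) := by
          have := Finset.mem_range.1 hi
          omega
        simp only [Polynomial.eval_mul, Polynomial.eval_pow, Polynomial.eval_C,
          Polynomial.eval_neg, hy n hn1 hn2]
        conv_rhs => rw [h5, pow_add]
        ring
    have h6 : A₂.natDegree * B ≤ B ^ 2 := by rw [sq]; exact Nat.mul_le_mul_right _ b3
    have h7 : (R ^ A₂.natDegree * A₁ + ∑ i ∈ Finset.range (A₂.natDegree + 1),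
        Polynomial.C (A₂.coeff i) * ((-P) ^ i * R ^ (A₂.natDegree - i))).natDegree ≤
        B ^ 2 + B := by
      refine Polynomial.natDegree_add_le_of_degree_le ?_
        (Polynomial.natDegree_sum_le_of_forall_le _ _ fun i hi => ?_)
      · refine Polynomial.natDegree_mul_le.trans (add_le_add ?_ b2)
        exact Polynomial.natDegree_pow_le.trans ((Nat.mul_le_mul_left _ dR).trans h6)
      · have h8 : i ≤ A₂.natDegree := by have := Finset.mem_range.1 hi; omega
        refine (Polynomial.natDegree_C_mul_le _ _).trans (Polynomial.natDegree_mul_le.trans ?_)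
        have h9 : ((-P) ^ i).natDegree ≤ i * B := Polynomial.natDegree_pow_le.trans
          (Nat.mul_le_mul_left _ (by rwa [Polynomial.natDegree_neg]))
        have h10 : (R ^ (A₂.natDegree - i)).natDegree ≤ (A₂.natDegree - i) * B :=
          Polynomial.natDegree_pow_le.trans (Nat.mul_le_mul_left _ dR)
        have h11 : i * B + (A₂.natDegree - i) * B = A₂.natDegree * B := by
          rw [← add_mul, Nat.add_sub_cancel' h8]
        omega
    have h12 := Finset.card_filter_add_card_filter_not (s := W) fun n => g.eval (s n) = 0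
    omega

theorem mason (k : ℕ) (hk : 2 ≤ k) (a b : Fin 4 → Polynomial ℂ) (μ : Fin 4 → ℂ)
    (hμ : Function.Injective μ)
    (h : ∀ j, a j ^ k * b j + Polynomial.C (μ j) = a 0 ^ k * b 0 + Polynomial.C (μ 0))
    (ha : ∀ j, 1 ≤ (a j).natDegree) :
    (k - 1) * ∑ j, (a j).natDegree + 1 ≤ k * (a 0).natDegree + (b 0).natDegree := by
  have ha0 : ∀ j, a j ≠ 0 := fun j e => by simpa [e] using ha j
  have hcop : ∀ i j, i ≠ j → IsCoprime (a i ^ k * b i) (a j ^ k * b j) := by
    intro i j hij
    have h1 : μ j - μ i ≠ 0 := sub_ne_zero.2 fun e => hij (hμ e).symm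
    refine ⟨Polynomial.C (μ j - μ i)⁻¹, -Polynomial.C (μ j - μ i)⁻¹, ?_⟩
    have h2 : a i ^ k * b i - a j ^ k * b j = Polynomial.C (μ j - μ i) := by
      rw [map_sub]; linear_combination h i - h j
    rw [neg_mul, ← sub_eq_add_neg, ← mul_sub, h2, ← map_mul, inv_mul_cancel₀ h1, map_one]
  have hb0 : b 0 ≠ 0 := by
    intro e
    have h1 := hcop 0 1 (by decide)
    rw [e, mul_zero, isCoprime_zero_left] at h1
    have h2 := Polynomial.natDegree_eq_zero_of_isUnit
      (isUnit_of_dvd_unit ((dvd_pow_self (a 1) (by omega)).mul_right _) h1)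
    have := ha 1
    omega
  have hx : (a 0 ^ k * b 0).natDegree = k * (a 0).natDegree + (b 0).natDegree := by
    rw [Polynomial.natDegree_mul (pow_ne_zero _ (ha0 0)) hb0, Polynomial.natDegree_pow]
  have hpos : (a 0 ^ k * b 0).natDegree ≠ 0 := by
    have := Nat.mul_pos (show 0 < k by omega) (ha 0)
    omega
  have hd : ∏ j, a j ^ (k - 1) ∣ Polynomial.derivative (a 0 ^ k * b 0) := by
    refine Finset.prod_dvd_of_coprime (fun i _ j _ hij => ?_) fun j _ => ?_
    · exact ((hcop i j hij).of_isCoprime_of_dvd_left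
        ((pow_dvd_pow _ (Nat.sub_le _ _)).mul_right _)).of_isCoprime_of_dvd_right
        ((pow_dvd_pow _ (Nat.sub_le _ _)).mul_right _)
    · have h1 := congrArg Polynomial.derivative (h j)
      rw [map_add, map_add, Polynomial.derivative_C, Polynomial.derivative_C, add_zero,
        add_zero] at h1
      rw [← h1, Polynomial.derivative_mul, Polynomial.derivative_pow]
      exact dvd_add (((dvd_mul_left _ _).mul_right _).mul_right _)
        ((pow_dvd_pow _ (Nat.sub_le _ _)).mul_right _)
  have h1 := Polynomial.natDegree_le_of_dvd hd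
    fun e => hpos (Polynomial.natDegree_eq_zero_of_derivative_eq_zero e)
  have h2 := Polynomial.natDegree_derivative_lt hpos
  rw [Polynomial.natDegree_prod _ _ fun j _ => pow_ne_zero _ (ha0 j)] at h1
  simp only [Polynomial.natDegree_pow] at h1
  rw [← Finset.mul_sum] at h1
  omega

theorem ind3 (b : Polynomial ℂ) (hb : 3 ≤ b.natDegree) (A : Fin 3 → Polynomial ℂ)
    (h : ∑ i, (A i).comp b * Polynomial.X ^ (i : ℕ) = 0) : ∀ i, A i = 0 := by
  have hd : ∀ i : Fin 3, (A i).comp b * Polynomial.X ^ (i : ℕ) ≠ 0 →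
      ((A i).comp b * Polynomial.X ^ (i : ℕ)).natDegree % b.natDegree = i := by
    intro i hi
    rw [Polynomial.natDegree_mul_X_pow _ (left_ne_zero_of_mul hi), Polynomial.natDegree_comp,
      Nat.mul_add_mod_self_right, Nat.mod_eq_of_lt (by omega)]
  have h1 := Polynomial.degree_sum_eq_of_disjoint
    (fun i : Fin 3 => (A i).comp b * Polynomial.X ^ (i : ℕ)) Finset.univ
    fun i hi j hj hij e => hij (Fin.ext (by
      rw [← hd i hi.2, ← hd j hj.2, Polynomial.natDegree_eq_of_degree_eq e]))
  rw [h, Polynomial.degree_zero, eq_comm, Finset.sup_eq_bot_iff] at h1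
  intro i
  have h2 := Polynomial.degree_eq_bot.1 (h1 i (Finset.mem_univ i))
  rcases Polynomial.comp_eq_zero_iff.1
    ((mul_eq_zero.1 h2).resolve_right (pow_ne_zero _ Polynomial.X_ne_zero)) with h3 | h3
  · exact h3
  · rw [h3.2, Polynomial.natDegree_C] at hb
    omega

end Vale.Agent.P018
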