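import Vale.Agent.P018.CurA

namespace Vale.Agent.P018

open NumberField MvPolynomial

theorem zero_CurB {W : Finset ℕ} {s : ℕ → ℂ} (hs : Set.InjOn s W) (H : Polynomial ℂ)
    (hd : H.natDegree < W.card) (h : ∀ n ∈ W, H.eval (s n) = 0) : H = 0 := by
  classical
  refine Polynomial.eq_zero_of_natDegree_lt_card_of_eval_eq_zero' H (W.image s) ?_ ?_
  · intro z hz
    obtain ⟨n, hn, rfl⟩ := Finset.mem_image.1 hz
    exact h n hn
  · rwa [Finset.card_image_of_injOn hs]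

theorem fin_CurB (B : ℕ) {W : Finset ℕ} {s y : ℕ → ℂ} (hs : Set.InjOn s W) (Q : Polynomial ℂ)
    (hQ : Q.natDegree ≤ B) (h3 : 3 ≤ Q.natDegree) (hy : ∀ n ∈ W, y n = Q.eval (s n))
    (A : Fin 3 → Polynomial ℂ) (hA : ∃ i, A i ≠ 0) (hB : ∀ i, (A i).natDegree ≤ B)
    (h : ∀ n ∈ W, ∑ i, (A i).eval (y n) * s n ^ (i : ℕ) = 0) : W.card ≤ B * B + 2 := by
  by_contra hc
  obtain ⟨i, hi⟩ := hA
  refine hi (ind3 Q h3 A (zero_CurB hs _ ?_ fun n hn => ?_) i)
  · refine lt_of_le_of_lt ?_ (not_le.1 hc)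
    refine Polynomial.natDegree_sum_le_of_forall_le _ _ fun i _ => ?_
    refine Polynomial.natDegree_mul_le.trans (add_le_add ?_ ?_)
    · exact Polynomial.natDegree_comp_le.trans (Nat.mul_le_mul (hB i) hQ)
    · rw [Polynomial.natDegree_X_pow]
      have := i.2
      omega
  · rw [← h n hn, Polynomial.eval_finset_sum]
    refine Finset.sum_congr rfl fun i _ => ?_
    rw [Polynomial.eval_mul, Polynomial.eval_comp, Polynomial.eval_pow, Polynomial.eval_X,
      hy n hn]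

theorem core_CurB (k B : ℕ) (hk : 2 ≤ k) (W : Finset ℕ) (x s y : ℕ → ℂ)
    (a b : Fin 4 → ℕ → ℂ) (μ : Fin 4 → ℂ) (hμ : Function.Injective μ)
    (he : ∀ n ∈ W, ∀ j, a j n ^ k * b j n = x n - μ j) (ha : ∀ j, Set.InjOn (a j) W)
    (hs : Set.InjOn s W) (hsy : (s = a 0 ∧ y = b 0) ∨ (s = b 0 ∧ y = a 0))
    (Qa Qb : Fin 4 → Polynomial ℂ) (da : ∀ j, (Qa j).natDegree ≤ B)
    (db : ∀ j, (Qb j).natDegree ≤ B) (ea : ∀ j, ∀ n ∈ W, a j n = (Qa j).eval (s n))
    (eb : ∀ j, ∀ n ∈ W, b j n = (Qb j).eval (s n))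
    (A : Fin 3 → Polynomial ℂ) (hA : ∃ i, A i ≠ 0) (hB : ∀ i, (A i).natDegree ≤ B)
    (h : ∀ n ∈ W, ∑ i, (A i).eval (y n) * s n ^ (i : ℕ) = 0) :
    W.card ≤ k * B + B + B * B + 2 := by
  by_contra hc
  have hc' := not_le.1 hc
  have dg : ∀ j, (Qa j ^ k * Qb j + Polynomial.C (μ j)).natDegree ≤ k * B + B := fun j => by
    rw [Polynomial.natDegree_add_C]
    exact Polynomial.natDegree_mul_le.trans (add_le_add
      (Polynomial.natDegree_pow_le.trans (Nat.mul_le_mul_left k (da j))) (db j))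
  have id1 : ∀ j, Qa j ^ k * Qb j + Polynomial.C (μ j) =
      Qa 0 ^ k * Qb 0 + Polynomial.C (μ 0) := fun j => by
    refine sub_eq_zero.1 (zero_CurB hs _ ?_ fun n hn => ?_)
    · refine lt_of_le_of_lt ((Polynomial.natDegree_sub_le _ _).trans (max_le (dg j) (dg 0))) ?_
      omega
    · simp only [Polynomial.eval_sub, Polynomial.eval_add, Polynomial.eval_mul,
        Polynomial.eval_pow, Polynomial.eval_C, ← ea _ n hn, ← eb _ n hn, he n hn]
      ring
  have d1 : ∀ j, 1 ≤ (Qa j).natDegree := fun j => by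
    by_contra h0
    have h0' : (Qa j).natDegree = 0 := by omega
    obtain ⟨c, hc⟩ := Polynomial.natDegree_eq_zero.1 h0'
    have : W.card ≤ 1 := Finset.card_le_one.2 fun n hn n' hn' => ha j hn hn' (by
      rw [ea j n hn, ea j n' hn', ← hc, Polynomial.eval_C, Polynomial.eval_C])
    omega
  have hm := mason k hk Qa Qb μ hμ id1 d1
  rw [Fin.sum_univ_four] at hm
  have hX : ∀ Q : Polynomial ℂ, Q.natDegree ≤ B → (∀ n ∈ W, s n = Q.eval (s n)) →
      Q.natDegree = 1 := fun Q hQ hq => by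
    have : Q - Polynomial.X = 0 := zero_CurB hs _ (by
      refine lt_of_le_of_lt ((Polynomial.natDegree_sub_le _ _).trans
        (max_le (c := B + 1) (by omega) (by rw [Polynomial.natDegree_X]; omega))) ?_
      omega) fun n hn => by rw [Polynomial.eval_sub, Polynomial.eval_X, ← hq n hn, sub_self]
    rw [sub_eq_zero.1 this, Polynomial.natDegree_X]
  obtain ⟨k, rfl⟩ := Nat.exists_eq_add_of_le' hk
  rw [show k + 2 - 1 = k + 1 by omega] at hm
  have h1 := d1 1
  have h2 := d1 2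
  have h3 := d1 3
  rcases hsy with ⟨e1, e2⟩ | ⟨e1, e2⟩
  · have := hX (Qa 0) (da 0) fun n hn => by rw [← ea 0 n hn, e1]
    rw [this] at hm
    have := fin_CurB B hs (Qb 0) (db 0) (by nlinarith) (fun n hn => by rw [e2]; exact eb 0 n hn)
      A hA hB h
    omega
  · have := hX (Qb 0) (db 0) fun n hn => by rw [← eb 0 n hn, e1]
    rw [this] at hm
    have := fin_CurB B hs (Qa 0) (da 0) (by nlinarith) (fun n hn => by rw [e2]; exact ea 0 n hn)
      A hA hB h
    omega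

theorem curve_alg (k B : ℕ) (hk : 2 ≤ k) : ∃ D : ℕ, ∀ (W : Finset ℕ) (x s y : ℕ → ℂ)
    (a b : Fin 4 → ℕ → ℂ) (μ : Fin 4 → ℂ), Function.Injective μ →
    (∀ n ∈ W, ∀ j, a j n ^ k * b j n = x n - μ j) → (∀ j, Set.InjOn (a j) W) →
    Set.InjOn s W → ((s = a 0 ∧ y = b 0) ∨ (s = b 0 ∧ y = a 0)) →
    (∀ j, Rm B W s ![fun _ => 1, a j] ∧ Rs B W s (a j) ∧
      Rm B W s ![fun _ => 1, b j] ∧ Rs B W s (b j)) →
    Rm B W y (fun (i : Fin 3) n => s n ^ (i : ℕ)) → W.card ≤ D := by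
  classical
  refine ⟨(B ^ 2 + 3 * B) + (k * B + B + B * B + 2) + (4 * B + 4 * B), ?_⟩
  intro W x s y a b μ hμ he ha hs hsy hR ⟨A, hA, hB, h⟩
  by_cases hc : W.card ≤ B ^ 2 + 3 * B
  · omega
  choose Qa da Ea ca ea using fun j =>
    (poly_param B W s (a j) hs (hR j).1 (hR j).2.1).resolve_left hc
  choose Qb db Eb cb eb using fun j =>
    (poly_param B W s (b j) hs (hR j).2.2.1 (hR j).2.2.2).resolve_left hc
  set E := Finset.univ.biUnion Ea ∪ Finset.univ.biUnion Eb with hE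
  have cE : E.card ≤ 4 * B + 4 * B := by
    refine (Finset.card_union_le _ _).trans (add_le_add ?_ ?_)
    · simpa using Finset.card_biUnion_le_card_mul Finset.univ Ea B fun j _ => ca j
    · simpa using Finset.card_biUnion_le_card_mul Finset.univ Eb B fun j _ => cb j
  have sub : ∀ n ∈ W \ E, n ∈ W := fun n hn => (Finset.mem_sdiff.1 hn).1
  have sub' : ((W \ E : Finset ℕ) : Set ℕ) ⊆ W := fun n hn => sub n hn
  have := core_CurB k B hk (W \ E) x s y a b μ hμ (fun n hn => he n (sub n hn))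
    (fun j => (ha j).mono sub') (hs.mono sub') hsy Qa Qb da db
    (fun j n hn => ea j n (sub n hn) fun h' => (Finset.mem_sdiff.1 hn).2
      (Finset.mem_union_left _ (Finset.mem_biUnion.2 ⟨j, Finset.mem_univ _, h'⟩)))
    (fun j n hn => eb j n (sub n hn) fun h' => (Finset.mem_sdiff.1 hn).2
      (Finset.mem_union_right _ (Finset.mem_biUnion.2 ⟨j, Finset.mem_univ _, h'⟩)))
    A hA hB (fun n hn => h n (sub n hn))
  have h2 := Finset.le_card_sdiff E W
  omega

end Vale.Agent.P018
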