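import Vale.Agent.P018.Fam
import Vale.Agent.P018.CurB
import Vale.Agent.P018.BConst

namespace Vale.Agent.P018

open NumberField MvPolynomial

theorem pair_Curve (ws wy v : ℕ) (hws : 1 ≤ ws) (hwy : 1 ≤ wy) (hv : 1 ≤ v) (h1 : ws < 2 * v)
    (h : ws * wy < (ws + wy) * v) :
    ∃ (B : ℕ) (Y₀ : ℝ), ∀ (L : Type) [Field L] [NumberField L] (io : 𝓞 L →+* ℂ) (Y : ℝ)
    (W S : Finset ℕ) (ρ : Type) [Fintype ρ] (y : ℕ → ρ → 𝓞 L) (s g : ℕ → 𝓞 L),
    Y₀ ≤ Y → Fintype.card ρ = 1 → (∀ q ∈ S, q.Prime ∧ Y ≤ q) →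
    v ≤ S.card → (∀ q ∈ S, ∀ n ∈ W, ∀ n' ∈ W, ∀ t, (q : 𝓞 L) ∣ y n t - y n' t) →
    (∀ n ∈ W, ht (s n) ≤ Y ^ ws) → (∀ n ∈ W, ht (g n) ≤ Y ^ wy) →
    (∀ q ∈ S, Loc (q : 𝓞 L) W y s) → (∀ q ∈ S, Loc (q : 𝓞 L) W y g) →
    Rm B W (fun n => io (s n)) ![fun _ => 1, fun n => io (g n)] ∧
      Rs B W (fun n => io (s n)) (fun n => io (g n)) := by
  obtain ⟨B1, Y1, H1⟩ := famrel 2 ws v ![0, wy] hws hv h1
  obtain ⟨B2, Y2, H2⟩ := famrel2 ws wy v hws hwy hv h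
  refine ⟨B1 + B2, max Y1 Y2, ?_⟩
  intro L _ _ io Y W S ρ _ y s g hY hρ hS hv hy hs hg ls lg
  refine ⟨?_, (H2 L io Y W S ρ y s g (le_trans (le_max_right _ _) hY) hρ hS hv hy hs hg ls lg).mono
    (by omega) subset_rfl⟩
  have := H1 L io Y W S ρ y s ![fun _ => 1, g] (le_trans (le_max_left _ _) hY) hρ hS hv hy hs
    (fun i n hn => by
      fin_cases i
      · simp [ht_one]
      · simpa using hg n hn) ls
    (fun q hq i => by
      fin_cases i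
      · exact Loc.const 1
      · exact lg q hq)
  have e : (fun i n => io ((![fun _ => 1, g] : Fin 2 → ℕ → 𝓞 L) i n)) =
      ![fun _ => 1, fun n => io (g n)] := by
    funext i n
    fin_cases i <;> simp
  rw [e] at this
  exact this.mono (by omega) subset_rfl

theorem rels_Curve {d k wa wb v : ℕ} (hN : Num d k wa wb v) (ws wy : ℕ) (hws : 1 ≤ ws)
    (hwy : 1 ≤ wy) (h1 : ws < 2 * v) (ha : ws * wa < (ws + wa) * v) (hb : ws * wb < (ws + wb) * v)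
    (h3 : wy < 3 * v) : ∃ (D : ℕ) (Y₀ : ℝ),
    ∀ (L : Type) [Field L] [NumberField L] (P : Pts L d k wa wb) (W S : Finset ℕ),
    Y₀ ≤ P.Y → P.Pool S → P.Cls W S → v ≤ S.card →
    (∀ i, ∀ q ∈ S, Loc (q : 𝓞 L) W (P.par ∅) (fun n => P.al n i)) →
    ∀ s y : ℕ → 𝓞 L, (∀ n ∈ W, ht (s n) ≤ P.Y ^ ws) → (∀ n ∈ W, ht (y n) ≤ P.Y ^ wy) →
    ((s = fun n => P.al n (Fin.castLE hN.hd 0)) ∧ (y = fun n => P.be n (Fin.castLE hN.hd 0)) ∨
      (s = fun n => P.be n (Fin.castLE hN.hd 0)) ∧ (y = fun n => P.al n (Fin.castLE hN.hd 0))) →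
    Set.InjOn s W → W.card ≤ D := by
  obtain ⟨B1, Y1, H1⟩ := pair_Curve ws wa v hws hN.ha hN.hv h1 ha
  obtain ⟨B2, Y2, H2⟩ := pair_Curve ws wb v hws hN.hb hN.hv h1 hb
  obtain ⟨B3, Y3, H3⟩ := famrel 3 wy v (fun i => ws * (i : ℕ)) hwy hN.hv h3
  obtain ⟨D, hD⟩ := curve_alg k (B1 + B2 + B3) hN.hk
  refine ⟨D, max Y1 (max Y2 Y3), ?_⟩
  intro L _ _ P W S hY hP hC hv hL s y hs hy hsy hi
  have hρ : Fintype.card (Option (∅ : Finset (Fin d))) = 1 := by simp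
  have hS : ∀ q ∈ S, q.Prime ∧ P.Y ≤ q := fun q hq => ⟨(hP q hq).1, (hP q hq).2.1⟩
  have hLb : ∀ i, ∀ q ∈ S, Loc (q : 𝓞 L) W (P.par ∅) (fun n => P.be n i) := fun i q hq =>
    P.loc_be hP hC hq (P.loc_x _ _ _) (hL i q hq)
  have ls : ∀ q ∈ S, Loc (q : 𝓞 L) W (P.par ∅) s := fun q hq => by
    rcases hsy with ⟨rfl, -⟩ | ⟨rfl, -⟩
    · exact hL _ q hq
    · exact hLb _ q hq
  have ly : ∀ q ∈ S, Loc (q : 𝓞 L) W (P.par ∅) y := fun q hq => by
    rcases hsy with ⟨-, rfl⟩ | ⟨-, rfl⟩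
    · exact hLb _ q hq
    · exact hL _ q hq
  refine hD W (fun n => P.io (P.x n)) (fun n => P.io (s n)) (fun n => P.io (y n))
    (fun j n => P.io (P.al n (Fin.castLE hN.hd j))) (fun j n => P.io (P.be n (Fin.castLE hN.hd j)))
    (fun j => P.io (P.mu (Fin.castLE hN.hd j)))
    (P.hio.comp (P.hmu.comp (Fin.castLE_injective _))) (fun n hn j => ?_)
    (fun j n hn n' hn' h => P.alinj n (hC.1 hn) n' (hC.1 hn') _ (P.hio h))
    (fun n hn n' hn' h => hi hn hn' (P.hio h)) ?_ (fun j => ?_) ?_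
  · rw [← map_pow, ← map_mul, P.eqn n (hC.1 hn), map_sub]
  · rcases hsy with ⟨rfl, rfl⟩ | ⟨rfl, rfl⟩
    · exact Or.inl ⟨rfl, rfl⟩
    · exact Or.inr ⟨rfl, rfl⟩
  · obtain ⟨a1, a2⟩ := H1 L P.io P.Y W S _ (P.par ∅) s (fun n => P.al n (Fin.castLE hN.hd j))
      (le_trans (le_max_left _ _) hY) hρ hS hv (P.par_cong hC ∅) hs
      (fun n hn => P.hal n (hC.1 hn) _) ls (hL _)
    obtain ⟨b1, b2⟩ := H2 L P.io P.Y W S _ (P.par ∅) s (fun n => P.be n (Fin.castLE hN.hd j))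
      (le_trans ((le_max_left _ _).trans (le_max_right _ _)) hY) hρ hS hv (P.par_cong hC ∅) hs
      (fun n hn => P.hbe n (hC.1 hn) _) ls (hLb _)
    exact ⟨a1.mono (by omega) subset_rfl, a2.mono (by omega) subset_rfl,
      b1.mono (by omega) subset_rfl, b2.mono (by omega) subset_rfl⟩
  · have := H3 L P.io P.Y W S _ (P.par ∅) y (fun i n => s n ^ (i : ℕ))
      (le_trans ((le_max_right _ _).trans (le_max_right _ _)) hY) hρ hS hv (P.par_cong hC ∅) hy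
      (fun i n hn => by
        rw [pow_mul]
        exact (ht_pow_le _ _).trans (pow_le_pow_left₀ (ht_nonneg _) (hs n hn) _)) ly
      (fun q hq i => (ls q hq).pow _)
    simp only [map_pow] at this
    exact this.mono (by omega) subset_rfl

theorem fib_Curve {d k wa wb v : ℕ} (hN : Num d k wa wb v) : ∃ (D : ℕ) (Y₀ : ℝ),
    ∀ (L : Type) [Field L] [NumberField L] (P : Pts L d k wa wb) (W S : Finset ℕ),
    Y₀ ≤ P.Y → P.Pool S → P.Cls W S → v ≤ S.card →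
    (∀ i, ∀ q ∈ S, Loc (q : 𝓞 L) W (P.par ∅) (fun n => P.al n i)) →
    (∀ n ∈ W, ∀ n' ∈ W, P.be n (Fin.castLE hN.hd 0) = P.be n' (Fin.castLE hN.hd 0)) →
    W.card ≤ D := by
  obtain ⟨B, Y, H⟩ := famrel 3 wa v ![0, wa, wa] hN.ha hN.hv hN.c3a
  obtain ⟨D, hD⟩ := bconst k B hN.hk
  refine ⟨D, Y, ?_⟩
  intro L _ _ P W S hY hP hC hv hL hb
  rcases W.eq_empty_or_nonempty with rfl | ⟨n0, hn0⟩
  · simp
  have hd3 : 3 ≤ d := le_trans (by norm_num) hN.hd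
  have hρ : Fintype.card (Option (∅ : Finset (Fin d))) = 1 := by simp
  have hS : ∀ q ∈ S, q.Prime ∧ P.Y ≤ q := fun q hq => ⟨(hP q hq).1, (hP q hq).2.1⟩
  refine hD W (fun n => P.io (P.x n)) (fun j n => P.io (P.al n (Fin.castLE hd3 j)))
    (fun j => P.io (P.be n0 (Fin.castLE hd3 j))) (fun j => P.io (P.mu (Fin.castLE hd3 j)))
    (P.hio.comp (P.hmu.comp (Fin.castLE_injective _)))
    (fun j h => P.be0 n0 (hC.1 hn0) _ (P.hio (h.trans (map_zero _).symm))) (fun n hn j => ?_)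
    (fun n hn n' hn' h => P.alinj n (hC.1 hn) n' (hC.1 hn') _ (P.hio h)) ?_
  · rw [P.beconj n0 (hC.1 hn0) n (hC.1 hn) _ _ (hb n0 hn0 n hn), ← map_pow, ← map_mul,
      P.eqn n (hC.1 hn), map_sub]
  · have := H L P.io P.Y W S _ (P.par ∅) (fun n => P.al n (Fin.castLE hd3 0))
      ![fun _ => 1, fun n => P.al n (Fin.castLE hd3 1), fun n => P.al n (Fin.castLE hd3 2)]
      hY hρ hS hv (P.par_cong hC ∅) (fun n hn => P.hal n (hC.1 hn) _)
      (fun i n hn => by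
        fin_cases i
        · simp [ht_one]
        · exact P.hal n (hC.1 hn) _
        · exact P.hal n (hC.1 hn) _) (hL _)
      (fun q hq i => by
        fin_cases i
        · exact Loc.const 1
        · exact hL _ q hq
        · exact hL _ q hq)
    convert this using 1
    funext i n
    fin_cases i <;> simp

theorem curve {d k wa wb v : ℕ} (hN : Num d k wa wb v) : ∃ (D : ℕ) (Y₀ : ℝ),
    ∀ (L : Type) [Field L] [NumberField L] (P : Pts L d k wa wb) (W S : Finset ℕ),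
    Y₀ ≤ P.Y → P.Pool S → P.Cls W S → v ≤ S.card →
    (∀ i, ∀ q ∈ S, Loc (q : 𝓞 L) W (P.par ∅) (fun n => P.al n i)) → W.card ≤ D := by
  classical
  have ha := hN.ha
  have hb := hN.hb
  have c1 := hN.c1
  have c2 := hN.c2
  rcases le_total wa wb with h | h
  · rw [min_eq_left h] at c1
    obtain ⟨D, Y, H⟩ := rels_Curve hN wa wb ha hb c1 (by nlinarith) c2 hN.c3b
    refine ⟨D, Y, ?_⟩
    intro L _ _ P W S hY hP hC hv hL
    exact H L P W S hY hP hC hv hL _ _ (fun n hn => P.hal n (hC.1 hn) _)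
      (fun n hn => P.hbe n (hC.1 hn) _) (Or.inl ⟨rfl, rfl⟩)
      (fun n hn n' hn' h => P.alinj n (hC.1 hn) n' (hC.1 hn') _ h)
  · rw [min_eq_right h] at c1
    obtain ⟨D, Y, H⟩ := rels_Curve hN wb wa hb ha c1 (by nlinarith) (by nlinarith) hN.c3a
    obtain ⟨D', Y', H'⟩ := fib_Curve hN
    refine ⟨D' * D, max Y Y', ?_⟩
    intro L _ _ P W S hY hP hC hv hL
    have sub : ∀ {U : Finset ℕ}, U ⊆ W → P.Cls U S := fun hU =>
      ⟨hU.trans hC.1, fun q hq n hn n' hn' s => hC.2 q hq n (hU hn) n' (hU hn') s⟩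
    obtain ⟨U, hU, hi, him⟩ := Finset.exists_subset_injOn_image_eq_of_surjOn
      (f := fun n => P.be n (Fin.castLE hN.hd 0)) (W : Set ℕ)
      (W.image fun n => P.be n (Fin.castLE hN.hd 0)) (by
        rw [Finset.coe_image]; exact Set.surjOn_image _ _)
    have hU' : U ⊆ W := fun n hn => hU hn
    have h1 := H L P U S (le_trans (le_max_left _ _) hY) hP (sub hU') hv
      (fun i q hq => (hL i q hq).mono hU') _ _ (fun n hn => P.hbe n (hC.1 (hU' hn)) _)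
      (fun n hn => P.hal n (hC.1 (hU' hn)) _) (Or.inr ⟨rfl, rfl⟩) hi
    have h2 := Finset.card_le_mul_card_image (f := fun n => P.be n (Fin.castLE hN.hd 0)) W D'
      (fun c _ => H' L P _ S (le_trans (le_max_right _ _) hY) hP (sub (Finset.filter_subset _ _))
        hv (fun i q hq => (hL i q hq).mono (Finset.filter_subset _ _)) fun n hn n' hn' =>
          (Finset.mem_filter.1 hn).2.trans (Finset.mem_filter.1 hn').2.symm)
    rw [← him, Finset.card_image_of_injOn hi] at h2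
    exact h2.trans (Nat.mul_le_mul_left _ h1)

end Vale.Agent.P018
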