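import Vale.Agent.P018.Defs

namespace Vale.Agent.P018

open NumberField MvPolynomial

/-- numerical conditions for the line step -/
structure NumL (d k wa wb v : ℕ) : Prop where
  hd : 4 ≤ d
  hk : 2 ≤ k
  ha : 1 ≤ wa
  hb : 1 ≤ wb
  hv : 1 ≤ v
  line : wa * wb ^ 2 < (3 * k * wa + wb) * v ^ 2

/-- numerical conditions for the curve step -/
structure NumC (d k wa wb v : ℕ) : Prop where
  hd : 4 ≤ d
  hk : 2 ≤ k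
  ha : 1 ≤ wa
  hb : 1 ≤ wb
  hv : 1 ≤ v
  c1 : min wa wb < 2 * v
  c2 : wa * wb < (wa + wb) * v
  c3a : wa < 3 * v
  c3b : wb < 3 * v

/-- `v` primes suffice to cut an `r`-dimensional piece -/
def LevOK (d k wa wb r v : ℕ) : Prop :=
  1 ≤ v ∧ (wa < v ∨
    ((r = d + 1 → (wa * wb) ^ d < (k * wa + wb) ^ (d - 1) * v ^ (d + 1)) ∧
     (3 ≤ r → r ≤ d → (wa * wb) ^ r < min wa wb * (k * wa + wb) ^ (r - 1) * v ^ r) ∧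
     (r = 2 → (wa * wb) ^ 2 < wb * (k * wa + wb) * v ^ 2 ∧
        (wa * wb) ^ 2 < 2 * wa * (k * wa + wb) * v ^ 2 ∧
        wa * wb ^ 2 < (3 * k * wa + wb) * v ^ 2) ∧
     (r = 1 → min wa wb < 2 * v ∧ wa * wb < (wa + wb) * v ∧ wa < 3 * v ∧ wb < 3 * v)))

/-- a schedule of moduli of total cost at most `E` -/
def Plan (d k wa wb E : ℕ) : Prop :=
  ∃ v : ℕ → ℕ, (∀ r, 1 ≤ r → r ≤ d + 1 → LevOK d k wa wb r (v r)) ∧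
    (∀ r, 1 ≤ r → r ≤ d → v (r + 1) ≤ v r) ∧
    ∑ r ∈ Finset.Icc 1 (d + 1), v r + (d + 1) ^ 2 ≤ E

/-- schedules exist, with room to spare, for all admissible large weights -/
def Feas (d k : ℕ) : Prop :=
  ∀ c : ℕ, ∃ w₀ : ℕ, ∀ wa wb : ℕ, 1 ≤ wa → 1 ≤ wb → k * wa + wb ≤ d * wa → w₀ ≤ k * wa + wb →
    ∃ E, Plan d k wa wb E ∧ E + c ≤ k * wa + wb

/-- real, normalised form of `LevOK` -/
def LevR (d k r : ℕ) (a b κ : ℝ) : Prop :=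
  a ≤ κ ∨
    ((r = d + 1 → (a * b) ^ d ≤ κ ^ (d + 1)) ∧
     (3 ≤ r → r ≤ d → (a * b) ^ r ≤ min a b * κ ^ r) ∧
     (r = 2 → (a * b) ^ 2 ≤ b * κ ^ 2 ∧ (a * b) ^ 2 ≤ 2 * a * κ ^ 2 ∧
        a * b ^ 2 ≤ (3 * k * a + b) * κ ^ 2) ∧
     (r = 1 → min a b ≤ 2 * κ ∧ a * b ≤ (a + b) * κ ∧ a ≤ 3 * κ ∧ b ≤ 3 * κ))

variable {L : Type} [Field L] [NumberField L] {d k wa wb : ℕ}

/-- the good points of `Z` occupy at most `c * q ^ r` residue classes modulo a split prime -/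
def Pts.Cnt (P : Pts L d k wa wb) (Z : Finset ℕ) (r c h : ℕ) : Prop :=
  ∃ z : ℕ → Fin d → 𝓞 L, (∀ n ∈ Z, ∀ i, z n i ≠ 0 ∧ ht (z n i) ≤ P.Y ^ h) ∧
    ∀ (q : ℕ) (π : 𝓞 L →+* ZMod q), q.Prime →
      ∃ 𝒱 : Finset (Option (Fin d) → ℕ), 𝒱.card ≤ c * q ^ r ∧
        ∀ n ∈ Z, (∀ i, IsCoprime (z n i) (q : 𝓞 L)) → (fun s => (π (P.u n s)).val) ∈ 𝒱

/-- every prime of `T` has a degree one reduction that determines the residue class -/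
def Pts.Spl (P : Pts L d k wa wb) (T : Finset ℕ) : Prop :=
  ∀ q ∈ T, ∃ π : 𝓞 L →+* ZMod q, ∀ n ∈ P.N, ∀ n' ∈ P.N,
    (∀ s, π (P.u n s) = π (P.u n' s)) → ∀ s, (q : 𝓞 L) ∣ P.u n s - P.u n' s

end Vale.Agent.P018
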