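import Mathlib

namespace Vale.Agent.P018

open NumberField MvPolynomial

/-- height of an algebraic integer: the largest absolute value of a conjugate -/
noncomputable def ht {L : Type} [Field L] [NumberField L] (z : 𝓞 L) : ℝ := house (z : L)

/-- `g` is, on `W`, a `q`-adic limit of polynomials in the parameters `y` -/
def Loc {R ρ : Type} [CommRing R] (q : R) (W : Finset ℕ) (y : ℕ → ρ → R) (g : ℕ → R) : Prop :=
  ∀ N : ℕ, ∃ P : MvPolynomial ρ R, ∀ n ∈ W, q ^ N ∣ g n - eval (y n) P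

/-- the family `A` with weights `w` beats the determinant exponent in `r` parameters -/
def Good {ι : Type} (r v : ℕ) (A : Finset ι) (w : ι → ℕ) : Prop :=
  A.Nonempty ∧ ∀ e : ι → Fin r → ℕ, Set.InjOn e A →
    ∑ γ ∈ A, w γ < v * ∑ γ ∈ A, ∑ t, e γ t

/-- the system of points `al ^ k * be = x - mu` -/
structure Pts (L : Type) [Field L] [NumberField L] (d k wa wb : ℕ) where
  Y : ℝ
  N : Finset ℕ
  x : ℕ → 𝓞 L
  al : ℕ → Fin d → 𝓞 L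
  be : ℕ → Fin d → 𝓞 L
  mu : Fin d → 𝓞 L
  io : 𝓞 L →+* ℂ
  hio : Function.Injective io
  hmu : Function.Injective mu
  eqn : ∀ n ∈ N, ∀ j, al n j ^ k * be n j = x n - mu j
  al0 : ∀ n ∈ N, ∀ j, al n j ≠ 0
  be0 : ∀ n ∈ N, ∀ j, be n j ≠ 0
  xinj : ∀ n ∈ N, ∀ n' ∈ N, x n = x n' → n = n'
  alinj : ∀ n ∈ N, ∀ n' ∈ N, ∀ j, al n j = al n' j → n = n'
  ratio : ∀ n ∈ N, ∀ n' ∈ N, ∀ i j, i ≠ j → al n i * al n' j = al n j * al n' i → n = n'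
  beconj : ∀ n ∈ N, ∀ n' ∈ N, ∀ i j, be n j = be n' j → be n i = be n' i
  hY : 1 ≤ Y
  hal : ∀ n ∈ N, ∀ j, ht (al n j) ≤ Y ^ wa
  hbe : ∀ n ∈ N, ∀ j, ht (be n j) ≤ Y ^ wb
  hx : ∀ n ∈ N, ht (x n) ≤ Y ^ (k * wa + wb)

variable {L : Type} [Field L] [NumberField L] {d k wa wb : ℕ}

/-- coordinates `(x, al 0, …, al (d-1))` -/
def Pts.u (P : Pts L d k wa wb) (n : ℕ) : Option (Fin d) → 𝓞 L
  | none => P.x n
  | some j => P.al n j

/-- complex coordinates -/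
noncomputable def Pts.uc (P : Pts L d k wa wb) (n : ℕ) (s : Option (Fin d)) : ℂ := P.io (P.u n s)

/-- local parameters `(x, al j (j ∈ J))` -/
def Pts.par (P : Pts L d k wa wb) (J : Finset (Fin d)) (n : ℕ) : Option J → 𝓞 L
  | none => P.x n
  | some j => P.al n j

/-- `S` is a set of admissible primes -/
def Pts.Pool (P : Pts L d k wa wb) (S : Finset ℕ) : Prop :=
  ∀ q ∈ S, q.Prime ∧ P.Y ≤ q ∧ ∀ n ∈ P.N, ∀ j, IsCoprime (P.al n j) (q : 𝓞 L)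

/-- `W` is a set of points in one residue class modulo every prime of `S` -/
def Pts.Cls (P : Pts L d k wa wb) (W S : Finset ℕ) : Prop :=
  W ⊆ P.N ∧ ∀ q ∈ S, ∀ n ∈ W, ∀ n' ∈ W, ∀ s, (q : 𝓞 L) ∣ P.u n s - P.u n' s

/-- `G` involves only `x` and the `al j`, `j ∈ J` -/
def Supp {R : Type} [CommRing R] (J : Finset (Fin d)) (G : MvPolynomial (Option (Fin d)) R) :
    Prop := ∀ j ∉ J, degreeOf (some j) G = 0

/-- a nonzero relation of degree at most `D` among `x` and the `al j`, `j ∈ J`, on `W` -/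
def Pts.Rel (P : Pts L d k wa wb) (W : Finset ℕ) (J : Finset (Fin d)) (D : ℕ) : Prop :=
  ∃ G : MvPolynomial (Option (Fin d)) ℂ, G ≠ 0 ∧ Supp J G ∧ G.totalDegree ≤ D ∧
    ∀ n ∈ W, eval (P.uc n) G = 0

/-- an integral, absolutely irreducible relation -/
def Pts.Dat (P : Pts L d k wa wb) (Z : Finset ℕ) (J : Finset (Fin d)) (D : ℕ)
    (F : MvPolynomial (Option (Fin d)) (𝓞 L)) : Prop :=
  Supp J F ∧ F.totalDegree ≤ D ∧ Irreducible (map P.io F) ∧ ∀ n ∈ Z, eval (P.u n) F = 0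

/-- `⌈-g/k⌉₊` -/
def mm (k : ℕ) (g : ℤ) : ℕ := ((-g + k - 1) / k).toNat

/-- weight of `be ^ mm * al ^ (g + k * mm)` -/
def w1 (k wa wb : ℕ) (g : ℤ) : ℕ := mm k g * wb + (g + k * mm k g).toNat * wa

/-- index of the monomial `x ^ l * ∏ be j ^ mm (g j) * al j ^ (g j + k * mm (g j))` -/
abbrev Gm (d : ℕ) := ℕ × (Fin d → ℤ)

def wt (k wa wb : ℕ) (γ : Gm d) : ℕ := γ.1 * (k * wa + wb) + ∑ j, w1 k wa wb (γ.2 j)

def ex (k : ℕ) (γ : Gm d) : ℕ := γ.1 + ∑ j, mm k (γ.2 j)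

noncomputable def box (k B : ℕ) (J : Finset (Fin d)) : Finset (Gm d) :=
  Finset.range B ×ˢ
    Fintype.piFinset (fun j => if j ∈ J then Finset.Icc (-((k * B : ℕ) : ℤ)) (B : ℤ) else {0})

/-- the monomial of index `γ`, multiplied by `∏ al j ^ (k * B)`, as a polynomial -/
noncomputable def Mt (k B : ℕ) (μ : Fin d → ℂ) (J : Finset (Fin d)) (γ : Gm d) :
    MvPolynomial (Option (Fin d)) ℂ :=
  X none ^ γ.1 * ∏ j ∈ J, (X none - C (μ j)) ^ mm k (γ.2 j) *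
    X (some j) ^ (γ.2 j + ((k * B : ℕ) : ℤ)).toNat

/-- `γ` lies in the translate by `(e, g)` of the monomial semigroup of `J` -/
def InSh (k : ℕ) (J : Finset (Fin d)) (e : ℕ) (g : Fin d → ℤ) (γ : Gm d) : Prop :=
  ∃ γ' : Gm d, (∀ j ∉ J, γ'.2 j = 0) ∧ ex k γ = e + ex k γ' ∧ γ.2 = g + γ'.2

/-- weight of the translation `(e, g)` -/
def sw (k wa wb e : ℕ) (g : Fin d → ℤ) : ℤ := e * ((k * wa + wb : ℕ) : ℤ) + ∑ j, g j * wa

/-- index set of the family used on a line -/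
abbrev Li := (Fin 3 × ℕ × ℕ × ℕ) ⊕ (ℕ × ℕ)

def lbox (k B : ℕ) : Finset Li :=
  ((Finset.univ : Finset (Fin 3)) ×ˢ Finset.range B ×ˢ Finset.range B ×ˢ Finset.range k).disjSum
    (Finset.range B ×ˢ Finset.range B)

/-- weight of `be j ^ (m+1) * be (j+1) ^ l * al j ^ ε`, resp. of `be 3 ^ l * al 3 ^ i` -/
def lwt (wa wb : ℕ) : Li → ℕ
  | Sum.inl (_, m, l, ε) => (m + 1 + l) * wb + ε * wa
  | Sum.inr (l, i) => l * wb + i * wa

/-- the function of index `γ` of the line family -/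
def lfun {R : Type} [CommRing R] (a b : Fin 4 → R) : Li → R
  | Sum.inl (j, m, l, ε) => b j.castSucc ^ (m + 1) * b j.succ ^ l * a j.castSucc ^ ε
  | Sum.inr (l, i) => b 3 ^ l * a 3 ^ i

/-- a nontrivial relation `∑ A i (s) * h i = 0` on `W`, with `deg A i ≤ B` -/
def Rm {m : ℕ} (B : ℕ) (W : Finset ℕ) (s : ℕ → ℂ) (h : Fin m → ℕ → ℂ) : Prop :=
  ∃ A : Fin m → Polynomial ℂ, (∃ i, A i ≠ 0) ∧ (∀ i, (A i).natDegree ≤ B) ∧
    ∀ n ∈ W, ∑ i, (A i).eval (s n) * h i n = 0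

/-- a nontrivial relation `A₁ (s) + A₂ (y) = 0` on `W`, with `A₂ (0) = 0` -/
def Rs (B : ℕ) (W : Finset ℕ) (s y : ℕ → ℂ) : Prop :=
  ∃ A₁ A₂ : Polynomial ℂ, (A₁ ≠ 0 ∨ A₂ ≠ 0) ∧ A₂.coeff 0 = 0 ∧ A₁.natDegree ≤ B ∧
    A₂.natDegree ≤ B ∧ ∀ n ∈ W, A₁.eval (s n) + A₂.eval (y n) = 0

/-- the numerical conditions on the weights -/
structure Num (d k wa wb v : ℕ) : Prop where
  hd : 4 ≤ d
  hk : 2 ≤ k
  ha : 1 ≤ wa
  hb : 1 ≤ wb
  hv : 1 ≤ v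
  top : (wa * wb) ^ d < (k * wa + wb) ^ (d - 1) * v ^ (d + 1)
  hyp : ∀ r, 3 ≤ r → (wa * wb) ^ r < min wa wb * (k * wa + wb) ^ (r - 1) * v ^ r
  twob : (wa * wb) ^ 2 < wb * (k * wa + wb) * v ^ 2
  twoa : (wa * wb) ^ 2 < 2 * wa * (k * wa + wb) * v ^ 2
  line : wa * wb ^ 2 < (3 * k * wa + wb) * v ^ 2
  c1 : min wa wb < 2 * v
  c2 : wa * wb < (wa + wb) * v
  c3a : wa < 3 * v
  c3b : wb < 3 * v

/-- number of roots of `f` modulo `q` -/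
noncomputable def rho (f : Polynomial ℤ) (q : ℕ) : ℕ :=
  ((Finset.range q).filter (fun a : ℕ => (q : ℤ) ∣ f.eval (a : ℤ))).card

end Vale.Agent.P018
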