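import Vale.Agent.P018.Defs

namespace Vale.Agent.P018

open NumberField MvPolynomial

open Filter Topology

theorem mod_Dens {P : ℕ → Prop} {a : ℕ} (h : Function.Periodic P a) {m n : ℕ}
    (hmn : m ≡ n [MOD a]) : P m ↔ P n := by
  rw [← h.map_mod_nat m, ← h.map_mod_nat n, hmn]

theorem crt_Dens {P R : ℕ → Prop} [DecidablePred P] [DecidablePred R] {a b : ℕ}
    (hab : a.Coprime b) (ha : 0 < a) (hb : 0 < b) (hP : Function.Periodic P a)
    (hR : Function.Periodic R b) :
    ((Finset.range (a * b)).filter fun n => P n ∧ R n).card =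
      ((Finset.range a).filter P).card * ((Finset.range b).filter R).card := by
  rw [← Finset.card_product]
  refine Finset.card_nbij (fun n => (n % a, n % b)) ?_ ?_ ?_
  · intro n hn
    simp only [Finset.coe_filter, Finset.mem_range, Set.mem_ofPred_eq] at hn
    simp only [Finset.coe_product, Set.mem_prod, Finset.mem_coe, Finset.mem_filter,
      Finset.mem_range]
    exact ⟨⟨Nat.mod_lt _ ha, (mod_Dens hP (Nat.mod_modEq n a)).2 hn.2.1⟩,
      Nat.mod_lt _ hb, (mod_Dens hR (Nat.mod_modEq n b)).2 hn.2.2⟩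
  · intro m hm n hn h
    simp only [Finset.coe_filter, Finset.mem_range, Set.mem_ofPred_eq] at hm hn
    simp only [Prod.mk.injEq] at h
    exact Nat.ModEq.eq_of_lt_of_lt ((Nat.modEq_and_modEq_iff_modEq_mul hab).1 ⟨h.1, h.2⟩) hm.1 hn.1
  · rintro ⟨x, y⟩ h
    simp only [Finset.coe_product, Set.mem_prod, Finset.mem_coe, Finset.mem_filter,
      Finset.mem_range] at h
    obtain ⟨h1, h2⟩ := (Nat.chineseRemainder hab x y).2
    refine ⟨Nat.chineseRemainder hab x y, ?_, ?_⟩
    · simp only [Finset.coe_filter, Finset.mem_range, Set.mem_ofPred_eq]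
      exact ⟨Nat.chineseRemainder_lt_mul hab x y ha.ne' hb.ne', (mod_Dens hP h1).2 h.1.2,
        (mod_Dens hR h2).2 h.2.2⟩
    · refine Prod.ext ?_ ?_
      · exact Eq.trans h1 (Nat.mod_eq_of_lt h.1.1)
      · exact Eq.trans h2 (Nat.mod_eq_of_lt h.2.1)

theorem lim_Dens {P : ℕ → Prop} [DecidablePred P] {a : ℕ} (ha : 0 < a)
    (hP : Function.Periodic P a) :
    Tendsto (fun X : ℕ => (((Finset.Icc 1 X).filter P).card : ℝ) / X) atTop
      (𝓝 ((((Finset.range a).filter P).card : ℝ) / a)) := by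
  set c := ((Finset.range a).filter P).card with hc
  have hca : c ≤ a := (Finset.card_filter_le _ _).trans (by simp)
  set N : ℕ → ℕ := fun X => ((Finset.Icc 1 X).filter P).card with hN
  have h1 : ∀ X, N (X + a) = N X + c := fun X => by
    have e1 : Finset.Icc 1 (X + a) = Finset.Icc 1 X ∪ Finset.Ico (X + 1) (X + 1 + a) := by
      ext n; simp only [Finset.mem_Icc, Finset.mem_union, Finset.mem_Ico]; omega
    have e2 : Disjoint ((Finset.Icc 1 X).filter P) ((Finset.Ico (X + 1) (X + 1 + a)).filter P) := by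
      refine Finset.disjoint_filter_filter (Finset.disjoint_left.2 fun n h1 h2 => ?_)
      simp only [Finset.mem_Icc, Finset.mem_Ico] at h1 h2; omega
    simp only [hN]
    rw [e1, Finset.filter_union, Finset.card_union_of_disjoint e2,
      Nat.filter_Ico_card_eq_of_periodic _ _ _ hP, Nat.count_eq_card_filter_range]
  have ha' : (0 : ℝ) < a := Nat.cast_pos.2 ha
  have h2 : ∀ X, |(N X : ℝ) - c / a * X| ≤ a := fun X => by
    induction X using Nat.strong_induction_on with
    | _ X ih =>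
      by_cases hX : X < a
      · have e1 : N X ≤ X := (Finset.card_filter_le _ _).trans (by simp)
        have e2 : (N X : ℝ) ≤ a := Nat.cast_le.2 (by omega)
        have e3 : (c : ℝ) / a ≤ 1 := (div_le_one ha').2 (Nat.cast_le.2 hca)
        have e4 : (0 : ℝ) ≤ c / a := by positivity
        have e5 : (X : ℝ) ≤ a := Nat.cast_le.2 hX.le
        have e6 : (0 : ℝ) ≤ X := Nat.cast_nonneg _
        have e7 : (0 : ℝ) ≤ N X := Nat.cast_nonneg _
        rw [abs_le]; constructor <;> nlinarith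
      · obtain ⟨Y, rfl⟩ : ∃ Y, X = Y + a := ⟨X - a, by omega⟩
        have := ih Y (by omega)
        rw [h1]
        push_cast
        have e : (N Y : ℝ) + c - c / a * (Y + a) = N Y - c / a * Y := by field_simp; ring
        rwa [e]
  rw [← tendsto_sub_nhds_zero_iff]
  refine squeeze_zero_norm' ?_ (tendsto_const_div_atTop_nhds_zero_nat (a : ℝ))
  filter_upwards [eventually_gt_atTop 0] with X hX
  have hX' : (0 : ℝ) < X := Nat.cast_pos.2 hX
  have e : (N X : ℝ) / X - c / a = ((N X : ℝ) - c / a * X) / X := by field_simp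
  rw [Real.norm_eq_abs, e, abs_div, abs_of_pos hX']
  exact div_le_div_of_nonneg_right (h2 X) hX'.le

theorem per_Dens (f : Polynomial ℤ) {q a : ℕ} (h : q ∣ a) (n : ℕ) :
    (q : ℤ) ∣ f.eval ((n + a : ℕ) : ℤ) ↔ (q : ℤ) ∣ f.eval (n : ℤ) := by
  have h1 := Polynomial.sub_dvd_eval_sub ((n + a : ℕ) : ℤ) (n : ℤ) f
  have h2 : (q : ℤ) ∣ ((n + a : ℕ) : ℤ) - n := by
    push_cast; rw [add_sub_cancel_left]; exact Int.natCast_dvd_natCast.2 h
  exact (dvd_iff_dvd_of_dvd_sub (h2.trans h1))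

theorem perT_Dens (f : Polynomial ℤ) (k : ℕ) (T : Finset ℕ) :
    Function.Periodic (fun n : ℕ => ∀ p ∈ T, ¬ (p : ℤ) ^ k ∣ f.eval (n : ℤ)) (∏ p ∈ T, p ^ k) := by
  intro n
  refine propext (forall₂_congr fun p hp => not_congr ?_)
  have := per_Dens f (Finset.dvd_prod_of_mem (fun p => p ^ k) hp) n
  rwa [Nat.cast_pow] at this

theorem cnt_Dens (f : Polynomial ℤ) (k : ℕ) (T : Finset ℕ) (hT : ∀ p ∈ T, p.Prime) :
    ((((Finset.range (∏ p ∈ T, p ^ k)).filter (fun n : ℕ =>
      ∀ p ∈ T, ¬ (p : ℤ) ^ k ∣ f.eval (n : ℤ))).card : ℝ) / (∏ p ∈ T, p ^ k : ℕ)) =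
      ∏ p ∈ T, (1 - (rho f (p ^ k) : ℝ) / (p : ℝ) ^ k) := by
  induction T using Finset.induction_on with
  | empty => simp
  | insert p T hp ih =>
    have hp0 := hT p (Finset.mem_insert_self _ _)
    have hT' : ∀ q ∈ T, q.Prime := fun q hq => hT q (Finset.mem_insert_of_mem hq)
    have hcop : (p ^ k).Coprime (∏ q ∈ T, q ^ k) :=
      Nat.Coprime.prod_right fun q hq => Nat.Coprime.pow _ _
        ((Nat.coprime_primes hp0 (hT' q hq)).2 fun h => hp (h ▸ hq))
    have ha : 0 < p ^ k := pow_pos hp0.pos k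
    have hb : 0 < ∏ q ∈ T, q ^ k := Finset.prod_pos fun q hq => pow_pos (hT' q hq).pos k
    have hP : Function.Periodic (fun n : ℕ => ¬ (p : ℤ) ^ k ∣ f.eval (n : ℤ)) (p ^ k) := by
      intro n
      refine propext (not_congr ?_)
      have := per_Dens f (dvd_refl (p ^ k)) n
      rwa [Nat.cast_pow] at this
    have h1 := crt_Dens hcop ha hb hP (perT_Dens f k T)
    have h2 : ((Finset.range (p ^ k)).filter fun n : ℕ => ¬ (p : ℤ) ^ k ∣ f.eval (n : ℤ)).card +
        rho f (p ^ k) = p ^ k := by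
      unfold rho
      rw [add_comm, Nat.cast_pow, Finset.card_filter_add_card_filter_not, Finset.card_range]
    rw [Finset.prod_insert hp, Finset.prod_insert hp, ← ih hT']
    simp only [Finset.forall_mem_insert]
    rw [h1]
    have h3 : (((Finset.range (p ^ k)).filter
        fun n : ℕ => ¬ (p : ℤ) ^ k ∣ f.eval (n : ℤ)).card : ℝ) = (p : ℝ) ^ k - rho f (p ^ k) := by
      rw [eq_sub_iff_add_eq]; exact_mod_cast h2
    have h4 : (0 : ℝ) < (p : ℝ) ^ k := by exact_mod_cast ha
    rw [Nat.cast_mul, Nat.cast_mul, h3, Nat.cast_pow, mul_div_mul_comm]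
    congr 1
    field_simp

theorem dens (f : Polynomial ℤ) (k : ℕ) (T : Finset ℕ) (hT : ∀ p ∈ T, p.Prime) :
    Tendsto (fun X : ℕ => (((Finset.Icc 1 X).filter (fun n : ℕ =>
      ∀ p ∈ T, ¬ (p : ℤ) ^ k ∣ f.eval (n : ℤ))).card : ℝ) / X) atTop
      (𝓝 (∏ p ∈ T, (1 - (rho f (p ^ k) : ℝ) / (p : ℝ) ^ k))) := by
  rw [← cnt_Dens f k T hT]
  exact lim_Dens (Finset.prod_pos fun q hq => pow_pos (hT q hq).pos k) (perT_Dens f k T)

end Vale.Agent.P018
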