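import Vale.Agent.P018.Ht

namespace Vale.Agent.P018

open NumberField MvPolynomial

theorem det_dvd {R ρ ι : Type} [CommRing R] [Fintype ρ] [Fintype ι] [DecidableEq ι] (q : R)
    (W : Finset ℕ) (y : ℕ → ρ → R) (hy : ∀ n ∈ W, ∀ n' ∈ W, ∀ t, q ∣ y n t - y n' t)
    (g : ι → ℕ → R) (hg : ∀ γ, Loc q W y (g γ)) (E : ℕ)
    (hE : ∀ e : ι → ρ → ℕ, Function.Injective e → E ≤ ∑ γ, ∑ t, e γ t)
    (pt : ι → ℕ) (hpt : ∀ γ, pt γ ∈ W) :
    q ^ E ∣ Matrix.det (Matrix.of fun γ δ => g γ (pt δ)) :=   by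
  classical
  obtain hι | ⟨⟨γ₀⟩⟩ := isEmpty_or_nonempty ι
  · have := hE (fun _ _ => 0) (Function.injective_of_subsingleton _)
    simp_all
  choose P hP using fun γ => hg γ E
  choose z hz using fun δ t => hy _ (hpt δ) _ (hpt γ₀) t
  let P' : ι → MvPolynomial ρ R := fun γ => aeval (fun t => X t + C (y (pt γ₀) t)) (P γ)
  have h1 : ∀ γ δ, eval (y (pt δ)) (P γ) = ∑ e ∈ (P' γ).support,
      (coeff e (P' γ) * q ^ ∑ t, e t) * ∏ t, z δ t ^ e t := fun γ δ => by
    have : eval (fun t => q * z δ t) (P' γ) = eval (y (pt δ)) (P γ) := by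
      simp only [P', ← coe_aeval_eq_eval, RingHom.coe_coe, comp_aeval_apply, map_add, aeval_X,
        aeval_C, ← hz, Algebra.algebraMap_self, RingHom.id_apply, sub_add_cancel]
    rw [← this, eval_eq']
    simp only [mul_pow, Finset.prod_mul_distrib, Finset.prod_pow_eq_pow_sum, mul_assoc]
  have h2 : q ^ E ∣ Matrix.det (Matrix.of fun γ δ => eval (y (pt δ)) (P γ)) := by
    have : (Matrix.of fun γ δ => eval (y (pt δ)) (P γ)) = fun γ => ∑ e ∈ (P' γ).support,
        (coeff e (P' γ) * q ^ ∑ t, e t) • fun δ => ∏ t, z δ t ^ e t := by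
      ext γ δ
      simp only [Matrix.of_apply, h1, Finset.sum_apply, Pi.smul_apply, smul_eq_mul]
    rw [this]
    refine (congrArg (q ^ E ∣ ·) ((Matrix.detRowAlternating (n := ι) (R := R)).toMultilinearMap.map_sum_finset
      _ fun γ => (P' γ).support)).mpr (Finset.dvd_sum fun e _ => ?_)
    rw [MultilinearMap.map_smul_univ, smul_eq_mul]
    by_cases he : Function.Injective e
    · rw [Finset.prod_mul_distrib, Finset.prod_pow_eq_pow_sum]
      exact ((pow_dvd_pow q (hE (fun γ => e γ)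
        (DFunLike.coe_injective.comp he))).mul_left _).mul_right _
    · obtain ⟨a, b, h, hn⟩ := Function.not_injective_iff.1 he
      rw [show Matrix.detRowAlternating.toMultilinearMap (fun γ δ => ∏ t, z δ t ^ e γ t) = 0 from
        Matrix.detRowAlternating.map_eq_zero_of_eq _ (by rw [h]) hn, mul_zero]
      exact dvd_zero _
  rw [← Ideal.mem_span_singleton, ← Ideal.Quotient.eq_zero_iff_mem, RingHom.map_det] at h2 ⊢
  rw [← h2]
  congr 1
  ext γ δ
  exact Ideal.Quotient.eq.2 (Ideal.mem_span_singleton.2 (hP γ _ (hpt δ)))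

theorem dep_of_det {ι : Type} [Fintype ι] [DecidableEq ι] [Nonempty ι] (W : Finset ℕ)
    (g : ι → ℕ → ℂ)
    (h : ∀ pt : ι → ℕ, (∀ γ, pt γ ∈ W) → Matrix.det (Matrix.of fun γ δ => g γ (pt δ)) = 0) :
    ∃ c : ι → ℂ, c ≠ 0 ∧ ∀ n ∈ W, ∑ γ, c γ * g γ n = 0 :=   by
  let v : W → ι → ℂ := fun n γ => g γ n
  by_cases hs : Submodule.span ℂ (Set.range v) = ⊤
  · obtain ⟨κ, a, -, h1, h2⟩ := exists_linearIndependent' ℂ v
    let e := (Module.Basis.mk h2 (h1.trans hs).ge).indexEquiv (Pi.basisFun ℂ ι)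
    refine absurd (h (fun δ => a (e.symm δ)) fun δ => (a _).2) (IsUnit.ne_zero ?_)
    rw [← Matrix.isUnit_iff_isUnit_det, ← Matrix.linearIndependent_cols_iff_isUnit]
    exact h2.comp _ e.symm.injective
  · obtain ⟨f, h1, h2⟩ := Submodule.exists_le_ker_of_lt_top _ (lt_top_iff_ne_top.2 hs)
    refine ⟨fun γ => f fun j => if γ = j then 1 else 0, fun hc => h1 (LinearMap.ext fun x => ?_),
      fun n hn => ?_⟩
    · rw [LinearMap.pi_apply_eq_sum_univ]
      exact Finset.sum_eq_zero fun γ _ => by rw [congrFun hc γ]; simp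
    · have := h2 (Submodule.subset_span ⟨⟨n, hn⟩, rfl⟩)
      rw [LinearMap.mem_ker, LinearMap.pi_apply_eq_sum_univ] at this
      simpa only [mul_comm, smul_eq_mul] using this

theorem detrel {L : Type} [Field L] [NumberField L] {ρ ι : Type} [Fintype ρ] (r v : ℕ)
    (hr : Fintype.card ρ = r) (hv1 : 1 ≤ v) (io : 𝓞 L →+* ℂ) (Y : ℝ) (W S : Finset ℕ)
    (hS : ∀ q ∈ S, q.Prime ∧ Y ≤ q) (hv : v ≤ S.card) (y : ℕ → ρ → 𝓞 L)
    (hy : ∀ q ∈ S, ∀ n ∈ W, ∀ n' ∈ W, ∀ t, (q : 𝓞 L) ∣ y n t - y n' t)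
    (A : Finset ι) (w : ι → ℕ) (g : ι → ℕ → 𝓞 L)
    (hw : ∀ γ ∈ A, ∀ n ∈ W, ht (g γ n) ≤ Y ^ w γ)
    (hg : ∀ q ∈ S, ∀ γ ∈ A, Loc (q : 𝓞 L) W y (g γ)) (hA : Good r v A w)
    (hY : (A.card.factorial : ℝ) < Y) :
    ∃ c : ι → ℂ, (∃ γ ∈ A, c γ ≠ 0) ∧ ∀ n ∈ W, ∑ γ ∈ A, c γ * io (g γ n) = 0 :=   by
  classical
  haveI : Nonempty A := hA.1.to_subtype
  have hY1 : 1 < Y := lt_of_le_of_lt (by exact_mod_cast Nat.factorial_pos _) hY
  obtain ⟨c, h1, h2⟩ := dep_of_det (ι := A) W (fun γ n => io (g γ n)) fun pt hpt => by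
    have k0 : Matrix.det (Matrix.of fun γ δ : A => g γ (pt δ)) = 0 := by
      by_contra hn
      have k1 : (((∏ q ∈ S, q) ^ ((∑ γ ∈ A, w γ) / v + 1) : ℕ) : 𝓞 L) ∣
          Matrix.det (Matrix.of fun γ δ : A => g γ (pt δ)) := by
        rw [Nat.cast_pow, Nat.cast_prod, ← Finset.prod_pow]
        refine Finset.prod_dvd_of_coprime (fun q hq q' hq' h => (isCoprime_natCast
          ((Nat.coprime_primes (hS q hq).1 (hS q' hq').1).2 h)).pow) fun q hq => ?_
        refine det_dvd (ι := A) _ W y (hy q hq) (fun γ => g γ) (fun γ => hg q hq γ γ.2) _ (fun e he => ?_) pt hpt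
        let ε := Fintype.equivFinOfCardEq hr
        have := hA.2 (fun γ t => if h : γ ∈ A then e ⟨γ, h⟩ (ε.symm t) else 0)
          fun a ha b hb h => by
            have : e ⟨a, ha⟩ = e ⟨b, hb⟩ := _root_.funext fun t => by
              simpa [Finset.mem_coe.1 ha, Finset.mem_coe.1 hb] using congrFun h (ε t)
            exact congrArg Subtype.val (he this)
        rw [← Finset.sum_coe_sort A fun γ : ι => ∑ t : Fin r, _] at this
        simp only [Finset.coe_mem, dif_pos, Subtype.coe_eta, Equiv.sum_comp ε.symm] at this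
        exact Nat.div_lt_of_lt_mul this
      have k2 := le_ht_of_dvd _ hn k1
      have k3 : ht (Matrix.det (Matrix.of fun γ δ : A => g γ (pt δ))) ≤
          A.card.factorial * Y ^ ∑ γ ∈ A, w γ := by
        rw [Matrix.det_apply']
        refine (ht_sum_le _ _).trans ((Finset.sum_le_card_nsmul _ _ _ fun σ _ => ?_).trans_eq (by
          rw [Finset.card_univ, Fintype.card_perm, Fintype.card_coe, nsmul_eq_mul]))
        have : ht (∏ i, Matrix.of (fun γ δ : A => g γ (pt δ)) (σ i) i) ≤ Y ^ ∑ γ ∈ A, w γ := by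
          rw [← Finset.sum_coe_sort A, ← Equiv.sum_comp σ, ← Finset.prod_pow_eq_pow_sum]
          exact (ht_prod_le _ _).trans (Finset.prod_le_prod (fun _ _ => ht_nonneg _)
            fun i _ => hw _ (σ i).2 _ (hpt i))
        rcases Int.units_eq_one_or (Equiv.Perm.sign σ) with h | h <;> simpa [h, ht_neg] using this
      have k4 : Y ^ v ≤ ((∏ q ∈ S, q : ℕ) : ℝ) := by
        refine (pow_le_pow_right₀ hY1.le hv).trans ?_
        rw [Nat.cast_prod, ← Finset.prod_const]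
        exact Finset.prod_le_prod (fun _ _ => by linarith) fun q hq => (hS q hq).2
      have k5 := (pow_le_pow_left₀ (by positivity) k4 ((∑ γ ∈ A, w γ) / v + 1))
      rw [← Nat.cast_pow, ← pow_mul] at k5
      have k6 := pow_le_pow_right₀ hY1.le
        (Nat.succ_le_of_lt (Nat.lt_mul_div_succ (∑ γ ∈ A, w γ) hv1))
      rw [pow_succ] at k6
      have k7 : 0 < Y ^ ∑ γ ∈ A, w γ := by positivity
      nlinarith
    have := congrArg io k0
    rwa [RingHom.map_det, map_zero] at this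
  refine ⟨fun γ => if h : γ ∈ A then c ⟨γ, h⟩ else 0, ?_, fun n hn => ?_⟩
  · obtain ⟨γ, h⟩ := Function.ne_iff.1 h1
    exact ⟨γ, γ.2, by simpa using h⟩
  · rw [← Finset.sum_coe_sort A]
    simpa using h2 n hn

end Vale.Agent.P018
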