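import Vale.Agent.P018.Defs

namespace Vale.Agent.P018

open NumberField MvPolynomial

theorem res_ne_zero {A : Type} [CommRing A] [IsDomain A] [UniqueFactorizationMonoid A]
    (F G : Polynomial A) (hF : Irreducible F) (h1 : 0 < F.natDegree) (hFG : ¬ F ∣ G) :
    Polynomial.resultant F G ≠ 0 := by
  have hp : F.IsPrimitive := hF.isPrimitive h1.ne'
  have hinj := IsFractionRing.injective A (FractionRing A)
  have hF' := (hp.irreducible_iff_irreducible_map_fraction_map (K := FractionRing A)).1 hF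
  have hc := hF'.coprime_iff_not_dvd.2 (mt hp.dvd_of_fraction_map_dvd_fraction_map hFG)
  have := Polynomial.resultant_ne_zero _ _ hc
  rw [Polynomial.natDegree_map_eq_of_injective hinj, Polynomial.natDegree_map_eq_of_injective hinj,
    Polynomial.resultant_map_map] at this
  exact fun h => this (by rw [h, map_zero])

theorem det_le_Elim {R : Type} [CommRing R] (v : R → ℕ) (hadd : ∀ a b, v (a + b) ≤ max (v a) (v b))
    (hmul : ∀ a b, v (a * b) ≤ v a + v b) (hneg : ∀ a, v (-a) = v a) (h0 : v 0 = 0) (h1 : v 1 = 0)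
    {n D : ℕ} (M : Matrix (Fin n) (Fin n) R) (h : ∀ i j, v (M i j) ≤ D) : v M.det ≤ n * D := by
  have hp : ∀ (s : Finset (Fin n)) (f : Fin n → R), (∀ i, v (f i) ≤ D) →
      v (∏ i ∈ s, f i) ≤ s.card * D := fun s f hf => by
    induction s using Finset.induction_on with
    | empty => simp [h1]
    | insert a s ha ih =>
      rw [Finset.prod_insert ha, Finset.card_insert_of_notMem ha]
      have := hmul (f a) (∏ i ∈ s, f i)
      have := hf a
      nlinarith
  rw [Matrix.det_apply]
  refine Finset.sum_induction _ (fun x => v x ≤ n * D)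
    (fun a b ha hb => (hadd a b).trans (max_le ha hb)) (by simp [h0]) fun σ _ => ?_
  have := hp Finset.univ (fun i => M (σ i) i) fun i => h _ _
  rw [Finset.card_univ, Fintype.card_fin] at this
  rcases Int.units_eq_one_or (Equiv.Perm.sign σ) with e | e <;> simp [e, hneg, this]

theorem res_le_Elim {R : Type} [CommRing R] (v : R → ℕ) (hadd : ∀ a b, v (a + b) ≤ max (v a) (v b))
    (hmul : ∀ a b, v (a * b) ≤ v a + v b) (hneg : ∀ a, v (-a) = v a) (h0 : v 0 = 0) (h1 : v 1 = 0)
    {D : ℕ} (f g : Polynomial R) (hf : ∀ i, v (f.coeff i) ≤ D) (hg : ∀ i, v (g.coeff i) ≤ D) :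
    v (Polynomial.resultant f g) ≤ (f.natDegree + g.natDegree) * D := by
  refine det_le_Elim v hadd hmul hneg h0 h1 _ fun i j => ?_
  refine j.addCases (fun j => ?_) fun j => ?_
  all_goals
    simp only [Polynomial.sylvester, Matrix.of_apply, Fin.addCases_left, Fin.addCases_right]
    split_ifs <;> simp [hf, hg, h0]

theorem opt_Elim {τ : Type} (F G : MvPolynomial (Option τ) ℂ) (D : ℕ)
    (hF : Irreducible F) (hFG : ¬ F ∣ G) (hD : F.totalDegree ≤ D) (hD' : G.totalDegree ≤ D)
    (h0 : degreeOf none F ≠ 0) :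
    ∃ H : MvPolynomial τ ℂ, H ≠ 0 ∧ H.totalDegree ≤ 2 * D ^ 2 ∧
      (∀ t, degreeOf (some t) F = 0 → degreeOf (some t) G = 0 → degreeOf t H = 0) ∧
      ∀ (u : τ → ℂ) (y : ℂ), eval (fun x => Option.elim x y u) F = 0 →
        eval (fun x => Option.elim x y u) G = 0 → eval u H = 0 := by
  have n1 := natDegree_optionEquivLeft ℂ F
  have n2 := natDegree_optionEquivLeft ℂ G
  have i1 : Irreducible (optionEquivLeft ℂ τ F) :=
    (MulEquiv.irreducible_iff (optionEquivLeft ℂ τ).toMulEquiv).2 hF
  have i2 : ¬ optionEquivLeft ℂ τ F ∣ optionEquivLeft ℂ τ G := fun ⟨c, hc⟩ =>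
    hFG ⟨(optionEquivLeft ℂ τ).symm c, (optionEquivLeft ℂ τ).injective (by simp [hc])⟩
  have i3 : 0 < (optionEquivLeft ℂ τ F).natDegree := by omega
  have i4 := res_ne_zero _ _ i1 i3 i2
  refine ⟨_, i4, ?_, fun t a b => ?_, fun u y a b => ?_⟩
  · refine (res_le_Elim (R := MvPolynomial τ ℂ) totalDegree totalDegree_add totalDegree_mul
      totalDegree_neg totalDegree_zero totalDegree_one _ _
      (fun i => (totalDegree_coeff_optionEquivLeft_le _ _ _ _).trans hD)
      (fun i => (totalDegree_coeff_optionEquivLeft_le _ _ _ _).trans hD')).trans ?_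
    have a1 := (degreeOf_le_totalDegree F none).trans hD
    have a2 := (degreeOf_le_totalDegree G none).trans hD'
    rw [n1, n2]; nlinarith
  · have key : ∀ P : MvPolynomial (Option τ) ℂ, degreeOf (some t) P = 0 → ∀ i,
        degreeOf t ((optionEquivLeft ℂ τ P).coeff i) ≤ 0 := fun P hP i =>
      degreeOf_le_iff.2 fun m hm => by
        simpa [hP] using monomial_le_degreeOf (some t) ((mem_support_coeff_optionEquivLeft ℂ).1 hm)
    simpa using res_le_Elim (R := MvPolynomial τ ℂ) (degreeOf t) (degreeOf_add_le t)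
      (degreeOf_mul_le t) (degreeOf_neg t) (degreeOf_zero t) (degreeOf_one t) _ _ (key F a) (key G b)
  · obtain ⟨p, q, -, -, h⟩ := Polynomial.exists_mul_add_mul_eq_C_resultant
      (optionEquivLeft ℂ τ F) (optionEquivLeft ℂ τ G) le_rfl le_rfl (Or.inl (by omega))
    rw [optionEquivLeft_elim_eval] at a b
    have := congrArg (fun P => Polynomial.eval y (Polynomial.map (eval u) P)) h
    simpa [a, b] using this.symm
theorem elim {σ : Type} [Fintype σ] (F G : MvPolynomial σ ℂ) (s : σ) (D : ℕ)
    (hF : Irreducible F) (hFG : ¬ F ∣ G) (hD : F.totalDegree ≤ D) (hD' : G.totalDegree ≤ D) :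
    ∃ H : MvPolynomial σ ℂ, H ≠ 0 ∧ degreeOf s H = 0 ∧ H.totalDegree ≤ 2 * D ^ 2 + D ∧
      (∀ t, degreeOf t F = 0 → degreeOf t G = 0 → degreeOf t H = 0) ∧
      ∀ u : σ → ℂ, eval u F = 0 → eval u G = 0 → eval u H = 0 := by
  classical
  by_cases h0 : degreeOf s F = 0
  · exact ⟨F, hF.ne_zero, h0, by omega, fun t a _ => a, fun u a _ => a⟩
  let e := Equiv.optionSubtypeNe s
  have hd : ∀ (P : MvPolynomial σ ℂ) x, degreeOf x (renameEquiv ℂ e.symm P) = degreeOf (e x) P :=
    fun P x => by
      rw [renameEquiv_apply, ← degreeOf_rename_of_injective e.symm.injective, e.symm_apply_apply]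
  obtain ⟨H, a1, a2, a3, a4⟩ := opt_Elim (renameEquiv ℂ e.symm F) (renameEquiv ℂ e.symm G) D
    ((MulEquiv.irreducible_iff (renameEquiv ℂ e.symm).toMulEquiv).2 hF)
    (fun ⟨c, hc⟩ => hFG ⟨(renameEquiv ℂ e.symm).symm c, (renameEquiv ℂ e.symm).injective
      (by rw [hc, map_mul, AlgEquiv.apply_symm_apply])⟩)
    ((totalDegree_rename_le _ _).trans hD) ((totalDegree_rename_le _ _).trans hD')
    (by rw [hd]; exact h0)
  have hs : degreeOf s (rename Subtype.val H) = 0 := Nat.le_zero.1 (degreeOf_le_iff.2 fun m hm => by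
    rw [support_rename_of_injective Subtype.val_injective] at hm
    obtain ⟨m, -, rfl⟩ := Finset.mem_image.1 hm
    rw [Finsupp.mapDomain_of_notMem_range _ _ (by simp)])
  refine ⟨rename Subtype.val H, fun h => a1 (rename_injective _ Subtype.val_injective
    (by rw [h, map_zero])), hs, (totalDegree_rename_le _ _).trans (by omega), fun t b1 b2 => ?_,
    fun u b1 b2 => ?_⟩
  · by_cases ht : t = s
    · rw [ht, hs]
    · have := a3 ⟨t, ht⟩ (by rw [hd]; exact b1) (by rw [hd]; exact b2)
      rwa [← degreeOf_rename_of_injective Subtype.val_injective] at this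
  · have he : (fun x : Option {b // b ≠ s} => Option.elim x (u s) (u ∘ Subtype.val)) ∘ e.symm =
        u := by
      funext x
      obtain ⟨x, rfl⟩ := e.surjective x
      rw [Function.comp_apply, e.symm_apply_apply]
      cases x <;> rfl
    rw [eval_rename]
    exact a4 _ (u s) (by rwa [renameEquiv_apply, eval_rename, he])
      (by rwa [renameEquiv_apply, eval_rename, he])

end Vale.Agent.P018
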