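import Vale.Agent.P018.Rho

namespace Vale.Agent.P018

open NumberField MvPolynomial

open Filter Topology

theorem summable_euler (f : Polynomial ℤ) (hf : Irreducible (f.map (Int.castRingHom ℚ))) (k : ℕ)
    (hk : 2 ≤ k) :
    Summable fun n : ℕ => if n.Prime then (rho f (n ^ k) : ℝ) / (n : ℝ) ^ k else 0 := by
  obtain ⟨p₀, hp⟩ := rho_le f hf
  refine Summable.of_norm_bounded_eventually_nat
    ((Real.summable_nat_pow_inv.2 (by norm_num : 1 < 2)).mul_left (f.natDegree : ℝ)) ?_
  filter_upwards [eventually_gt_atTop p₀] with n hn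
  split_ifs with h
  · have h1 : (1 : ℝ) ≤ n := by exact_mod_cast h.one_le
    have h2 : (rho f (n ^ k) : ℝ) ≤ f.natDegree := by exact_mod_cast hp n h hn k (by omega)
    rw [Real.norm_of_nonneg (by positivity), ← div_eq_mul_inv]
    exact div_le_div₀ (by positivity) h2 (by positivity) (pow_le_pow_right₀ h1 hk)
  · rw [norm_zero]; positivity

theorem euler (f : Polynomial ℤ) (hf : Irreducible (f.map (Int.castRingHom ℚ))) (k : ℕ)
    (hk : 2 ≤ k) : ∃ c : ℝ,
    HasProd (fun p : Nat.Primes => 1 - (rho f (p ^ k) : ℝ) / ((p : ℕ) : ℝ) ^ k) c ∧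
    ((∀ p : ℕ, p.Prime → rho f (p ^ k) < p ^ k) → 0 < c) ∧
    Tendsto (fun z : ℕ => ∏ p ∈ (Finset.range (z + 1)).filter Nat.Prime,
      (1 - (rho f (p ^ k) : ℝ) / (p : ℝ) ^ k)) atTop (𝓝 c) := by
  have hs := (summable_euler f hf k hk).neg
  have hm := (Real.multipliable_one_add_of_summable hs).hasProd
  refine ⟨_, ?_, fun h => ?_, ((hm.tendsto_prod_nat.comp (tendsto_add_atTop_nat 1)).congr
    fun z => ?_)⟩
  · have := (Function.Injective.hasProd_iff (g := fun p : Nat.Primes => (p : ℕ))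
      Subtype.val_injective (fun n hn => by
        rw [if_neg fun h => hn ⟨⟨n, h⟩, rfl⟩, neg_zero, add_zero])).2 hm
    convert this using 2 with p
    simp only [Function.comp, if_pos p.2, sub_eq_add_neg]
  · rw [← Real.rexp_tsum_eq_tprod (fun n => ?_) (Real.summable_log_one_add_of_summable hs)]
    · exact Real.exp_pos _
    split_ifs with hn
    · have h1 : (0 : ℝ) < (n : ℝ) ^ k := by have := hn.pos; positivity
      have h2 : (rho f (n ^ k) : ℝ) < (n : ℝ) ^ k := by exact_mod_cast h n hn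
      have := (div_lt_one h1).2 h2
      linarith
    · norm_num
  · simp only [Function.comp, Finset.prod_filter]
    refine Finset.prod_congr rfl fun n _ => ?_
    split_ifs
    · ring
    · ring

theorem pi_small_euler (ε : ℝ) (hε : 0 < ε) : ∀ᶠ X : ℕ in atTop,
    (((Finset.range (X + 1)).filter Nat.Prime).card : ℝ) ≤ ε * X := by
  have h1 := tendsto_natCast_atTop_atTop (R := ℝ) |>.eventually
    (Chebyshev.eventually_primeCounting_le one_pos)
  have h2 := (Real.tendsto_log_atTop.comp (tendsto_natCast_atTop_atTop (R := ℝ))).eventually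
    (eventually_ge_atTop ((Real.log 4 + 1) / ε))
  have h4 : 0 < Real.log 4 + 1 := by positivity
  filter_upwards [h1, h2] with X a b
  rw [Nat.floor_natCast, Nat.primeCounting, Nat.primeCounting', Nat.count_eq_card_filter_range] at a
  refine a.trans ?_
  have b' : (Real.log 4 + 1) / ε ≤ Real.log X := b
  have hl : 0 < Real.log X := lt_of_lt_of_le (by positivity) b'
  rw [div_le_iff₀ hε] at b'
  rw [div_le_iff₀ hl]
  nlinarith [Nat.cast_nonneg (α := ℝ) X]

open Classical in
/-- primes between `z` and `X` remove a proportion at most `ε` -/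
theorem middle (f : Polynomial ℤ) (hf : Irreducible (f.map (Int.castRingHom ℚ))) (k : ℕ)
    (hk : 2 ≤ k) (ε : ℝ) (hε : 0 < ε) : ∀ᶠ z : ℕ in atTop, ∀ᶠ X : ℕ in atTop,
    (((Finset.Icc 1 X).filter (fun n : ℕ =>
      ∃ p : ℕ, p.Prime ∧ z < p ∧ p ≤ X ∧ (p : ℤ) ^ k ∣ f.eval (n : ℤ))).card : ℝ) ≤ ε * X := by
  obtain ⟨p₀, hp⟩ := rho_le f hf
  obtain ⟨s, hs⟩ := (summable_euler f hf k hk).vanishing (Iio_mem_nhds (half_pos hε))
  filter_upwards [eventually_ge_atTop p₀, eventually_ge_atTop (s.sup id)] with z hz hz'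
  filter_upwards [pi_small_euler (ε / 2 / (f.natDegree + 1)) (by positivity)] with X hX
  set T := (Finset.Ioc z X).filter Nat.Prime with hT
  have h1 : (Finset.Icc 1 X).filter (fun n : ℕ =>
      ∃ p : ℕ, p.Prime ∧ z < p ∧ p ≤ X ∧ (p : ℤ) ^ k ∣ f.eval (n : ℤ)) ⊆
      T.biUnion fun p => (Finset.Icc 1 X).filter
        (fun n : ℕ => ((p ^ k : ℕ) : ℤ) ∣ f.eval (n : ℤ)) := fun n hn => by
    obtain ⟨a, p, b, c, d, e⟩ := Finset.mem_filter.1 hn
    exact Finset.mem_biUnion.2 ⟨p, Finset.mem_filter.2 ⟨Finset.mem_Ioc.2 ⟨c, d⟩, b⟩,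
      Finset.mem_filter.2 ⟨a, by exact_mod_cast e⟩⟩
  have h2 := (Finset.card_le_card h1).trans Finset.card_biUnion_le
  have h3 : ∑ p ∈ T, (rho f (p ^ k) : ℝ) / (p : ℝ) ^ k < ε / 2 := by
    have := hs (Finset.Ioc z X) (Finset.disjoint_left.2 fun n hn hn' => by
      have := Finset.le_sup (f := id) hn'
      have := (Finset.mem_Ioc.1 hn).1
      simp only [id] at *
      omega)
    rwa [hT, Finset.sum_filter]
  have h4 : (T.card : ℝ) ≤ ((Finset.range (X + 1)).filter Nat.Prime).card := by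
    exact_mod_cast Finset.card_le_card (Finset.filter_subset_filter _ fun n hn =>
      Finset.mem_range.2 (Nat.lt_succ_of_le (Finset.mem_Ioc.1 hn).2))
  have h5 : ∀ p ∈ T, ((((Finset.Icc 1 X).filter
      (fun n : ℕ => ((p ^ k : ℕ) : ℤ) ∣ f.eval (n : ℤ))).card : ℕ) : ℝ) ≤
      (rho f (p ^ k) : ℝ) / (p : ℝ) ^ k * X + f.natDegree := fun p hp' => by
    obtain ⟨a, b⟩ := Finset.mem_filter.1 hp'
    refine (cnt_le f (p ^ k) (pow_pos b.pos k) X).trans ?_
    have h6 : (rho f (p ^ k) : ℝ) ≤ f.natDegree := by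
      exact_mod_cast hp p b (lt_of_le_of_lt hz (Finset.mem_Ioc.1 a).1) k (by omega)
    push_cast
    rw [mul_add, mul_one, div_mul_eq_mul_div, mul_div_assoc]
    linarith
  have h7 := Finset.sum_le_sum h5
  rw [Finset.sum_add_distrib, ← Finset.sum_mul, Finset.sum_const, nsmul_eq_mul] at h7
  have h8 : (T.card : ℝ) * f.natDegree ≤ ε / 2 * X := by
    have h9 : (0 : ℝ) < f.natDegree + 1 := by positivity
    calc (T.card : ℝ) * f.natDegree ≤ ε / 2 / (f.natDegree + 1) * X * (f.natDegree + 1) :=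
          mul_le_mul (h4.trans hX) (by linarith) (by positivity) (by positivity)
      _ = ε / 2 * X := by field_simp
  have h10 := mul_le_mul_of_nonneg_right h3.le (Nat.cast_nonneg (α := ℝ) X)
  have h11 := (Nat.cast_le (α := ℝ)).2 h2
  rw [Nat.cast_sum] at h11
  linarith

end Vale.Agent.P018
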