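import Vale.Agent.P018.Gen0

namespace Vale.Agent.P018

open NumberField MvPolynomial

open Filter Topology in
theorem scheme_GenL (r v : ℕ) (hv : 1 ≤ v) (Z : ℝ → ℝ) (S : ℕ → ℝ → ℝ) (c : ℝ)
    (hZ : Tendsto (fun z => (1 - z) ^ r * Z z) (𝓝[<] 1) (𝓝 c)) (hc : ((v : ℝ)⁻¹) ^ r < c)
    (hS : ∀ z, 0 < z → z < 1 → Tendsto (fun B => S B z) atTop (𝓝 (Z z))) :
    ∃ z B, 0 < z ∧ z < 1 ∧ ((1 - z ^ v)⁻¹) ^ r < S B z := by
  have h1 := ((tendsto_geo v hv).pow r).eventually_lt hZ hc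
  have h2 : ∀ᶠ z : ℝ in 𝓝[<] 1, z ∈ Set.Ioo (0 : ℝ) 1 := Ioo_mem_nhdsLT one_pos
  obtain ⟨z, hz, z0, z1⟩ := (h1.and h2).exists
  rw [mul_pow] at hz
  have h3 := lt_of_mul_lt_mul_left hz (pow_nonneg (by linarith) r)
  obtain ⟨B, hB⟩ := ((hS z z0 z1).eventually (lt_mem_nhds h3)).exists
  exact ⟨z, B, z0, z1, hB⟩

open Filter Topology in
theorem pow_lim_GenL (w : ℕ) : Tendsto (fun z : ℝ => z ^ w) (𝓝[<] 1) (𝓝 1) := by
  have := ((continuous_pow w).tendsto (1 : ℝ)).mono_left (nhdsWithin_le_nhds (s := Set.Iio 1))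
  simpa using this

open Filter Topology in
theorem sum_lim_GenL {ι : Type} (s : Finset ι) (w : ι → ℕ) :
    Tendsto (fun z : ℝ => ∑ i ∈ s, z ^ w i) (𝓝[<] 1) (𝓝 (s.card : ℝ)) := by
  have := tendsto_finset_sum s fun i _ => pow_lim_GenL (w i)
  simpa using this

theorem genl (k wa wb v : ℕ) (ha : 1 ≤ wa) (hb : 1 ≤ wb) (hv : 1 ≤ v)
    (h : wa * wb ^ 2 < (3 * k * wa + wb) * v ^ 2) :
    ∃ B : ℕ, ∃ A ⊆ lbox k B, Good 2 v A (lwt wa wb) := by
  obtain ⟨z, B, z0, z1, hB⟩ := scheme_GenL 2 v hv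
    (fun z => 3 * (z ^ wb * ((1 - z ^ wb)⁻¹ * ((1 - z ^ wb)⁻¹ * ∑ ε ∈ Finset.range k, z ^ (ε * wa))))
      + (1 - z ^ wb)⁻¹ * (1 - z ^ wa)⁻¹)
    (fun B z => 3 * (z ^ wb * ((∑ i ∈ Finset.range B, z ^ (i * wb)) *
      ((∑ i ∈ Finset.range B, z ^ (i * wb)) * ∑ ε ∈ Finset.range k, z ^ (ε * wa))))
      + (∑ i ∈ Finset.range B, z ^ (i * wb)) * ∑ i ∈ Finset.range B, z ^ (i * wa))
    (3 * (1 * ((wb : ℝ)⁻¹ * ((wb : ℝ)⁻¹ * ((Finset.range k).card : ℝ)))) + (wb : ℝ)⁻¹ * (wa : ℝ)⁻¹)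
    (by
      refine ((((pow_lim_GenL wb).mul ((tendsto_geo wb hb).mul ((tendsto_geo wb hb).mul
        (sum_lim_GenL (Finset.range k) fun ε => ε * wa)))).const_mul 3).add
        ((tendsto_geo wb hb).mul (tendsto_geo wa ha))).congr fun z => ?_
      ring)
    (by
      have h' : (wa : ℝ) * wb ^ 2 < (3 * k * wa + wb) * v ^ 2 := by exact_mod_cast h
      have a0 : (0 : ℝ) < wa := by exact_mod_cast ha
      have b0 : (0 : ℝ) < wb := by exact_mod_cast hb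
      have v0 : (0 : ℝ) < v := by exact_mod_cast hv
      rw [Finset.card_range, show 3 * (1 * ((wb : ℝ)⁻¹ * ((wb : ℝ)⁻¹ * k))) + (wb : ℝ)⁻¹ * (wa : ℝ)⁻¹
        = (3 * k * wa + wb) / (wa * wb ^ 2) by field_simp, inv_pow, inv_eq_one_div,
        div_lt_div_iff₀ (by positivity) (by positivity)]
      linarith)
    (fun z z0 z1 => (((((geo_lim wb hb z z0 z1).mul ((geo_lim wb hb z z0 z1).mul_const
      _)).const_mul _).const_mul 3).add ((geo_lim wb hb z z0 z1).mul (geo_lim wa ha z z0 z1))))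
  refine ⟨B, gen0 2 v hv _ _ z z0 z1 (hB.trans_eq ?_)⟩
  rw [lbox, Finset.sum_disjSum]
  congr 1
  · simp only [Finset.sum_product, lwt, Finset.sum_const, Finset.card_univ, Fintype.card_fin,
      nsmul_eq_mul, Finset.mul_sum, Finset.sum_mul]
    refine Finset.sum_comm.trans ?_
    refine Finset.sum_congr rfl fun l _ => ?_
    refine Finset.sum_comm.trans ?_
    refine Finset.sum_congr rfl fun m _ => Finset.sum_congr rfl fun ε _ => ?_
    push_cast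
    ring
  · simp only [Finset.sum_product, lwt, Finset.sum_mul_sum, pow_add]

theorem genc1 (m ws v : ℕ) (wh : Fin m → ℕ) (hws : 1 ≤ ws) (hv : 1 ≤ v) (h : ws < m * v) :
    ∃ B : ℕ, ∃ A ⊆ (Finset.univ : Finset (Fin m)) ×ˢ Finset.range B,
      Good 1 v A (fun γ => γ.2 * ws + wh γ.1) := by
  obtain ⟨z, B, z0, z1, hB⟩ := scheme_GenL 1 v hv
    (fun z => (∑ j, z ^ wh j) * (1 - z ^ ws)⁻¹)
    (fun B z => (∑ j, z ^ wh j) * ∑ i ∈ Finset.range B, z ^ (i * ws))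
    (((Finset.univ : Finset (Fin m)).card : ℝ) * (ws : ℝ)⁻¹)
    (by
      refine ((sum_lim_GenL Finset.univ wh).mul (tendsto_geo ws hws)).congr fun z => ?_
      ring)
    (by
      have h' : (ws : ℝ) < m * v := by exact_mod_cast h
      have a0 : (0 : ℝ) < ws := by exact_mod_cast hws
      have v0 : (0 : ℝ) < v := by exact_mod_cast hv
      rw [Finset.card_univ, Fintype.card_fin, pow_one, ← div_eq_mul_inv, inv_eq_one_div,
        div_lt_div_iff₀ v0 a0]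
      linarith)
    (fun z z0 z1 => (geo_lim ws hws z z0 z1).const_mul _)
  refine ⟨B, gen0 1 v hv _ _ z z0 z1 (hB.trans_eq ?_)⟩
  rw [Finset.sum_product, Finset.sum_mul_sum]
  refine Finset.sum_congr rfl fun j _ => Finset.sum_congr rfl fun i _ => ?_
  rw [pow_add, mul_comm]

theorem genc2 (ws wy v : ℕ) (hws : 1 ≤ ws) (hwy : 1 ≤ wy) (hv : 1 ≤ v)
    (h : ws * wy < (ws + wy) * v) :
    ∃ B : ℕ, ∃ A ⊆ (Finset.range B).disjSum (Finset.range B),
      Good 1 v A (Sum.elim (fun t => t * ws) (fun t => (t + 1) * wy)) := by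
  obtain ⟨z, B, z0, z1, hB⟩ := scheme_GenL 1 v hv
    (fun z => (1 - z ^ ws)⁻¹ + z ^ wy * (1 - z ^ wy)⁻¹)
    (fun B z => (∑ i ∈ Finset.range B, z ^ (i * ws)) + z ^ wy * ∑ i ∈ Finset.range B, z ^ (i * wy))
    ((ws : ℝ)⁻¹ + 1 * (wy : ℝ)⁻¹)
    (by
      refine ((tendsto_geo ws hws).add ((pow_lim_GenL wy).mul (tendsto_geo wy hwy))).congr
        fun z => ?_
      ring)
    (by
      have h' : (ws : ℝ) * wy < (ws + wy) * v := by exact_mod_cast h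
      have a0 : (0 : ℝ) < ws := by exact_mod_cast hws
      have b0 : (0 : ℝ) < wy := by exact_mod_cast hwy
      have v0 : (0 : ℝ) < v := by exact_mod_cast hv
      rw [pow_one, show (ws : ℝ)⁻¹ + 1 * (wy : ℝ)⁻¹ = (ws + wy) / (ws * wy) by field_simp; ring,
        inv_eq_one_div, div_lt_div_iff₀ v0 (by positivity)]
      linarith)
    (fun z z0 z1 => (geo_lim ws hws z z0 z1).add ((geo_lim wy hwy z z0 z1).const_mul _))
  refine ⟨B, gen0 1 v hv _ _ z z0 z1 (hB.trans_eq ?_)⟩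
  rw [Finset.sum_disjSum, Finset.mul_sum]
  congr 1
  refine Finset.sum_congr rfl fun i _ => ?_
  simp only [Sum.elim_inr]
  ring

end Vale.Agent.P018
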