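import Vale.Agent.P018.Ht

namespace Vale.Agent.P018

open NumberField MvPolynomial

section
variable {R ρ : Type} [CommRing R] {q : R} {W : Finset ℕ} {y : ℕ → ρ → R}

theorem Loc.const (c : R) : Loc q W y (fun _ => c) := by
  exact fun _ => ⟨C c, fun _ _ => by simp⟩

theorem Loc.par (t : ρ) : Loc q W y (fun n => y n t) := by
  exact fun _ => ⟨X t, fun _ _ => by simp⟩

theorem Loc.congr {g g' : ℕ → R} (hg : Loc q W y g) (h : ∀ n ∈ W, g n = g' n) :
    Loc q W y g' := by
  intro N
  obtain ⟨P, hP⟩ := hg N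
  exact ⟨P, fun n hn => h n hn ▸ hP n hn⟩

theorem Loc.mono {g : ℕ → R} {W' : Finset ℕ} (hg : Loc q W y g) (h : W' ⊆ W) :
    Loc q W' y g := by
  intro N
  obtain ⟨P, hP⟩ := hg N
  exact ⟨P, fun n hn => hP n (h hn)⟩

theorem Loc.add {g g' : ℕ → R} (hg : Loc q W y g) (hg' : Loc q W y g') :
    Loc q W y (fun n => g n + g' n) := by
  intro N
  obtain ⟨P, hP⟩ := hg N
  obtain ⟨P', hP'⟩ := hg' N
  refine ⟨P + P', fun n hn => ?_⟩
  convert dvd_add (hP n hn) (hP' n hn) using 1
  rw [map_add]; ring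

theorem Loc.sub {g g' : ℕ → R} (hg : Loc q W y g) (hg' : Loc q W y g') :
    Loc q W y (fun n => g n - g' n) := by
  intro N
  obtain ⟨P, hP⟩ := hg N
  obtain ⟨P', hP'⟩ := hg' N
  refine ⟨P - P', fun n hn => ?_⟩
  convert dvd_sub (hP n hn) (hP' n hn) using 1
  rw [map_sub]; ring

theorem Loc.mul {g g' : ℕ → R} (hg : Loc q W y g) (hg' : Loc q W y g') :
    Loc q W y (fun n => g n * g' n) := by
  intro N
  obtain ⟨P, hP⟩ := hg N
  obtain ⟨P', hP'⟩ := hg' N
  refine ⟨P * P', fun n hn => ?_⟩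
  convert dvd_add ((hP n hn).mul_right (g' n)) ((hP' n hn).mul_left (eval (y n) P)) using 1
  rw [map_mul]; ring

theorem Loc.pow {g : ℕ → R} (hg : Loc q W y g) (i : ℕ) : Loc q W y (fun n => g n ^ i) := by
  induction i with
  | zero => simpa using Loc.const 1
  | succ i ih => simpa [pow_succ] using ih.mul hg

theorem Loc.sum {ι : Type} (s : Finset ι) {g : ι → ℕ → R} (hg : ∀ i ∈ s, Loc q W y (g i)) :
    Loc q W y (fun n => ∑ i ∈ s, g i n) := by
  classical
  induction s using Finset.induction_on with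
  | empty => simpa using Loc.const 0
  | insert a s ha ih =>
    simp only [Finset.sum_insert ha]
    exact (hg a (Finset.mem_insert_self _ _)).add
      (ih fun i hi => hg i (Finset.mem_insert_of_mem hi))

theorem Loc.prod {ι : Type} (s : Finset ι) {g : ι → ℕ → R} (hg : ∀ i ∈ s, Loc q W y (g i)) :
    Loc q W y (fun n => ∏ i ∈ s, g i n) := by
  classical
  induction s using Finset.induction_on with
  | empty => simpa using Loc.const 1
  | insert a s ha ih =>
    simp only [Finset.prod_insert ha]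
    exact (hg a (Finset.mem_insert_self _ _)).mul
      (ih fun i hi => hg i (Finset.mem_insert_of_mem hi))

theorem Loc.lim_newt {g : ℕ → R} (z : ℕ → ℕ → R) (hz : ∀ i, Loc q W y (z i))
    (h : ∀ i, ∀ n ∈ W, q ^ (i + 1) ∣ g n - z i n) : Loc q W y g := by
  intro N
  obtain ⟨P, hP⟩ := hz N N
  refine ⟨P, fun n hn => ?_⟩
  convert dvd_add ((pow_dvd_pow q (Nat.le_succ N)).trans (h N n hn)) (hP n hn) using 1
  ring

theorem Loc.empty_newt {g : ℕ → R} (h : ¬ W.Nonempty) : Loc q W y g :=
  fun _ => ⟨0, fun n hn => absurd ⟨n, hn⟩ h⟩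

theorem Loc.eval_newt {σ : Type} (v : ℕ → σ → R) (F : MvPolynomial σ R)
    (hv : ∀ t, degreeOf t F ≠ 0 → Loc q W y (fun n => v n t)) :
    Loc q W y (fun n => eval (v n) F) := by
  simp only [eval_eq]
  refine Loc.sum _ fun m hm => (Loc.const _).mul (Loc.prod _ fun t ht => (hv t fun h => ?_).pow _)
  have := monomial_le_degreeOf t hm
  rw [h] at this
  exact Finsupp.mem_support_iff.1 ht (Nat.le_zero.1 this)

theorem cong_newt {σ : Type} {u v : σ → R} (h : ∀ t, q ∣ u t - v t) (F : MvPolynomial σ R) :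
    q ∣ eval u F - eval v F := by
  induction F using MvPolynomial.induction_on with
  | C a => simp
  | add p p' hp hp' =>
    convert dvd_add hp hp' using 1
    rw [map_add, map_add]; ring
  | mul_X p t hp =>
    convert dvd_add (hp.mul_right (u t)) ((h t).mul_left (eval v p)) using 1
    rw [map_mul, map_mul, eval_X, eval_X]; ring

theorem taylor_newt {σ : Type} [DecidableEq σ] (u : σ → R) (s : σ) (δ : R)
    (F : MvPolynomial σ R) : ∃ k, eval (Function.update u s (u s + δ)) F =
      eval u F + eval u (pderiv s F) * δ + k * δ ^ 2 := by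
  induction F using MvPolynomial.induction_on with
  | C a => exact ⟨0, by simp⟩
  | add p p' hp hp' =>
    obtain ⟨k, hk⟩ := hp
    obtain ⟨k', hk'⟩ := hp'
    exact ⟨k + k', by simp only [map_add, hk, hk']; ring⟩
  | mul_X p t hp =>
    obtain ⟨k, hk⟩ := hp
    by_cases ht : t = s
    · subst ht
      refine ⟨eval u (pderiv t p) + k * (u t + δ), ?_⟩
      simp only [map_mul, map_add, hk, eval_X, pderiv_mul, pderiv_X_self, Function.update_self,
        map_one]
      ring
    · refine ⟨k * u t, ?_⟩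
      simp only [map_mul, map_add, hk, eval_X, pderiv_mul, pderiv_X_of_ne ht,
        Function.update_of_ne ht, map_zero]
      ring

theorem Loc.quot {a b c : ℕ → R} (ha : Loc q W y a) (hc : Loc q W y c)
    (h : ∀ n ∈ W, a n * b n = c n) (ha' : ∀ n ∈ W, ∀ n' ∈ W, q ∣ a n - a n')
    (hcop : ∀ n ∈ W, IsCoprime (a n) q) : Loc q W y b := by
  by_cases hW : W.Nonempty
  swap
  · exact Loc.empty_newt hW
  obtain ⟨n0, h0⟩ := hW
  obtain ⟨c0, e, he⟩ := hcop n0 h0
  let z : ℕ → ℕ → R := fun i => Nat.rec (fun _ => c0) (fun _ w n => w n * (2 - a n * w n)) i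
  have h1 : ∀ i, Loc q W y (z i) := fun i => by
    induction i with
    | zero => exact Loc.const c0
    | succ i ih => exact ih.mul ((Loc.const 2).sub (ha.mul ih))
  have h2 : ∀ i, ∀ n ∈ W, q ^ (i + 1) ∣ 1 - a n * z i n := fun i n hn => by
    induction i with
    | zero =>
      have e1 : 1 - a n * z 0 n = q * e - (a n - a n0) * c0 := by
        show 1 - a n * c0 = _
        linear_combination -he
      rw [e1, zero_add, pow_one]
      exact dvd_sub (dvd_mul_right _ _) ((ha' n hn n0 h0).mul_right _)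
    | succ i ih =>
      have e1 : 1 - a n * z (i + 1) n = (1 - a n * z i n) * (1 - a n * z i n) := by
        show 1 - a n * (z i n * (2 - a n * z i n)) = _
        ring
      rw [e1, pow_succ]
      exact mul_dvd_mul ih ((dvd_pow_self q (Nat.succ_ne_zero i)).trans ih)
  refine Loc.lim_newt (fun i n => c n * z i n) (fun i => hc.mul (h1 i)) fun i n hn => ?_
  convert (h2 i n hn).mul_left (b n) using 1
  rw [← h n hn]; ring

theorem Loc.newton {σ : Type} (u : ℕ → σ → R) (F : MvPolynomial σ R) (s : σ)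
    (hu : ∀ t, t ≠ s → degreeOf t F ≠ 0 → Loc q W y (fun n => u n t))
    (hc : ∀ n ∈ W, ∀ n' ∈ W, ∀ t, q ∣ u n t - u n' t)
    (hF : ∀ n ∈ W, eval (u n) F = 0)
    (hd : ∀ n ∈ W, IsCoprime (eval (u n) (pderiv s F)) q) : Loc q W y (fun n => u n s) := by
  classical
  by_cases hW : W.Nonempty
  swap
  · exact Loc.empty_newt hW
  obtain ⟨n0, h0⟩ := hW
  obtain ⟨c0, e, he⟩ := hd n0 h0
  let z : ℕ → ℕ → R := fun i => Nat.rec (fun _ => u n0 s)
    (fun _ w n => w n - c0 * eval (Function.update (u n) s (w n)) F) i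
  have h1 : ∀ i, Loc q W y (z i) := fun i => by
    induction i with
    | zero => exact Loc.const _
    | succ i ih =>
      refine ih.sub ((Loc.const c0).mul (Loc.eval_newt
        (fun n => Function.update (u n) s (z i n)) F fun t ht => ?_))
      by_cases hts : t = s
      · subst hts
        simpa only [Function.update_self] using ih
      · simpa only [Function.update_of_ne hts] using hu t hts ht
  refine Loc.lim_newt z h1 fun i n hn => ?_
  induction i with
  | zero => rw [zero_add, pow_one]; exact hc n hn n0 h0 s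
  | succ i ih =>
    obtain ⟨k, hk⟩ := taylor_newt (u n) s (z i n - u n s) F
    rw [add_sub_cancel, hF n hn] at hk
    have e1 : u n s - z (i + 1) n = (u n s - z i n) * (q * e -
        c0 * (eval (u n) (pderiv s F) - eval (u n0) (pderiv s F)) + c0 * k * (u n s - z i n)) := by
      show u n s - (z i n - c0 * eval (Function.update (u n) s (z i n)) F) = _
      rw [hk]
      linear_combination -(u n s - z i n) * he
    rw [e1, pow_succ]
    exact mul_dvd_mul ih (dvd_add (dvd_sub (dvd_mul_right _ _)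
      ((cong_newt (hc n hn n0 h0) _).mul_left _))
      (((dvd_pow_self q (Nat.succ_ne_zero i)).trans ih).mul_left _))

end

variable {L : Type} [Field L] [NumberField L] {d k wa wb : ℕ}

theorem Pts.par_cong (P : Pts L d k wa wb) {W S : Finset ℕ} (hC : P.Cls W S)
    (J : Finset (Fin d)) :
    ∀ q ∈ S, ∀ n ∈ W, ∀ n' ∈ W, ∀ t, (q : 𝓞 L) ∣ P.par J n t - P.par J n' t := by
  intro q hq n hn n' hn' t
  cases t with
  | none => exact hC.2 q hq n hn n' hn' none
  | some j => exact hC.2 q hq n hn n' hn' (some j)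

theorem Pts.loc_x (P : Pts L d k wa wb) (q : 𝓞 L) (W : Finset ℕ) (J : Finset (Fin d)) :
    Loc q W (P.par J) P.x := by
  exact Loc.par (y := P.par J) none

theorem Pts.loc_al (P : Pts L d k wa wb) (q : 𝓞 L) (W : Finset ℕ) {J : Finset (Fin d)}
    {j : Fin d} (hj : j ∈ J) : Loc q W (P.par J) (fun n => P.al n j) := by
  exact Loc.par (y := P.par J) (some ⟨j, hj⟩)

theorem Pts.loc_be (P : Pts L d k wa wb) {W S : Finset ℕ} (hP : P.Pool S) (hC : P.Cls W S)
    {q : ℕ} (hq : q ∈ S) {ρ : Type} {y : ℕ → ρ → 𝓞 L} (hx : Loc (q : 𝓞 L) W y P.x) {j : Fin d}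
    (ha : Loc (q : 𝓞 L) W y (fun n => P.al n j)) : Loc (q : 𝓞 L) W y (fun n => P.be n j) := by
  refine Loc.quot (ha.pow k) (hx.sub (Loc.const (P.mu j))) (fun n hn => P.eqn n (hC.1 hn) j)
    (fun n hn n' hn' => ?_) fun n hn => ((hP q hq).2.2 n (hC.1 hn) j).pow_left
  exact (hC.2 q hq n hn n' hn' (some j)).trans (sub_dvd_pow_sub_pow _ _ k)

theorem Pts.loc_newton (P : Pts L d k wa wb) {W S : Finset ℕ} (hC : P.Cls W S) {q : ℕ}
    (hq : q ∈ S) (J : Finset (Fin d)) (i : Fin d) (F : MvPolynomial (Option (Fin d)) (𝓞 L))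
    (hJ : Supp (insert i J) F) (hF : ∀ n ∈ W, eval (P.u n) F = 0)
    (hd : ∀ n ∈ W, IsCoprime (eval (P.u n) (pderiv (some i) F)) (q : 𝓞 L)) :
    Loc (q : 𝓞 L) W (P.par J) (fun n => P.al n i) := by
  refine Loc.newton P.u F (some i) (fun t ht h => ?_) (hC.2 q hq) hF hd
  cases t with
  | none => exact P.loc_x _ W J
  | some j =>
    refine P.loc_al _ W ?_
    by_contra hj
    refine h (hJ j fun h' => ?_)
    rcases Finset.mem_insert.1 h' with rfl | h'
    · exact ht rfl
    · exact hj h'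

end Vale.Agent.P018
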