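import Vale.Agent.P018.Det
import Vale.Agent.P018.Newt
import Vale.Agent.P018.GenL

namespace Vale.Agent.P018

open NumberField MvPolynomial

theorem famrel (m ws v : ℕ) (wh : Fin m → ℕ) (hws : 1 ≤ ws) (hv : 1 ≤ v) (h : ws < m * v) :
    ∃ (B : ℕ) (Y₀ : ℝ), ∀ (L : Type) [Field L] [NumberField L] (io : 𝓞 L →+* ℂ) (Y : ℝ)
    (W S : Finset ℕ) (ρ : Type) [Fintype ρ] (y : ℕ → ρ → 𝓞 L) (s : ℕ → 𝓞 L)
    (g : Fin m → ℕ → 𝓞 L), Y₀ ≤ Y → Fintype.card ρ = 1 → (∀ q ∈ S, q.Prime ∧ Y ≤ q) →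
    v ≤ S.card → (∀ q ∈ S, ∀ n ∈ W, ∀ n' ∈ W, ∀ t, (q : 𝓞 L) ∣ y n t - y n' t) →
    (∀ n ∈ W, ht (s n) ≤ Y ^ ws) → (∀ i, ∀ n ∈ W, ht (g i n) ≤ Y ^ wh i) →
    (∀ q ∈ S, Loc (q : 𝓞 L) W y s) → (∀ q ∈ S, ∀ i, Loc (q : 𝓞 L) W y (g i)) →
    Rm B W (fun n => io (s n)) (fun i n => io (g i n)) := by
  classical
  obtain ⟨B, A, hAB, hA⟩ := genc1 m ws v wh hws hv h
  refine ⟨B, A.card.factorial + 1, ?_⟩
  intro L _ _ io Y W S ρ _ y s g hY hρ hS hvS hy hs hg ls lg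
  obtain ⟨c, ⟨γ0, h0, hc0⟩, hc⟩ := detrel 1 v hρ hv io Y W S hS hvS y hy A _
    (fun γ n => s n ^ γ.2 * g γ.1 n) (fun γ _ n hn => by
      rw [pow_add, mul_comm γ.2, pow_mul]
      exact (ht_mul_le _ _).trans (mul_le_mul ((ht_pow_le _ _).trans
        (pow_le_pow_left₀ (ht_nonneg _) (hs n hn) _)) (hg _ n hn) (ht_nonneg _)
        (pow_nonneg ((ht_nonneg _).trans (hs n hn)) _)))
    (fun q hq γ _ => ((ls q hq).pow _).mul (lg q hq _)) hA (by linarith)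
  refine ⟨fun i => ∑ γ ∈ A.filter (fun γ => γ.1 = i), Polynomial.monomial γ.2 (c γ),
    ⟨γ0.1, fun h => hc0 ?_⟩, fun i => ?_, fun n hn => ?_⟩
  · have := congrArg (fun p => Polynomial.coeff p γ0.2) h
    simp only [Polynomial.finset_sum_coeff, Polynomial.coeff_monomial, Polynomial.coeff_zero]
      at this
    rw [Finset.sum_eq_single γ0, if_pos rfl] at this
    · exact this
    · intro γ hγ hne
      exact if_neg fun e => hne (Prod.ext (Finset.mem_filter.1 hγ).2 e)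
    · intro h'
      exact (h' (Finset.mem_filter.2 ⟨h0, rfl⟩)).elim
  · refine Polynomial.natDegree_sum_le_of_forall_le _ _ fun γ hγ =>
      (Polynomial.natDegree_monomial_le _).trans ?_
    exact (Finset.mem_range.1 (Finset.mem_product.1 (hAB (Finset.mem_filter.1 hγ).1)).2).le
  · rw [← hc n hn, ← Finset.sum_fiberwise A (fun γ => γ.1)]
    refine Finset.sum_congr rfl fun i _ => ?_
    rw [Polynomial.eval_finset_sum, Finset.sum_mul]
    refine Finset.sum_congr rfl fun γ hγ => ?_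
    rw [Polynomial.eval_monomial, ← (Finset.mem_filter.1 hγ).2, map_mul, map_pow, mul_assoc]

theorem coeff_fam (T : Finset ℕ) (c : ℕ → ℂ) (e : ℕ) {t : ℕ} (ht : t ∈ T) :
    (∑ a ∈ T, Polynomial.monomial (a + e) (c a)).coeff (t + e) = c t := by
  simp only [Polynomial.finset_sum_coeff, Polynomial.coeff_monomial]
  rw [Finset.sum_eq_single t, if_pos rfl]
  · intro a _ hne
    exact if_neg fun h => hne (by omega)
  · intro h
    exact absurd ht h

theorem famrel2 (ws wy v : ℕ) (hws : 1 ≤ ws) (hwy : 1 ≤ wy) (hv : 1 ≤ v)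
    (h : ws * wy < (ws + wy) * v) :
    ∃ (B : ℕ) (Y₀ : ℝ), ∀ (L : Type) [Field L] [NumberField L] (io : 𝓞 L →+* ℂ) (Y : ℝ)
    (W S : Finset ℕ) (ρ : Type) [Fintype ρ] (y : ℕ → ρ → 𝓞 L) (s g : ℕ → 𝓞 L),
    Y₀ ≤ Y → Fintype.card ρ = 1 → (∀ q ∈ S, q.Prime ∧ Y ≤ q) →
    v ≤ S.card → (∀ q ∈ S, ∀ n ∈ W, ∀ n' ∈ W, ∀ t, (q : 𝓞 L) ∣ y n t - y n' t) →
    (∀ n ∈ W, ht (s n) ≤ Y ^ ws) → (∀ n ∈ W, ht (g n) ≤ Y ^ wy) →
    (∀ q ∈ S, Loc (q : 𝓞 L) W y s) → (∀ q ∈ S, Loc (q : 𝓞 L) W y g) →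
    Rs B W (fun n => io (s n)) (fun n => io (g n)) := by
  classical
  obtain ⟨B, A, hAB, hA⟩ := genc2 ws wy v hws hwy hv h
  refine ⟨B, A.card.factorial + 1, ?_⟩
  intro L _ _ io Y W S ρ _ y s g hY hρ hS hvS hy hs hg ls lg
  obtain ⟨c, ⟨γ0, h0, hc0⟩, hc⟩ := detrel 1 v hρ hv io Y W S hS hvS y hy A _
    (Sum.elim (fun t n => s n ^ t) (fun t n => g n ^ (t + 1))) (fun γ _ n hn => by
      rcases γ with t | t
      · simp only [Sum.elim_inl]
        rw [mul_comm, pow_mul]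
        exact (ht_pow_le _ _).trans (pow_le_pow_left₀ (ht_nonneg _) (hs n hn) _)
      · simp only [Sum.elim_inr]
        rw [mul_comm, pow_mul]
        exact (ht_pow_le _ _).trans (pow_le_pow_left₀ (ht_nonneg _) (hg n hn) _))
    (fun q hq γ _ => by
      rcases γ with t | t
      · exact (ls q hq).pow _
      · exact (lg q hq).pow _) hA (by linarith)
  refine ⟨∑ t ∈ A.toLeft, Polynomial.monomial (t + 0) (c (Sum.inl t)),
    ∑ t ∈ A.toRight, Polynomial.monomial (t + 1) (c (Sum.inr t)), ?_, ?_, ?_, ?_, fun n hn => ?_⟩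
  · rcases γ0 with t | t
    · refine Or.inl fun h => hc0 ?_
      rw [← coeff_fam A.toLeft (fun t => c (Sum.inl t)) 0 (Finset.mem_toLeft.2 h0), h,
        Polynomial.coeff_zero]
    · refine Or.inr fun h => hc0 ?_
      rw [← coeff_fam A.toRight (fun t => c (Sum.inr t)) 1 (Finset.mem_toRight.2 h0), h,
        Polynomial.coeff_zero]
  · simp [Polynomial.finset_sum_coeff, Polynomial.coeff_monomial]
  · refine Polynomial.natDegree_sum_le_of_forall_le _ _ fun t ht =>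
      (Polynomial.natDegree_monomial_le _).trans ?_
    have := hAB (Finset.mem_toLeft.1 ht)
    simp only [Finset.inl_mem_disjSum, Finset.mem_range] at this
    omega
  · refine Polynomial.natDegree_sum_le_of_forall_le _ _ fun t ht =>
      (Polynomial.natDegree_monomial_le _).trans ?_
    have := hAB (Finset.mem_toRight.1 ht)
    simp only [Finset.inr_mem_disjSum, Finset.mem_range] at this
    omega
  · rw [← hc n hn, Finset.sum_sum_eq_sum_toLeft_add_sum_toRight A]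
    simp [Polynomial.eval_finset_sum, Polynomial.eval_monomial]

theorem Rm.mono {m B B' : ℕ} {W W' : Finset ℕ} {s : ℕ → ℂ} {h : Fin m → ℕ → ℂ}
    (H : Rm B W s h) (hB : B ≤ B') (hW : W' ⊆ W) : Rm B' W' s h := by
  obtain ⟨A, h1, h2, h3⟩ := H
  exact ⟨A, h1, fun i => (h2 i).trans hB, fun n hn => h3 n (hW hn)⟩

theorem Rs.mono {B B' : ℕ} {W W' : Finset ℕ} {s y : ℕ → ℂ}
    (H : Rs B W s y) (hB : B ≤ B') (hW : W' ⊆ W) : Rs B' W' s y := by
  obtain ⟨A, A', h1, h2, h3, h4, h5⟩ := H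
  exact ⟨A, A', h1, h2, h3.trans hB, h4.trans hB, fun n hn => h5 n (hW hn)⟩

end Vale.Agent.P018
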