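import Vale.Agent.P018.Def2
import Vale.Agent.P018.Free

namespace Vale.Agent.P018

open NumberField MvPolynomial

theorem feas_two (d : ℕ) (hd : 4 ≤ d) : Feas d (d - 2) := by
  intro c
  refine ⟨1000 * ((d + 1) + (d + 1) ^ 2 + c), fun wa wb ha hb h1 h2 => ?_⟩
  obtain ⟨x, hx⟩ : ∃ x, x = (d - 2) * wa + wb := ⟨_, rfl⟩
  obtain ⟨m, hm⟩ : ∃ m, m = 1000 * (d + 1) := ⟨_, rfl⟩
  have hm0 : 0 < m := by omega
  obtain ⟨t, ht⟩ : ∃ t, t = 999 * x / m := ⟨_, rfl⟩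
  have t1 : m * t ≤ 999 * x := by rw [ht]; exact Nat.mul_div_le _ _
  have t2 : 999 * x ≤ m * (t + 1) := by
    rw [ht]; exact (Nat.lt_mul_div_succ _ hm0).le
  have hN : Num d (d - 2) wa wb (t + 1) :=
    num_of d (d - 2) wa wb (t + 1) hd (by omega) ha hb h1 (by rw [← hx, ← hm]; exact t2)
  refine ⟨(d + 1) * (t + 1) + (d + 1) ^ 2, ⟨fun _ => t + 1, ?_, fun _ _ _ => le_rfl, ?_⟩, ?_⟩
  · intro r _ _
    exact ⟨hN.hv, Or.inr ⟨fun _ => hN.top, fun h _ => hN.hyp r h,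
      fun _ => ⟨hN.twob, hN.twoa, hN.line⟩, fun _ => ⟨hN.c1, hN.c2, hN.c3a, hN.c3b⟩⟩⟩
  · simp
  · rw [← hx] at h2 ⊢
    have e : m * t = 1000 * ((d + 1) * t) := by rw [hm]; ring
    have e2 : (d + 1) * (t + 1) = (d + 1) * t + (d + 1) := by ring
    rw [e2]
    generalize (d + 1) * t = y at *
    generalize (d + 1) ^ 2 = z at *
    omega

end Vale.Agent.P018
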