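import Vale.Agent.P018.Gen0

namespace Vale.Agent.P018

open NumberField MvPolynomial

open Filter Topology

theorem sumIcc_genB (f : ℤ → ℝ) (N B : ℕ) :
    ∑ g ∈ Finset.Icc (-(N : ℤ)) (B : ℤ), f g =
      ∑ i ∈ Finset.range (B + 1), f i + ∑ t ∈ Finset.range N, f (-((t : ℤ) + 1)) := by
  induction N with
  | zero =>
    have h : Finset.Icc (-((0 : ℕ) : ℤ)) (B : ℤ) =
        (Finset.range (B + 1)).image (fun i : ℕ => (i : ℤ)) := by
      ext g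
      simp only [Finset.mem_Icc, Finset.mem_image, Finset.mem_range]
      constructor
      · intro h
        exact ⟨g.toNat, by omega, by omega⟩
      · rintro ⟨i, hi, rfl⟩
        omega
    rw [h, Finset.sum_image (fun a _ b _ h => by exact_mod_cast h)]
    simp
  | succ N ih =>
    have h : Finset.Icc (-((N + 1 : ℕ) : ℤ)) (B : ℤ) =
        insert (-((N : ℤ) + 1)) (Finset.Icc (-(N : ℤ)) (B : ℤ)) := by
      ext g
      simp only [Finset.mem_Icc, Finset.mem_insert]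
      omega
    rw [h, Finset.sum_insert (by simp only [Finset.mem_Icc]; omega), ih, Finset.sum_range_succ _ N]
    ring

theorem mm_nonneg_genB {k : ℕ} (hk : 1 ≤ k) {g : ℤ} (hg : 0 ≤ g) : mm k g = 0 := by
  have h : (-g + k - 1) / (k : ℤ) < 1 := by
    rw [Int.ediv_lt_iff_lt_mul (by omega)]
    omega
  unfold mm
  omega

theorem mm_neg_genB {k : ℕ} (m e : ℕ) (he : e < k) :
    mm k (-(((k * m + e : ℕ) : ℤ) + 1)) = m + 1 := by
  have h : (-(-(((k * m + e : ℕ) : ℤ) + 1)) + k - 1) / (k : ℤ) = m + 1 := by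
    have h1 : -(-(((k * m + e : ℕ) : ℤ) + 1)) + k - 1 = e + (k : ℤ) * (m + 1) := by
      push_cast
      ring
    rw [h1, Int.add_mul_ediv_left _ _ (by omega), Int.ediv_eq_zero_of_lt (by omega) (by omega)]
    ring
  unfold mm
  rw [h]
  omega

theorem mm_spec_genB {k : ℕ} (hk : 1 ≤ k) (g : ℤ) : 0 ≤ g + k * mm k g := by
  rcases le_or_gt 0 g with h | h
  · rw [mm_nonneg_genB hk h]
    simpa using h
  · have h1 := Int.lt_mul_ediv_self_add (x := -g + k - 1) (k := (k : ℤ)) (by omega)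
    have h2 : 0 ≤ (-g + k - 1) / (k : ℤ) := Int.ediv_nonneg (by omega) (by omega)
    unfold mm
    rw [Int.toNat_of_nonneg h2]
    omega

theorem w1_nat_genB {k : ℕ} (hk : 1 ≤ k) (wa wb i : ℕ) : w1 k wa wb (i : ℤ) = i * wa := by
  simp [w1, mm_nonneg_genB hk (Int.natCast_nonneg i)]

theorem w1_neg_genB {k : ℕ} (wa wb m e : ℕ) (he : e < k) :
    w1 k wa wb (-(((k * m + e : ℕ) : ℤ) + 1)) = (m + 1) * wb + (k - 1 - e) * wa := by
  have h : (-(((k * m + e : ℕ) : ℤ) + 1) + k * ((m + 1 : ℕ) : ℤ)) = ((k - 1 - e : ℕ) : ℤ) := by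
    rw [Nat.cast_sub (by omega), Nat.cast_sub (by omega)]
    push_cast
    ring
  rw [w1, mm_neg_genB m e he, h, Int.toNat_natCast]

theorem w1_int_genB {k : ℕ} (hk : 1 ≤ k) (wa wb : ℕ) (g : ℤ) :
    (w1 k wa wb g : ℤ) = mm k g * ((k * wa + wb : ℕ) : ℤ) + g * wa := by
  rw [w1]
  push_cast
  rw [Int.toNat_of_nonneg (mm_spec_genB hk g)]
  ring

theorem wt_int_genB {d k : ℕ} (hk : 1 ≤ k) (wa wb : ℕ) (γ : Gm d) :
    (wt k wa wb γ : ℤ) = ex k γ * ((k * wa + wb : ℕ) : ℤ) + ∑ j, γ.2 j * wa := by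
  rw [wt, ex, Nat.cast_add, Nat.cast_add γ.1, Nat.cast_sum, Nat.cast_sum, Nat.cast_mul γ.1,
    Finset.sum_congr rfl (fun j _ => w1_int_genB hk wa wb (γ.2 j)), Finset.sum_add_distrib,
    ← Finset.sum_mul]
  ring

/-- one-variable generating sum -/
noncomputable def gSB (k wa wb : ℕ) (z : ℝ) (B : ℕ) : ℝ :=
  ∑ g ∈ Finset.Icc (-((k * B : ℕ) : ℤ)) (B : ℤ), z ^ w1 k wa wb g

/-- its limit -/
noncomputable def gZB (k wa wb : ℕ) (z : ℝ) : ℝ :=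
  (1 - z ^ (k * wa + wb)) * ((1 - z ^ wa)⁻¹ * (1 - z ^ wb)⁻¹)

theorem gSB_eq {k : ℕ} (hk : 1 ≤ k) (wa wb : ℕ) (z : ℝ) (B : ℕ) :
    gSB k wa wb z B = ∑ i ∈ Finset.range (B + 1), z ^ (i * wa) +
      (∑ m ∈ Finset.range B, z ^ (m * wb)) * (z ^ wb * ∑ e ∈ Finset.range k, z ^ (e * wa)) := by
  rw [gSB, sumIcc_genB (fun g => z ^ w1 k wa wb g)]
  congr 1
  · exact Finset.sum_congr rfl fun i _ => by rw [w1_nat_genB hk]
  · induction B with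
    | zero => simp
    | succ B ih =>
      rw [Nat.mul_succ, Finset.sum_range_add, ih, Finset.sum_range_succ, add_mul]
      congr 1
      rw [← Finset.sum_range_reflect (fun e => z ^ (e * wa)), Finset.mul_sum, Finset.mul_sum]
      refine Finset.sum_congr rfl fun e he => ?_
      rw [w1_neg_genB wa wb B e (Finset.mem_range.1 he)]
      ring

theorem gZB_eq (k wa wb : ℕ) (ha : 1 ≤ wa) (hb : 1 ≤ wb) (z : ℝ) (h0 : 0 < z) (h1 : z < 1) :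
    gZB k wa wb z = (1 - z ^ wa)⁻¹ +
      (1 - z ^ wb)⁻¹ * (z ^ wb * ∑ e ∈ Finset.range k, z ^ (e * wa)) := by
  have e1 : 1 - z ^ wa ≠ 0 := (sub_pos.2 (pow_lt_one₀ h0.le h1 (by omega))).ne'
  have e2 : 1 - z ^ wb ≠ 0 := (sub_pos.2 (pow_lt_one₀ h0.le h1 (by omega))).ne'
  have e3 : ∑ e ∈ Finset.range k, z ^ (e * wa) = (1 - z ^ (k * wa)) * (1 - z ^ wa)⁻¹ := by
    rw [eq_mul_inv_iff_mul_eq₀ e1, mul_comm k, pow_mul, ← geom_sum_mul_neg (z ^ wa) k]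
    congr 1
    exact Finset.sum_congr rfl fun e _ => by rw [mul_comm, pow_mul]
  rw [e3, gZB, pow_add]
  field_simp
  ring

theorem gSB_nonneg (k wa wb : ℕ) {z : ℝ} (h0 : 0 < z) (B : ℕ) : 0 ≤ gSB k wa wb z B :=
  Finset.sum_nonneg fun _ _ => pow_nonneg h0.le _

theorem gSB_le {k : ℕ} (hk : 1 ≤ k) (wa wb : ℕ) (ha : 1 ≤ wa) (hb : 1 ≤ wb) (z : ℝ) (h0 : 0 < z)
    (h1 : z < 1) (B : ℕ) : gSB k wa wb z B ≤ gZB k wa wb z := by
  rw [gSB_eq hk, gZB_eq k wa wb ha hb z h0 h1]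
  exact add_le_add (geo_le wa ha z h0 h1 _) (mul_le_mul_of_nonneg_right (geo_le wb hb z h0 h1 _)
    (mul_nonneg (pow_nonneg h0.le _) (Finset.sum_nonneg fun _ _ => pow_nonneg h0.le _)))

theorem gSB_lim {k : ℕ} (hk : 1 ≤ k) (wa wb : ℕ) (ha : 1 ≤ wa) (hb : 1 ≤ wb) (z : ℝ) (h0 : 0 < z)
    (h1 : z < 1) : Tendsto (gSB k wa wb z) atTop (𝓝 (gZB k wa wb z)) := by
  rw [gZB_eq k wa wb ha hb z h0 h1, funext (gSB_eq hk wa wb z)]
  exact ((geo_lim wa ha z h0 h1).comp (tendsto_add_atTop_nat 1)).add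
    ((geo_lim wb hb z h0 h1).mul_const _)

theorem box_sum_genB {d k : ℕ} (hk : 1 ≤ k) (wa wb : ℕ) (z : ℝ) (B : ℕ) (J : Finset (Fin d)) :
    ∑ γ ∈ box k B J, z ^ wt k wa wb γ =
      (∑ i ∈ Finset.range B, z ^ (i * (k * wa + wb))) * gSB k wa wb z B ^ J.card := by
  have h : ∀ j : Fin d, ∑ g ∈ (if j ∈ J then Finset.Icc (-((k * B : ℕ) : ℤ)) (B : ℤ) else {0}),
      z ^ w1 k wa wb g = if j ∈ J then gSB k wa wb z B else 1 := by
    intro j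
    split_ifs
    · rfl
    · have := w1_nat_genB hk wa wb 0
      simp only [Nat.cast_zero, zero_mul] at this
      simp [this]
  have h2 : gSB k wa wb z B ^ J.card = ∏ j : Fin d, if j ∈ J then gSB k wa wb z B else 1 := by
    rw [Finset.prod_ite_mem, Finset.univ_inter, Finset.prod_const]
  rw [h2, ← Finset.prod_congr rfl (fun j _ => h j), Finset.prod_univ_sum, box, Finset.sum_product,
    Finset.sum_mul_sum]
  refine Finset.sum_congr rfl fun i _ => Finset.sum_congr rfl fun g _ => ?_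
  rw [wt, pow_add, Finset.prod_pow_eq_pow_sum]

theorem box_mem_genB {d k : ℕ} (hk : 1 ≤ k) (J : Finset (Fin d)) (γ : Gm d)
    (h : ∀ j ∉ J, γ.2 j = 0) : ∀ᶠ B in atTop, γ ∈ box k B J := by
  have h1 : ∀ j : Fin d, ∀ᶠ B : ℕ in atTop, (γ.2 j).natAbs ≤ B := fun j => eventually_ge_atTop _
  filter_upwards [eventually_all.2 h1, eventually_gt_atTop γ.1] with B hB hB'
  rw [box, Finset.mem_product, Finset.mem_range, Fintype.mem_piFinset]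
  refine ⟨hB', fun j => ?_⟩
  split_ifs with hj
  · have h2 := hB j
    have h3 : B ≤ k * B := Nat.le_mul_of_pos_left _ hk
    rw [Finset.mem_Icc]
    omega
  · simp [h j hj]

theorem supp_le_genB {d k : ℕ} (hk : 1 ≤ k) (wa wb : ℕ) (ha : 1 ≤ wa) (hb : 1 ≤ wb) (z : ℝ)
    (h0 : 0 < z) (h1 : z < 1) (J : Finset (Fin d)) (T : Finset (Gm d))
    (h : ∀ γ ∈ T, ∀ j ∉ J, γ.2 j = 0) :
    ∑ γ ∈ T, z ^ wt k wa wb γ ≤ (1 - z ^ (k * wa + wb))⁻¹ * gZB k wa wb z ^ J.card := by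
  obtain ⟨B, hB⟩ := ((eventually_all_finset T).2
    (fun γ hγ => box_mem_genB hk J γ (h γ hγ))).exists
  refine (Finset.sum_le_sum_of_subset_of_nonneg (fun γ hγ => hB γ hγ)
    (fun _ _ _ => pow_nonneg h0.le _)).trans ?_
  rw [box_sum_genB hk]
  have h2 := geo_le (k * wa + wb) (by omega) z h0 h1 B
  exact mul_le_mul h2 (pow_le_pow_left₀ (gSB_nonneg _ _ _ h0 _) (gSB_le hk wa wb ha hb z h0 h1 B) _)
    (pow_nonneg (gSB_nonneg _ _ _ h0 _) _)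
    ((Finset.sum_nonneg fun _ _ => pow_nonneg h0.le _).trans h2)

open Classical in
theorem insh_le_genB {d k : ℕ} (hk : 1 ≤ k) (wa wb : ℕ) (ha : 1 ≤ wa) (hb : 1 ≤ wb) (z : ℝ)
    (h0 : 0 < z) (h1 : z < 1) (J : Finset (Fin d)) (e w : ℕ) (g : Fin d → ℤ)
    (hw : (w : ℤ) ≤ sw k wa wb e g) (T : Finset (Gm d)) (h : ∀ γ ∈ T, InSh k J e g γ) :
    ∑ γ ∈ T, z ^ wt k wa wb γ ≤
      z ^ w * ((1 - z ^ (k * wa + wb))⁻¹ * gZB k wa wb z ^ J.card) := by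
  choose! φ hφ using h
  have hinj : Set.InjOn φ T := by
    intro a ha b hb hab
    have h2 : a.2 = b.2 := by rw [(hφ a ha).2.2, (hφ b hb).2.2, hab]
    have h3 : ex k a = ex k b := by rw [(hφ a ha).2.1, (hφ b hb).2.1, hab]
    rw [ex, ex, h2] at h3
    exact Prod.ext (by omega) h2
  have h2 := supp_le_genB hk wa wb ha hb z h0 h1 J (T.image φ) (fun γ hγ => by
    obtain ⟨a, ha, rfl⟩ := Finset.mem_image.1 hγ
    exact (hφ a ha).1)
  rw [Finset.sum_image hinj] at h2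
  refine le_trans ?_ (mul_le_mul_of_nonneg_left h2 (pow_nonneg h0.le _))
  rw [Finset.mul_sum]
  refine Finset.sum_le_sum fun γ hγ => ?_
  rw [← pow_add]
  refine pow_le_pow_of_le_one h0.le h1.le ?_
  have h3 := wt_int_genB hk wa wb γ
  have h4 := wt_int_genB hk wa wb (φ γ)
  rw [(hφ γ hγ).2.1, (hφ γ hγ).2.2] at h3
  simp only [Pi.add_apply, add_mul, Finset.sum_add_distrib, Nat.cast_add e] at h3
  rw [sw] at hw
  have : ((w + wt k wa wb (φ γ) : ℕ) : ℤ) ≤ wt k wa wb γ := by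
    rw [Nat.cast_add, h3, h4]
    linarith
  exact_mod_cast this

theorem gZB_lim (k wa wb : ℕ) (ha : 1 ≤ wa) (hb : 1 ≤ wb) :
    Tendsto (fun z : ℝ => (1 - z) * gZB k wa wb z) (𝓝[<] 1)
      (𝓝 (((k * wa + wb : ℕ) : ℝ) * ((wa : ℝ)⁻¹ * (wb : ℝ)⁻¹))) := by
  have h0 : ((k * wa + wb : ℕ) : ℝ) ≠ 0 := Nat.cast_ne_zero.2 (by omega)
  have h := ((tendsto_geo (k * wa + wb) (by omega)).inv₀ (inv_ne_zero h0)).mul
    ((tendsto_geo wa ha).mul (tendsto_geo wb hb))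
  rw [inv_inv] at h
  refine h.congr' ?_
  filter_upwards [self_mem_nhdsWithin] with z hz
  have : 1 - z ≠ 0 := (sub_pos.2 hz).ne'
  rw [gZB, mul_inv, inv_inv]
  field_simp

theorem pick_genB {f g : ℝ → ℝ} {a b : ℝ} (r : ℕ) (hab : a < b)
    (hf : Tendsto (fun z : ℝ => (1 - z) ^ r * f z) (𝓝[<] 1) (𝓝 a))
    (hg : Tendsto (fun z : ℝ => (1 - z) ^ r * g z) (𝓝[<] 1) (𝓝 b)) :
    ∃ z, 0 < z ∧ z < 1 ∧ f z < g z := by
  obtain ⟨z, hz, hz'⟩ := ((hf.eventually_lt hg hab).and (Ioo_mem_nhdsLT zero_lt_one)).exists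
  exact ⟨z, hz'.1, hz'.2, lt_of_mul_lt_mul_left hz (pow_nonneg (sub_pos.2 hz'.2).le _)⟩

theorem box_lim_genB {k : ℕ} (hk : 1 ≤ k) (wa wb : ℕ) (ha : 1 ≤ wa) (hb : 1 ≤ wb) (z : ℝ)
    (h0 : 0 < z) (h1 : z < 1) (r : ℕ) :
    Tendsto (fun B => (∑ i ∈ Finset.range B, z ^ (i * (k * wa + wb))) * gSB k wa wb z B ^ r) atTop
      (𝓝 ((1 - z ^ (k * wa + wb))⁻¹ * gZB k wa wb z ^ r)) :=
  (geo_lim _ (by omega) z h0 h1).mul ((gSB_lim hk wa wb ha hb z h0 h1).pow r)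

theorem gent (d k wa wb v : ℕ) (hd : 1 ≤ d) (hk : 1 ≤ k) (ha : 1 ≤ wa) (hb : 1 ≤ wb) (hv : 1 ≤ v)
    (h : (wa * wb) ^ d < (k * wa + wb) ^ (d - 1) * v ^ (d + 1)) :
    ∃ B : ℕ, ∃ A ⊆ box k B (Finset.univ : Finset (Fin d)), Good (d + 1) v A (wt k wa wb) := by
  have hf := (tendsto_geo v hv).pow (d + 1)
  have hg := (tendsto_geo (k * wa + wb) (by omega)).mul ((gZB_lim k wa wb ha hb).pow d)
  have hab : ((v : ℝ)⁻¹) ^ (d + 1) < ((k * wa + wb : ℕ) : ℝ)⁻¹ *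
      (((k * wa + wb : ℕ) : ℝ) * ((wa : ℝ)⁻¹ * (wb : ℝ)⁻¹)) ^ d := by
    obtain ⟨d, rfl⟩ : ∃ d', d = d' + 1 := ⟨d - 1, by omega⟩
    have h2 : ((wa : ℝ) * wb) ^ (d + 1) < ((k * wa + wb : ℕ) : ℝ) ^ d * (v : ℝ) ^ (d + 1 + 1) := by
      exact_mod_cast h
    have h3 : (0 : ℝ) < ((k * wa + wb : ℕ) : ℝ) := Nat.cast_pos.2 (by omega)
    have h4 : (0 : ℝ) < wa := Nat.cast_pos.2 ha
    have h5 : (0 : ℝ) < wb := Nat.cast_pos.2 hb
    have h6 : (0 : ℝ) < v := Nat.cast_pos.2 hv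
    generalize ((k * wa + wb : ℕ) : ℝ) = W at *
    have e : W⁻¹ * (W * ((wa : ℝ)⁻¹ * (wb : ℝ)⁻¹)) ^ (d + 1) = W ^ d / ((wa : ℝ) * wb) ^ (d + 1) := by
      rw [← mul_inv, mul_pow, inv_pow, pow_succ W]
      field_simp
    rw [e, inv_pow, inv_eq_one_div, div_lt_div_iff₀ (by positivity) (by positivity), one_mul]
    exact h2
  obtain ⟨z, h0, h1, hz⟩ := pick_genB (f := fun z => ((1 - z ^ v)⁻¹) ^ (d + 1))
    (g := fun z => (1 - z ^ (k * wa + wb))⁻¹ * gZB k wa wb z ^ d) (d + 1) hab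
    (hf.congr fun z => mul_pow _ _ _) (hg.congr fun z => by rw [mul_pow]; ring)
  obtain ⟨B, hB⟩ := ((box_lim_genB hk wa wb ha hb z h0 h1 d).eventually_const_lt hz).exists
  refine ⟨B, gen0 (d + 1) v hv _ _ z h0 h1 ?_⟩
  rw [box_sum_genB hk, Finset.card_univ, Fintype.card_fin]
  exact hB

theorem genh (d k wa wb v r w : ℕ) (hr : 1 ≤ r) (hk : 1 ≤ k) (ha : 1 ≤ wa) (hb : 1 ≤ wb)
    (hv : 1 ≤ v) (hw : 1 ≤ w) (h : (wa * wb) ^ r < w * (k * wa + wb) ^ (r - 1) * v ^ r) :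
    ∃ B : ℕ, ∀ J : Finset (Fin d), J.card = r → ∀ (e : ℕ) (g : Fin d → ℤ), (∀ j ∉ J, g j = 0) →
      (w : ℤ) ≤ sw k wa wb e g →
      ∃ A ⊆ box k B J, (∀ γ ∈ A, ¬ InSh k J e g γ) ∧ Good r v A (wt k wa wb) := by
  classical
  have hf := (tendsto_geo v hv).pow r
  have hw0 : (w : ℝ)⁻¹ ≠ 0 := inv_ne_zero (Nat.cast_ne_zero.2 (by omega))
  have hg := ((tendsto_geo w hw).inv₀ hw0).mul
    ((tendsto_geo (k * wa + wb) (by omega)).mul ((gZB_lim k wa wb ha hb).pow r))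
  have hab : ((v : ℝ)⁻¹) ^ r < ((w : ℝ)⁻¹)⁻¹ * (((k * wa + wb : ℕ) : ℝ)⁻¹ *
      (((k * wa + wb : ℕ) : ℝ) * ((wa : ℝ)⁻¹ * (wb : ℝ)⁻¹)) ^ r) := by
    obtain ⟨r, rfl⟩ : ∃ r', r = r' + 1 := ⟨r - 1, by omega⟩
    have h2 : ((wa : ℝ) * wb) ^ (r + 1) <
        w * ((k * wa + wb : ℕ) : ℝ) ^ r * (v : ℝ) ^ (r + 1) := by
      exact_mod_cast h
    have h3 : (0 : ℝ) < ((k * wa + wb : ℕ) : ℝ) := Nat.cast_pos.2 (by omega)
    have h4 : (0 : ℝ) < wa := Nat.cast_pos.2 ha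
    have h5 : (0 : ℝ) < wb := Nat.cast_pos.2 hb
    have h6 : (0 : ℝ) < v := Nat.cast_pos.2 hv
    generalize ((k * wa + wb : ℕ) : ℝ) = W at *
    have e : ((w : ℝ)⁻¹)⁻¹ * (W⁻¹ * (W * ((wa : ℝ)⁻¹ * (wb : ℝ)⁻¹)) ^ (r + 1)) =
        w * W ^ r / ((wa : ℝ) * wb) ^ (r + 1) := by
      rw [inv_inv, ← mul_inv, mul_pow, inv_pow, pow_succ W]
      field_simp
    rw [e, inv_pow, inv_eq_one_div, div_lt_div_iff₀ (by positivity) (by positivity), one_mul]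
    exact h2
  obtain ⟨z, h0, h1, hz⟩ := pick_genB (f := fun z => ((1 - z ^ v)⁻¹) ^ r)
    (g := fun z => (1 - z ^ w) * ((1 - z ^ (k * wa + wb))⁻¹ * gZB k wa wb z ^ r)) r hab
    (hf.congr fun z => mul_pow _ _ _) (hg.congr' (by
      filter_upwards [self_mem_nhdsWithin] with z hz
      have : 1 - z ≠ 0 := (sub_pos.2 hz).ne'
      rw [mul_inv, inv_inv, mul_pow]
      field_simp))
  have hz' : ((1 - z ^ v)⁻¹) ^ r + z ^ w * ((1 - z ^ (k * wa + wb))⁻¹ * gZB k wa wb z ^ r) <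
      (1 - z ^ (k * wa + wb))⁻¹ * gZB k wa wb z ^ r := by linarith
  obtain ⟨B, hB⟩ := ((box_lim_genB hk wa wb ha hb z h0 h1 r).eventually_const_lt hz').exists
  refine ⟨B, fun J hJ e g _ hs => ?_⟩
  have h2 := insh_le_genB hk wa wb ha hb z h0 h1 J e w g hs
    ((box k B J).filter (InSh k J e g)) (fun γ hγ => (Finset.mem_filter.1 hγ).2)
  have h3 := Finset.sum_filter_add_sum_filter_not (box k B J) (InSh k J e g)
    (fun γ => z ^ wt k wa wb γ)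
  rw [box_sum_genB hk, hJ] at h3
  rw [hJ] at h2
  obtain ⟨A, hA, hG⟩ := gen0 r v hv ((box k B J).filter (fun γ => ¬ InSh k J e g γ))
    (wt k wa wb) z h0 h1 (by linarith)
  exact ⟨A, hA.trans (Finset.filter_subset _ _), fun γ hγ => (Finset.mem_filter.1 (hA hγ)).2, hG⟩

end Vale.Agent.P018
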