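import Vale.Agent.P018.Defs

namespace Vale.Agent.P018

open NumberField MvPolynomial

variable {d : ℕ}

theorem Mt_monic_Hyp (m : MonomialOrder (Option (Fin d))) (k B : ℕ) (μ : Fin d → ℂ)
    (J : Finset (Fin d)) (γ : Gm d) : m.Monic (Mt k B μ J γ) :=
  (m.monic_X.pow).mul (MonomialOrder.Monic.prod fun _ _ =>
    (m.monic_X_sub_C _ _).pow.mul m.monic_X.pow)

theorem Mt_deg_Hyp (m : MonomialOrder (Option (Fin d))) (k B : ℕ) (μ : Fin d → ℂ)
    (J : Finset (Fin d)) (γ : Gm d) :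
    m.degree (Mt k B μ J γ) none = γ.1 + ∑ j ∈ J, mm k (γ.2 j) ∧
      ∀ j, m.degree (Mt k B μ J γ) (some j) =
        if j ∈ J then (γ.2 j + ((k * B : ℕ) : ℤ)).toNat else 0 := by
  have h : m.degree (Mt k B μ J γ) = Finsupp.single none γ.1 + ∑ j ∈ J,
      (Finsupp.single none (mm k (γ.2 j)) +
        Finsupp.single (some j) (γ.2 j + ((k * B : ℕ) : ℤ)).toNat) := by
    rw [Mt, m.degree_mul m.monic_X.pow.ne_zero (MonomialOrder.Monic.prod fun _ _ =>
      (m.monic_X_sub_C _ _).pow.mul m.monic_X.pow).ne_zero,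
      m.degree_prod fun _ _ => ((m.monic_X_sub_C _ _).pow.mul m.monic_X.pow).ne_zero,
      Finset.sum_congr rfl fun _ _ =>
        m.degree_mul (m.monic_X_sub_C _ _).pow.ne_zero m.monic_X.pow.ne_zero]
    simp only [m.degree_pow, m.degree_X, m.degree_X_sub_C, Finsupp.smul_single, smul_eq_mul,
      mul_one]
  rw [h]
  refine ⟨by simp [Finsupp.finsetSum_apply], fun j => ?_⟩
  simp [Finsupp.finsetSum_apply, Finsupp.single_apply]

theorem mem_box_Hyp {k B : ℕ} {J : Finset (Fin d)} {γ : Gm d} (h : γ ∈ box k B J) (j : Fin d) :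
    (j ∈ J → 0 ≤ γ.2 j + ((k * B : ℕ) : ℤ)) ∧ (j ∉ J → γ.2 j = 0) := by
  have := Fintype.mem_piFinset.1 (Finset.mem_product.1 h).2 j
  refine ⟨fun hj => ?_, fun hj => ?_⟩
  · rw [if_pos hj, Finset.mem_Icc] at this
    omega
  · simpa [hj] using this

theorem top_Hyp (m : MonomialOrder (Option (Fin d))) (k B : ℕ) (μ : Fin d → ℂ)
    (J : Finset (Fin d)) (A : Finset (Gm d)) (hA : A ⊆ box k B J) (c : Gm d → ℂ)
    (hc : ∃ γ ∈ A, c γ ≠ 0) : ∑ γ ∈ A, C (c γ) * Mt k B μ J γ ≠ 0 ∧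
      ∃ γ₀ ∈ A, m.degree (∑ γ ∈ A, C (c γ) * Mt k B μ J γ) = m.degree (Mt k B μ J γ₀) := by
  classical
  obtain ⟨γ₀, h0, h1⟩ := (A.filter fun γ => c γ ≠ 0).exists_max_image
    (fun γ => m.toSyn (m.degree (Mt k B μ J γ))) (hc.imp fun _ h => Finset.mem_filter.2 h)
  obtain ⟨h0, h0'⟩ := Finset.mem_filter.1 h0
  have h2 : coeff (m.degree (Mt k B μ J γ₀)) (∑ γ ∈ A, C (c γ) * Mt k B μ J γ) = c γ₀ := by
    rw [coeff_sum, Finset.sum_eq_single γ₀ (fun γ hγ hn => ?_) (fun h => absurd h0 h), coeff_C_mul,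
      (Mt_monic_Hyp m k B μ J γ₀).coeff_degree, mul_one]
    rw [coeff_C_mul]
    by_cases h : c γ = 0
    · rw [h, zero_mul]
    rw [m.coeff_eq_zero_of_lt ((h1 γ (Finset.mem_filter.2 ⟨hγ, h⟩)).lt_of_ne fun e => hn ?_),
      mul_zero]
    have e' := m.toSyn.injective e
    have a := Mt_deg_Hyp m k B μ J γ
    have b := Mt_deg_Hyp m k B μ J γ₀
    have e2 : γ.2 = γ₀.2 := _root_.funext fun j => by
      have a1 := mem_box_Hyp (hA hγ) j
      have b1 := mem_box_Hyp (hA h0) j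
      have a2 := a.2 j
      rw [e', b.2 j] at a2
      by_cases hj : j ∈ J
      · rw [if_pos hj, if_pos hj] at a2
        have := a1.1 hj
        have := b1.1 hj
        omega
      · rw [a1.2 hj, b1.2 hj]
    have a1 := a.1
    rw [e', b.1, e2] at a1
    exact Prod.ext (by omega) e2
  have h3 := mem_support_iff.2 (h2.trans_ne h0')
  refine ⟨fun h => by simp [h] at h3, γ₀, h0, m.toSyn.injective
    (le_antisymm (m.degree_le_iff.2 fun x hx => ?_) (m.le_degree h3))⟩
  rw [mem_support_iff, coeff_sum] at hx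
  obtain ⟨γ, hγ, h⟩ := Finset.exists_ne_zero_of_sum_ne_zero hx
  rw [coeff_C_mul, mul_ne_zero_iff] at h
  exact (m.le_degree (mem_support_iff.2 h.2)).trans (h1 γ (Finset.mem_filter.2 ⟨hγ, h.1⟩))
theorem hyp0 (k B : ℕ) (μ : Fin d → ℂ) (J : Finset (Fin d)) (A : Finset (Gm d))
    (hA : A ⊆ box k B J) (c : Gm d → ℂ) (hc : ∃ γ ∈ A, c γ ≠ 0) :
    ∑ γ ∈ A, C (c γ) * Mt k B μ J γ ≠ 0 :=   by
  letI : LinearOrder (Option (Fin d)) := inferInstanceAs (LinearOrder (WithBot (Fin d)))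
  exact (top_Hyp MonomialOrder.lex k B μ J A hA c hc).1

/-- translation of the variable `x` -/
noncomputable def shHyp (μ : ℂ) :
    MvPolynomial (Option (Fin d)) ℂ →ₐ[ℂ] MvPolynomial (Option (Fin d)) ℂ :=
  aeval fun s => s.elim (X none + C μ) fun i => X (some i)

/-- weights of the valuation -/
def wHyp (k : ℕ) (j : Fin d) (s : Option (Fin d)) : ℕ := s.elim k fun i => if i = j then 1 else 0

/-- the valuation -/
noncomputable def nuHyp (k : ℕ) (j : Fin d) (μ : ℂ) (H : MvPolynomial (Option (Fin d)) ℂ) : ℕ∞ :=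
  MvPowerSeries.weightedOrder (wHyp k j) (shHyp μ H : MvPowerSeries (Option (Fin d)) ℂ)

theorem weight_Hyp (k : ℕ) (j : Fin d) (x : Option (Fin d) →₀ ℕ) :
    Finsupp.weight (wHyp k j) x = x none * k + x (some j) := by
  rw [Finsupp.weight_apply, Finsupp.sum_fintype _ _ (by simp), Fintype.sum_option]
  simp [wHyp]

theorem nu_mul_Hyp (k : ℕ) (j : Fin d) (μ : ℂ) (F H : MvPolynomial (Option (Fin d)) ℂ) :
    nuHyp k j μ (F * H) = nuHyp k j μ F + nuHyp k j μ H := by
  rw [nuHyp, map_mul, coe_mul, MvPowerSeries.weightedOrder_mul]; rfl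

theorem le_nu_Hyp {k : ℕ} {j : Fin d} {μ : ℂ} {H : MvPolynomial (Option (Fin d)) ℂ} {t : ℕ} :
    (t : ℕ∞) ≤ nuHyp k j μ H ↔ ∀ x, x none * k + x (some j) < t → coeff x (shHyp μ H) = 0 := by
  refine ⟨fun h x hx => ?_, fun h => MvPowerSeries.nat_le_weightedOrder _ fun x hx => ?_⟩
  · rw [← coeff_coe]
    refine MvPowerSeries.coeff_eq_zero_of_lt_weightedOrder (wHyp k j) (lt_of_lt_of_le ?_ h)
    rw [weight_Hyp]; exact_mod_cast hx
  · rw [coeff_coe]; exact h x (weight_Hyp k j x ▸ hx)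

theorem nu_ne_Hyp (k : ℕ) (j : Fin d) (μ : ℂ) {F : MvPolynomial (Option (Fin d)) ℂ} (hF : F ≠ 0) :
    nuHyp k j μ F ≠ ⊤ := by
  rw [nuHyp, Ne, MvPowerSeries.weightedOrder_eq_top_iff, coe_eq_zero_iff]
  intro h
  have : (shHyp (d := d) (-μ)).comp (shHyp μ) = AlgHom.id _ _ :=
    algHom_ext fun s => by cases s <;> simp [shHyp]
  exact hF ((DFunLike.congr_fun this F).symm.trans (by rw [AlgHom.comp_apply, h, map_zero]))

theorem nu_Mt_Hyp {k B : ℕ} (hk : 1 ≤ k) (μ : Fin d → ℂ) {J : Finset (Fin d)} {γ : Gm d}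
    (h : γ ∈ box k B J) {j : Fin d} (hj : j ∈ J) :
    ((k * B : ℕ) : ℕ∞) ≤ nuHyp k j (μ j) (Mt k B μ J γ) := by
  rw [Mt, ← Finset.mul_prod_erase J _ hj, nu_mul_Hyp, nu_mul_Hyp]
  refine le_add_left (le_add_right (le_nu_Hyp.2 fun x hx => ?_))
  have e : shHyp (μ j) ((X none - C (μ j)) ^ mm k (γ.2 j) *
      X (some j) ^ (γ.2 j + ((k * B : ℕ) : ℤ)).toNat) = monomial (Finsupp.single none (mm k (γ.2 j)) +
        Finsupp.single (some j) (γ.2 j + ((k * B : ℕ) : ℤ)).toNat) 1 := by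
    simp only [shHyp, map_mul, map_pow, map_sub, aeval_X, aeval_C, Option.elim_none,
      Option.elim_some, algebraMap_eq, add_sub_cancel_right]
    rw [X_pow_eq_monomial, X_pow_eq_monomial, monomial_mul, one_mul]
  rw [e, coeff_monomial, if_neg]
  rintro rfl
  have h1 := (mem_box_Hyp h j).1 hj
  have h2 := Int.lt_ediv_add_one_mul_self (-γ.2 j + k - 1) (show (0 : ℤ) < k by omega)
  have h3 : (-γ.2 j + k - 1) / k ≤ mm k (γ.2 j) := Int.self_le_toNat _
  simp only [Finsupp.add_apply, Finsupp.single_eq_same, ne_eq, reduceCtorEq, not_false_eq_true,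
    Finsupp.single_eq_of_ne, add_zero, zero_add] at hx
  zify at hx
  rw [Int.toNat_of_nonneg (by simpa using h1)] at hx
  nlinarith

theorem coeff_opt_Hyp (H : MvPolynomial (Option (Fin d)) ℂ) (h : Fin d →₀ ℕ) (l : ℕ) :
    (coeff h (optionEquivRight ℂ (Fin d) H)).coeff l = coeff (h.optionElim l) H := by
  induction H using MvPolynomial.induction_on' with
  | add p q hp hq => simp only [map_add, coeff_add, Polynomial.coeff_add, hp, hq]
  | monomial u a =>
    have : optionEquivRight ℂ (Fin d) (monomial u a) =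
        monomial u.some (Polynomial.monomial (u none) a) := by
      rw [monomial_eq, monomial_eq, Finsupp.prod_fintype _ _ (by simp),
        Finsupp.prod_fintype _ _ (by simp), Fintype.prod_option]
      simp [optionEquivRight_X_some, optionEquivRight_X_none, optionEquivRight_C,
        ← Polynomial.C_mul_X_pow_eq_monomial, mul_assoc]
    rw [this, coeff_monomial, coeff_monomial]
    by_cases h1 : u.some = h
    · subst h1
      rw [if_pos rfl, Polynomial.coeff_monomial]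
      exact if_congr ⟨fun e => e ▸ u.optionElim_some.symm, fun e => by
        rw [e, Finsupp.optionElim_apply_none]⟩ rfl rfl
    · rw [if_neg h1, if_neg fun e => h1 (by rw [e, Finsupp.some_optionElim]),
        Polynomial.coeff_zero]

theorem opt_sh_Hyp (μ : ℂ) (H : MvPolynomial (Option (Fin d)) ℂ) :
    optionEquivRight ℂ (Fin d) (shHyp μ H) =
      map (Polynomial.compRingHom (Polynomial.X + Polynomial.C μ)) (optionEquivRight ℂ (Fin d) H) := by
  induction H using MvPolynomial.induction_on with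
  | C a => simp [shHyp, optionEquivRight_C]
  | add p q hp hq => simp only [map_add, hp, hq]
  | mul_X p s hp =>
    rw [map_mul, map_mul, map_mul, map_mul, hp]
    cases s <;> simp [shHyp, optionEquivRight_X_some, optionEquivRight_X_none, optionEquivRight_C]

theorem lead_Hyp (m : MonomialOrder (Option (Fin d))) {k : ℕ} (hk : 1 ≤ k) {μ : Fin d → ℂ}
    (hμ : Function.Injective μ) (J : Finset (Fin d)) {H : MvPolynomial (Option (Fin d)) ℂ}
    (hH : H ≠ 0) (t : Fin d → ℤ) (ht : ∀ j ∈ J, ((t j).toNat : ℕ∞) ≤ nuHyp k j (μ j) H) :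
    ∑ j ∈ J, mm k (m.degree H (some j) - t j) ≤ m.degree H none := by
  set P := coeff (m.degree H).some (optionEquivRight ℂ (Fin d) H) with hP
  have h0 : P ≠ 0 := fun h => m.coeff_degree_ne_zero_iff.2 hH (by
    rw [← (m.degree H).optionElim_some, ← coeff_opt_Hyp, ← hP, h, Polynomial.coeff_zero])
  have h1 : P.natDegree ≤ m.degree H none := Polynomial.natDegree_le_iff_coeff_eq_zero.2 fun l hl => by
    rw [coeff_opt_Hyp]
    refine m.coeff_eq_zero_of_lt (m.toSyn_strictMono (lt_of_le_of_ne (fun s => ?_) fun e => ?_))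
    · cases s <;> simp [hl.le]
    · rw [e, Finsupp.optionElim_apply_none] at hl
      exact lt_irrefl _ hl
  have h2 : ∏ j ∈ J, (Polynomial.X - Polynomial.C (μ j)) ^ mm k (m.degree H (some j) - t j) ∣ P := by
    refine Finset.prod_dvd_of_coprime
      (fun i _ j _ h => (Polynomial.pairwise_coprime_X_sub_C hμ h).pow) fun j hj => ?_
    rw [Polynomial.X_sub_C_pow_dvd_iff, Polynomial.X_pow_dvd_iff]
    intro l hl
    rw [← Polynomial.coe_compRingHom_apply, ← coeff_map, ← opt_sh_Hyp, coeff_opt_Hyp]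
    refine le_nu_Hyp.1 (ht j hj) _ ?_
    rw [Finsupp.optionElim_apply_none, Finsupp.optionElim_apply_some, Finsupp.some_apply]
    have h3 := (Int.le_ediv_iff_mul_le (show (0 : ℤ) < k by omega)).1
      (Int.add_one_le_iff.2 (Int.lt_toNat.1 hl))
    rw [Int.lt_toNat]
    push_cast
    linarith
  have h3 := Polynomial.natDegree_le_of_dvd h2 h0
  rw [Polynomial.natDegree_prod_of_monic _ _ fun j _ => (Polynomial.monic_X_sub_C _).pow _] at h3
  simp only [Polynomial.natDegree_pow, Polynomial.natDegree_X_sub_C, mul_one] at h3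
  exact h3.trans h1

theorem ex_Hyp {k : ℕ} (hk : 1 ≤ k) {J : Finset (Fin d)} {γ : Gm d} (h : ∀ j ∉ J, γ.2 j = 0) :
    ex k γ = γ.1 + ∑ j ∈ J, mm k (γ.2 j) := by
  rw [ex, ← Finset.sum_subset J.subset_univ fun j _ hj => ?_]
  rw [h j hj, mm, Int.ediv_eq_zero_of_lt (by omega) (by omega)]; rfl

theorem main_Hyp (m : MonomialOrder (Option (Fin d))) {k : ℕ} (hk : 1 ≤ k) {μ : Fin d → ℂ}
    (hμ : Function.Injective μ) (J : Finset (Fin d)) {F : MvPolynomial (Option (Fin d)) ℂ}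
    (hF : F ≠ 0) (B : ℕ) (A : Finset (Gm d)) (c : Gm d → ℂ) (hA : A ⊆ box k B J)
    (h : ∀ γ ∈ A, ¬ InSh k J (m.degree F none) (fun j => if j ∈ J then
      m.degree F (some j) - ((nuHyp k j (μ j) F).toNat : ℤ) else 0) γ) (hc : ∃ γ ∈ A, c γ ≠ 0) :
    ¬ F ∣ ∑ γ ∈ A, C (c γ) * Mt k B μ J γ := by
  rintro ⟨H, e⟩
  obtain ⟨h0, γ, hγ, h1⟩ := top_Hyp m k B μ J A hA c hc
  have hH : H ≠ 0 := right_ne_zero_of_mul (e ▸ h0)
  have h2 := lead_Hyp m hk hμ J hH (fun j => (k * B : ℕ) - ((nuHyp k j (μ j) F).toNat : ℤ))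
    fun j hj => by
      have h3 : ((k * B : ℕ) : ℕ∞) ≤ nuHyp k j (μ j) (F * H) := by
        rw [← e]
        refine le_nu_Hyp.2 fun x hx => ?_
        rw [map_sum, coeff_sum]
        refine Finset.sum_eq_zero fun γ hγ => ?_
        rw [map_mul, shHyp, aeval_C, algebraMap_eq, coeff_C_mul, ← shHyp,
          le_nu_Hyp.1 (nu_Mt_Hyp hk μ (hA hγ) hj) x hx, mul_zero]
      rw [nu_mul_Hyp, ← ENat.coe_toNat (nu_ne_Hyp k j (μ j) hF),
        ← ENat.coe_toNat (nu_ne_Hyp k j (μ j) hH)] at h3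
      rw [← ENat.coe_toNat (nu_ne_Hyp k j (μ j) hH)]
      rw [← Nat.cast_add, Nat.cast_le] at h3
      rw [Nat.cast_le]
      omega
  rw [e, m.degree_mul hF hH] at h1
  obtain ⟨h3, h4⟩ := Mt_deg_Hyp m k B μ J γ
  rw [← h1] at h3 h4
  refine h γ hγ ⟨(m.degree H none - ∑ j ∈ J, mm k (m.degree H (some j) -
    ((k * B : ℕ) - ((nuHyp k j (μ j) F).toNat : ℤ))), fun j => if j ∈ J then m.degree H (some j) -
    ((k * B : ℕ) - ((nuHyp k j (μ j) F).toNat : ℤ)) else 0), fun j hj => if_neg hj, ?_,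
    _root_.funext fun j => ?_⟩
  · rw [ex_Hyp hk fun j => (mem_box_Hyp (hA hγ) j).2, ex_Hyp hk fun j hj => if_neg hj, ← h3,
      Finset.sum_congr rfl fun j hj => congrArg (mm k) (if_pos hj), Nat.sub_add_cancel h2]
    rfl
  · have h5 := h4 j
    have h6 := mem_box_Hyp (hA hγ) j
    rw [Finsupp.add_apply] at h5
    by_cases hj : j ∈ J
    · simp only [Pi.add_apply, if_pos hj] at h5 ⊢
      have := h6.1 hj
      omega
    · simp only [Pi.add_apply, if_neg hj, h6.2 hj, add_zero]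
theorem hyp1 (k wa wb : ℕ) (hk : 1 ≤ k) (μ : Fin d → ℂ) (hμ : Function.Injective μ)
    (J : Finset (Fin d)) (F : MvPolynomial (Option (Fin d)) ℂ) (hF : F ≠ 0) (hJ : Supp J F)
    (hX : ∀ j, ¬ X (some j) ∣ F) :
    ∃ (e : ℕ) (g : Fin d → ℤ), (∀ j ∉ J, g j = 0) ∧
      (degreeOf none F ≠ 0 → (wb : ℤ) ≤ sw k wa wb e g) ∧
      (degreeOf none F = 0 → ((F.totalDegree * wa : ℕ) : ℤ) ≤ sw k wa wb e g) ∧
      ∀ (B : ℕ) (A : Finset (Gm d)) (c : Gm d → ℂ), A ⊆ box k B J →
        (∀ γ ∈ A, ¬ InSh k J e g γ) → (∃ γ ∈ A, c γ ≠ 0) →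
        ¬ F ∣ ∑ γ ∈ A, C (c γ) * Mt k B μ J γ :=   by
  letI : LinearOrder (Option (Fin d)) := inferInstanceAs (LinearOrder (WithBot (Fin d)))
  by_cases h0 : degreeOf none F = 0
  · refine ⟨_, _, fun j hj => if_neg hj, fun h => absurd h0 h, fun _ => ?_,
      main_Hyp MonomialOrder.degLex hk hμ J hF⟩
    have hD := fun s => monomial_le_degreeOf s (MonomialOrder.degLex.degree_mem_support hF)
    have h1 : ∀ j, nuHyp k j (μ j) F = 0 := fun j => by
      by_contra h
      have h2 := le_nu_Hyp.1 (show ((1 : ℕ) : ℕ∞) ≤ _ from Order.one_le_iff_ne_zero.2 h)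
      have h3 : shHyp (μ j) F = F := hom_congr_vars (f₁ := (shHyp (μ j)).toRingHom)
        (f₂ := RingHom.id _) (RingHom.ext fun a => by simp [shHyp]) (fun s hs _ => by
          cases s with
          | none => exact absurd h0 (mem_vars_iff_degreeOf_ne_zero.1 hs)
          | some i => simp [shHyp]) rfl
      refine hX j (Ideal.mem_span_singleton.1 ?_)
      rw [← Set.image_singleton, mem_ideal_span_X_image]
      refine fun x hx => ⟨_, rfl, fun h4 => mem_support_iff.1 hx (h3 ▸ h2 x ?_)⟩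
      have := monomial_le_degreeOf none hx
      rw [h4, show x none = 0 by omega]; simp
    have h2 := hD none
    rw [← degree_degLexDegree, Finsupp.degree_eq_sum, Fintype.sum_option, sw,
      show MonomialOrder.degLex.degree F none = 0 by omega, ← Finset.sum_mul]
    push_cast
    rw [zero_add, zero_mul, zero_add]
    refine le_of_eq (congrArg (· * (wa : ℤ)) (Finset.sum_congr rfl fun j _ => ?_))
    split_ifs with hj
    · simp [h1]
    · have := hD (some j)
      rw [hJ j hj] at this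
      omega
  · refine ⟨_, _, fun j hj => if_neg hj, fun _ => ?_, fun h => absurd h h0,
      main_Hyp MonomialOrder.lex hk hμ J hF⟩
    have h1 : 1 ≤ MonomialOrder.lex.degree F none := by
      obtain ⟨x, hx, h⟩ := (mem_vars_iff_mem_support _).1 (mem_vars_iff_degreeOf_ne_zero.2 h0)
      refine (Nat.one_le_iff_ne_zero.2 (Finsupp.mem_support_iff.1 h)).trans ?_
      rcases (MonomialOrder.lex_le_iff.1 (MonomialOrder.lex.le_degree hx)).eq_or_lt with e | e
      · exact (DFunLike.congr_fun (toLex.injective e) none).le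
      · obtain ⟨i, e1, e2⟩ := e
        cases i with
        | none => exact e2.le
        | some i => exact (e1 none (WithBot.bot_lt_coe i)).le
    have h2 := lead_Hyp MonomialOrder.lex hk hμ J hF (fun j => (nuHyp k j (μ j) F).toNat)
      fun j _ => ENat.coe_toNat_le_self _
    generalize MonomialOrder.lex.degree F = D at h1 h2 ⊢
    have h3 : ∀ j ∈ J, -((D (some j) : ℤ) - (nuHyp k j (μ j) F).toNat) ≤
        mm k (D (some j) - (nuHyp k j (μ j) F).toNat) * k := fun j _ => by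
      generalize (D (some j) : ℤ) - (nuHyp k j (μ j) F).toNat = g
      have h4 := Int.lt_ediv_add_one_mul_self (-g + k - 1) (show (0 : ℤ) < k by omega)
      have h5 : (-g + k - 1) / k ≤ mm k g := Int.self_le_toNat _
      nlinarith
    have h4 := Finset.sum_le_sum h3
    rw [Finset.sum_neg_distrib, ← Finset.sum_mul] at h4
    rw [sw, ← Finset.sum_mul, Finset.sum_ite_mem, Finset.univ_inter]
    zify at h1 h2
    have h5 := mul_le_mul_of_nonneg_right h2 (Int.natCast_nonneg k)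
    have h6 := mul_le_mul_of_nonneg_right (h4.trans h5) (Int.natCast_nonneg wa)
    have h7 := mul_le_mul_of_nonneg_right h1 (Int.natCast_nonneg wb)
    push_cast
    linarith

end Vale.Agent.P018
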