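import Vale.Agent.P018.Det
import Vale.Agent.P018.Newt
import Vale.Agent.P018.GenB
import Vale.Agent.P018.Hyp
import Vale.Agent.P018.RelA

namespace Vale.Agent.P018

open NumberField MvPolynomial

theorem Mt_supp {d : ℕ} (k B : ℕ) (μ : Fin d → ℂ) (J : Finset (Fin d)) (γ : Gm d) :
    Supp J (Mt k B μ J γ) := by
  intro j hj
  refine Nat.le_zero.1 ((degreeOf_mul_le _ _ _).trans ?_)
  rw [degreeOf_X_pow_of_ne _ (by simp), zero_add]
  refine (degreeOf_prod_le _ _ _).trans (Finset.sum_eq_zero fun t ht => ?_).le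
  have h1 : degreeOf (some j) (X none - C (μ t) : MvPolynomial (Option (Fin d)) ℂ) = 0 := by
    refine Nat.le_zero.1 ((degreeOf_sub_le _ _ _).trans ?_)
    rw [degreeOf_C, degreeOf_X_of_ne (by simp)]
    rfl
  have h2 : (some j : Option (Fin d)) ≠ some t := fun e => hj (by rw [Option.some.inj e]; exact ht)
  rw [degreeOf_mul_X_pow_of_ne _ h2]
  exact Nat.le_zero.1 ((degreeOf_pow_le _ _ _).trans (by rw [h1, mul_zero]))

theorem box_mem_Gam {d k B : ℕ} {J : Finset (Fin d)} {γ : Gm d} (hγ : γ ∈ box k B J) :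
    γ.1 < B ∧ ∀ j ∈ J, -((k * B : ℕ) : ℤ) ≤ γ.2 j ∧ γ.2 j ≤ B := by
  obtain ⟨h1, h2⟩ := Finset.mem_product.1 hγ
  refine ⟨Finset.mem_range.1 h1, fun j hj => ?_⟩
  have := Fintype.mem_piFinset.1 h2 j
  rwa [if_pos hj, Finset.mem_Icc] at this

theorem mm_le_Gam {k B : ℕ} {g : ℤ} (h : -((k * B : ℕ) : ℤ) ≤ g) : mm k g ≤ B := by
  unfold mm
  rw [Int.toNat_le]
  rcases Nat.eq_zero_or_pos k with rfl | hk
  · simp
  · refine Int.lt_add_one_iff.1 (Int.ediv_lt_of_lt_mul (by exact_mod_cast hk) ?_)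
    push_cast at h
    linarith

theorem mm_ge_Gam {k : ℕ} (hk : 1 ≤ k) (g : ℤ) : 0 ≤ g + k * mm k g := by
  have h0 : (0 : ℤ) < k := by exact_mod_cast hk
  have h1 := Int.mul_ediv_add_emod (-g + k - 1) k
  have h2 := Int.emod_lt_of_pos (-g + k - 1) h0
  have h3 : (k : ℤ) * ((-g + k - 1) / k) ≤ k * mm k g :=
    mul_le_mul_of_nonneg_left (Int.self_le_toNat _) h0.le
  omega

theorem Mt_deg {d : ℕ} (k B : ℕ) (μ : Fin d → ℂ) (J : Finset (Fin d)) (γ : Gm d)
    (hγ : γ ∈ box k B J) : (Mt k B μ J γ).totalDegree ≤ B + d * (B + (k * B + B)) := by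
  obtain ⟨h1, h2⟩ := box_mem_Gam hγ
  refine (totalDegree_mul _ _).trans (add_le_add (by rw [totalDegree_X_pow]; exact h1.le) ?_)
  refine (totalDegree_finsetProd _ _).trans ((Finset.sum_le_card_nsmul _ _ (B + (k * B + B))
    fun j hj => ?_).trans (Nat.mul_le_mul_right _ (by simpa using J.card_le_univ)))
  refine (totalDegree_mul _ _).trans (add_le_add ((totalDegree_pow _ _).trans ?_) ?_)
  · have : (X none - C (μ j) : MvPolynomial (Option (Fin d)) ℂ).totalDegree ≤ 1 :=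
      (totalDegree_sub _ _).trans (by simp)
    exact (Nat.mul_le_mul (mm_le_Gam (h2 j hj).1) this).trans (mul_one B).le
  · rw [totalDegree_X_pow]
    have := (h2 j hj).2
    omega

theorem gam {L : Type} [Field L] [NumberField L] {d k wa wb : ℕ} (hk : 1 ≤ k)
    (P : Pts L d k wa wb) {W S : Finset ℕ} (hP : P.Pool S) (hC : P.Cls W S) (r v : ℕ)
    (hv1 : 1 ≤ v) (hv : v ≤ S.card) {ρ : Type} [Fintype ρ] (hr : Fintype.card ρ = r)
    (y : ℕ → ρ → 𝓞 L) (hy : ∀ q ∈ S, ∀ n ∈ W, ∀ n' ∈ W, ∀ t, (q : 𝓞 L) ∣ y n t - y n' t)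
    (J : Finset (Fin d)) (hx : ∀ q ∈ S, Loc (q : 𝓞 L) W y P.x)
    (ha : ∀ q ∈ S, ∀ j ∈ J, Loc (q : 𝓞 L) W y (fun n => P.al n j)) (B : ℕ) (A : Finset (Gm d))
    (hA : A ⊆ box k B J) (hG : Good r v A (wt k wa wb))
    (hY : ((box k B J).card.factorial : ℝ) < P.Y) :
    ∃ c : Gm d → ℂ, (∃ γ ∈ A, c γ ≠ 0) ∧
      ∀ n ∈ W, eval (P.uc n) (∑ γ ∈ A, C (c γ) * Mt k B (fun j => P.io (P.mu j)) J γ) = 0 := by
  have hY0 : 0 ≤ P.Y := zero_le_one.trans P.hY
  obtain ⟨c, h1, h2⟩ := detrel r v hr hv1 P.io P.Y W S (fun q hq => ⟨(hP q hq).1, (hP q hq).2.1⟩)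
    hv y hy A (wt k wa wb) (fun γ n => P.x n ^ γ.1 * ∏ j ∈ J, P.be n j ^ mm k (γ.2 j) *
      P.al n j ^ (γ.2 j + k * mm k (γ.2 j)).toNat) (fun γ _ n hn => by
      have hn' := hC.1 hn
      have a1 : ht (P.x n ^ γ.1) ≤ P.Y ^ (γ.1 * (k * wa + wb)) := by
        rw [mul_comm, pow_mul]
        exact (ht_pow_le _ _).trans (pow_le_pow_left₀ (ht_nonneg _) (P.hx n hn') _)
      have a2 : ht (∏ j ∈ J, P.be n j ^ mm k (γ.2 j) *
          P.al n j ^ (γ.2 j + k * mm k (γ.2 j)).toNat) ≤ P.Y ^ ∑ j, w1 k wa wb (γ.2 j) := by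
        refine (ht_prod_le _ _).trans (le_trans ?_ (pow_le_pow_right₀ P.hY
          (Finset.sum_le_sum_of_subset J.subset_univ)))
        rw [← Finset.prod_pow_eq_pow_sum]
        refine Finset.prod_le_prod (fun _ _ => ht_nonneg _) fun j _ => (ht_mul_le _ _).trans ?_
        rw [w1, pow_add, mul_comm _ wb, mul_comm _ wa, pow_mul, pow_mul]
        exact mul_le_mul ((ht_pow_le _ _).trans (pow_le_pow_left₀ (ht_nonneg _) (P.hbe n hn' j) _))
          ((ht_pow_le _ _).trans (pow_le_pow_left₀ (ht_nonneg _) (P.hal n hn' j) _))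
          (ht_nonneg _) (by positivity)
      rw [wt, pow_add]
      exact (ht_mul_le _ _).trans (mul_le_mul a1 a2 (ht_nonneg _) (by positivity)))
    (fun q hq γ _ => ((hx q hq).pow _).mul (Loc.prod J fun j hj =>
      ((P.loc_be hP hC hq (hx q hq) (ha q hq j hj)).pow _).mul ((ha q hq j hj).pow _))) hG
    (lt_of_le_of_lt (by exact_mod_cast Nat.factorial_le (Finset.card_le_card hA)) hY)
  refine ⟨c, h1, fun n hn => ?_⟩
  rw [map_sum, ← zero_mul (P.io (∏ j ∈ J, P.al n j ^ (k * B))), ← h2 n hn, Finset.sum_mul]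
  refine Finset.sum_congr rfl fun γ hγ => ?_
  rw [map_mul, eval_C, mul_assoc, ← map_mul, mul_assoc, ← Finset.prod_mul_distrib]
  congr 1
  simp only [Mt, map_mul, map_prod, map_pow, map_sub, eval_X, eval_C, Pts.uc, Pts.u]
  congr 1
  refine Finset.prod_congr rfl fun j hj => ?_
  have e : k * mm k (γ.2 j) + (γ.2 j + ((k * B : ℕ) : ℤ)).toNat =
      (γ.2 j + k * mm k (γ.2 j)).toNat + k * B := by
    have a1 := mm_ge_Gam hk (γ.2 j)
    have a2 := ((box_mem_Gam (hA hγ)).2 j hj).1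
    rw [← Nat.cast_mul] at a1 ⊢
    omega
  rw [← map_sub, ← P.eqn n (hC.1 hn) j, map_mul, map_pow, mul_pow, ← pow_mul, mul_assoc,
    mul_left_comm, ← pow_add, e, pow_add, mul_assoc]

theorem top {d k wa wb v : ℕ} (hN : Num d k wa wb v) : ∃ (D : ℕ) (Y₀ : ℝ),
    ∀ (L : Type) [Field L] [NumberField L] (P : Pts L d k wa wb) (W S : Finset ℕ),
    Y₀ ≤ P.Y → P.Pool S → P.Cls W S → v ≤ S.card → P.Rel W Finset.univ D := by
  have hd := hN.hd
  have hk := hN.hk
  obtain ⟨B, A, h1, h2⟩ := gent d k wa wb v (by omega) (by omega) hN.ha hN.hb hN.hv hN.top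
  refine ⟨B + d * (B + (k * B + B)), (box k B (Finset.univ : Finset (Fin d))).card.factorial + 1,
    fun L _ _ P W S hY hP hC hv => ?_⟩
  obtain ⟨c, c1, c2⟩ := gam (by omega) P hP hC (d + 1) v hN.hv hv
    (ρ := Option (Finset.univ : Finset (Fin d))) (by simp) (P.par _) (P.par_cong hC _) Finset.univ
    (fun q _ => P.loc_x _ W _) (fun q _ j hj => P.loc_al _ W hj) B A h1 h2 (by linarith)
  exact ⟨_, hyp0 k B _ _ A h1 c c1, fun j hj => absurd (Finset.mem_univ j) hj,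
    totalDegree_finsetSum_le fun γ hγ => (totalDegree_mul _ _).trans
      (by rw [totalDegree_C, zero_add]; exact Mt_deg k B _ _ γ (h1 hγ)), c2⟩

theorem hypstep (d k wa wb v r w D : ℕ) (hk : 1 ≤ k) (ha : 1 ≤ wa) (hb : 1 ≤ wb)
    (hv : 1 ≤ v) (hw : 1 ≤ w) (h : (wa * wb) ^ (r + 1) < w * (k * wa + wb) ^ r * v ^ (r + 1)) :
    ∃ (D' : ℕ) (Y₀ : ℝ), ∀ (L : Type) [Field L] [NumberField L] (P : Pts L d k wa wb)
    (W S : Finset ℕ) (J : Finset (Fin d)) (i : Fin d) (F : MvPolynomial (Option (Fin d)) ℂ),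
    Y₀ ≤ P.Y → P.Pool S → P.Cls W S → v ≤ S.card → i ∉ J → J.card = r → Irreducible F →
    Supp (insert i J) F → F.totalDegree ≤ D → (∀ n ∈ W, eval (P.uc n) F = 0) →
    (∀ q ∈ S, Loc (q : 𝓞 L) W (P.par J) (fun n => P.al n i)) →
    (degreeOf none F ≠ 0 → w ≤ wb) → (degreeOf none F = 0 → w ≤ F.totalDegree * wa) →
    P.Rel W J D' := by
  obtain ⟨B, hB⟩ := genh d k wa wb v (r + 1) w (by omega) hk ha hb hv hw h
  refine ⟨2 * (max D (B + d * (B + (k * B + B)))) ^ 2 + max D (B + d * (B + (k * B + B))),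
    (∑ J : Finset (Fin d), ((box k B J).card.factorial : ℝ)) + 1,
    fun L _ _ P W S J i F hY hP hC hS hi hJ hF h1 h2 h3 h4 h5 h6 => ?_⟩
  rcases W.eq_empty_or_nonempty with rfl | ⟨n, hn⟩
  · exact Pts.Rel.of_card P J (by simp)
  obtain ⟨e, g, g1, g2, g3, g4⟩ := hyp1 k wa wb hk (fun j => P.io (P.mu j)) (P.hio.comp P.hmu)
    (insert i J) F hF.ne_zero h1 fun j => by
      rintro ⟨u, hu⟩
      have h7 := h3 n hn
      rw [hu, map_mul, eval_X] at h7
      rcases hF.isUnit_or_isUnit hu with h8 | h8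
      · simpa using h8.map (eval fun _ => (0 : ℂ))
      · exact mul_ne_zero ((map_ne_zero_iff _ P.hio).2 (P.al0 n (hC.1 hn) j))
          (h8.map (eval (P.uc n))).ne_zero h7
  obtain ⟨A, a1, a2, a3⟩ := hB (insert i J) (by rw [Finset.card_insert_of_notMem hi, hJ]) e g g1
    (by
      by_cases h7 : degreeOf none F = 0
      · exact le_trans (by exact_mod_cast h6 h7) (g3 h7)
      · exact le_trans (by exact_mod_cast h5 h7) (g2 h7))
  obtain ⟨c, c1, c2⟩ := gam hk P hP hC (r + 1) v hv hS (ρ := Option J) (by simp [hJ]) (P.par J)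
    (P.par_cong hC J) (insert i J) (fun q _ => P.loc_x _ W J) (fun q hq j hj => by
      rcases Finset.mem_insert.1 hj with rfl | hj
      · exact h4 q hq
      · exact P.loc_al _ W hj) B A a1 a3 (by
      have := Finset.single_le_sum (f := fun J : Finset (Fin d) =>
        ((box k B J).card.factorial : ℝ)) (fun _ _ => Nat.cast_nonneg _)
        (Finset.mem_univ (insert i J))
      linarith)
  refine Pts.Rel.elim P F _ hF (g4 B A c a1 a2 c1) h1 (fun j hj => ?_) (h2.trans (le_max_left _ _))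
    ((totalDegree_finsetSum_le fun γ hγ => (totalDegree_mul _ _).trans
      (by rw [totalDegree_C, zero_add]; exact Mt_deg k B _ _ γ (a1 hγ))).trans (le_max_right _ _))
    h3 c2
  exact Nat.le_zero.1 ((degreeOf_sum_le _ _ _).trans (Finset.sup_le fun γ _ =>
    (degreeOf_C_mul_le _ _ _).trans (Mt_supp k B _ _ γ j hj).le))

end Vale.Agent.P018
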