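import Vale.Agent.P018.Defs

namespace Vale.Agent.P018

open NumberField MvPolynomial

open Filter Topology

theorem tendsto_geo (w : ℕ) (hw : 1 ≤ w) :
    Tendsto (fun z : ℝ => (1 - z) * (1 - z ^ w)⁻¹) (𝓝[<] 1) (𝓝 ((w : ℝ)⁻¹)) := by
  have h1 : Tendsto (fun z : ℝ => (∑ i ∈ Finset.range w, z ^ i)⁻¹) (𝓝 1) (𝓝 ((w : ℝ)⁻¹)) := by
    have h2 : Continuous fun z : ℝ => ∑ i ∈ Finset.range w, z ^ i := by fun_prop
    have h3 := h2.tendsto 1
    simp only [one_pow, Finset.sum_const, Finset.card_range, nsmul_eq_mul, mul_one] at h3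
    exact h3.inv₀ (by positivity)
  refine (h1.mono_left nhdsWithin_le_nhds).congr' ?_
  filter_upwards [self_mem_nhdsWithin] with z hz
  have h2 : (1 : ℝ) - z ≠ 0 := (sub_pos.2 hz).ne'
  rw [← mul_neg_geom_sum, mul_inv, ← mul_assoc, mul_inv_cancel₀ h2, one_mul]

theorem geo_sum_Gen0 (w : ℕ) (hw : 1 ≤ w) (z : ℝ) (h0 : 0 < z) (h1 : z < 1) :
    HasSum (fun i : ℕ => z ^ (i * w)) (1 - z ^ w)⁻¹ := by
  simpa only [mul_comm _ w, pow_mul] using
    hasSum_geometric_of_lt_one (pow_pos h0 w).le (pow_lt_one₀ h0.le h1 (by omega))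

theorem geo_lim (w : ℕ) (hw : 1 ≤ w) (z : ℝ) (h0 : 0 < z) (h1 : z < 1) :
    Tendsto (fun B : ℕ => ∑ i ∈ Finset.range B, z ^ (i * w)) atTop (𝓝 ((1 - z ^ w)⁻¹)) := by
  exact (geo_sum_Gen0 w hw z h0 h1).tendsto_sum_nat

theorem geo_le (w : ℕ) (hw : 1 ≤ w) (z : ℝ) (h0 : 0 < z) (h1 : z < 1) (B : ℕ) :
    ∑ i ∈ Finset.range B, z ^ (i * w) ≤ (1 - z ^ w)⁻¹ := by
  exact sum_le_hasSum _ (fun _ _ => by positivity) (geo_sum_Gen0 w hw z h0 h1)

theorem shift_Gen0 (z : ℝ) (h0 : 0 < z) (h1 : z < 1) (w : ℕ) :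
    HasSum (fun T : ℕ => z ^ T * ((T - w : ℕ) : ℝ)) (z ^ w * (z / (1 - z) ^ 2)) := by
  have h2 := (hasSum_coe_mul_geometric_of_norm_lt_one (r := z)
    (by rwa [Real.norm_of_nonneg h0.le])).mul_left (z ^ w)
  rw [← hasSum_nat_add_iff' w, Finset.sum_eq_zero fun i hi => by
    rw [Nat.sub_eq_zero_of_le (Finset.mem_range.1 hi).le, Nat.cast_zero, mul_zero], sub_zero]
  simp only [Nat.add_sub_cancel, pow_add, mul_comm (z ^ _) (z ^ w), mul_assoc]
  simpa only [mul_comm (z ^ _) ((_ : ℕ) : ℝ)] using h2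

theorem gen0 {ι : Type} (r v : ℕ) (hv : 1 ≤ v) (A : Finset ι) (w : ι → ℕ) (z : ℝ) (h0 : 0 < z)
    (h1 : z < 1) (h : ((1 - z ^ v)⁻¹) ^ r < ∑ γ ∈ A, z ^ w γ) : ∃ A' ⊆ A, Good r v A' w := by
  classical
  have hc : 0 < z / (1 - z) ^ 2 := div_pos h0 (pow_pos (sub_pos.2 h1) 2)
  have ex : ∃ T : ℕ, ∑ e ∈ Fintype.piFinset fun _ : Fin r => Finset.range T, (T - v * ∑ t, e t) <
      ∑ γ ∈ A, (T - w γ) := by
    by_contra hn
    push Not at hn
    have k1 := (hasSum_sum (s := A) fun γ _ => shift_Gen0 z h0 h1 (w γ)).tendsto_sum_nat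
    refine absurd (le_of_tendsto' k1 (b := ((1 - z ^ v)⁻¹) ^ r * (z / (1 - z) ^ 2)) fun N => ?_)
      (not_le.2 (by rw [← Finset.sum_mul]; gcongr))
    calc _ ≤ ∑ T ∈ Finset.range N, ∑ e ∈ Fintype.piFinset fun _ : Fin r => Finset.range N,
          z ^ T * ((T - v * ∑ t, e t : ℕ) : ℝ) := by
          refine Finset.sum_le_sum fun T hT => ?_
          rw [← Finset.mul_sum, ← Finset.mul_sum, ← Nat.cast_sum, ← Nat.cast_sum]
          gcongr
          exact (hn T).trans (Finset.sum_le_sum_of_subset (Fintype.piFinset_subset _ _ fun _ =>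
            Finset.range_mono (Finset.mem_range.1 hT).le))
      _ ≤ ∑ e ∈ Fintype.piFinset fun _ : Fin r => Finset.range N,
          z ^ (v * ∑ t, e t) * (z / (1 - z) ^ 2) := by
          rw [Finset.sum_comm]
          exact Finset.sum_le_sum fun e _ =>
            sum_le_hasSum _ (fun _ _ => by positivity) (shift_Gen0 z h0 h1 _)
      _ = (∑ i ∈ Finset.range N, z ^ (i * v)) ^ r * (z / (1 - z) ^ 2) := by
          rw [← Finset.sum_mul, ← Fin.prod_const r, Finset.prod_univ_sum]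
          congr 1
          refine Finset.sum_congr rfl fun e _ => ?_
          rw [Finset.prod_pow_eq_pow_sum, ← Finset.sum_mul, mul_comm]
      _ ≤ _ := by gcongr; exact geo_le v hv z h0 h1 N
  obtain ⟨T, hT⟩ := ex
  have e1 : ∑ γ ∈ A.filter (fun γ => w γ < T), (T - w γ) = ∑ γ ∈ A, (T - w γ) :=
    Finset.sum_filter_of_ne fun γ _ hγ => by omega
  refine ⟨A.filter fun γ => w γ < T, Finset.filter_subset _ _, ?_, fun e he => ?_⟩
  · rw [Finset.nonempty_iff_ne_empty]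
    intro hA
    rw [← e1, hA] at hT
    simp at hT
  · have k1 : ∑ γ ∈ A.filter (fun γ => w γ < T), (T - v * ∑ t, e γ t) ≤
        ∑ e ∈ Fintype.piFinset fun _ : Fin r => Finset.range T, (T - v * ∑ t, e t) := by
      rw [← Finset.sum_image (f := fun e : Fin r → ℕ => T - v * ∑ t, e t) he]
      refine Finset.sum_le_sum_of_ne_zero fun x _ hx => Fintype.mem_piFinset.2 fun t => ?_
      have := Finset.single_le_sum (f := x) (fun _ _ => Nat.zero_le _) (Finset.mem_univ t)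
      have := Nat.le_mul_of_pos_left (∑ t, x t) hv
      rw [Finset.mem_range]
      omega
    have k2 : ∑ γ ∈ A.filter (fun γ => w γ < T), ((T - w γ) + w γ) ≤
        ∑ γ ∈ A.filter (fun γ => w γ < T), ((T - v * ∑ t, e γ t) + v * ∑ t, e γ t) :=
      Finset.sum_le_sum fun γ hγ => by have := (Finset.mem_filter.1 hγ).2; omega
    rw [Finset.sum_add_distrib, Finset.sum_add_distrib, ← Finset.mul_sum] at k2
    omega

end Vale.Agent.P018
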