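import Vale.Agent.P018.Defs

namespace Vale.Agent.P018

open NumberField MvPolynomial

variable {L : Type} [Field L] [NumberField L]

theorem ht_nonneg (z : 𝓞 L) : 0 ≤ ht z := house_nonneg _

theorem ht_add_le (a b : 𝓞 L) : ht (a + b) ≤ ht a + ht b := by
  unfold ht; push_cast; exact house_add_le _ _

theorem ht_mul_le (a b : 𝓞 L) : ht (a * b) ≤ ht a * ht b := by
  unfold ht; push_cast; exact house_mul_le _ _

theorem ht_neg (a : 𝓞 L) : ht (-a) = ht a := by
  unfold ht house; push_cast; rw [map_neg, norm_neg]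

theorem ht_sub_le (a b : 𝓞 L) : ht (a - b) ≤ ht a + ht b := by
  rw [sub_eq_add_neg, ← ht_neg b]; exact ht_add_le _ _

theorem ht_pow_le (a : 𝓞 L) (i : ℕ) : ht (a ^ i) ≤ ht a ^ i := by
  unfold ht; push_cast; exact house_pow_le _ _

theorem ht_intCast (m : ℤ) : ht (m : 𝓞 L) = |(m : ℝ)| := by
  unfold ht; simp

theorem ht_natCast (m : ℕ) : ht (m : 𝓞 L) = m := by
  have := ht_intCast (L := L) (m : ℤ); simpa using this

theorem ht_zero : ht (0 : 𝓞 L) = 0 := by simpa using ht_natCast (L := L) 0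

theorem ht_one : ht (1 : 𝓞 L) = 1 := by simpa using ht_natCast (L := L) 1

theorem ht_sum_le {ι : Type} (s : Finset ι) (f : ι → 𝓞 L) :
    ht (∑ i ∈ s, f i) ≤ ∑ i ∈ s, ht (f i) := by
  classical
  induction s using Finset.induction_on with
  | empty => simp [ht_zero]
  | insert a s ha ih =>
    rw [Finset.sum_insert ha, Finset.sum_insert ha]
    exact (ht_add_le _ _).trans (by linarith)

theorem ht_prod_le {ι : Type} (s : Finset ι) (f : ι → 𝓞 L) :
    ht (∏ i ∈ s, f i) ≤ ∏ i ∈ s, ht (f i) := by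
  classical
  induction s using Finset.induction_on with
  | empty => simp [ht_one]
  | insert a s ha ih =>
    rw [Finset.prod_insert ha, Finset.prod_insert ha]
    exact (ht_mul_le _ _).trans (mul_le_mul_of_nonneg_left ih (ht_nonneg _))

theorem one_le_ht {z : 𝓞 L} (hz : z ≠ 0) : 1 ≤ ht z :=
  one_le_house_of_isIntegral z.isIntegral_coe (by simpa using hz)

theorem ht_nat_mul (c : ℕ) (z : 𝓞 L) : ht ((c : 𝓞 L) * z) = c * ht z := by
  unfold ht; push_cast; exact house_nat_mul _ _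

theorem le_ht_of_dvd (Q : ℕ) {z : 𝓞 L} (hz : z ≠ 0) (h : (Q : 𝓞 L) ∣ z) : (Q : ℝ) ≤ ht z := by
  obtain ⟨y, rfl⟩ := h
  have hy : y ≠ 0 := right_ne_zero_of_mul hz
  rw [ht_nat_mul]
  exact le_mul_of_one_le_right (Nat.cast_nonneg _) (one_le_ht hy)

theorem norm_le_ht (z : 𝓞 L) (φ : L →+* ℂ) : ‖φ (z : L)‖ ≤ ht z := norm_embedding_le_house _ _

theorem ht_le_of_forall (z : 𝓞 L) (B : ℝ) (hB : 0 ≤ B) (h : ∀ φ : L →+* ℂ, ‖φ (z : L)‖ ≤ B) :
    ht z ≤ B := by
  unfold ht house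
  exact (pi_norm_le_iff_of_nonneg hB).2 (fun φ => by simpa using h φ)

/-- a nonzero algebraic integer divides a positive rational integer of controlled size -/
theorem exists_nat_dvd {z : 𝓞 L} (hz : z ≠ 0) :
    ∃ c : ℕ, 0 < c ∧ z ∣ (c : 𝓞 L) ∧ (c : ℝ) ≤ ht z ^ Module.finrank ℚ L := by
  refine ⟨Ideal.absNorm (Ideal.span {z}), ?_, ?_, ?_⟩
  · rw [Nat.pos_iff_ne_zero, Ne, Ideal.absNorm_eq_zero_iff, Ideal.span_singleton_eq_bot]
    exact hz
  · exact Ideal.mem_span_singleton.1 (Ideal.absNorm_mem _)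
  · rw [Ideal.absNorm_span_singleton]
    have h1 : ((Algebra.norm ℤ z).natAbs : ℝ) = ‖((Algebra.norm ℚ (z : L) : ℚ) : ℂ)‖ := by
      rw [← Algebra.coe_norm_int]
      simp
    rw [h1]
    have h2 := Algebra.norm_eq_prod_embeddings ℚ ℂ (z : L)
    simp only [eq_ratCast] at h2
    rw [h2, norm_prod]
    have h3 : Fintype.card (L →ₐ[ℚ] ℂ) = Module.finrank ℚ L := AlgHom.card ℚ L ℂ
    rw [← h3, ← Finset.card_univ, ← Finset.prod_const]
    exact Finset.prod_le_prod (fun _ _ => norm_nonneg _) (fun φ _ => norm_le_ht z φ.toRingHom)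

theorem isCoprime_natCast {a b : ℕ} (h : Nat.Coprime a b) : IsCoprime (a : 𝓞 L) (b : 𝓞 L) := by
  have := (Nat.isCoprime_iff_coprime.2 h).map (Int.castRingHom (𝓞 L))
  simpa using this

/-- few large primes fail to be coprime to a nonzero element of bounded height -/
theorem bad_card {z : 𝓞 L} (hz : z ≠ 0) (Y : ℝ) (hY : 1 < Y) (h : ℕ) (hh : ht z ≤ Y ^ h)
    (S : Finset ℕ) (hS : ∀ q ∈ S, q.Prime ∧ Y ≤ q ∧ ¬ IsCoprime z (q : 𝓞 L)) :
    S.card ≤ Module.finrank ℚ L * h := by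
  obtain ⟨c, hc0, hzc, hc⟩ := exists_nat_dvd hz
  have hq : ∀ q ∈ S, q ∣ c := by
    intro q hq
    by_contra hn
    exact (hS q hq).2.2 ((isCoprime_natCast
      ((Nat.Prime.coprime_iff_not_dvd (hS q hq).1).2 hn).symm).of_isCoprime_of_dvd_left hzc)
  have hp : ∏ q ∈ S, q ∣ c := Finset.prod_primes_dvd c (fun q hq => (hS q hq).1.prime) hq
  have h1 : Y ^ S.card ≤ ((∏ q ∈ S, q : ℕ) : ℝ) := by
    rw [Nat.cast_prod, ← Finset.prod_const]
    exact Finset.prod_le_prod (fun _ _ => by linarith) (fun q hq => (hS q hq).2.1)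
  have h2 : ((∏ q ∈ S, q : ℕ) : ℝ) ≤ c := by exact_mod_cast Nat.le_of_dvd hc0 hp
  have h3 : ht z ^ Module.finrank ℚ L ≤ Y ^ (Module.finrank ℚ L * h) := by
    rw [mul_comm, pow_mul]; exact pow_le_pow_left₀ (ht_nonneg _) hh _
  exact (pow_le_pow_iff_right₀ hY).1 (h1.trans (h2.trans (hc.trans h3)))

end Vale.Agent.P018
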