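import Vale.Agent.P018.Defs

namespace Vale.Agent.P018

open NumberField MvPolynomial

/-- main index of a member of the line family -/
def rkLineI : Li → Fin 4
  | Sum.inl (j, _, _, _) => j.castSucc
  | Sum.inr _ => 3

/-- degree in `x` -/
def dgLineI : Li → ℕ
  | Sum.inl (_, m, l, _) => m + 1 + l
  | Sum.inr (l, _) => l

/-- exponents of the linear forms -/
def exLineI (k B : ℕ) : Li → Fin 4 → ℕ
  | Sum.inl (j, m, l, ε) => fun i => if i = j.castSucc then ε + k * (B - (m + 1)) else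
      if i = j.succ then k * (B - l) else k * B
  | Sum.inr (l, i) => fun t => if t = 3 then i + k * (B - l) else k * B

/-- the factor in `x` -/
noncomputable def xpLineI (μ : Fin 4 → ℂ) : Li → Polynomial ℂ
  | Sum.inl (j, m, l, _) => (Polynomial.X - Polynomial.C (μ j.castSucc)) ^ (m + 1) *
      (Polynomial.X - Polynomial.C (μ j.succ)) ^ l
  | Sum.inr (l, _) => (Polynomial.X - Polynomial.C (μ 3)) ^ l

theorem xp_monic_LineI (μ : Fin 4 → ℂ) (γ : Li) :
    (xpLineI μ γ).Monic ∧ (xpLineI μ γ).natDegree = dgLineI γ := by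
  rcases γ with ⟨j, m, l, ε⟩ | ⟨l, i⟩
  · have h1 := (Polynomial.monic_X_sub_C (μ j.castSucc)).pow (m + 1)
    have h2 := (Polynomial.monic_X_sub_C (μ j.succ)).pow l
    refine ⟨h1.mul h2, ?_⟩
    simp only [xpLineI, dgLineI]
    rw [h1.natDegree_mul h2]
    simp
  · exact ⟨(Polynomial.monic_X_sub_C _).pow l, by simp [xpLineI, dgLineI]⟩

theorem mem_inl_LineI {k B : ℕ} {j : Fin 3} {m l ε : ℕ} (h : Sum.inl (j, m, l, ε) ∈ lbox k B) :
    m < B ∧ l < B ∧ ε < k := by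
  simpa [lbox] using h

theorem mem_inr_LineI {k B l i : ℕ} (h : (Sum.inr (l, i) : Li) ∈ lbox k B) : l < B ∧ i < B := by
  simpa [lbox] using h

theorem dg_le_LineI {k B : ℕ} {γ : Li} (h : γ ∈ lbox k B) : dgLineI γ ≤ 2 * B := by
  rcases γ with ⟨j, m, l, ε⟩ | ⟨l, i⟩
  · have := mem_inl_LineI h
    simp only [dgLineI]; omega
  · have := mem_inr_LineI h
    simp only [dgLineI]; omega

theorem ex_sum_LineI {k B : ℕ} {γ : Li} (h : γ ∈ lbox k B) :
    ∑ j, exLineI k B γ j ≤ 4 * k * B + k + B := by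
  have hk : ∀ u, k * (B - u) ≤ k * B := fun u => Nat.mul_le_mul_left _ (Nat.sub_le _ _)
  rw [mul_assoc]
  rcases γ with ⟨j, m, l, ε⟩ | ⟨l, i⟩
  · have := mem_inl_LineI h
    have h1 := hk (m + 1)
    have h2 := hk l
    fin_cases j <;> simp [exLineI, Fin.sum_univ_four] <;> omega
  · have := mem_inr_LineI h
    have h2 := hk l
    simp [exLineI, Fin.sum_univ_four]; omega

theorem ex_inj_LineI {k B : ℕ} {γ γ' : Li} (h : γ ∈ lbox k B) (h' : γ' ∈ lbox k B)
    (e1 : rkLineI γ = rkLineI γ') (e2 : dgLineI γ = dgLineI γ')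
    (e3 : exLineI k B γ (rkLineI γ) = exLineI k B γ' (rkLineI γ')) : γ = γ' := by
  rcases γ with ⟨j, m, l, ε⟩ | ⟨l, i⟩ <;> rcases γ' with ⟨j', m', l', ε'⟩ | ⟨l', i'⟩
  · have a := mem_inl_LineI h
    have b := mem_inl_LineI h'
    simp only [rkLineI, dgLineI, exLineI, if_pos] at e1 e2 e3
    have e4 := congrArg (· % k) e3
    simp only [Nat.add_mul_mod_self_left, Nat.mod_eq_of_lt a.2.2, Nat.mod_eq_of_lt b.2.2] at e4
    subst e4
    have e5 : B - (m + 1) = B - (m' + 1) :=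
      Nat.eq_of_mul_eq_mul_left (by omega) (Nat.add_left_cancel e3)
    obtain rfl : m = m' := by omega
    obtain rfl : l = l' := by omega
    rw [Fin.castSucc_injective _ e1]
  · exact absurd e1 (Fin.castSucc_lt_last j).ne
  · exact absurd e1 (Fin.castSucc_lt_last j').ne'
  · simp only [rkLineI, dgLineI, exLineI, if_pos] at e2 e3
    subst e2
    rw [Nat.add_right_cancel e3]

theorem ex_lt_LineI {k B : ℕ} {γ γ' : Li} (h : γ ∈ lbox k B) (e : rkLineI γ < rkLineI γ') :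
    exLineI k B γ (rkLineI γ) < exLineI k B γ' (rkLineI γ) := by
  have h1 : exLineI k B γ' (rkLineI γ) = k * B := by
    rcases γ' with ⟨j', m', l', ε'⟩ | ⟨l', i'⟩
    · have e' : rkLineI γ < j'.castSucc := e
      simp only [exLineI]
      rw [if_neg e'.ne, if_neg (e'.trans (Fin.castSucc_lt_succ (i := j'))).ne]
    · have e' : rkLineI γ < 3 := e
      simp only [exLineI]
      rw [if_neg e'.ne]
  rw [h1]
  rcases γ with ⟨j, m, l, ε⟩ | ⟨l, i⟩
  · have a := mem_inl_LineI h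
    simp only [rkLineI, exLineI, if_pos]
    have h2 : k * (B - (m + 1) + 1) ≤ k * B := Nat.mul_le_mul_left _ (by omega)
    rw [mul_add, mul_one] at h2
    omega
  · exact absurd (Fin.le_last _) (not_le.2 e)

theorem eval_LineI {k B : ℕ} (μ : Fin 4 → ℂ) {γ : Li} (h : γ ∈ lbox k B) (x : ℂ)
    (a b : Fin 4 → ℂ) (hab : ∀ j, a j ^ k * b j = x - μ j) :
    (∏ j, a j ^ exLineI k B γ j) * (xpLineI μ γ).eval x = (∏ j, a j ^ (k * B)) * lfun a b γ := by
  have hp : ∀ u, u ≤ B → ∀ z : ℂ, z ^ (k * B) = z ^ (k * (B - u)) * (z ^ k) ^ u := by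
    intro u hu z
    rw [← pow_mul, ← pow_add, ← mul_add, Nat.sub_add_cancel hu]
  rcases γ with ⟨j, m, l, ε⟩ | ⟨l, i⟩
  · have c := mem_inl_LineI h
    have h1 := hp (m + 1) c.1 (a j.castSucc)
    have h2 := hp l c.2.1.le (a j.succ)
    simp only [xpLineI, lfun, Polynomial.eval_mul, Polynomial.eval_pow, Polynomial.eval_sub,
      Polynomial.eval_X, Polynomial.eval_C, ← hab]
    fin_cases j
    · simp only [exLineI, Fin.prod_univ_four] at h1 h2 ⊢
      simp at h1 h2 ⊢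
      rw [h1, h2]; ring
    · simp only [exLineI, Fin.prod_univ_four] at h1 h2 ⊢
      simp at h1 h2 ⊢
      rw [h1, h2]; ring
    · simp only [exLineI, Fin.prod_univ_four] at h1 h2 ⊢
      simp at h1 h2 ⊢
      rw [h1, h2]; ring
  · have c := mem_inr_LineI h
    have h1 := hp l c.1.le (a 3)
    simp only [xpLineI, lfun, Polynomial.eval_pow, Polynomial.eval_sub,
      Polynomial.eval_X, Polynomial.eval_C, ← hab, exLineI, Fin.prod_univ_four]
    simp
    rw [h1]; ring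

theorem uniq_min_LineI {ι : Type} (a : Fin 4 → Polynomial ℂ) (j₀ : Fin 4) (t : ℂ)
    (h0 : a j₀ ≠ 0) (ht : (a j₀).eval t = 0) (ht' : ∀ j, j ≠ j₀ → (a j).eval t ≠ 0)
    (A : Finset ι) (c : ι → ℂ) (e : ι → Fin 4 → ℕ) {γ₀ : ι} (hγ : γ₀ ∈ A) (hc : c γ₀ ≠ 0)
    (hlt : ∀ γ ∈ A, γ ≠ γ₀ → e γ₀ j₀ < e γ j₀) :
    ∑ γ ∈ A, Polynomial.C (c γ) * ∏ j, a j ^ e γ j ≠ 0 := by
  classical
  intro h
  rw [← Finset.add_sum_erase _ _ hγ, add_eq_zero_iff_eq_neg] at h
  have h1 : a j₀ ^ (e γ₀ j₀ + 1) ∣ Polynomial.C (c γ₀) * ∏ j, a j ^ e γ₀ j := by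
    rw [h, dvd_neg]
    refine Finset.dvd_sum fun γ hγ' => Dvd.dvd.mul_left ?_ _
    exact (pow_dvd_pow _ (hlt γ (Finset.mem_of_mem_erase hγ') (Finset.ne_of_mem_erase hγ'))).trans
      (Finset.dvd_prod_of_mem (fun j => a j ^ e γ j) (Finset.mem_univ j₀))
  rw [← Finset.mul_prod_erase _ _ (Finset.mem_univ j₀), mul_left_comm, pow_succ,
    mul_dvd_mul_iff_left (pow_ne_zero _ h0)] at h1
  have h2 := Polynomial.eval_dvd (x := t) h1
  rw [ht, zero_dvd_iff, Polynomial.eval_mul, Polynomial.eval_C, Polynomial.eval_prod] at h2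
  refine mul_ne_zero hc (Finset.prod_ne_zero_iff.2 fun j hj => ?_) h2
  rw [Polynomial.eval_pow]
  exact pow_ne_zero _ (ht' j (Finset.ne_of_mem_erase hj))

theorem line_ind (k B : ℕ) (hk : 1 ≤ k) (μ ρ σ : Fin 4 → ℂ) (hρ : ∀ j, ρ j ≠ 0)
    (hσ : ∀ i j, i ≠ j → σ i * ρ j ≠ σ j * ρ i) (A : Finset Li) (hA : A ⊆ lbox k B)
    (c : Li → ℂ) (hc : ∃ γ ∈ A, c γ ≠ 0) :
    ∃ G : Polynomial (Polynomial ℂ), G ≠ 0 ∧ G.natDegree ≤ 2 * B ∧
      (∀ i, (G.coeff i).natDegree ≤ 4 * k * B + k + B) ∧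
      ∀ (x s : ℂ) (a b : Fin 4 → ℂ), (∀ j, a j = ρ j * s + σ j) →
        (∀ j, a j ^ k * b j = x - μ j) → ∑ γ ∈ A, c γ * lfun a b γ = 0 →
        G.evalEval s x = 0 := by
  classical
  obtain ⟨α, hα⟩ : ∃ α : Fin 4 → Polynomial ℂ,
      ∀ j, α j = Polynomial.C (ρ j) * Polynomial.X + Polynomial.C (σ j) := ⟨_, fun _ => rfl⟩
  have hev : ∀ j s, (α j).eval s = ρ j * s + σ j := fun j s => by simp [hα]
  have hdeg : ∀ j, (α j).natDegree = 1 := fun j => by
    rw [hα]; exact Polynomial.natDegree_linear (hρ j)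
  have hco : ∀ i, (∑ γ ∈ A, Polynomial.C (Polynomial.C (c γ) * ∏ j, α j ^ exLineI k B γ j) *
      (xpLineI μ γ).map Polynomial.C).coeff i =
      ∑ γ ∈ A, Polynomial.C (c γ * (xpLineI μ γ).coeff i) * ∏ j, α j ^ exLineI k B γ j := by
    intro i
    rw [Polynomial.finset_sum_coeff]
    refine Finset.sum_congr rfl fun γ _ => ?_
    rw [Polynomial.coeff_C_mul, Polynomial.coeff_map, map_mul]; ring
  refine ⟨∑ γ ∈ A, Polynomial.C (Polynomial.C (c γ) * ∏ j, α j ^ exLineI k B γ j) *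
    (xpLineI μ γ).map Polynomial.C, ?_, ?_, fun i => ?_, fun x s a b ha hab h => ?_⟩
  · obtain ⟨γ₁, h1, m1⟩ := Finset.exists_max_image (A.filter fun γ => c γ ≠ 0) dgLineI
      (by obtain ⟨γ, a, b⟩ := hc; exact ⟨γ, Finset.mem_filter.2 ⟨a, b⟩⟩)
    obtain ⟨γ₂, h2, m2⟩ := Finset.exists_min_image
      ((A.filter fun γ => c γ ≠ 0).filter fun γ => dgLineI γ = dgLineI γ₁) rkLineI
      ⟨γ₁, Finset.mem_filter.2 ⟨h1, rfl⟩⟩
    obtain ⟨γ₃, h3, m3⟩ := Finset.exists_min_image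
      (((A.filter fun γ => c γ ≠ 0).filter fun γ => dgLineI γ = dgLineI γ₁).filter
        fun γ => rkLineI γ = rkLineI γ₂) (fun γ => exLineI k B γ (rkLineI γ₂))
      ⟨γ₂, Finset.mem_filter.2 ⟨h2, rfl⟩⟩
    obtain ⟨h4, r3⟩ := Finset.mem_filter.1 h3
    obtain ⟨h5, d3⟩ := Finset.mem_filter.1 h4
    obtain ⟨h6, c3⟩ := Finset.mem_filter.1 h5
    have key := uniq_min_LineI α (rkLineI γ₂) (-σ (rkLineI γ₂) / ρ (rkLineI γ₂))
      (fun h => by simpa [h] using hdeg (rkLineI γ₂))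
      (by rw [hev]; field_simp [hρ (rkLineI γ₂)]; ring)
      (fun j hj h => hσ j _ hj (by
        rw [hev] at h
        field_simp [hρ (rkLineI γ₂)] at h
        linear_combination h))
      _ c (exLineI k B) h4 c3 (fun γ hγ hne => by
        obtain ⟨g1, g2⟩ := Finset.mem_filter.1 hγ
        have g3 := hA (Finset.mem_filter.1 g1).1
        rcases eq_or_lt_of_le (m2 γ hγ) with e | e
        · refine lt_of_le_of_ne (m3 γ (Finset.mem_filter.2 ⟨hγ, e.symm⟩)) fun h => hne ?_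
          refine ex_inj_LineI g3 (hA h6) (by rw [r3, e]) (by rw [d3, g2]) ?_
          rw [r3, ← e, h]
        · rw [← r3] at e ⊢
          exact ex_lt_LineI (hA h6) e)
    intro hG
    refine key ?_
    have h7 := hco (dgLineI γ₁)
    rw [hG, Polynomial.coeff_zero] at h7
    rw [h7, Finset.filter_filter, Finset.sum_filter]
    refine Finset.sum_congr rfl fun γ hγ => ?_
    obtain ⟨g1, g2⟩ := xp_monic_LineI μ γ
    by_cases h8 : c γ = 0
    · simp [h8]
    · rcases eq_or_lt_of_le (m1 γ (Finset.mem_filter.2 ⟨hγ, h8⟩)) with e | e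
      · rw [if_pos ⟨h8, e⟩, ← e, ← g2, g1.coeff_natDegree, mul_one]
      · rw [if_neg fun h => e.ne h.2, Polynomial.coeff_eq_zero_of_natDegree_lt (g2 ▸ e)]
        simp
  · refine Polynomial.natDegree_sum_le_of_forall_le _ _ fun γ hγ => ?_
    refine (Polynomial.natDegree_C_mul_le _ _).trans (Polynomial.natDegree_map_le.trans ?_)
    rw [(xp_monic_LineI μ γ).2]
    exact dg_le_LineI (hA hγ)
  · rw [hco]
    refine Polynomial.natDegree_sum_le_of_forall_le _ _ fun γ hγ => ?_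
    refine (Polynomial.natDegree_C_mul_le _ _).trans ((Polynomial.natDegree_prod_le _ _).trans
      (le_trans (Finset.sum_le_sum fun j _ => ?_) (ex_sum_LineI (hA hγ))))
    exact Polynomial.natDegree_pow_le.trans (by rw [hdeg, mul_one])
  · rw [Polynomial.evalEval_finsetSum]
    have h1 : ∀ γ ∈ A, Polynomial.evalEval s x
        (Polynomial.C (Polynomial.C (c γ) * ∏ j, α j ^ exLineI k B γ j) *
          (xpLineI μ γ).map Polynomial.C) = (∏ j, a j ^ (k * B)) * (c γ * lfun a b γ) := by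
      intro γ hγ
      rw [Polynomial.evalEval_mul, Polynomial.evalEval_C, Polynomial.evalEval_map_C,
        Polynomial.eval_mul, Polynomial.eval_C, Polynomial.eval_prod, mul_left_comm,
        ← eval_LineI μ (hA hγ) x a b hab, mul_assoc]
      simp only [Polynomial.eval_pow, hev, ← ha]
    rw [Finset.sum_congr rfl h1, ← Finset.mul_sum, h, mul_zero]

end Vale.Agent.P018
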