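import Vale.Agent.P018.Det
import Vale.Agent.P018.Newt
import Vale.Agent.P018.GenL
import Vale.Agent.P018.LineI
import Vale.Agent.P018.RelA

namespace Vale.Agent.P018

open NumberField MvPolynomial

theorem ht_pow_line {L : Type} [Field L] [NumberField L] {z : 𝓞 L} {Y : ℝ} {w : ℕ}
    (h : ht z ≤ Y ^ w) (i : ℕ) : ht (z ^ i) ≤ Y ^ (i * w) := by
  rw [mul_comm, pow_mul]
  exact (ht_pow_le z i).trans (pow_le_pow_left₀ (ht_nonneg z) h i)

theorem ht_mul_line {L : Type} [Field L] [NumberField L] {z z' : 𝓞 L} {Y : ℝ} {w w' : ℕ}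
    (h : ht z ≤ Y ^ w) (h' : ht z' ≤ Y ^ w') : ht (z * z') ≤ Y ^ (w + w') := by
  rw [pow_add]
  exact (ht_mul_le z z').trans (mul_le_mul h h' (ht_nonneg z') ((ht_nonneg z).trans h))

theorem line {d k wa wb v : ℕ} (hN : Num d k wa wb v) : ∃ (D : ℕ) (Y₀ : ℝ),
    ∀ (L : Type) [Field L] [NumberField L] (P : Pts L d k wa wb) (W S : Finset ℕ) (j : Fin d),
    Y₀ ≤ P.Y → P.Pool S → P.Cls W S → v ≤ S.card →
    (∀ i, ∀ q ∈ S, Loc (q : 𝓞 L) W (P.par {j}) (fun n => P.al n i)) →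
    (∀ i, ∃ ρ σ : ℂ, ∀ n ∈ W, P.io (P.al n i) = ρ * P.io (P.al n j) + σ) →
    P.Rel W {j} D := by
  obtain ⟨B, A, hAB, hA⟩ := genl k wa wb v hN.ha hN.hb hN.hv hN.line
  refine ⟨2 * B + 1 + (4 * k * B + k + B), A.card.factorial + 1, ?_⟩
  intro L _ _ P W S j hY hP hC hv hL hlin
  choose ρ σ hρσ using hlin
  by_cases hW : W.card ≤ 1
  · exact Pts.Rel.of_card P {j} (by omega)
  obtain ⟨n, hn, n', hn', hne⟩ := Finset.one_lt_card.1 (not_le.1 hW)
  have hρ : ∀ i, ρ i ≠ 0 := fun i h => hne (P.alinj n (hC.1 hn) n' (hC.1 hn') i (P.hio (by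
    rw [hρσ i n hn, hρσ i n' hn', h]; ring)))
  have hσ : ∀ i i', i ≠ i' → σ i * ρ i' ≠ σ i' * ρ i := fun i i' hi h =>
    hne (P.ratio n (hC.1 hn) n' (hC.1 hn') i i' hi (P.hio (by
      rw [map_mul, map_mul, hρσ i n hn, hρσ i' n' hn', hρσ i' n hn, hρσ i n' hn']
      linear_combination (P.io (P.al n' j) - P.io (P.al n j)) * h)))
  let e : Fin 4 → Fin d := Fin.castLE hN.hd
  have he : Function.Injective e := Fin.castLE_injective _
  obtain ⟨c, hc, hc0⟩ := detrel (ρ := Option ({j} : Finset (Fin d))) 2 v (by simp) hN.hv P.io P.Y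
    W S (fun q hq => ⟨(hP q hq).1, (hP q hq).2.1⟩) hv (P.par {j}) (P.par_cong hC {j}) A
    (lwt wa wb) (fun γ m => lfun (fun t => P.al m (e t)) (fun t => P.be m (e t)) γ)
    (fun γ _ m hm => by
      have ha := fun t => P.hal m (hC.1 hm) t
      have hb := fun t => P.hbe m (hC.1 hm) t
      rcases γ with ⟨t, a, l, ε⟩ | ⟨l, i⟩
      · have := ht_mul_line (ht_mul_line (ht_pow_line (hb (e t.castSucc)) (a + 1))
          (ht_pow_line (hb (e t.succ)) l)) (ht_pow_line (ha (e t.castSucc)) ε)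
        rw [← add_mul] at this
        exact this
      · exact ht_mul_line (ht_pow_line (hb (e 3)) l) (ht_pow_line (ha (e 3)) i))
    (fun q hq γ _ => by
      have ha := fun t => hL t q hq
      have hb := fun t => P.loc_be hP hC hq (P.loc_x _ W {j}) (ha t)
      rcases γ with ⟨t, a, l, ε⟩ | ⟨l, i⟩
      · exact (((hb (e t.castSucc)).pow (a + 1)).mul ((hb (e t.succ)).pow l)).mul
          ((ha (e t.castSucc)).pow ε)
      · exact ((hb (e 3)).pow l).mul ((ha (e 3)).pow i))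
    hA (by linarith)
  obtain ⟨G, hG, hD, hD', hG0⟩ := line_ind k B (by have := hN.hk; omega)
    (fun t => P.io (P.mu (e t))) (fun t => ρ (e t)) (fun t => σ (e t)) (fun t => hρ _)
    (fun t t' h => hσ _ _ (he.ne h)) A hAB c hc
  refine Pts.Rel.of_poly2 P j G hG (by omega) hD' fun m hm => ?_
  refine hG0 _ _ (fun t => P.io (P.al m (e t))) (fun t => P.io (P.be m (e t)))
    (fun t => hρσ _ m hm) (fun t => by
      rw [← map_pow, ← map_mul, P.eqn m (hC.1 hm), map_sub]) ?_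
  rw [← hc0 m hm]
  refine Finset.sum_congr rfl fun γ _ => ?_
  rcases γ with ⟨t, a, l, ε⟩ | ⟨l, i⟩ <;> simp only [lfun, map_mul, map_pow]

end Vale.Agent.P018
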