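import Vale.Agent.P018.Defs

namespace Vale.Agent.P018

open NumberField MvPolynomial

theorem nf_roots_NFa {L : Type} [Field L] (g : Polynomial L) (hs : g.Splits) (hsep : g.Separable)
    (d : ℕ) (hd : g.natDegree = d) :
    ∃ r : Fin d → L, Function.Injective r ∧ (∀ j, g.eval (r j) = 0) ∧
      ∀ x, g.eval x = g.leadingCoeff * ∏ j, (x - r j) := by
  classical
  have hn := Polynomial.nodup_roots hsep
  have hc : Fintype.card g.roots.toFinset = d := by
    rw [Fintype.card_coe, Multiset.toFinset_card_of_nodup hn, ← hs.natDegree_eq_card_roots, hd]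
  let e := (Fintype.equivFinOfCardEq hc).symm
  refine ⟨fun j => (e j : L), fun i j h => e.injective (Subtype.ext h), fun j => ?_, fun x => ?_⟩
  · exact Polynomial.isRoot_of_mem_roots (Multiset.mem_toFinset.1 (e j).2)
  · rw [hs.eval_eq_prod_roots, Equiv.prod_comp e (fun z => x - (z : L)),
      Finset.prod_coe_sort g.roots.toFinset (fun z => x - z), Finset.prod,
      Multiset.toFinset_val, Multiset.dedup_eq_self.2 hn]

theorem nf_field (f : Polynomial ℤ) (hf : Irreducible (f.map (Int.castRingHom ℚ))) (d : ℕ)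
    (hd : f.natDegree = d) :
    ∃ (L : Type) (_ : Field L) (_ : NumberField L) (θ : Fin d → 𝓞 L),
      Function.Injective θ ∧
      (∀ n : ℤ, ∏ j, (((f.leadingCoeff * n : ℤ) : 𝓞 L) - θ j) =
        ((f.leadingCoeff ^ (d - 1) * f.eval n : ℤ) : 𝓞 L)) ∧
      (∀ A : Fin d → ℤ, A ≠ 0 → ∀ j, ∑ t, (A t : 𝓞 L) * θ j ^ (t : ℕ) ≠ 0) ∧
      ∀ i j, ∃ τ : 𝓞 L →+* 𝓞 L, τ (θ j) = θ i := by
  set g := f.map (Int.castRingHom ℚ) with hg
  have hinj : Function.Injective (Int.castRingHom ℚ) := Int.cast_injective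
  have hgd : g.natDegree = d := by rw [hg, Polynomial.natDegree_map_eq_of_injective hinj, hd]
  have hd1 : 1 ≤ d := hgd ▸ hf.natDegree_pos
  have hf0 : f ≠ 0 := by
    rintro rfl
    exact hf.ne_zero (by rw [hg, Polynomial.map_zero])
  have ha : f.leadingCoeff ≠ 0 := Polynomial.leadingCoeff_ne_zero.2 hf0
  let L := g.SplittingField
  have hNF : NumberField L := {}
  have hmap : g.map (algebraMap ℚ L) = f.map (Int.castRingHom L) := by
    refine (Polynomial.map_map _ _ f).trans ?_
    congr 1
  have hinjL : Function.Injective (Int.castRingHom L) := Int.cast_injective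
  obtain ⟨r, hr1, hr2, hr3⟩ := nf_roots_NFa (g.map (algebraMap ℚ L))
    (Polynomial.SplittingField.splits g) hf.separable.map d (by rw [Polynomial.natDegree_map, hgd])
  have hr4 : ∀ j, Polynomial.aeval (r j) g = 0 := fun j => by
    rw [Polynomial.aeval_def, Polynomial.eval₂_eq_eval_map, hr2]
  have hr5 : ∀ j, Polynomial.aeval (r j) f = 0 := fun j => by
    rw [Polynomial.aeval_def, Polynomial.eval₂_eq_eval_map, ← hr2 j, hmap]
    rfl
  have hmin : ∀ j, minpoly ℚ (r j) = g * Polynomial.C g.leadingCoeff⁻¹ := fun j =>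
    (minpoly.eq_of_irreducible hf (hr4 j)).symm
  have hmd : ∀ j, (minpoly ℚ (r j)).natDegree = d := fun j => by
    rw [hmin, Polynomial.natDegree_mul_C
      (inv_ne_zero (Polynomial.leadingCoeff_ne_zero.2 hf.ne_zero)), hgd]
  let θ : Fin d → 𝓞 L := fun j =>
    ⟨f.leadingCoeff • r j, isIntegral_leadingCoeff_smul f (r j) (hr5 j)⟩
  have hθ : ∀ j, algebraMap (𝓞 L) L (θ j) = (f.leadingCoeff : L) * r j := fun j => by
    show f.leadingCoeff • r j = _
    rw [zsmul_eq_mul]
  have haL : (f.leadingCoeff : L) ≠ 0 := Int.cast_ne_zero.2 ha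
  have hI : Function.Injective (algebraMap (𝓞 L) L) := RingOfIntegers.coe_injective
  refine ⟨L, inferInstance, hNF, θ, fun i j h => ?_, fun n => ?_, fun A hA j h => ?_,
    fun i j => ?_⟩
  · have h1 := congrArg (algebraMap (𝓞 L) L) h
    rw [hθ, hθ] at h1
    exact hr1 (mul_left_cancel₀ haL h1)
  · apply hI
    have h1 := hr3 (n : L)
    rw [hmap, Polynomial.leadingCoeff_map_of_injective hinjL, Polynomial.eval_intCast_map] at h1
    simp only [eq_intCast, Int.cast_id] at h1
    rw [map_prod, map_intCast]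
    simp only [map_sub, map_intCast, hθ]
    push_cast
    rw [h1]
    simp only [← mul_sub]
    rw [Finset.prod_mul_distrib, Finset.prod_const, Finset.card_univ, Fintype.card_fin,
      ← mul_assoc, ← pow_succ, Nat.sub_add_cancel hd1]
  · have h1 := congrArg (algebraMap (𝓞 L) L) h
    rw [map_sum, map_zero] at h1
    simp only [map_mul, map_pow, map_intCast, hθ] at h1
    have hli := linearIndependent_pow (K := ℚ) (r j)
    rw [hmd j] at hli
    have h2 := Fintype.linearIndependent_iff.1 hli
      (fun t => (A t : ℚ) * (f.leadingCoeff : ℚ) ^ (t : ℕ)) (by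
        rw [← h1]
        refine Finset.sum_congr rfl fun t _ => ?_
        rw [Algebra.smul_def, map_mul, map_pow, map_intCast, map_intCast, mul_pow, mul_assoc])
    apply hA
    funext t
    have h3 := (mul_eq_zero.1 (h2 t)).resolve_right (pow_ne_zero _ (Int.cast_ne_zero.2 ha))
    exact Int.cast_eq_zero.1 h3
  · have hN : Normal ℚ L :=
      Normal.of_isSplittingField (hFEp := Polynomial.IsSplittingField.splittingField g)
    have hc : IsConjRoot ℚ (r i) (r j) := (hmin i).trans (hmin j).symm
    obtain ⟨σ, hσ⟩ := hc.exists_algEquiv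
    refine ⟨RingOfIntegers.mapRingHom (σ : L →+* L), hI ?_⟩
    show (σ : L →+* L) (algebraMap (𝓞 L) L (θ j)) = _
    rw [hθ, hθ, map_mul, map_intCast]
    exact congrArg _ hσ

end Vale.Agent.P018
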