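import Vale.Agent.P018.Ht

namespace Vale.Agent.P018

open NumberField MvPolynomial

theorem bdd_NFb {L : Type} [Field L] [NumberField L] (B : ℝ) :
    ∃ (M : ℕ) (D : ℝ), 0 < M ∧ 1 ≤ D ∧ ∀ c : 𝓞 L, c ≠ 0 → ht c ≤ B →
      ∃ c' : 𝓞 L, (M : 𝓞 L) = c * c' ∧ ht c' ≤ D := by
  classical
  have hfin : {c : 𝓞 L | c ≠ 0 ∧ ht c ≤ B}.Finite := by
    refine ((Embeddings.finite_of_norm_le L ℂ B).preimage
      (f := fun c : 𝓞 L => (c : L)) RingOfIntegers.coe_injective.injOn).subset ?_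
    intro c hc
    exact ⟨c.isIntegral_coe, fun φ => (norm_le_ht c φ).trans hc.2⟩
  have h1 : ∀ c : 𝓞 L, ∃ N : ℕ, 0 < N ∧ (c ≠ 0 → c ∣ (N : 𝓞 L)) := by
    intro c
    by_cases hc : c = 0
    · exact ⟨1, one_pos, fun h => absurd hc h⟩
    · obtain ⟨N, h0, h1, -⟩ := exists_nat_dvd hc
      exact ⟨N, h0, fun _ => h1⟩
  choose N hN0 hN using h1
  have h2 : ∀ c : 𝓞 L, ∃ c' : 𝓞 L, c ∈ hfin.toFinset →
      ((∏ z ∈ hfin.toFinset, N z : ℕ) : 𝓞 L) = c * c' := by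
    intro c
    by_cases hc : c ∈ hfin.toFinset
    · obtain ⟨c', h⟩ := (hN c (hfin.mem_toFinset.1 hc).1).trans
        (Nat.cast_dvd_cast (Finset.dvd_prod_of_mem N hc))
      exact ⟨c', fun _ => h⟩
    · exact ⟨0, fun h => absurd h hc⟩
  choose c' hc' using h2
  refine ⟨∏ z ∈ hfin.toFinset, N z, 1 + ∑ z ∈ hfin.toFinset, ht (c' z),
    Finset.prod_pos fun z _ => hN0 z, ?_, fun c h0 hB => ?_⟩
  · have := Finset.sum_nonneg (s := hfin.toFinset) fun z _ => ht_nonneg (c' z)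
    linarith
  · have hc : c ∈ hfin.toFinset := hfin.mem_toFinset.2 ⟨h0, hB⟩
    refine ⟨c' c, hc' c hc, ?_⟩
    have := Finset.single_le_sum (f := fun z => ht (c' z)) (fun z _ => ht_nonneg (c' z)) hc
    linarith

theorem pigeon_NFb (d : ℕ) (hd : 1 ≤ d) (m : ℤ) (p : ℕ) (hp : 0 < p) :
    ∃ (H : ℕ) (A : Fin d → ℤ), H ^ d ≤ p ∧ A ≠ 0 ∧ (∀ t, |A t| ≤ H) ∧
      (p : ℤ) ∣ ∑ t, A t * m ^ (t : ℕ) := by
  classical
  have : NeZero p := ⟨hp.ne'⟩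
  have hex : ∃ H : ℕ, p < (H + 1) ^ d :=
    ⟨p, lt_of_lt_of_le (Nat.lt_succ_self p) (Nat.le_self_pow (by omega) _)⟩
  obtain ⟨H, hH1, hH2⟩ : ∃ H : ℕ, H ^ d ≤ p ∧ p < (H + 1) ^ d := by
    refine ⟨Nat.find hex, ?_, Nat.find_spec hex⟩
    rcases h : Nat.find hex with _ | H
    · rw [zero_pow (by omega)]; omega
    · exact not_lt.1 (Nat.find_min hex (show H < Nat.find hex by omega))
  obtain ⟨a, b, hab, h⟩ := Fintype.exists_ne_map_eq_of_card_lt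
    (fun a : Fin d → Fin (H + 1) => ((∑ t, ((a t : ℕ) : ℤ) * m ^ (t : ℕ) : ℤ) : ZMod p))
    (by rwa [ZMod.card, Fintype.card_fun, Fintype.card_fin, Fintype.card_fin])
  refine ⟨H, fun t => ((b t : ℕ) : ℤ) - ((a t : ℕ) : ℤ), hH1, fun h0 => hab ?_, fun t => ?_, ?_⟩
  · funext t
    have h1 := congrFun h0 t
    simp only [Pi.zero_apply] at h1
    exact Fin.ext (by omega)
  · have h1 := (a t).2
    have h2 := (b t).2
    rw [abs_le]
    dsimp only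
    constructor <;> omega
  · have h1 := (ZMod.intCast_eq_intCast_iff_dvd_sub _ _ p).1 h
    rw [← Finset.sum_sub_distrib] at h1
    simpa only [sub_mul] using h1

theorem prod_dvd_NFb {R ι : Type} [CommRing R] (s : Finset ι) (q : R) (a b : ι → R)
    (h : ∀ i ∈ s, ∃ g, q ∣ a i - b i * g) : ∃ G, q ∣ ∏ i ∈ s, a i - (∏ i ∈ s, b i) * G := by
  classical
  induction s using Finset.induction_on with
  | empty => exact ⟨1, by simp⟩
  | insert i s hi ih =>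
    obtain ⟨G, hG⟩ := ih fun j hj => h j (Finset.mem_insert_of_mem hj)
    obtain ⟨g, hg⟩ := h i (Finset.mem_insert_self i s)
    refine ⟨g * G, ?_⟩
    rw [Finset.prod_insert hi, Finset.prod_insert hi]
    have e : a i * ∏ j ∈ s, a j - b i * (∏ j ∈ s, b j) * (g * G) =
        a i * (∏ j ∈ s, a j - (∏ j ∈ s, b j) * G) + (a i - b i * g) * ((∏ j ∈ s, b j) * G) := by
      ring
    rw [e]
    exact dvd_add (hG.mul_left _) (hg.mul_right _)

theorem nf_point {L : Type} [Field L] [NumberField L] (d k : ℕ) (hd : 1 ≤ d) (hk : 1 ≤ k)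
    (θ : Fin d → 𝓞 L)
    (hθ : ∀ A : Fin d → ℤ, A ≠ 0 → ∀ j, ∑ t, (A t : 𝓞 L) * θ j ^ (t : ℕ) ≠ 0) :
    ∃ (M : ℕ) (C : ℝ), 0 < M ∧ 1 ≤ C ∧ ∀ (m : ℤ) (p : ℕ), p.Prime →
      (p : 𝓞 L) ^ k ∣ ∏ j, ((m : 𝓞 L) - θ j) →
      ∃ (A : Fin d → ℤ) (α β : Fin d → 𝓞 L), A ≠ 0 ∧
        (∀ j, α j = ∑ t, (A t : 𝓞 L) * θ j ^ (t : ℕ)) ∧
        (p : 𝓞 L) ∣ ∏ j, α j ∧ ∏ j, α j ∣ (p : 𝓞 L) * M ∧
        (∀ j, α j ^ k * β j = (M : 𝓞 L) ^ k * ((m : 𝓞 L) - θ j)) ∧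
        (∀ j, ht (α j) ^ d ≤ C * p) ∧
        ∀ j, ht (β j) ^ d * (p : ℝ) ^ k ≤ C * ht ((m : 𝓞 L) - θ j) ^ d := by
  classical
  obtain ⟨C0, hC1, hC0⟩ : ∃ C0 : ℝ, 1 ≤ C0 ∧ ∀ j, ∑ t : Fin d, ht (θ j) ^ (t : ℕ) ≤ C0 := by
    have h0 : ∀ j, 0 ≤ ∑ t : Fin d, ht (θ j) ^ (t : ℕ) := fun j =>
      Finset.sum_nonneg fun t _ => pow_nonneg (ht_nonneg _) _
    refine ⟨1 + ∑ j, ∑ t : Fin d, ht (θ j) ^ (t : ℕ), ?_, fun j => ?_⟩
    · have := Finset.sum_nonneg (s := Finset.univ) fun j _ => h0 j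
      linarith
    · have := Finset.single_le_sum (f := fun j => ∑ t : Fin d, ht (θ j) ^ (t : ℕ))
        (fun j _ => h0 j) (Finset.mem_univ j)
      linarith
  obtain ⟨M, D, hM, hD, hMD⟩ := bdd_NFb (L := L) (C0 ^ d)
  have hE : 1 ≤ C0 ^ d := one_le_pow₀ hC1
  have hF : 1 ≤ (D ^ k) ^ d * (C0 ^ d) ^ (k * (d - 1)) :=
    one_le_mul_of_one_le_of_one_le (one_le_pow₀ (one_le_pow₀ hD)) (one_le_pow₀ hE)
  refine ⟨M, C0 ^ d * ((D ^ k) ^ d * (C0 ^ d) ^ (k * (d - 1))), hM,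
    one_le_mul_of_one_le_of_one_le hE hF, fun m p hp hdvd => ?_⟩
  obtain ⟨H, A, hH, hA0, hAH, a, ha⟩ := pigeon_NFb d hd m p hp.pos
  have hp0 : (0 : ℝ) < p := by exact_mod_cast hp.pos
  have hpL : (p : 𝓞 L) ≠ 0 := Nat.cast_ne_zero.2 hp.ne_zero
  set α : Fin d → 𝓞 L := fun j => ∑ t, (A t : 𝓞 L) * θ j ^ (t : ℕ) with hα
  have hα0 : ∀ j, α j ≠ 0 := fun j => hθ A hA0 j
  have hαh : ∀ j, ht (α j) ^ d ≤ C0 ^ d * p := by
    intro j
    have h1 : ht (α j) ≤ C0 * H := by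
      refine (ht_sum_le _ _).trans ?_
      refine le_trans (Finset.sum_le_sum (g := fun t : Fin d => ht (θ j) ^ (t : ℕ) * H)
        fun t _ => ?_) ?_
      · refine (ht_mul_le _ _).trans ?_
        rw [mul_comm, ht_intCast]
        refine mul_le_mul (ht_pow_le _ _) ?_ (abs_nonneg _) (pow_nonneg (ht_nonneg _) _)
        exact_mod_cast hAH t
      · rw [← Finset.sum_mul]
        exact mul_le_mul_of_nonneg_right (hC0 j) (Nat.cast_nonneg _)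
    refine (pow_le_pow_left₀ (ht_nonneg _) h1 d).trans ?_
    rw [mul_pow]
    refine mul_le_mul_of_nonneg_left ?_ (by linarith)
    exact_mod_cast hH
  have hcong : ∀ j, (m : 𝓞 L) - θ j ∣ (p : 𝓞 L) * (a : 𝓞 L) - α j := by
    intro j
    have h1 : (p : 𝓞 L) * (a : 𝓞 L) = ∑ t, (A t : 𝓞 L) * (m : 𝓞 L) ^ (t : ℕ) := by
      have h2 := congrArg (Int.cast : ℤ → 𝓞 L) ha
      push_cast at h2
      exact h2.symm
    rw [h1, hα, ← Finset.sum_sub_distrib]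
    refine Finset.dvd_sum fun t _ => ?_
    rw [← mul_sub]
    exact (sub_dvd_pow_sub_pow _ _ _).mul_left _
  have hpow : ∀ (e : ℕ) j, ∃ g, (p : 𝓞 L) ^ e ∣ α j ^ e - ((m : 𝓞 L) - θ j) * g := by
    intro e j
    obtain ⟨g, hg⟩ := (hcong j).trans (sub_dvd_pow_sub_pow _ _ e)
    refine ⟨-g, (a : 𝓞 L) ^ e, ?_⟩
    rw [mul_pow] at hg
    linear_combination -hg
  obtain ⟨c, hc⟩ : (p : 𝓞 L) ∣ ∏ j, α j := by
    obtain ⟨G, hG⟩ := prod_dvd_NFb Finset.univ (p : 𝓞 L) α (fun j => (m : 𝓞 L) - θ j)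
      fun j _ => by simpa only [pow_one] using hpow 1 j
    have h1 := ((dvd_pow_self (p : 𝓞 L) (by omega : k ≠ 0)).trans hdvd).mul_right G
    exact (dvd_sub_left h1).1 hG
  have hδ : ∀ j, ∃ δ, ((m : 𝓞 L) - θ j) * ∏ i ∈ Finset.univ.erase j, α i ^ k =
      (p : 𝓞 L) ^ k * δ := by
    intro j
    obtain ⟨G, hG⟩ := prod_dvd_NFb (Finset.univ.erase j) ((p : 𝓞 L) ^ k) (fun i => α i ^ k)
      (fun i => (m : 𝓞 L) - θ i) fun i _ => hpow k i
    have h1 := hG.mul_left ((m : 𝓞 L) - θ j)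
    rw [mul_sub, ← mul_assoc,
      Finset.mul_prod_erase _ (fun i => (m : 𝓞 L) - θ i) (Finset.mem_univ j)] at h1
    exact (dvd_sub_left (hdvd.mul_right G)).1 h1
  choose δ hδ using hδ
  have hc0 : c ≠ 0 := by
    rintro rfl
    rw [mul_zero] at hc
    exact Finset.prod_ne_zero_iff.2 (fun j _ => hα0 j) hc
  have hch : ht c ≤ C0 ^ d := by
    have h1 : (p * ht c) ^ d ≤ (C0 ^ d * p) ^ d := by
      rw [← ht_nat_mul, ← hc]
      refine (pow_le_pow_left₀ (ht_nonneg _) (ht_prod_le _ _) d).trans ?_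
      rw [← Finset.prod_pow]
      refine (Finset.prod_le_prod (fun j _ => pow_nonneg (ht_nonneg _) _) fun j _ => hαh j).trans ?_
      rw [Finset.prod_const, Finset.card_univ, Fintype.card_fin]
    have h2 := le_of_pow_le_pow_left₀ (by omega) (by positivity) h1
    rw [mul_comm] at h2
    exact le_of_mul_le_mul_right h2 hp0
  obtain ⟨c', hc', hc'h⟩ := hMD c hc0 hch
  refine ⟨A, α, fun j => c' ^ k * δ j, hA0, fun j => rfl, ⟨c, hc⟩, ⟨c', ?_⟩, fun j => ?_,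
    fun j => ?_, fun j => ?_⟩
  · rw [hc, hc', mul_assoc]
  · refine mul_left_cancel₀ (pow_ne_zero k hpL) ?_
    have h1 : α j ^ k * ∏ i ∈ Finset.univ.erase j, α i ^ k = (p : 𝓞 L) ^ k * c ^ k := by
      rw [Finset.mul_prod_erase _ (fun i => α i ^ k) (Finset.mem_univ j), Finset.prod_pow, hc,
        mul_pow]
    rw [hc', mul_pow]
    linear_combination (-(c' ^ k * α j ^ k)) * hδ j + (c' ^ k * ((m : 𝓞 L) - θ j)) * h1
  · exact (hαh j).trans (mul_le_mul_of_nonneg_right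
      (le_mul_of_one_le_right (by linarith) hF) hp0.le)
  · have h1 : (p : ℝ) ^ k * ht (δ j) ≤
        ht ((m : 𝓞 L) - θ j) * ∏ i ∈ Finset.univ.erase j, ht (α i) ^ k := by
      have h2 := ht_nat_mul (p ^ k) (δ j)
      push_cast at h2
      rw [← h2, ← hδ j]
      refine (ht_mul_le _ _).trans (mul_le_mul_of_nonneg_left ?_ (ht_nonneg _))
      exact (ht_prod_le _ _).trans (Finset.prod_le_prod (fun i _ => ht_nonneg _)
        fun i _ => ht_pow_le _ _)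
    have h2 : (∏ i ∈ Finset.univ.erase j, ht (α i) ^ k) ^ d ≤ (C0 ^ d * p) ^ (k * (d - 1)) := by
      rw [← Finset.prod_pow]
      refine (Finset.prod_le_prod (g := fun _ => (C0 ^ d * p) ^ k)
        (fun i _ => pow_nonneg (pow_nonneg (ht_nonneg _) _) _) fun i _ => ?_).trans ?_
      · rw [← pow_mul, mul_comm, pow_mul]
        exact pow_le_pow_left₀ (pow_nonneg (ht_nonneg _) _) (hαh i) k
      · rw [Finset.prod_const, Finset.card_erase_of_mem (Finset.mem_univ j), Finset.card_univ,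
          Fintype.card_fin, ← pow_mul]
    have h3 := (pow_le_pow_left₀ (mul_nonneg (by positivity) (ht_nonneg _)) h1 d)
    rw [mul_pow, mul_pow] at h3
    have h4 := h3.trans (mul_le_mul_of_nonneg_left h2 (pow_nonneg (ht_nonneg _) _))
    have h5 : ((p : ℝ) ^ k) ^ d = (p : ℝ) ^ (k * (d - 1)) * (p : ℝ) ^ k := by
      rw [← pow_mul, ← pow_add]
      congr 1
      obtain ⟨e, rfl⟩ := Nat.exists_eq_add_of_le' hd
      rw [Nat.add_sub_cancel, mul_add, mul_one]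
    rw [h5, mul_pow] at h4
    have h6 : (p : ℝ) ^ k * ht (δ j) ^ d ≤
        ht ((m : 𝓞 L) - θ j) ^ d * (C0 ^ d) ^ (k * (d - 1)) := by
      refine le_of_mul_le_mul_left ?_ (pow_pos hp0 (k * (d - 1)))
      linarith
    have h7 : ht (c' ^ k * δ j) ^ d ≤ (D ^ k) ^ d * ht (δ j) ^ d := by
      rw [← mul_pow]
      refine pow_le_pow_left₀ (ht_nonneg _) ((ht_mul_le _ _).trans ?_) d
      exact mul_le_mul_of_nonneg_right ((ht_pow_le _ _).trans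
        (pow_le_pow_left₀ (ht_nonneg _) hc'h k)) (ht_nonneg _)
    have hD0 : 0 ≤ (D ^ k) ^ d := by positivity
    have h8 : 0 ≤ ht ((m : 𝓞 L) - θ j) ^ d := pow_nonneg (ht_nonneg _) _
    calc ht (c' ^ k * δ j) ^ d * (p : ℝ) ^ k
        ≤ (D ^ k) ^ d * ((p : ℝ) ^ k * ht (δ j) ^ d) := by
          have := mul_le_mul_of_nonneg_right h7 (pow_pos hp0 k).le
          linarith
      _ ≤ (D ^ k) ^ d * (ht ((m : 𝓞 L) - θ j) ^ d * (C0 ^ d) ^ (k * (d - 1))) :=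
          mul_le_mul_of_nonneg_left h6 hD0
      _ = 1 * (((D ^ k) ^ d * (C0 ^ d) ^ (k * (d - 1))) * ht ((m : 𝓞 L) - θ j) ^ d) := by ring
      _ ≤ C0 ^ d * (((D ^ k) ^ d * (C0 ^ d) ^ (k * (d - 1))) * ht ((m : 𝓞 L) - θ j) ^ d) :=
          mul_le_mul_of_nonneg_right hE (mul_nonneg (by linarith) h8)
      _ = _ := by ring

end Vale.Agent.P018
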