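import Vale.Agent.P018.NumR

namespace Vale.Agent.P018

open NumberField MvPolynomial

theorem min_exp_NumG {x : ℝ} (hx : 0 ≤ x) : min (Real.exp x) 4 ≤ 1 + 2.17 * x := by
  have l2 := Real.log_two_gt_d9
  have l4 : Real.log 4 = 2 * Real.log 2 := by
    rw [show (4 : ℝ) = 2 ^ 2 by norm_num, Real.log_pow]; norm_num
  have hl : 0 < Real.log 4 := by linarith
  rcases le_total (Real.log 4) x with h | h
  · exact (min_le_right _ _).trans (by linarith)
  · refine (min_le_left _ _).trans ?_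
    have ht0 : 0 ≤ x / Real.log 4 := div_nonneg hx hl.le
    have ht1 : x / Real.log 4 ≤ 1 := (div_le_one hl).2 h
    have h1 := convexOn_exp.2 (Set.mem_univ (0 : ℝ)) (Set.mem_univ (Real.log 4))
      (sub_nonneg.2 ht1) ht0 (by ring)
    simp only [smul_eq_mul, mul_zero, zero_add, Real.exp_zero, mul_one] at h1
    rw [div_mul_cancel₀ _ hl.ne', Real.exp_log (by norm_num)] at h1
    have h2 : x / Real.log 4 * Real.log 4 = x := div_mul_cancel₀ _ hl.ne'
    nlinarith

theorem sum_lt_of_log (d k : ℕ) (hk : 1 ≤ k)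
    (h : (d : ℝ) + 1 + 2.17 * Real.log (4 * k) * (1 + Real.log (d + 1)) < 4 * k) :
    ∑ r ∈ Finset.Icc 1 (d + 1), min ((4 * k : ℝ) ^ ((r : ℝ)⁻¹)) 4 < 4 * k := by
  have hk' : (1 : ℝ) ≤ k := by exact_mod_cast hk
  have hL : 0 ≤ Real.log (4 * k) := Real.log_nonneg (by linarith)
  have h1 : ∑ r ∈ Finset.Icc 1 (d + 1), min ((4 * k : ℝ) ^ ((r : ℝ)⁻¹)) 4 ≤
      ∑ r ∈ Finset.Icc 1 (d + 1), (1 + 2.17 * (Real.log (4 * k) * (r : ℝ)⁻¹)) := by
    refine Finset.sum_le_sum fun r _ => ?_
    rw [Real.rpow_def_of_pos (by linarith)]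
    exact min_exp_NumG (by positivity)
  have h2 := harmonic_le_one_add_log (d + 1)
  rw [harmonic_eq_sum_Icc] at h2
  push_cast at h2
  rw [Finset.sum_add_distrib, ← Finset.mul_sum, ← Finset.mul_sum, Finset.sum_const,
    Nat.card_Icc] at h1
  simp only [Nat.add_sub_cancel, nsmul_eq_mul, mul_one] at h1
  push_cast at h1
  have h3 := mul_le_mul_of_nonneg_left h2 hL
  nlinarith

theorem feas_half_large (d : ℕ) (hd : 60 ≤ d) : Feas d ((d + 1) / 2) := by
  refine feas_of_sum d _ (by omega) (by omega) (sum_lt_of_log d _ (by omega) ?_)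
  obtain ⟨k, hk⟩ : ∃ k, k = (d + 1) / 2 := ⟨_, rfl⟩
  rw [← hk]
  have hd' : (60 : ℝ) ≤ d := by exact_mod_cast hd
  have k1 : (2 * d : ℝ) ≤ 4 * k := by exact_mod_cast (by omega : 2 * d ≤ 4 * k)
  have k2 : (4 * k : ℝ) ≤ 2 * (d + 1) := by exact_mod_cast (by omega : 4 * k ≤ 2 * (d + 1))
  have l2 := Real.log_two_lt_d9
  have a1 : Real.log (4 * k) ≤ Real.log 2 + Real.log (d + 1) := by
    rw [← Real.log_mul (by norm_num) (by positivity)]
    exact Real.log_le_log (by linarith) k2
  have a0 : 0 ≤ Real.log (4 * k) := Real.log_nonneg (by linarith)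
  obtain ⟨t, ht⟩ : ∃ t, t = √((d : ℝ) + 1) := ⟨_, rfl⟩
  have t0 : 0 < t := by rw [ht]; positivity
  have t1 : t ^ 2 = d + 1 := by rw [ht]; exact Real.sq_sqrt (by positivity)
  have t2 : 7.8 ≤ t := by nlinarith
  have a2 : Real.log (d + 1) ≤ 2.16 + t / 4 := by
    have b1 := Real.log_le_sub_one_of_pos (show 0 < t / 2 ^ 3 by positivity)
    rw [Real.log_div t0.ne' (by norm_num), Real.log_pow] at b1
    rw [← t1, Real.log_pow]
    push_cast at b1 ⊢
    linarith
  have a3 : 0 ≤ Real.log ((d : ℝ) + 1) := Real.log_nonneg (by linarith)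
  have a4 : Real.log (4 * k) * (1 + Real.log (d + 1)) ≤ (2.86 + t / 4) * (3.16 + t / 4) :=
    mul_le_mul (by linarith) (by linarith) (by linarith) (by linarith)
  nlinarith

theorem feas_log (d k : ℕ) (hd : 4 ≤ d) (hk : 2 * k < d)
    (h : (d : ℝ) / 4 + Real.log d ^ 2 ≤ k) : Feas d k := by
  have l2 := Real.log_two_lt_d9
  have l3 := Real.log_two_gt_d9
  have hd' : (4 : ℝ) ≤ d := by exact_mod_cast hd
  have hk' : (2 * k : ℝ) < d := by exact_mod_cast hk
  have hp : ∀ j : ℕ, 2 ^ j ≤ d → (j * 0.69 : ℝ) ≤ Real.log d := by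
    intro j hj
    have h1 : Real.log (2 ^ j) ≤ Real.log d :=
      Real.log_le_log (by positivity) (by exact_mod_cast hj)
    rw [Real.log_pow] at h1
    have : (0 : ℝ) ≤ j := Nat.cast_nonneg j
    nlinarith
  have h21 : 21 ≤ d := by
    by_contra hc
    have c1 : (d : ℝ) ≤ 20 := by exact_mod_cast (by omega : d ≤ 20)
    by_cases h8 : 8 ≤ d
    · by_cases h16 : 16 ≤ d
      · have := hp 4 (by omega)
        push_cast at this
        nlinarith
      · have := hp 3 (by omega)
        have c2 : (d : ℝ) ≤ 15 := by exact_mod_cast (by omega : d ≤ 15)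
        push_cast at this
        nlinarith
    · have := hp 2 (by omega)
      have c2 : (d : ℝ) ≤ 7 := by exact_mod_cast (by omega : d ≤ 7)
      push_cast at this
      nlinarith
  have hd2 : (21 : ℝ) ≤ d := by exact_mod_cast h21
  have hL : 3 ≤ Real.log d := by
    rw [Real.le_log_iff_exp_le (by linarith)]
    have e1 := Real.exp_one_lt_d9
    have e2 : Real.exp 3 = Real.exp 1 ^ 3 := by rw [← Real.exp_nat_mul]; norm_num
    have e3 : Real.exp 1 ^ 3 ≤ 2.72 ^ 3 := pow_le_pow_left₀ (Real.exp_pos 1).le (by linarith) 3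
    rw [e2]
    linarith [show (2.72 : ℝ) ^ 3 ≤ 21 by norm_num]
  have k2 : 2 ≤ k := by
    have : (2 : ℝ) ≤ k := by nlinarith
    exact_mod_cast this
  have k3 : (2 : ℝ) ≤ k := by exact_mod_cast k2
  refine feas_of_sum d k hd k2 (sum_lt_of_log d k (by omega) ?_)
  have a1 : Real.log (4 * k) ≤ Real.log 2 + Real.log d := by
    rw [← Real.log_mul (by norm_num) (by positivity)]
    exact Real.log_le_log (by linarith) (by linarith)
  have a0 : 0 ≤ Real.log (4 * k) := Real.log_nonneg (by linarith)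
  have a2 : Real.log (d + 1) ≤ Real.log d + 0.05 := by
    have b1 := Real.log_le_sub_one_of_pos (show 0 < ((d : ℝ) + 1) / d by positivity)
    rw [Real.log_div (by positivity) (by positivity)] at b1
    have b2 : ((d : ℝ) + 1) / d ≤ 1.05 := by
      rw [div_le_iff₀ (by positivity)]
      linarith
    linarith
  have a3 : 0 ≤ Real.log ((d : ℝ) + 1) := Real.log_nonneg (by linarith)
  have a4 : Real.log (4 * k) * (1 + Real.log (d + 1)) ≤
      (Real.log d + 0.7) * (Real.log d + 1.05) :=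
    mul_le_mul (by linarith) (by linarith) (by linarith) (by linarith)
  nlinarith

end Vale.Agent.P018
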