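import Vale.Agent.P018.NumR

namespace Vale.Agent.P018

open NumberField MvPolynomial

theorem levR_NumH {d k a b : ℝ} (hd : 6 ≤ d) (hk : d ≤ 2 * k) (ha : 0 < a) (hb : 0 < b)
    (e : k * a + b = 1) (h : 1 ≤ d * a) :
    a * b ≤ 1 / (2 * d) ∧ a ≤ 1 / 3 ∧ b ≤ 1 / 2 ∧ 1 / 2 ≤ k * a ∧ a ^ 2 * b ≤ 1 / (8 * d) ∧
      6 * (a * b) ≤ a + b := by
  have hk3 : 3 ≤ k := by linarith
  have hab : 0 < a * b := mul_pos ha hb
  have h1 : 4 * k * (a * b) ≤ 1 := by nlinarith [sq_nonneg (k * a - b)]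
  have h2 : 1 / 2 ≤ k * a := by nlinarith
  have h3 : a ≤ 1 / 3 := by nlinarith
  have h4 : 27 * (k * a) ^ 2 * b ≤ 4 := by
    have e2 : b = 1 - k * a := by linarith
    rw [e2]
    generalize k * a = y at *
    nlinarith [mul_nonneg (sq_nonneg (3 * y - 2)) (show 0 ≤ 3 * y + 1 by linarith)]
  refine ⟨?_, h3, by linarith, h2, ?_, ?_⟩
  · rw [le_div_iff₀ (by linarith)]
    nlinarith
  · rw [le_div_iff₀ (by linarith)]
    have h5 : 0 < a ^ 2 * b := by positivity
    have h6 : 8 * d * 4 ≤ 27 * k ^ 2 := by nlinarith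
    nlinarith
  · have h5 : 6 * (a * b) ≤ (a + b) * (k * a + b) := by
      nlinarith [sq_nonneg (a - b), sq_nonneg a, mul_nonneg (sub_nonneg.2 hk3) (sq_nonneg a),
        mul_nonneg (sub_nonneg.2 hk3) hab.le]
    rwa [e, mul_one] at h5

/-- certificate for `2 k ≥ d`: `κ r = t r / (2 d S)` -/
theorem feas_of_cert (d k S : ℕ) (hd : 6 ≤ d) (hk : d ≤ 2 * k) (hk' : 2 * k ≤ d + 1) (hS : 1 ≤ S)
    (t : ℕ → ℕ) (hmono : ∀ r, 1 ≤ r → r ≤ d → t (r + 1) ≤ t r)
    (hsum : ∑ r ∈ Finset.Icc 1 (d + 1), t r < 2 * d * S)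
    (htop : 2 * d * S ^ (d + 1) ≤ t (d + 1) ^ (d + 1))
    (hmid : ∀ r, 3 ≤ r → r ≤ d → d * S ^ r ≤ t r ^ r)
    (h2 : d * S ^ 2 ≤ 2 * t 2 ^ 2) (h1 : d * S ≤ 3 * t 1) : Feas d k := by
  have hdR : (6 : ℝ) ≤ d := by exact_mod_cast hd
  have hkR : (d : ℝ) ≤ 2 * k := by exact_mod_cast hk
  have hSR : (1 : ℝ) ≤ S := by exact_mod_cast hS
  have hd0 : (0 : ℝ) < d := by linarith
  have hS0 : (0 : ℝ) < S := by linarith
  have hD : (0 : ℝ) < 2 * d * S := by positivity
  refine feas_of_real d k (by omega) (fun r => (t r : ℝ) / (2 * d * S)) (fun r => by positivity)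
    (fun r hr hr' => ?_) ?_ fun a b ha hb e h r hr hr' => Or.inr ?_
  · have : (t (r + 1) : ℝ) ≤ t r := by exact_mod_cast hmono r hr hr'
    gcongr
  · rw [← Finset.sum_div, div_lt_one hD]
    exact_mod_cast hsum
  obtain ⟨f1, f2, f3, f4, f5, f6⟩ := levR_NumH hdR hkR ha hb e h
  have hab : 0 < a * b := mul_pos ha hb
  refine ⟨?_, ?_, ?_, ?_⟩
  · rintro rfl
    have h3 : (2 * d * S ^ (d + 1) : ℝ) ≤ (t (d + 1) : ℝ) ^ (d + 1) := by exact_mod_cast htop
    calc (a * b) ^ d ≤ (1 / (2 * d)) ^ d := by gcongr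
      _ = 2 * d * S ^ (d + 1) / (2 * d * S) ^ (d + 1) := by
          rw [mul_pow (2 * d : ℝ), pow_succ (2 * d : ℝ), one_div, inv_pow]
          field_simp
      _ ≤ _ := by
          rw [div_pow]
          gcongr
  · intro hr3 hrd
    have h3 : (d * S ^ r : ℝ) ≤ (t r : ℝ) ^ r := by exact_mod_cast hmid r hr3 hrd
    obtain ⟨s, rfl⟩ : ∃ s, r = s + 1 := ⟨r - 1, by omega⟩
    have h4 : a * b ≤ min a b * (1 / 2) := by
      rcases le_total a b with h5 | h5
      · rw [min_eq_left h5]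
        gcongr
      · rw [min_eq_right h5, mul_comm]
        gcongr
        linarith
    have hm : 0 ≤ min a b := (lt_min ha hb).le
    calc (a * b) ^ (s + 1) = a * b * (a * b) ^ s := by ring
      _ ≤ min a b * (1 / 2) * (1 / (2 * d)) ^ s := by gcongr
      _ = min a b * (d * S ^ (s + 1) / (2 * d * S) ^ (s + 1)) := by
          rw [mul_pow (2 * d : ℝ), pow_succ (2 * d : ℝ), one_div (2 * d : ℝ), inv_pow]
          field_simp
      _ ≤ _ := by
          rw [div_pow]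
          gcongr
  · rintro rfl
    have h3 : (d * S ^ 2 : ℝ) ≤ 2 * (t 2 : ℝ) ^ 2 := by exact_mod_cast h2
    have h4 : 1 / (8 * d) ≤ ((t 2 : ℝ) / (2 * d * S)) ^ 2 := by
      rw [div_pow, div_le_div_iff₀ (by positivity) (by positivity)]
      nlinarith
    have h5 : a * b ^ 2 ≤ 2 * (1 / (8 * d)) := by
      calc a * b ^ 2 = a * b * b := by ring
        _ ≤ 1 / (2 * d) * (1 / 2) := by gcongr
        _ = _ := by
          field_simp
          ring
    have h6 : (0 : ℝ) < 1 / (8 * d) := by positivity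
    generalize ((t 2 : ℝ) / (2 * d * S)) ^ 2 = q at *
    generalize (1 : ℝ) / (8 * d) = w at *
    refine ⟨?_, ?_, ?_⟩
    · nlinarith
    · nlinarith
    · nlinarith
  · rintro rfl
    have h3 : (d * S : ℝ) ≤ 3 * (t 1 : ℝ) := by exact_mod_cast h1
    have h4 : 1 / 6 ≤ (t 1 : ℝ) / (2 * d * S) := by
      rw [div_le_div_iff₀ (by norm_num) hD]
      linarith
    generalize (t 1 : ℝ) / (2 * d * S) = q at *
    refine ⟨(min_le_left a b).trans (by linarith), ?_, by linarith, by linarith⟩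
    nlinarith

/-- binary search for an integer root -/
def rtNumH (r N : ℕ) : ℕ → ℕ → ℕ → ℕ
  | 0, _, hi => hi
  | f + 1, lo, hi =>
    if N ≤ ((lo + hi) / 2) ^ r then rtNumH r N f lo ((lo + hi) / 2)
    else rtNumH r N f ((lo + hi) / 2) hi

def topNumH (d : ℕ) : ℕ := rtNumH (d + 1) (2 * d * 1000 ^ (d + 1)) 15 0 16384

def midNumH (d r : ℕ) : ℕ := max (rtNumH r (d * 1000 ^ r) 15 0 16384) (topNumH d)

def twoNumH (d : ℕ) : ℕ := max (rtNumH 2 (d * 500000) 15 0 16384) (midNumH d 3)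

def tNumH (d r : ℕ) : ℕ :=
  if d + 1 ≤ r then topNumH d else if 3 ≤ r then midNumH d r else if r = 2 then twoNumH d
  else max ((d * 1000 + 2) / 3) (twoNumH d)

def okNumH (d : ℕ) : Bool :=
  (List.range (d + 1)).all (fun r => decide (tNumH d (r + 1) ≤ tNumH d r)) &&
  decide (((List.range (d + 1)).map fun r => tNumH d (1 + r)).sum < 2 * d * 1000) &&
  decide (2 * d * 1000 ^ (d + 1) ≤ tNumH d (d + 1) ^ (d + 1)) &&
  (List.range (d + 1)).all (fun r => decide (r < 3) || decide (d * 1000 ^ r ≤ tNumH d r ^ r)) &&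
  decide (d * 1000 ^ 2 ≤ 2 * tNumH d 2 ^ 2) && decide (d * 1000 ≤ 3 * tNumH d 1)

theorem sum_NumH (f : ℕ → ℕ) : ∀ n, ∑ i ∈ Finset.range n, f i = ((List.range n).map f).sum
  | 0 => by simp
  | n + 1 => by
    rw [Finset.sum_range_succ, sum_NumH f n, List.range_succ, List.map_append, List.sum_append]
    simp

theorem all_NumH : (List.range 54).all (fun i => okNumH (i + 6)) = true := by decide +kernel

theorem feas_half_small (d : ℕ) (hd : 6 ≤ d) (hd' : d < 60) : Feas d ((d + 1) / 2) := by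
  have h := List.all_eq_true.1 all_NumH (d - 6) (List.mem_range.2 (by omega))
  rw [show d - 6 + 6 = d by omega] at h
  simp only [okNumH, Bool.and_eq_true, List.all_eq_true, List.mem_range, decide_eq_true_eq,
    Bool.or_eq_true] at h
  obtain ⟨⟨⟨⟨⟨h1, h2⟩, h3⟩, h4⟩, h5⟩, h6⟩ := h
  refine feas_of_cert d _ 1000 hd (by omega) (by omega) (by norm_num) (tNumH d)
    (fun r _ hr => h1 r (by omega)) ?_ h3 (fun r hr hr' => ?_) h5 h6
  · rw [← Finset.Ico_add_one_right_eq_Icc, Finset.sum_Ico_eq_sum_range,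
      show d + 1 + 1 - 1 = d + 1 by omega, sum_NumH]
    exact h2
  · rcases h4 r (by omega) with h | h
    · omega
    · exact h

end Vale.Agent.P018
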