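import Vale.Agent.P018.Def2

namespace Vale.Agent.P018

open NumberField MvPolynomial

theorem lev_NumR {d k wa wb r v : ℕ} (hd : 1 ≤ d) {a b κ W : ℝ} (hW : (k : ℝ) * wa + wb = W)
    (ha : (wa : ℝ) = a * W) (hb : (wb : ℝ) = b * W) (hW0 : 0 < W) (ha0 : 0 < a) (hb0 : 0 < b)
    (hκ : 0 ≤ κ) (hv : κ * W < v) (hv1 : 1 ≤ v) (h : LevR d k r a b κ) :
    LevOK d k wa wb r v := by
  refine ⟨hv1, ?_⟩
  have hx : 0 ≤ κ * W := by positivity
  have hp : ∀ m : ℕ, m ≠ 0 → (κ * W) ^ m < (v : ℝ) ^ m := fun m hm => pow_lt_pow_left₀ hv hx hm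
  have hmin : ((min wa wb : ℕ) : ℝ) = min a b * W := by
    rw [Nat.cast_min, ha, hb, min_mul_of_nonneg _ _ hW0.le]
  have hk0 : (0 : ℝ) ≤ k := Nat.cast_nonneg k
  rcases h with h | ⟨h1, h2, h3, h4⟩
  · left
    have : (wa : ℝ) < v := by
      rw [ha]
      exact lt_of_le_of_lt (mul_le_mul_of_nonneg_right h hW0.le) hv
    exact_mod_cast this
  · right
    refine ⟨fun hr => ?_, fun hr hr' => ?_, fun hr => ?_, fun hr => ?_⟩
    · obtain ⟨e, rfl⟩ : ∃ e, d = e + 1 := ⟨d - 1, by omega⟩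
      have : ((wa : ℝ) * wb) ^ (e + 1) < ((k : ℝ) * wa + wb) ^ e * (v : ℝ) ^ (e + 1 + 1) := by
        rw [hW, ha, hb]
        calc (a * W * (b * W)) ^ (e + 1) = W ^ e * ((a * b) ^ (e + 1) * W ^ (e + 1 + 1)) := by ring
          _ ≤ W ^ e * (κ ^ (e + 1 + 1) * W ^ (e + 1 + 1)) := by gcongr; exact h1 hr
          _ = W ^ e * (κ * W) ^ (e + 1 + 1) := by ring
          _ < W ^ e * (v : ℝ) ^ (e + 1 + 1) :=
            mul_lt_mul_of_pos_left (hp _ (by omega)) (by positivity)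
      rw [Nat.add_sub_cancel]
      exact_mod_cast this
    · obtain ⟨e, rfl⟩ : ∃ e, r = e + 1 := ⟨r - 1, by omega⟩
      have hm : 0 < min a b := lt_min ha0 hb0
      have : ((wa : ℝ) * wb) ^ (e + 1) <
          ((min wa wb : ℕ) : ℝ) * ((k : ℝ) * wa + wb) ^ e * (v : ℝ) ^ (e + 1) := by
        rw [hW, hmin, ha, hb]
        calc (a * W * (b * W)) ^ (e + 1) = W * W ^ e * ((a * b) ^ (e + 1) * W ^ (e + 1)) := by ring
          _ ≤ W * W ^ e * (min a b * κ ^ (e + 1) * W ^ (e + 1)) := by gcongr; exact h2 hr hr'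
          _ = min a b * W * W ^ e * (κ * W) ^ (e + 1) := by ring
          _ < min a b * W * W ^ e * (v : ℝ) ^ (e + 1) :=
            mul_lt_mul_of_pos_left (hp _ (by omega)) (by positivity)
      rw [Nat.add_sub_cancel]
      exact_mod_cast this
    · obtain ⟨g1, g2, g3⟩ := h3 hr
      have q := hp 2 (by omega)
      refine ⟨?_, ?_, ?_⟩
      · have : ((wa : ℝ) * wb) ^ 2 < wb * ((k : ℝ) * wa + wb) * (v : ℝ) ^ 2 := by
          rw [hW, ha, hb]
          calc (a * W * (b * W)) ^ 2 = (a * b) ^ 2 * W ^ 4 := by ring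
            _ ≤ b * κ ^ 2 * W ^ 4 := by gcongr
            _ = b * W * W * (κ * W) ^ 2 := by ring
            _ < b * W * W * (v : ℝ) ^ 2 := mul_lt_mul_of_pos_left q (by positivity)
        exact_mod_cast this
      · have : ((wa : ℝ) * wb) ^ 2 < 2 * wa * ((k : ℝ) * wa + wb) * (v : ℝ) ^ 2 := by
          rw [hW, ha, hb]
          calc (a * W * (b * W)) ^ 2 = (a * b) ^ 2 * W ^ 4 := by ring
            _ ≤ 2 * a * κ ^ 2 * W ^ 4 := by gcongr
            _ = 2 * (a * W) * W * (κ * W) ^ 2 := by ring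
            _ < 2 * (a * W) * W * (v : ℝ) ^ 2 := mul_lt_mul_of_pos_left q (by positivity)
        exact_mod_cast this
      · have : (wa : ℝ) * wb ^ 2 < (3 * k * wa + wb) * (v : ℝ) ^ 2 := by
          rw [ha, hb]
          calc a * W * (b * W) ^ 2 = a * b ^ 2 * W ^ 3 := by ring
            _ ≤ (3 * k * a + b) * κ ^ 2 * W ^ 3 := by gcongr
            _ = (3 * k * (a * W) + b * W) * (κ * W) ^ 2 := by ring
            _ < (3 * k * (a * W) + b * W) * (v : ℝ) ^ 2 := mul_lt_mul_of_pos_left q (by positivity)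
        exact_mod_cast this
    · obtain ⟨g1, g2, g3, g4⟩ := h4 hr
      refine ⟨?_, ?_, ?_, ?_⟩
      · have : ((min wa wb : ℕ) : ℝ) < 2 * (v : ℝ) := by
          rw [hmin]
          have := mul_le_mul_of_nonneg_right g1 hW0.le
          linarith
        exact_mod_cast this
      · have : (wa : ℝ) * wb < (wa + wb) * (v : ℝ) := by
          rw [ha, hb]
          calc a * W * (b * W) = a * b * W ^ 2 := by ring
            _ ≤ (a + b) * κ * W ^ 2 := by gcongr
            _ = (a * W + b * W) * (κ * W) := by ring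
            _ < (a * W + b * W) * (v : ℝ) := mul_lt_mul_of_pos_left hv (by positivity)
        exact_mod_cast this
      · have : (wa : ℝ) < 3 * (v : ℝ) := by
          rw [ha]
          have := mul_le_mul_of_nonneg_right g3 hW0.le
          linarith
        exact_mod_cast this
      · have : (wb : ℝ) < 3 * (v : ℝ) := by
          rw [hb]
          have := mul_le_mul_of_nonneg_right g4 hW0.le
          linarith
        exact_mod_cast this

theorem feas_of_real (d k : ℕ) (hd : 1 ≤ d) (κ : ℕ → ℝ) (h0 : ∀ r, 0 ≤ κ r)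
    (hmono : ∀ r, 1 ≤ r → r ≤ d → κ (r + 1) ≤ κ r)
    (hsum : ∑ r ∈ Finset.Icc 1 (d + 1), κ r < 1)
    (h : ∀ a b : ℝ, 0 < a → 0 < b → k * a + b = 1 → 1 ≤ d * a →
      ∀ r, 1 ≤ r → r ≤ d + 1 → LevR d k r a b (κ r)) : Feas d k := by
  intro c
  set σ := ∑ r ∈ Finset.Icc 1 (d + 1), κ r with hσ
  have hσ0 : 0 < 1 - σ := by linarith
  obtain ⟨w₀, hw₀⟩ := exists_nat_ge ((((d : ℝ) + 1) + (d + 1) ^ 2 + c) / (1 - σ))
  refine ⟨w₀, fun wa wb ha hb hdk hw => ?_⟩
  obtain ⟨W, hW⟩ : ∃ W : ℝ, (k : ℝ) * wa + wb = W := ⟨_, rfl⟩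
  have ha0 : (0 : ℝ) < wa := by exact_mod_cast ha
  have hb0 : (0 : ℝ) < wb := by exact_mod_cast hb
  have hW0 : 0 < W := by rw [← hW]; positivity
  have hWd : W ≤ d * wa := by rw [← hW]; exact_mod_cast hdk
  have hWw : (w₀ : ℝ) ≤ W := by rw [← hW]; exact_mod_cast hw
  have hl := h (wa / W) (wb / W) (by positivity) (by positivity)
    (by field_simp; exact hW) (by rw [← mul_div_assoc, le_div_iff₀ hW0]; linarith)
  refine ⟨∑ r ∈ Finset.Icc 1 (d + 1), (⌊κ r * W⌋₊ + 1) + (d + 1) ^ 2,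
    ⟨fun r => ⌊κ r * W⌋₊ + 1, fun r h1 h2 => ?_, fun r h1 h2 => ?_, le_rfl⟩, ?_⟩
  · refine lev_NumR hd hW (by field_simp) (by field_simp) hW0 (by positivity) (by positivity)
      (h0 r) ?_ (Nat.le_add_left 1 _) (hl r h1 h2)
    push_cast
    exact Nat.lt_floor_add_one _
  · exact Nat.succ_le_succ (Nat.floor_mono (mul_le_mul_of_nonneg_right (hmono r h1 h2) hW0.le))
  · have h1 : ∑ r ∈ Finset.Icc 1 (d + 1), ((⌊κ r * W⌋₊ : ℝ) + 1) ≤
        ∑ r ∈ Finset.Icc 1 (d + 1), (κ r * W + 1) :=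
      Finset.sum_le_sum fun r _ => by
        have := Nat.floor_le (mul_nonneg (h0 r) hW0.le)
        linarith
    have h2 : ∑ r ∈ Finset.Icc 1 (d + 1), (κ r * W + 1) = σ * W + (d + 1) := by
      rw [Finset.sum_add_distrib, ← Finset.sum_mul]
      simp [hσ]
    have h3 := (div_le_iff₀ hσ0).1 (hw₀.trans hWw)
    have h4 : (∑ r ∈ Finset.Icc 1 (d + 1), ((⌊κ r * W⌋₊ : ℝ) + 1)) + ((d : ℝ) + 1) ^ 2 + c ≤
        (k : ℝ) * wa + wb := by
      rw [hW]
      linarith
    exact_mod_cast h4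

theorem feas_of_sum (d k : ℕ) (hd : 4 ≤ d) (hk : 2 ≤ k)
    (h : ∑ r ∈ Finset.Icc 1 (d + 1), min ((4 * k : ℝ) ^ ((r : ℝ)⁻¹)) 4 < 4 * k) : Feas d k := by
  have hk2 : (2 : ℝ) ≤ k := by exact_mod_cast hk
  have hK : (0 : ℝ) < 4 * k := by linarith
  refine feas_of_real d k (by omega) (fun r => min ((4 * k : ℝ) ^ ((r : ℝ)⁻¹)) 4 / (4 * k))
    (fun r => by positivity) (fun r h1 h2 => ?_) ?_ fun a b ha hb hab hda r h1 h2 => ?_
  · have hr : (0 : ℝ) < r := by exact_mod_cast h1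
    have : (4 * k : ℝ) ^ (((r + 1 : ℕ) : ℝ)⁻¹) ≤ (4 * k : ℝ) ^ ((r : ℝ)⁻¹) := by
      refine Real.rpow_le_rpow_of_exponent_le (by linarith) ?_
      push_cast
      gcongr
      linarith
    gcongr
  · rw [← Finset.sum_div, div_lt_one hK]
    exact h
  · have hka : k * a ≤ 1 := by linarith
    have ha1 : a ≤ 1 := by nlinarith
    have hb1 : b ≤ 1 := by nlinarith
    rcases le_total 4 ((4 * k : ℝ) ^ ((r : ℝ)⁻¹)) with hc | hc
    · left
      rw [min_eq_right hc, le_div_iff₀ hK]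
      linarith
    · right
      rw [min_eq_left hc]
      obtain ⟨e, rfl⟩ : ∃ e, r = e + 1 := ⟨r - 1, by omega⟩
      have hp : ((4 * k : ℝ) ^ (((e + 1 : ℕ) : ℝ)⁻¹) / (4 * k)) ^ (e + 1) = (1 / (4 * k)) ^ e := by
        rw [div_pow, Real.rpow_inv_natCast_pow hK.le (by omega), one_div_pow, pow_succ]
        field_simp
      have hq : a * b ≤ 1 / (4 * k) := by
        rw [le_div_iff₀ hK]
        nlinarith [sq_nonneg (k * a - b)]
      have hpe : (a * b) ^ e ≤ (1 / (4 * k)) ^ e := by gcongr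
      refine ⟨fun hr => ?_, fun hr hr' => ?_, fun hr => ?_, fun hr => ?_⟩
      · obtain rfl : e = d := by omega
        rw [hp]
        exact hpe
      · rw [hp, pow_succ, mul_comm]
        have : a * b ≤ min a b := le_min (by nlinarith) (by nlinarith)
        gcongr
      · obtain rfl : e = 1 := by omega
        rw [pow_one] at hp
        rw [hp]
        have hab0 : 0 < a * b := by positivity
        have t1 : (a * b) ^ 2 ≤ a * b * (1 / (4 * k)) := by rw [sq]; gcongr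
        have t0 : 0 < 1 / (4 * (k : ℝ)) := by positivity
        have t2 : a * b * (1 / (4 * k)) ≤ b * (1 / (4 * k)) := by gcongr; nlinarith
        have t3 : a * b * (1 / (4 * k)) ≤ 2 * a * (1 / (4 * k)) :=
          mul_le_mul_of_nonneg_right (by nlinarith) t0.le
        have t4 : b * (a * b) ≤ b * (1 / (4 * k)) := by gcongr
        have t5 : b * (1 / (4 * k)) ≤ (3 * k * a + b) * (1 / (4 * k)) := by
          gcongr
          have : 0 < 3 * k * a := by positivity
          linarith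
        exact ⟨by linarith, by linarith, by linarith⟩
      · obtain rfl : e = 0 := by omega
        simp at hc
        linarith

end Vale.Agent.P018
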