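import Vale.Agent.P018.NumG

namespace Vale.Agent.P018

theorem feas_of_real2 (d k : ℕ) (hd : 1 ≤ d) (σ : ℝ) (hσ : σ < 1)
    (h : ∀ a b : ℝ, 0 < a → 0 < b → k * a + b = 1 → 1 ≤ d * a → ∃ κ : ℕ → ℝ, (∀ r, 0 ≤ κ r) ∧
      (∀ r, 1 ≤ r → r ≤ d → κ (r + 1) ≤ κ r) ∧ ∑ r ∈ Finset.Icc 1 (d + 1), κ r ≤ σ ∧
      ∀ r, 1 ≤ r → r ≤ d + 1 → LevR d k r a b (κ r)) : Feas d k := by
  intro c
  have hσ0 : 0 < 1 - σ := by linarith
  obtain ⟨w₀, hw₀⟩ := exists_nat_ge ((((d : ℝ) + 1) + (d + 1) ^ 2 + c) / (1 - σ))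
  refine ⟨w₀, fun wa wb ha hb hdk hw => ?_⟩
  obtain ⟨W, hW⟩ : ∃ W : ℝ, (k : ℝ) * wa + wb = W := ⟨_, rfl⟩
  have ha0 : (0 : ℝ) < wa := by exact_mod_cast ha
  have hb0 : (0 : ℝ) < wb := by exact_mod_cast hb
  have hW0 : 0 < W := by rw [← hW]; positivity
  have hWd : W ≤ d * wa := by rw [← hW]; exact_mod_cast hdk
  have hWw : (w₀ : ℝ) ≤ W := by rw [← hW]; exact_mod_cast hw
  obtain ⟨κ, h0, hmono, hsum, hl⟩ := h (wa / W) (wb / W) (by positivity) (by positivity)
    (by field_simp; exact hW) (by rw [← mul_div_assoc, le_div_iff₀ hW0]; linarith)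
  refine ⟨∑ r ∈ Finset.Icc 1 (d + 1), (⌊κ r * W⌋₊ + 1) + (d + 1) ^ 2,
    ⟨fun r => ⌊κ r * W⌋₊ + 1, fun r h1 h2 => ?_, fun r h1 h2 => ?_, le_rfl⟩, ?_⟩
  · refine lev_NumR hd hW (by field_simp) (by field_simp) hW0 (by positivity) (by positivity)
      (h0 r) ?_ (Nat.le_add_left 1 _) (hl r h1 h2)
    push_cast
    exact Nat.lt_floor_add_one _
  · exact Nat.succ_le_succ (Nat.floor_mono (mul_le_mul_of_nonneg_right (hmono r h1 h2) hW0.le))
  · have h1 : ∑ r ∈ Finset.Icc 1 (d + 1), ((⌊κ r * W⌋₊ : ℝ) + 1) ≤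
        ∑ r ∈ Finset.Icc 1 (d + 1), (κ r * W + 1) :=
      Finset.sum_le_sum fun r _ => by
        have := Nat.floor_le (mul_nonneg (h0 r) hW0.le)
        linarith
    have h2 : ∑ r ∈ Finset.Icc 1 (d + 1), (κ r * W + 1) =
        (∑ r ∈ Finset.Icc 1 (d + 1), κ r) * W + (d + 1) := by
      rw [Finset.sum_add_distrib, ← Finset.sum_mul]
      simp
    have h3 := (div_le_iff₀ hσ0).1 (hw₀.trans hWw)
    have h5 := mul_le_mul_of_nonneg_right hsum hW0.le
    have h4 : (∑ r ∈ Finset.Icc 1 (d + 1), ((⌊κ r * W⌋₊ : ℝ) + 1)) + ((d : ℝ) + 1) ^ 2 + c ≤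
        (k : ℝ) * wa + wb := by
      rw [hW]
      linarith
    exact_mod_cast h4

/-- greedy search for a monotone schedule within a budget -/
def chkT (ok : ℕ → ℕ → Bool) : ℕ → ℕ → ℕ → ℕ → Bool
  | 0, _, _, _ => false
  | _ + 1, 0, _, _ => true
  | f + 1, r + 1, t, bud =>
    bif ok (r + 1) t then (Nat.ble t bud && chkT ok f r t (bud - t)) else chkT ok f (r + 1) (t + 1) bud

theorem chkT_spec (ok : ℕ → ℕ → Bool) : ∀ f r t bud, chkT ok f r t bud = true →
    ∃ T : ℕ → ℕ, (∀ s, 1 ≤ s → s ≤ r → ok s (T s) = true ∧ t ≤ T s) ∧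
      (∀ s, 1 ≤ s → s < r → T (s + 1) ≤ T s) ∧ ∑ s ∈ Finset.Icc 1 r, T s ≤ bud
  | 0, _, _, _, h => by simp [chkT] at h
  | _ + 1, 0, _, _, _ => ⟨fun _ => 0, fun s h1 h2 => by omega, fun s h1 h2 => by omega, by simp⟩
  | f + 1, r + 1, t, bud, h => by
    rw [chkT] at h
    cases hok : ok (r + 1) t
    · rw [hok, cond_false] at h
      obtain ⟨T, h1, h2, h3⟩ := chkT_spec ok f _ _ _ h
      exact ⟨T, fun s a b => ⟨(h1 s a b).1, by have := (h1 s a b).2; omega⟩, h2, h3⟩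
    · rw [hok, cond_true, Bool.and_eq_true, Nat.ble_eq] at h
      obtain ⟨T, h1, h2, h3⟩ := chkT_spec ok f _ _ _ h.2
      refine ⟨fun s => if s = r + 1 then t else T s, fun s a b => ?_, fun s a b => ?_, ?_⟩
      · by_cases e : s = r + 1
        · subst e; simp [hok]
        · simp only [if_neg e]; exact h1 s a (by omega)
      · have e : s ≠ r + 1 := by omega
        simp only [if_neg e]
        by_cases e2 : s = r
        · subst e2; simp only [if_true]; exact (h1 s a le_rfl).2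
        · rw [if_neg (by omega)]; exact h2 s a (by omega)
      · rw [Finset.sum_Icc_succ_top (by omega)]
        have : ∑ s ∈ Finset.Icc 1 r, (if s = r + 1 then t else T s) = ∑ s ∈ Finset.Icc 1 r, T s :=
          Finset.sum_congr rfl fun s hs => if_neg (by have := (Finset.mem_Icc.1 hs).2; omega)
        rw [this, if_pos rfl]
        have := h.1
        omega

/-- integer form of `LevR` on the interval `L / M ≤ a ≤ A / M`, `b ≤ B / M` -/
def okT (d k M L A B r t : ℕ) : Bool :=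
  Nat.ble A t ||
    (bif Nat.beq r (d + 1) then Nat.ble ((A * B) ^ d * M) (t ^ (d + 1) * M ^ d)
    else bif Nat.ble 3 r then
      Nat.ble (A ^ (r - 1) * B ^ r) (t ^ r * M ^ (r - 1)) &&
        Nat.ble (A ^ r * B ^ (r - 1)) (t ^ r * M ^ (r - 1))
    else bif Nat.beq r 2 then
      Nat.ble (A ^ 2 * B) (t ^ 2 * M) && Nat.ble (A * B ^ 2) (2 * t ^ 2 * M) &&
        Nat.ble (A * B ^ 2) ((M + 2 * k * L) * t ^ 2)
    else Nat.ble (min A B) (2 * t) && Nat.ble (A * B) ((A + B) * t) && Nat.ble A (3 * t) &&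
      Nat.ble B (3 * t))

theorem beq_NumT {x y : ℕ} (h : x ≠ y) : Nat.beq x y = false := by
  cases e : Nat.beq x y
  · rfl
  · exact absurd (Nat.eq_of_beq_eq_true e) h

theorem levR_okT {d k M L A B r t : ℕ} (hd : 2 ≤ d) (hM : 0 < M) (hr : 1 ≤ r) {a b : ℝ}
    (ha : 0 < a) (hb : 0 < b) (e : k * a + b = 1) (hL : (L : ℝ) ≤ a * M) (hA : a * M ≤ A)
    (hB : b * M ≤ B) (h : okT d k M L A B r t = true) : LevR d k r a b (t / M) := by
  have hM' : (0 : ℝ) < M := by exact_mod_cast hM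
  obtain ⟨κ, hκ⟩ : ∃ κ : ℝ, κ = t / M := ⟨_, rfl⟩
  have ht : (t : ℝ) = κ * M := by rw [hκ]; field_simp
  have hκ0 : 0 ≤ κ := by rw [hκ]; positivity
  rw [← hκ]
  have ha' : 0 < a * M := by positivity
  have hb' : 0 < b * M := by positivity
  unfold okT at h
  rw [Bool.or_eq_true, Nat.ble_eq] at h
  rcases h with h | h
  · left
    have : (A : ℝ) ≤ t := by exact_mod_cast h
    exact le_of_mul_le_mul_right (by linarith) hM'
  right
  refine ⟨?_, ?_, ?_, ?_⟩
  · rintro rfl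
    rw [Nat.beq_refl, cond_true, Nat.ble_eq] at h
    have h1 : ((A : ℝ) * B) ^ d * M ≤ t ^ (d + 1) * M ^ d := by exact_mod_cast h
    have h2 : (a * M * (b * M)) ^ d * M ≤ ((A : ℝ) * B) ^ d * M := by gcongr
    have h3 := h2.trans h1
    rw [ht] at h3
    refine le_of_mul_le_mul_right ?_ (show (0 : ℝ) < M ^ (2 * d + 1) by positivity)
    calc _ = (a * M * (b * M)) ^ d * M := by ring
      _ ≤ _ := h3
      _ = _ := by ring
  · intro h3 hd'
    rw [show Nat.beq r (d + 1) = false from beq_NumT (by omega), cond_false,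
      show Nat.ble 3 r = true from by simpa using h3, cond_true, Bool.and_eq_true, Nat.ble_eq,
      Nat.ble_eq] at h
    obtain ⟨s, rfl⟩ : ∃ s, r = s + 1 := ⟨r - 1, by omega⟩
    simp only [Nat.add_sub_cancel] at h
    have h1 : (A : ℝ) ^ s * B ^ (s + 1) ≤ t ^ (s + 1) * M ^ s := by exact_mod_cast h.1
    have h2 : (A : ℝ) ^ (s + 1) * B ^ s ≤ t ^ (s + 1) * M ^ s := by exact_mod_cast h.2
    have h4 : (a * M) ^ s * (b * M) ^ (s + 1) ≤ (A : ℝ) ^ s * B ^ (s + 1) := by gcongr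
    have h5 : (a * M) ^ (s + 1) * (b * M) ^ s ≤ (A : ℝ) ^ (s + 1) * B ^ s := by gcongr
    rw [ht] at h1 h2
    have h6 : a ^ s * b ^ (s + 1) ≤ κ ^ (s + 1) := by
      refine le_of_mul_le_mul_right ?_ (show (0 : ℝ) < M ^ (2 * s + 1) by positivity)
      calc _ = (a * M) ^ s * (b * M) ^ (s + 1) := by ring
        _ ≤ _ := h4.trans h1
        _ = _ := by ring
    have h7 : a ^ (s + 1) * b ^ s ≤ κ ^ (s + 1) := by
      refine le_of_mul_le_mul_right ?_ (show (0 : ℝ) < M ^ (2 * s + 1) by positivity)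
      calc _ = (a * M) ^ (s + 1) * (b * M) ^ s := by ring
        _ ≤ _ := h5.trans h2
        _ = _ := by ring
    rcases le_total a b with h8 | h8
    · rw [min_eq_left h8]
      calc _ = a * (a ^ s * b ^ (s + 1)) := by ring
        _ ≤ _ := by gcongr
    · rw [min_eq_right h8]
      calc _ = b * (a ^ (s + 1) * b ^ s) := by ring
        _ ≤ _ := by gcongr
  · rintro rfl
    rw [show Nat.beq 2 (d + 1) = false from beq_NumT (by omega), cond_false,
      show Nat.ble 3 2 = false from rfl, cond_false, show Nat.beq 2 2 = true from rfl, cond_true,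
      Bool.and_eq_true, Bool.and_eq_true, Nat.ble_eq, Nat.ble_eq, Nat.ble_eq] at h
    have h1 : (A : ℝ) ^ 2 * B ≤ t ^ 2 * M := by exact_mod_cast h.1.1
    have h2 : (A : ℝ) * B ^ 2 ≤ 2 * t ^ 2 * M := by exact_mod_cast h.1.2
    have h3 : (A : ℝ) * B ^ 2 ≤ (M + 2 * k * L) * t ^ 2 := by exact_mod_cast h.2
    have h4 : (a * M) ^ 2 * (b * M) ≤ (A : ℝ) ^ 2 * B := by gcongr
    have h5 : (a * M) * (b * M) ^ 2 ≤ (A : ℝ) * B ^ 2 := by gcongr
    have h9 : ((M : ℝ) + 2 * k * L) * t ^ 2 ≤ (M + 2 * k * (a * M)) * t ^ 2 := by gcongr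
    rw [ht] at h1 h2 h3 h9
    have hM3 : (0 : ℝ) < M ^ 3 := by positivity
    have h6 : a ^ 2 * b ≤ κ ^ 2 := by
      refine le_of_mul_le_mul_right ?_ hM3
      calc _ = (a * M) ^ 2 * (b * M) := by ring
        _ ≤ _ := h4.trans h1
        _ = _ := by ring
    have h7 : a * b ^ 2 ≤ 2 * κ ^ 2 := by
      refine le_of_mul_le_mul_right ?_ hM3
      calc _ = (a * M) * (b * M) ^ 2 := by ring
        _ ≤ _ := h5.trans h2
        _ = _ := by ring
    have h8 : a * b ^ 2 ≤ (1 + 2 * k * a) * κ ^ 2 := by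
      refine le_of_mul_le_mul_right ?_ hM3
      calc _ = (a * M) * (b * M) ^ 2 := by ring
        _ ≤ _ := h5.trans (h3.trans h9)
        _ = _ := by ring
    refine ⟨?_, ?_, ?_⟩
    · calc _ = b * (a ^ 2 * b) := by ring
        _ ≤ _ := by gcongr
    · calc _ = a * (a * b ^ 2) := by ring
        _ ≤ a * (2 * κ ^ 2) := by gcongr
        _ = _ := by ring
    · rw [show 3 * k * a + b = 1 + 2 * k * a by linarith]
      exact h8
  · rintro rfl
    rw [show Nat.beq 1 (d + 1) = false from beq_NumT (by omega), cond_false,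
      show Nat.ble 3 1 = false from rfl, cond_false, show Nat.beq 1 2 = false from rfl, cond_false,
      Bool.and_eq_true, Bool.and_eq_true, Bool.and_eq_true, Nat.ble_eq, Nat.ble_eq, Nat.ble_eq,
      Nat.ble_eq] at h
    have h1 : min (A : ℝ) B ≤ 2 * t := by exact_mod_cast h.1.1.1
    have h2 : (A : ℝ) * B ≤ (A + B) * t := by exact_mod_cast h.1.1.2
    have h3 : (A : ℝ) ≤ 3 * t := by exact_mod_cast h.1.2
    have h4 : (B : ℝ) ≤ 3 * t := by exact_mod_cast h.2
    rw [ht] at h1 h2 h3 h4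
    refine ⟨?_, ?_, le_of_mul_le_mul_right (by linarith) hM',
      le_of_mul_le_mul_right (by linarith) hM'⟩
    · refine le_of_mul_le_mul_right ?_ hM'
      rw [min_mul_of_nonneg _ _ hM'.le]
      exact (min_le_min hA hB).trans (by linarith)
    · have hAB : (0 : ℝ) < A + B := by linarith
      have h5 : a * M * (b * M) * (A + B) ≤ A * B * (a * M + b * M) := by
        have g1 : a * M * (b * M) * A ≤ a * M * B * A := by gcongr
        have g2 : a * M * (b * M) * B ≤ A * (b * M) * B := by gcongr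
        linarith
      have h6 : A * B * (a * M + b * M) ≤ (A + B) * (κ * M) * (a * M + b * M) := by gcongr
      have h7 : a * M * (b * M) ≤ κ * M * (a * M + b * M) :=
        le_of_mul_le_mul_right (by linarith) hAB
      refine le_of_mul_le_mul_right ?_ (show (0 : ℝ) < M ^ 2 by positivity)
      linarith

/-- check of all intervals -/
def allT (d k c : ℕ) : Bool :=
  (List.range (2 * c + 1)).all fun j => Nat.ble (c * d) (k * (c + j)) ||
    chkT (okT d k (c * d) (c + j) (c + j + 1) (c * d - k * (c + j))) 400 (d + 1)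
      ((c + j + 1) * (c * d - k * (c + j)) / (c * d)) (c * d - 1)

theorem feas_allT (d k c : ℕ) (hd : 2 ≤ d) (hc : 0 < c) (hk : d ≤ 3 * k)
    (h : allT d k c = true) : Feas d k := by
  have hM : 0 < c * d := by positivity
  have hM' : (0 : ℝ) < (c * d : ℕ) := by exact_mod_cast hM
  refine feas_of_real2 d k (by omega) (((c * d - 1 : ℕ) : ℝ) / (c * d : ℕ))
    ((div_lt_one hM').2 (by exact_mod_cast (by omega))) fun a b ha hb e h1 => ?_
  have hc' : (0 : ℝ) < c := by exact_mod_cast hc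
  have hk' : (d : ℝ) ≤ 3 * k := by exact_mod_cast hk
  have x1 : (c : ℝ) ≤ a * (c * d : ℕ) := by push_cast; nlinarith
  have x2 : a * (c * d : ℕ) ≤ 3 * c := by
    push_cast
    have : a * d ≤ 3 := by nlinarith
    nlinarith
  obtain ⟨n, hn⟩ : ∃ n, n = ⌊a * (c * d : ℕ)⌋₊ := ⟨_, rfl⟩
  have n1 : c ≤ n := by rw [hn]; exact Nat.le_floor x1
  have n2 : (n : ℝ) ≤ a * (c * d : ℕ) := by rw [hn]; exact Nat.floor_le (by positivity)
  have n3 : a * (c * d : ℕ) < n + 1 := by rw [hn]; exact Nat.lt_floor_add_one _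
  have n4 : n ≤ 3 * c := by exact_mod_cast n2.trans x2
  have n5 : ((k * n : ℕ) : ℝ) < (c * d : ℕ) := by
    rw [Nat.cast_mul k]
    have : (k : ℝ) * n ≤ k * (a * (c * d : ℕ)) := by gcongr
    nlinarith
  have n6 : k * n < c * d := by exact_mod_cast n5
  have h2 := List.all_eq_true.1 h (n - c) (List.mem_range.2 (by omega))
  rw [show c + (n - c) = n by omega, Bool.or_eq_true, Nat.ble_eq] at h2
  obtain ⟨T, t1, t2, t3⟩ := chkT_spec _ _ _ _ _ (h2.resolve_left (by omega))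
  refine ⟨fun r => T r / (c * d : ℕ), fun r => by positivity, fun r r1 r2 => ?_, ?_,
    fun r r1 r2 => levR_okT hd hM r1 ha hb e n2 (by push_cast at n3 ⊢; exact n3.le) ?_
      (t1 r r1 r2).1⟩
  · have : (T (r + 1) : ℝ) ≤ T r := by exact_mod_cast t2 r r1 (by omega)
    exact div_le_div_of_nonneg_right this hM'.le
  · rw [← Finset.sum_div]
    have : (∑ r ∈ Finset.Icc 1 (d + 1), (T r : ℝ)) ≤ (c * d - 1 : ℕ) := by exact_mod_cast t3
    exact div_le_div_of_nonneg_right this hM'.le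
  · rw [Nat.cast_sub n6.le, Nat.cast_mul k]
    have : (k : ℝ) * n ≤ k * (a * (c * d : ℕ)) := by gcongr
    have e2 : b = 1 - k * a := by linarith
    rw [e2]
    nlinarith

theorem sum_of_chk (d k S : ℕ) (hS : 0 < S) (hk : 0 < k)
    (h : chkT (fun r t => Nat.ble (4 * S) t || Nat.ble (4 * k * S ^ r) (t ^ r)) 1500 (d + 1) S
      (4 * k * S - 1) = true) :
    ∑ r ∈ Finset.Icc 1 (d + 1), min ((4 * k : ℝ) ^ ((r : ℝ)⁻¹)) 4 < 4 * k := by
  obtain ⟨T, t1, -, t3⟩ := chkT_spec _ _ _ _ _ h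
  have hS' : (0 : ℝ) < S := by exact_mod_cast hS
  have hp : 0 < 4 * k * S := by positivity
  have t4 : (∑ r ∈ Finset.Icc 1 (d + 1), (T r : ℝ)) < 4 * k * S := by
    exact_mod_cast (by omega : ∑ r ∈ Finset.Icc 1 (d + 1), T r < 4 * k * S)
  refine lt_of_le_of_lt (Finset.sum_le_sum (g := fun r => (T r : ℝ) / S) fun r hr => ?_) ?_
  · obtain ⟨r1, r2⟩ := Finset.mem_Icc.1 hr
    have := (t1 r r1 r2).1
    rw [Bool.or_eq_true, Nat.ble_eq, Nat.ble_eq] at this
    rcases this with h1 | h1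
    · refine (min_le_right _ _).trans ?_
      rw [le_div_iff₀ hS']
      exact_mod_cast h1
    · refine (min_le_left _ _).trans ?_
      have h2 : (4 * k : ℝ) ≤ ((T r : ℝ) / S) ^ r := by
        rw [div_pow, le_div_iff₀ (by positivity)]
        exact_mod_cast h1
      calc _ ≤ (((T r : ℝ) / S) ^ r) ^ ((r : ℝ)⁻¹) :=
            Real.rpow_le_rpow (by positivity) h2 (by positivity)
        _ = _ := Real.pow_rpow_inv_natCast (by positivity) (by omega)
  · rw [← Finset.sum_div, div_lt_iff₀ hS']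
    exact t4

end Vale.Agent.P018
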