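import Vale.Agent.P018.NumT

namespace Vale.Agent.P018

theorem allA_NumU : (List.range 30).all (fun i => allT (i + 11) ((i + 17) / 3) 30) = true := by
  decide +kernel

theorem allB_NumU : (List.range 24).all (fun i => allT (i + 41) ((i + 47) / 3) 16) = true := by
  decide +kernel

theorem allC_NumU : (List.range 57).all (fun i => chkT (fun r t => Nat.ble (4 * 250) t ||
    Nat.ble (4 * (i + 23) * 250 ^ r) (t ^ r)) 1500 (3 * i + 65 + 1) 250
      (4 * (i + 23) * 250 - 1)) = true := by
  decide +kernel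

theorem sum_large_NumU (k : ℕ) (hk : 80 ≤ k) :
    ∑ r ∈ Finset.Icc 1 (3 * k - 4 + 1), min ((4 * k : ℝ) ^ ((r : ℝ)⁻¹)) 4 < 4 * k := by
  refine sum_lt_of_log _ k (by omega) ?_
  have hk' : (80 : ℝ) ≤ k := by exact_mod_cast hk
  have e : ((3 * k - 4 : ℕ) : ℝ) = 3 * k - 4 := by
    rw [Nat.cast_sub (by omega)]; push_cast; ring
  rw [e]
  have l2 := Real.log_two_lt_d9
  have l5 : Real.log 5 < 1.61 := by
    have b1 := Real.log_le_sub_one_of_pos (show (0 : ℝ) < 5 ^ 3 / 2 ^ 7 by positivity)
    rw [Real.log_div (by norm_num) (by norm_num), Real.log_pow, Real.log_pow] at b1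
    push_cast at b1
    linarith
  have l3 : Real.log 3 < 1.1 := by
    have b1 := Real.log_le_sub_one_of_pos (show (0 : ℝ) < 3 ^ 5 / 2 ^ 8 by positivity)
    rw [Real.log_div (by norm_num) (by norm_num), Real.log_pow, Real.log_pow] at b1
    push_cast at b1
    linarith
  obtain ⟨t, ht⟩ : ∃ t, t = √((k : ℝ) / 80) := ⟨_, rfl⟩
  have t0 : 0 < t := by rw [ht]; positivity
  have t1 : t ^ 2 = k / 80 := by rw [ht]; exact Real.sq_sqrt (by positivity)
  have t2 : 1 ≤ t := by nlinarith
  have t3 := Real.log_le_sub_one_of_pos t0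
  have a1 : Real.log (4 * k) = 6 * Real.log 2 + Real.log 5 + 2 * Real.log t := by
    rw [show (4 * k : ℝ) = 2 ^ 6 * 5 * t ^ 2 by rw [t1]; ring, Real.log_mul (by norm_num) (by positivity),
      Real.log_mul (by norm_num) (by norm_num), Real.log_pow, Real.log_pow]
    push_cast; ring
  have a2 : Real.log (3 * k) = 4 * Real.log 2 + Real.log 5 + Real.log 3 + 2 * Real.log t := by
    rw [show (3 * k : ℝ) = 2 ^ 4 * 5 * 3 * t ^ 2 by rw [t1]; ring, Real.log_mul (by norm_num) (by positivity),
      Real.log_mul (by norm_num) (by norm_num), Real.log_mul (by norm_num) (by norm_num), Real.log_pow,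
      Real.log_pow]
    push_cast; ring
  have a3 : Real.log (3 * k - 4 + 1) ≤ Real.log (3 * k) := Real.log_le_log (by linarith) (by linarith)
  have a4 : 0 ≤ Real.log (3 * (k : ℝ) - 4 + 1) := Real.log_nonneg (by linarith)
  have a5 : Real.log (4 * k) * (1 + Real.log (3 * k - 4 + 1)) ≤ (3.77 + 2 * t) * (4.49 + 2 * t) :=
    mul_le_mul (by linarith) (by linarith) (by linarith) (by linarith)
  nlinarith

theorem feas_third (d : ℕ) (hd : 11 ≤ d) : Feas d ((d + 6) / 3) := by
  by_cases h1 : d < 41
  · have h := List.all_eq_true.1 allA_NumU (d - 11) (List.mem_range.2 (by omega))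
    rw [show d - 11 + 11 = d by omega, show d - 11 + 17 = d + 6 by omega] at h
    exact feas_allT d _ 30 (by omega) (by omega) (by omega) h
  by_cases h2 : d < 65
  · have h := List.all_eq_true.1 allB_NumU (d - 41) (List.mem_range.2 (by omega))
    rw [show d - 41 + 41 = d by omega, show d - 41 + 47 = d + 6 by omega] at h
    exact feas_allT d _ 16 (by omega) (by omega) (by omega) h
  obtain ⟨k, hk⟩ : ∃ k, k = (d + 6) / 3 := ⟨_, rfl⟩
  rw [← hk]
  have hs : ∑ r ∈ Finset.Icc 1 (3 * k - 4 + 1), min ((4 * k : ℝ) ^ ((r : ℝ)⁻¹)) 4 < 4 * k := by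
    by_cases h3 : k < 80
    · have h := List.all_eq_true.1 allC_NumU (k - 23) (List.mem_range.2 (by omega))
      rw [show k - 23 + 23 = k by omega, show 3 * (k - 23) + 65 = 3 * k - 4 by omega] at h
      exact sum_of_chk _ k 250 (by omega) (by omega) h
    · exact sum_large_NumU k (by omega)
  refine feas_of_sum d k (by omega) (by omega) (lt_of_le_of_lt ?_ hs)
  exact Finset.sum_le_sum_of_subset_of_nonneg (Finset.Icc_subset_Icc_right (by omega))
    fun r _ _ => le_min (by positivity) (by norm_num)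

end Vale.Agent.P018
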