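import Vale.Agent.P018.Defs

namespace Vale.Agent.P018

open NumberField MvPolynomial

theorem bezout_Rho (f : Polynomial ℤ) (hf : Irreducible (f.map (Int.castRingHom ℚ))) :
    ∃ (a b : Polynomial ℤ) (D : ℤ), D ≠ 0 ∧
      a * f + b * Polynomial.derivative f = Polynomial.C D := by
  obtain ⟨u, v, huv⟩ : IsCoprime (f.map (Int.castRingHom ℚ))
    (Polynomial.derivative (f.map (Int.castRingHom ℚ))) := hf.separable
  obtain ⟨s, hs, e1⟩ := IsLocalization.integerNormalization_spec (nonZeroDivisors ℤ) u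
  obtain ⟨t, ht, e2⟩ := IsLocalization.integerNormalization_spec (nonZeroDivisors ℤ) v
  refine ⟨Polynomial.C t * IsLocalization.integerNormalization (nonZeroDivisors ℤ) u,
    Polynomial.C s * IsLocalization.integerNormalization (nonZeroDivisors ℤ) v, s * t,
    mul_ne_zero (nonZeroDivisors.ne_zero hs) (nonZeroDivisors.ne_zero ht), ?_⟩
  apply Polynomial.map_injective (Int.castRingHom ℚ) (RingHom.injective_int _)
  have e0 : algebraMap ℤ ℚ = Int.castRingHom ℚ := rfl
  rw [e0] at e1 e2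
  rw [Polynomial.derivative_map] at huv
  simp only [Polynomial.map_add, Polynomial.map_mul, Polynomial.map_C, e1, e2, zsmul_eq_mul,
    map_mul, eq_intCast, Polynomial.map_intCast, map_intCast]
  linear_combination ((s : Polynomial ℚ) * (t : Polynomial ℚ)) * huv

theorem rho_le (f : Polynomial ℤ) (hf : Irreducible (f.map (Int.castRingHom ℚ))) :
    ∃ p₀ : ℕ, ∀ p : ℕ, p.Prime → p₀ < p → ∀ k, 1 ≤ k → rho f (p ^ k) ≤ f.natDegree := by
  classical
  obtain ⟨a, b, D, hD, e⟩ := bezout_Rho f hf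
  refine ⟨D.natAbs, fun p hp hlt k hk => ?_⟩
  haveI := Fact.mk hp
  have hpD : ¬ (p : ℤ) ∣ D := by
    intro h
    have := Nat.le_of_dvd (Int.natAbs_pos.mpr hD) (Int.natCast_dvd.mp h)
    omega
  have hpk : (p : ℤ) ∣ ((p ^ k : ℕ) : ℤ) := by
    push_cast
    exact dvd_pow_self _ (by omega)
  have hder : ∀ x : ℤ, (p : ℤ) ∣ f.eval x → ¬ (p : ℤ) ∣ (Polynomial.derivative f).eval x := by
    intro x h1 h2
    apply hpD
    have := congrArg (Polynomial.eval x) e
    rw [Polynomial.eval_add, Polynomial.eval_mul, Polynomial.eval_mul, Polynomial.eval_C] at this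
    rw [← this]
    exact (h1.mul_left _).add (h2.mul_left _)
  have hf0 : f.map (Int.castRingHom (ZMod p)) ≠ 0 := by
    intro h
    apply hpD
    have := congrArg (Polynomial.map (Int.castRingHom (ZMod p))) e
    rw [Polynomial.map_add, Polynomial.map_mul, Polynomial.map_mul, ← Polynomial.derivative_map, h,
      Polynomial.map_C] at this
    simp only [mul_zero, map_zero, add_zero] at this
    have h2 := Polynomial.C_eq_zero.mp this.symm
    exact (ZMod.intCast_zmod_eq_zero_iff_dvd D p).mp h2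
  refine le_trans ?_ ((Polynomial.card_roots' (f.map (Int.castRingHom (ZMod p)))).trans
    Polynomial.natDegree_map_le)
  refine le_trans ?_ (Multiset.toFinset_card_le _)
  unfold rho
  refine Finset.card_le_card_of_injOn (fun x : ℕ => (x : ZMod p)) ?_ ?_
  · intro x hx
    simp only [Finset.coe_filter, Set.mem_setOf_eq] at hx
    rw [Finset.mem_coe, Multiset.mem_toFinset, Polynomial.mem_roots hf0, Polynomial.IsRoot.def]
    have h1 : ((x : ℕ) : ZMod p) = Int.castRingHom (ZMod p) (x : ℤ) := by simp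
    beta_reduce
    rw [h1, Polynomial.eval_map, Polynomial.eval₂_at_apply]
    exact (ZMod.intCast_zmod_eq_zero_iff_dvd _ p).mpr (hpk.trans hx.2)
  · intro x hx y hy hxy
    simp only [Finset.coe_filter, Set.mem_setOf_eq, Finset.mem_range] at hx hy
    have h1 : (p : ℤ) ∣ (x : ℤ) - y := by
      rw [← ZMod.intCast_zmod_eq_zero_iff_dvd]
      push_cast
      exact sub_eq_zero.mpr hxy
    obtain ⟨c, hc⟩ := f.binomExpansion (y : ℤ) ((x : ℤ) - y)
    rw [add_sub_cancel] at hc
    have h2 : ((p ^ k : ℕ) : ℤ) ∣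
        ((Polynomial.derivative f).eval (y : ℤ) + c * ((x : ℤ) - y)) * ((x : ℤ) - y) := by
      have : ((Polynomial.derivative f).eval (y : ℤ) + c * ((x : ℤ) - y)) * ((x : ℤ) - y) =
          f.eval (x : ℤ) - f.eval (y : ℤ) := by
        rw [hc]; ring
      rw [this]
      exact hx.2.sub hy.2
    have h3 : ¬ (p : ℤ) ∣ (Polynomial.derivative f).eval (y : ℤ) + c * ((x : ℤ) - y) := by
      intro h
      exact hder _ (hpk.trans hy.2) ((dvd_add_left (h1.mul_left c)).mp h)
    have hpr : Prime (p : ℤ) := Nat.prime_iff_prime_int.mp hp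
    have h4 : ((p ^ k : ℕ) : ℤ) ∣ (x : ℤ) - y := by
      push_cast at h2 ⊢
      exact hpr.pow_dvd_of_dvd_mul_left k h3 h2
    have h5 : y ≡ x [MOD p ^ k] := Nat.modEq_iff_dvd.mpr h4
    exact (h5.eq_of_lt_of_lt hy.1 hx.1).symm

theorem rho_le_self (f : Polynomial ℤ) (q : ℕ) : rho f q ≤ q := by
  unfold rho
  exact (Finset.card_filter_le _ _).trans (Finset.card_range q).le

theorem cnt_le (f : Polynomial ℤ) (q : ℕ) (hq : 0 < q) (X : ℕ) :
    ((((Finset.Icc 1 X).filter (fun n : ℕ => (q : ℤ) ∣ f.eval (n : ℤ))).card : ℕ) : ℝ) ≤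
      rho f q * ((X : ℝ) / q + 1) := by
  have h1 : ((Finset.Icc 1 X).filter (fun n : ℕ => (q : ℤ) ∣ f.eval (n : ℤ))).card ≤
      rho f q * (X / q + 1) := by
    unfold rho
    rw [← Finset.card_range (X / q + 1), ← Finset.card_product]
    refine Finset.card_le_card_of_injOn (fun n : ℕ => (n % q, n / q)) ?_ ?_
    · intro n hn
      simp only [Finset.coe_filter, Set.mem_setOf_eq, Finset.mem_Icc] at hn
      simp only [Finset.coe_product, Set.mem_prod, Finset.coe_filter, Set.mem_setOf_eq,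
        Finset.mem_range, Finset.coe_range, Set.mem_Iio]
      refine ⟨⟨Nat.mod_lt _ hq, ?_⟩, Nat.lt_succ_of_le (Nat.div_le_div_right hn.1.2)⟩
      have h2 : (q : ℤ) ∣ (n : ℤ) - ((n % q : ℕ) : ℤ) :=
        (Nat.modEq_iff_dvd (n := q) (a := n % q) (b := n)).mp (Nat.mod_modEq n q)
      have h3 := h2.trans (Polynomial.sub_dvd_eval_sub (n : ℤ) ((n % q : ℕ) : ℤ) f)
      exact (dvd_sub_right hn.2).mp h3
    · intro n _ m _ h
      simp only [Prod.mk.injEq] at h
      rw [← Nat.div_add_mod n q, ← Nat.div_add_mod m q, h.1, h.2]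
  calc ((((Finset.Icc 1 X).filter (fun n : ℕ => (q : ℤ) ∣ f.eval (n : ℤ))).card : ℕ) : ℝ)
      ≤ ((rho f q * (X / q + 1) : ℕ) : ℝ) := by exact_mod_cast h1
    _ ≤ rho f q * ((X : ℝ) / q + 1) := by
      push_cast
      gcongr
      exact Nat.cast_div_le

end Vale.Agent.P018
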