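import Vale.Agent.P018.Euler
import Vale.Agent.P018.Dens

namespace Vale.Agent.P018

open NumberField MvPolynomial

open Filter Topology

open Classical in
theorem sieve (f : Polynomial ℤ) (hf : Irreducible (f.map (Int.castRingHom ℚ))) (k : ℕ)
    (hk : 2 ≤ k)
    (hbig : Tendsto (fun X : ℕ => (((Finset.Icc 1 X).filter (fun n : ℕ =>
      ∃ p : ℕ, p.Prime ∧ X < p ∧ (p : ℤ) ^ k ∣ f.eval (n : ℤ))).card : ℝ) / X) atTop (𝓝 0)) :
    ∃ c : ℝ, HasProd (fun p : Nat.Primes => 1 - (rho f (p ^ k) : ℝ) / ((p : ℕ) : ℝ) ^ k) c ∧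
      ((∀ p : ℕ, p.Prime → rho f (p ^ k) < p ^ k) → 0 < c) ∧
      Tendsto (fun X : ℕ => (((Finset.Icc 1 X).filter (fun n : ℕ =>
        ∀ p : ℕ, p.Prime → ¬ (p : ℤ) ^ k ∣ f.eval (n : ℤ))).card : ℝ) / X) atTop (𝓝 c) := by
  obtain ⟨c, h1, h2, h3⟩ := euler f hf k hk
  refine ⟨c, h1, h2, Metric.tendsto_nhds.2 fun ε hε => ?_⟩
  have hε' : 0 < ε / 4 := by positivity
  obtain ⟨z, hz1, hz2⟩ := ((Metric.tendsto_nhds.1 h3 _ hε').and (middle f hf k hk _ hε')).exists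
  have h4 := Metric.tendsto_nhds.1 (dens f k ((Finset.range (z + 1)).filter Nat.Prime)
    fun p hp => (Finset.mem_filter.1 hp).2) _ hε'
  filter_upwards [hz2, h4, Metric.tendsto_nhds.1 hbig _ hε', eventually_gt_atTop 0]
    with X a b e hX
  have hX' : (0 : ℝ) < X := by exact_mod_cast hX
  set A := (Finset.Icc 1 X).filter (fun n : ℕ =>
    ∀ p : ℕ, p.Prime → ¬ (p : ℤ) ^ k ∣ f.eval (n : ℤ))
  set B := (Finset.Icc 1 X).filter (fun n : ℕ =>
    ∀ p ∈ (Finset.range (z + 1)).filter Nat.Prime, ¬ (p : ℤ) ^ k ∣ f.eval (n : ℤ))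
  set M := (Finset.Icc 1 X).filter (fun n : ℕ =>
    ∃ p : ℕ, p.Prime ∧ z < p ∧ p ≤ X ∧ (p : ℤ) ^ k ∣ f.eval (n : ℤ))
  set G := (Finset.Icc 1 X).filter (fun n : ℕ =>
    ∃ p : ℕ, p.Prime ∧ X < p ∧ (p : ℤ) ^ k ∣ f.eval (n : ℤ))
  have h5 : A ⊆ B := fun n hn => Finset.mem_filter.2 ⟨(Finset.mem_filter.1 hn).1, fun p hp =>
    (Finset.mem_filter.1 hn).2 p (Finset.mem_filter.1 hp).2⟩
  have h6 : B ⊆ A ∪ M ∪ G := fun n hn => by
    obtain ⟨n1, n2⟩ := Finset.mem_filter.1 hn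
    by_cases h : ∀ p : ℕ, p.Prime → ¬ (p : ℤ) ^ k ∣ f.eval (n : ℤ)
    · exact Finset.mem_union_left _ (Finset.mem_union_left _ (Finset.mem_filter.2 ⟨n1, h⟩))
    simp only [not_forall, not_not] at h
    obtain ⟨p, hp, hd⟩ := h
    have hz : z < p := by
      by_contra hz
      exact n2 p (Finset.mem_filter.2 ⟨Finset.mem_range.2 (by omega), hp⟩) hd
    by_cases hpX : p ≤ X
    · exact Finset.mem_union_left _ (Finset.mem_union_right _
        (Finset.mem_filter.2 ⟨n1, p, hp, hz, hpX, hd⟩))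
    · exact Finset.mem_union_right _ (Finset.mem_filter.2 ⟨n1, p, hp, not_le.1 hpX, hd⟩)
  have h7 : (A.card : ℝ) / X ≤ B.card / X :=
    div_le_div_of_nonneg_right (by exact_mod_cast Finset.card_le_card h5) hX'.le
  have h8 : (B.card : ℝ) ≤ A.card + M.card + G.card := by
    exact_mod_cast (Finset.card_le_card h6).trans ((Finset.card_union_le _ _).trans
      (Nat.add_le_add_right (Finset.card_union_le _ _) _))
  have h9 := div_le_div_of_nonneg_right h8 hX'.le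
  rw [add_div, add_div] at h9
  have h10 : (M.card : ℝ) / X ≤ ε / 4 := (div_le_iff₀ hX').2 a
  rw [Real.dist_eq, abs_lt] at hz1 b e ⊢
  constructor <;> linarith [hz1.1, hz1.2, b.1, b.2, e.1, e.2]

end Vale.Agent.P018
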