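import Vale.Agent.P018.Gam
import Vale.Agent.P018.Line
import Vale.Agent.P018.Curve

namespace Vale.Agent.P018

open NumberField MvPolynomial

theorem core_step {d k wa wb v : ℕ} (hN : Num d k wa wb v) (r D : ℕ) (hr : r < d) :
    ∃ (D' : ℕ) (Y₀ : ℝ), ∀ (L : Type) [Field L] [NumberField L] (P : Pts L d k wa wb)
    (W S : Finset ℕ) (J : Finset (Fin d)) (F : Fin d → MvPolynomial (Option (Fin d)) ℂ),
    Y₀ ≤ P.Y → P.Pool S → P.Cls W S → v ≤ S.card → J.card = r →
    (∀ i ∉ J, ∀ q ∈ S, Loc (q : 𝓞 L) W (P.par J) (fun n => P.al n i)) →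
    (∀ i ∉ J, Irreducible (F i) ∧ Supp (insert i J) (F i) ∧ (F i).totalDegree ≤ D ∧
      (∀ n ∈ W, eval (P.uc n) (F i) = 0) ∧ pderiv (some i) (F i) ≠ 0) →
    P.Rel W J D' := by
  have hk1 : 1 ≤ k := le_trans (by norm_num) hN.hk
  have hdeg : ∀ {G : MvPolynomial (Option (Fin d)) ℂ} {i : Fin d}, pderiv (some i) G ≠ 0 →
      1 ≤ G.totalDegree := by
    intro G i hG
    by_contra h
    have h0 : G.totalDegree = 0 := by omega
    rw [totalDegree_eq_zero_iff_eq_C] at h0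
    apply hG
    rw [h0]; simp
  rcases Nat.lt_or_ge r 1 with h0 | h1
  · obtain ⟨Dc, Yc, hc⟩ := curve hN
    refine ⟨Dc, Yc, fun L _ _ P W S J F hY hP hC hv hJ hL _ => ?_⟩
    have hJ0 : J = ∅ := Finset.card_eq_zero.1 (by omega)
    subst hJ0
    exact Pts.Rel.of_card P _ (hc L P W S hY hP hC hv (fun i q hq => hL i (by simp) q hq))
  rcases Nat.lt_or_ge r 2 with h2 | h2
  · obtain rfl : r = 1 := by omega
    obtain ⟨Dl, Yl, hl⟩ := line hN
    have hw : 1 ≤ min wb (2 * wa) := le_min hN.hb (by have := hN.ha; omega)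
    have hnum : (wa * wb) ^ (1 + 1) < min wb (2 * wa) * (k * wa + wb) ^ 1 * v ^ (1 + 1) := by
      rcases le_total wb (2 * wa) with h | h
      · rw [min_eq_left h]; simpa using hN.twob
      · rw [min_eq_right h]; simpa using hN.twoa
    obtain ⟨Dh, Yh, hh⟩ := hypstep d k wa wb v 1 (min wb (2 * wa)) D hk1 hN.ha hN.hb hN.hv hw hnum
    refine ⟨max Dl Dh, max Yl Yh, fun L _ _ P W S J F hY hP hC hv hJ hL hF => ?_⟩
    by_cases hex : ∃ i ∉ J, ¬ (degreeOf none (F i) = 0 ∧ (F i).totalDegree ≤ 1)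
    · obtain ⟨i, hi, hn⟩ := hex
      obtain ⟨f1, f2, f3, f4, -⟩ := hF i hi
      refine (hh L P W S J i (F i) ((le_max_right _ _).trans hY) hP hC hv hi hJ f1 f2 f3 f4
        (hL i hi) (fun _ => min_le_left _ _) (fun h => ?_)).mono le_rfl le_rfl (le_max_right _ _)
      have : 2 ≤ (F i).totalDegree := by
        by_contra h'
        exact hn ⟨h, by omega⟩
      exact (min_le_right _ _).trans (Nat.mul_le_mul_right _ this)
    · obtain ⟨j, rfl⟩ := Finset.card_eq_one.1 hJ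
      refine (hl L P W S j ((le_max_left _ _).trans hY) hP hC hv (fun i q hq => ?_)
        (fun i => ?_)).mono le_rfl le_rfl (le_max_left _ _)
      · by_cases hi : i ∈ ({j} : Finset (Fin d))
        · exact P.loc_al _ _ hi
        · exact hL i hi q hq
      · by_cases hi : i ∈ ({j} : Finset (Fin d))
        · obtain rfl := Finset.mem_singleton.1 hi
          exact ⟨1, 0, fun n _ => by simp⟩
        · obtain ⟨-, f2, -, f4, f5⟩ := hF i hi
          have hn : degreeOf none (F i) = 0 ∧ (F i).totalDegree ≤ 1 := by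
            by_contra h
            exact hex ⟨i, hi, h⟩
          obtain ⟨ρ, σ, h⟩ := lin_of_deg_le_one (F i) i j (by simpa using hi) f2 hn.1 hn.2 f5
          exact ⟨ρ, σ, fun n hn => h (P.uc n) (f4 n hn)⟩
  · have hw : 1 ≤ min wa wb := le_min hN.ha hN.hb
    have hnum : (wa * wb) ^ (r + 1) < min wa wb * (k * wa + wb) ^ r * v ^ (r + 1) := by
      simpa using hN.hyp (r + 1) (by omega)
    obtain ⟨Dh, Yh, hh⟩ := hypstep d k wa wb v r (min wa wb) D hk1 hN.ha hN.hb hN.hv hw hnum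
    refine ⟨Dh, Yh, fun L _ _ P W S J F hY hP hC hv hJ hL hF => ?_⟩
    obtain ⟨i, hi⟩ : ∃ i, i ∉ J := by
      by_contra h
      have : J = Finset.univ := Finset.eq_univ_iff_forall.2 (fun i => by
        by_contra h'; exact h ⟨i, h'⟩)
      rw [this, Finset.card_univ, Fintype.card_fin] at hJ
      omega
    obtain ⟨f1, f2, f3, f4, f5⟩ := hF i hi
    refine hh L P W S J i (F i) hY hP hC hv hi hJ f1 f2 f3 f4
      (hL i hi) (fun _ => min_le_right _ _) (fun _ => ?_)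
    exact (min_le_left _ _).trans (Nat.le_mul_of_pos_left _ (hdeg f5))

theorem step {d k wa wb v : ℕ} (hN : Num d k wa wb v) (r D m : ℕ) (hr : r < d) :
    ∃ (D' : ℕ) (Y₀ : ℝ), ∀ (L : Type) [Field L] [NumberField L] (P : Pts L d k wa wb)
    (W S : Finset ℕ) (F : ℕ → Finset (Fin d) → MvPolynomial (Option (Fin d)) (𝓞 L)),
    Y₀ ≤ P.Y → P.Pool S → P.Cls W S → v ≤ S.card → S.card ≤ m →
    (∀ q ∈ S, ∀ J, J.card = r + 1 → P.Dat W J D (F q J) ∧ ∀ n ∈ W, ∀ j,
      eval (P.u n) (pderiv (some j) (F q J)) = 0 ∨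
        IsCoprime (eval (P.u n) (pderiv (some j) (F q J))) (q : 𝓞 L)) →
    ∀ J, J.card = r → P.Rel W J D' := by
  classical
  obtain ⟨D₁, Y₁, h₁⟩ := core_step hN r D hr
  refine ⟨D₁ + m * d * (2 * D ^ 2 + D), Y₁, fun L _ _ P W S F hY hP hC hv hm hF J hJ => ?_⟩
  set W₀ := W.filter (fun n => ∀ q ∈ S, ∀ i ∉ J,
    eval (P.u n) (pderiv (some i) (F q (insert i J))) ≠ 0) with hW₀
  have hsub : W₀ ⊆ W := Finset.filter_subset _ _
  have hcard : ∀ i ∉ J, (insert i J).card = r + 1 := fun i hi => by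
    rw [Finset.card_insert_of_notMem hi, hJ]
  have hA : P.Rel W₀ J D₁ := by
    rcases W₀.eq_empty_or_nonempty with h0 | ⟨n₀, hn₀⟩
    · exact Pts.Rel.of_card P _ (by simp [h0])
    obtain ⟨q₀, hq₀⟩ : S.Nonempty := Finset.card_pos.1 (lt_of_lt_of_le hN.hv hv)
    have hC₀ : P.Cls W₀ S := ⟨hsub.trans hC.1, fun q hq n hn n' hn' s =>
      hC.2 q hq n (hsub hn) n' (hsub hn') s⟩
    refine h₁ L P W₀ S J (fun i => map P.io (F q₀ (insert i J))) hY hP hC₀ hv hJ
      (fun i hi q hq => ?_) (fun i hi => ?_)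
    · obtain ⟨⟨f1, -, -, f4⟩, f5⟩ := hF q hq _ (hcard i hi)
      refine P.loc_newton hC₀ hq J i _ f1 (fun n hn => f4 n (hsub hn)) (fun n hn => ?_)
      exact (f5 n (hsub hn) i).resolve_left ((Finset.mem_filter.1 hn).2 q hq i hi)
    · obtain ⟨⟨f1, f2, f3, f4⟩, -⟩ := hF q₀ hq₀ _ (hcard i hi)
      refine ⟨f3, (P.supp_map _ _).2 f1, by rw [P.totalDegree_map]; exact f2, fun n hn => ?_, ?_⟩
      · rw [P.eval_uc, f4 n (hsub hn), map_zero]
      · intro h
        apply (Finset.mem_filter.1 hn₀).2 q₀ hq₀ i hi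
        apply P.hio
        rw [← P.eval_uc, ← pderiv_map, h, map_zero, map_zero]
  have hB : P.Rel (W \ W₀) J ((S ×ˢ (Finset.univ.filter (· ∉ J))).card * (2 * D ^ 2 + D)) := by
    refine Pts.Rel.cover (S ×ˢ (Finset.univ.filter (· ∉ J)))
      (fun a => W.filter (fun n => eval (P.u n) (pderiv (some a.2) (F a.1 (insert a.2 J))) = 0))
      (fun a ha => ?_) (fun n hn => ?_)
    · obtain ⟨ha1, ha2⟩ := Finset.mem_product.1 ha
      obtain ⟨⟨f1, f2, f3, f4⟩, -⟩ := hF a.1 ha1 _ (hcard a.2 (Finset.mem_filter.1 ha2).2)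
      exact Pts.Rel.of_pderiv P (i := a.2) (F := F a.1 (insert a.2 J))
        ⟨f1, f2, f3, fun n hn => f4 n (Finset.mem_filter.1 hn).1⟩
        (fun n hn => (Finset.mem_filter.1 hn).2)
    · obtain ⟨hn1, hn2⟩ := Finset.mem_sdiff.1 hn
      by_contra hcon
      apply hn2
      refine Finset.mem_filter.2 ⟨hn1, fun q hq i hi h0 => hcon ⟨(q, i), ?_, ?_⟩⟩
      · exact Finset.mem_product.2 ⟨hq, Finset.mem_filter.2 ⟨Finset.mem_univ _, hi⟩⟩
      · exact Finset.mem_filter.2 ⟨hn1, h0⟩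
  refine (hA.union hB).mono (fun n hn => ?_) le_rfl ?_
  · by_cases h : n ∈ W₀
    · exact Finset.mem_union_left _ h
    · exact Finset.mem_union_right _ (Finset.mem_sdiff.2 ⟨hn, h⟩)
  · refine Nat.add_le_add_left (Nat.mul_le_mul_right _ ?_) _
    rw [Finset.card_product]
    exact Nat.mul_le_mul hm ((Finset.card_filter_le _ _).trans (by simp))

end Vale.Agent.P018
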