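import Vale.Agent.P018.Def2
import Vale.Agent.P018.Step
import Vale.Agent.P018.Line2
import Vale.Agent.P018.Curve2

namespace Vale.Agent.P018

open NumberField MvPolynomial

theorem card_le_one_step2 {L : Type} [Field L] [NumberField L] {d k wa wb : ℕ} (hd : 1 ≤ d)
    (P : Pts L d k wa wb) {W S : Finset ℕ} (hY : 3 ≤ P.Y) (hP : P.Pool S) (hC : P.Cls W S)
    (hS : wa < S.card) : W.card ≤ 1 := by
  refine Finset.card_le_one.2 (fun n hn n' hn' => ?_)
  let j : Fin d := ⟨0, hd⟩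
  refine P.alinj n (hC.1 hn) n' (hC.1 hn') j ?_
  by_contra hne
  have h1 : ((∏ q ∈ S, q : ℕ) : 𝓞 L) ∣ P.al n j - P.al n' j := by
    rw [Nat.cast_prod]
    refine Finset.prod_dvd_of_coprime (fun q hq q' hq' h => ?_) (fun q hq => hC.2 q hq n hn n' hn' (some j))
    exact isCoprime_natCast ((Nat.coprime_primes (hP q hq).1 (hP q' hq').1).2 h)
  have h2 := le_ht_of_dvd _ (sub_ne_zero.2 hne) h1
  have h3 := ht_sub_le (P.al n j) (P.al n' j)
  have h4 := P.hal n (hC.1 hn) j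
  have h5 := P.hal n' (hC.1 hn') j
  have h6 : P.Y ^ S.card ≤ ((∏ q ∈ S, q : ℕ) : ℝ) := by
    rw [Nat.cast_prod, ← Finset.prod_const]
    exact Finset.prod_le_prod (fun _ _ => by linarith) (fun q hq => (hP q hq).2.1)
  have h7 : P.Y ^ (wa + 1) ≤ P.Y ^ S.card := pow_le_pow_right₀ P.hY hS
  have h8 : 0 < P.Y ^ wa := by positivity
  rw [pow_succ] at h7
  nlinarith

theorem top2 {d k wa wb v : ℕ} (hd : 4 ≤ d) (hk : 2 ≤ k) (ha : 1 ≤ wa) (hb : 1 ≤ wb)
    (hN : LevOK d k wa wb (d + 1) v) : ∃ (D : ℕ) (Y₀ : ℝ),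
    ∀ (L : Type) [Field L] [NumberField L] (P : Pts L d k wa wb) (W S : Finset ℕ),
    Y₀ ≤ P.Y → P.Pool S → P.Cls W S → v ≤ S.card → P.Rel W Finset.univ D := by
  obtain ⟨hv1, hN⟩ := hN
  rcases hN with hN | ⟨n0, -, -, -⟩
  · exact ⟨1, 3, fun L _ _ P W S hY hP hC hv =>
      Pts.Rel.of_card P _ (card_le_one_step2 (by omega) P hY hP hC (by omega))⟩
  obtain ⟨B, A, h1, h2⟩ := gent d k wa wb v (by omega) (by omega) ha hb hv1 (n0 rfl)
  refine ⟨B + d * (B + (k * B + B)), (box k B (Finset.univ : Finset (Fin d))).card.factorial + 1,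
    fun L _ _ P W S hY hP hC hv => ?_⟩
  obtain ⟨c, c1, c2⟩ := gam (by omega) P hP hC (d + 1) v hv1 hv
    (ρ := Option (Finset.univ : Finset (Fin d))) (by simp) (P.par _) (P.par_cong hC _) Finset.univ
    (fun q _ => P.loc_x _ W _) (fun q _ j hj => P.loc_al _ W hj) B A h1 h2 (by linarith)
  exact ⟨_, hyp0 k B _ _ A h1 c c1, fun j hj => absurd (Finset.mem_univ j) hj,
    totalDegree_finsetSum_le fun γ hγ => (totalDegree_mul _ _).trans
      (by rw [totalDegree_C, zero_add]; exact Mt_deg k B _ _ γ (h1 hγ)), c2⟩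

theorem core_step2 {d k wa wb v : ℕ} (hd : 4 ≤ d) (hk : 2 ≤ k) (ha : 1 ≤ wa) (hb : 1 ≤ wb)
    (r D : ℕ) (hr : r < d) (hN : LevOK d k wa wb (r + 1) v) :
    ∃ (D' : ℕ) (Y₀ : ℝ), ∀ (L : Type) [Field L] [NumberField L] (P : Pts L d k wa wb)
    (W S : Finset ℕ) (J : Finset (Fin d)) (F : Fin d → MvPolynomial (Option (Fin d)) ℂ),
    Y₀ ≤ P.Y → P.Pool S → P.Cls W S → v ≤ S.card → J.card = r →
    (∀ i ∉ J, ∀ q ∈ S, Loc (q : 𝓞 L) W (P.par J) (fun n => P.al n i)) →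
    (∀ i ∉ J, Irreducible (F i) ∧ Supp (insert i J) (F i) ∧ (F i).totalDegree ≤ D ∧
      (∀ n ∈ W, eval (P.uc n) (F i) = 0) ∧ pderiv (some i) (F i) ≠ 0) →
    P.Rel W J D' := by
  have hk1 : 1 ≤ k := le_trans (by norm_num) hk
  obtain ⟨hv1, hN⟩ := hN
  rcases hN with hN | ⟨-, n3, n2, n1⟩
  · exact ⟨1, 3, fun L _ _ P W S J F hY hP hC hv _ _ _ =>
      Pts.Rel.of_card P _ (card_le_one_step2 (by omega) P hY hP hC (by omega))⟩
  have hdeg : ∀ {G : MvPolynomial (Option (Fin d)) ℂ} {i : Fin d}, pderiv (some i) G ≠ 0 →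
      1 ≤ G.totalDegree := by
    intro G i hG
    by_contra h
    have h0 : G.totalDegree = 0 := by omega
    rw [totalDegree_eq_zero_iff_eq_C] at h0
    apply hG
    rw [h0]; simp
  rcases Nat.lt_or_ge r 1 with h0 | h1
  · obtain ⟨c1, c2, c3, c4⟩ := n1 (by omega)
    obtain ⟨Dc, Yc, hc⟩ := curve2 ⟨hd, hk, ha, hb, hv1, c1, c2, c3, c4⟩
    refine ⟨Dc, Yc, fun L _ _ P W S J F hY hP hC hv hJ hL _ => ?_⟩
    have hJ0 : J = ∅ := Finset.card_eq_zero.1 (by omega)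
    subst hJ0
    exact Pts.Rel.of_card P _ (hc L P W S hY hP hC hv (fun i q hq => hL i (by simp) q hq))
  rcases Nat.lt_or_ge r 2 with h2 | h2
  · obtain rfl : r = 1 := by omega
    obtain ⟨c1, c2, c3⟩ := n2 rfl
    obtain ⟨Dl, Yl, hl⟩ := line2 ⟨hd, hk, ha, hb, hv1, c3⟩
    have hw : 1 ≤ min wb (2 * wa) := le_min hb (by omega)
    have hnum : (wa * wb) ^ (1 + 1) < min wb (2 * wa) * (k * wa + wb) ^ 1 * v ^ (1 + 1) := by
      rcases le_total wb (2 * wa) with h | h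
      · rw [min_eq_left h]; simpa using c1
      · rw [min_eq_right h]; simpa using c2
    obtain ⟨Dh, Yh, hh⟩ := hypstep d k wa wb v 1 (min wb (2 * wa)) D hk1 ha hb hv1 hw hnum
    refine ⟨max Dl Dh, max Yl Yh, fun L _ _ P W S J F hY hP hC hv hJ hL hF => ?_⟩
    by_cases hex : ∃ i ∉ J, ¬ (degreeOf none (F i) = 0 ∧ (F i).totalDegree ≤ 1)
    · obtain ⟨i, hi, hn⟩ := hex
      obtain ⟨f1, f2, f3, f4, -⟩ := hF i hi
      refine (hh L P W S J i (F i) ((le_max_right _ _).trans hY) hP hC hv hi hJ f1 f2 f3 f4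
        (hL i hi) (fun _ => min_le_left _ _) (fun h => ?_)).mono le_rfl le_rfl (le_max_right _ _)
      have : 2 ≤ (F i).totalDegree := by
        by_contra h'
        exact hn ⟨h, by omega⟩
      exact (min_le_right _ _).trans (Nat.mul_le_mul_right _ this)
    · obtain ⟨j, rfl⟩ := Finset.card_eq_one.1 hJ
      refine (hl L P W S j ((le_max_left _ _).trans hY) hP hC hv (fun i q hq => ?_)
        (fun i => ?_)).mono le_rfl le_rfl (le_max_left _ _)
      · by_cases hi : i ∈ ({j} : Finset (Fin d))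
        · exact P.loc_al _ _ hi
        · exact hL i hi q hq
      · by_cases hi : i ∈ ({j} : Finset (Fin d))
        · obtain rfl := Finset.mem_singleton.1 hi
          exact ⟨1, 0, fun n _ => by simp⟩
        · obtain ⟨-, f2, -, f4, f5⟩ := hF i hi
          have hn : degreeOf none (F i) = 0 ∧ (F i).totalDegree ≤ 1 := by
            by_contra h
            exact hex ⟨i, hi, h⟩
          obtain ⟨ρ, σ, h⟩ := lin_of_deg_le_one (F i) i j (by simpa using hi) f2 hn.1 hn.2 f5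
          exact ⟨ρ, σ, fun n hn => h (P.uc n) (f4 n hn)⟩
  · have hw : 1 ≤ min wa wb := le_min ha hb
    have hnum : (wa * wb) ^ (r + 1) < min wa wb * (k * wa + wb) ^ r * v ^ (r + 1) := by
      simpa using n3 (by omega) (by omega)
    obtain ⟨Dh, Yh, hh⟩ := hypstep d k wa wb v r (min wa wb) D hk1 ha hb hv1 hw hnum
    refine ⟨Dh, Yh, fun L _ _ P W S J F hY hP hC hv hJ hL hF => ?_⟩
    obtain ⟨i, hi⟩ : ∃ i, i ∉ J := by
      by_contra h
      have : J = Finset.univ := Finset.eq_univ_iff_forall.2 (fun i => by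
        by_contra h'; exact h ⟨i, h'⟩)
      rw [this, Finset.card_univ, Fintype.card_fin] at hJ
      omega
    obtain ⟨f1, f2, f3, f4, f5⟩ := hF i hi
    refine hh L P W S J i (F i) hY hP hC hv hi hJ f1 f2 f3 f4
      (hL i hi) (fun _ => min_le_right _ _) (fun _ => ?_)
    exact (min_le_left _ _).trans (Nat.le_mul_of_pos_left _ (hdeg f5))

theorem step2 {d k wa wb v : ℕ} (hd : 4 ≤ d) (hk : 2 ≤ k) (ha : 1 ≤ wa) (hb : 1 ≤ wb)
    (r D m : ℕ) (hr : r < d) (hN : LevOK d k wa wb (r + 1) v) :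
    ∃ (D' : ℕ) (Y₀ : ℝ), ∀ (L : Type) [Field L] [NumberField L] (P : Pts L d k wa wb)
    (W S : Finset ℕ) (F : ℕ → Finset (Fin d) → MvPolynomial (Option (Fin d)) (𝓞 L)),
    Y₀ ≤ P.Y → P.Pool S → P.Cls W S → v ≤ S.card → S.card ≤ m →
    (∀ q ∈ S, ∀ J, J.card = r + 1 → P.Dat W J D (F q J) ∧ ∀ n ∈ W, ∀ j,
      eval (P.u n) (pderiv (some j) (F q J)) = 0 ∨
        IsCoprime (eval (P.u n) (pderiv (some j) (F q J))) (q : 𝓞 L)) →
    ∀ J, J.card = r → P.Rel W J D' := by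
  classical
  obtain ⟨D₁, Y₁, h₁⟩ := core_step2 hd hk ha hb r D hr hN
  refine ⟨D₁ + m * d * (2 * D ^ 2 + D), Y₁, fun L _ _ P W S F hY hP hC hv hm hF J hJ => ?_⟩
  set W₀ := W.filter (fun n => ∀ q ∈ S, ∀ i ∉ J,
    eval (P.u n) (pderiv (some i) (F q (insert i J))) ≠ 0) with hW₀
  have hsub : W₀ ⊆ W := Finset.filter_subset _ _
  have hcard : ∀ i ∉ J, (insert i J).card = r + 1 := fun i hi => by
    rw [Finset.card_insert_of_notMem hi, hJ]
  have hA : P.Rel W₀ J D₁ := by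
    rcases W₀.eq_empty_or_nonempty with h0 | ⟨n₀, hn₀⟩
    · exact Pts.Rel.of_card P _ (by simp [h0])
    obtain ⟨q₀, hq₀⟩ : S.Nonempty := Finset.card_pos.1 (lt_of_lt_of_le hN.1 hv)
    have hC₀ : P.Cls W₀ S := ⟨hsub.trans hC.1, fun q hq n hn n' hn' s =>
      hC.2 q hq n (hsub hn) n' (hsub hn') s⟩
    refine h₁ L P W₀ S J (fun i => map P.io (F q₀ (insert i J))) hY hP hC₀ hv hJ
      (fun i hi q hq => ?_) (fun i hi => ?_)
    · obtain ⟨⟨f1, -, -, f4⟩, f5⟩ := hF q hq _ (hcard i hi)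
      refine P.loc_newton hC₀ hq J i _ f1 (fun n hn => f4 n (hsub hn)) (fun n hn => ?_)
      exact (f5 n (hsub hn) i).resolve_left ((Finset.mem_filter.1 hn).2 q hq i hi)
    · obtain ⟨⟨f1, f2, f3, f4⟩, -⟩ := hF q₀ hq₀ _ (hcard i hi)
      refine ⟨f3, (P.supp_map _ _).2 f1, by rw [P.totalDegree_map]; exact f2, fun n hn => ?_, ?_⟩
      · rw [P.eval_uc, f4 n (hsub hn), map_zero]
      · intro h
        apply (Finset.mem_filter.1 hn₀).2 q₀ hq₀ i hi
        apply P.hio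
        rw [← P.eval_uc, ← pderiv_map, h, map_zero, map_zero]
  have hB : P.Rel (W \ W₀) J ((S ×ˢ (Finset.univ.filter (· ∉ J))).card * (2 * D ^ 2 + D)) := by
    refine Pts.Rel.cover (S ×ˢ (Finset.univ.filter (· ∉ J)))
      (fun a => W.filter (fun n => eval (P.u n) (pderiv (some a.2) (F a.1 (insert a.2 J))) = 0))
      (fun a ha => ?_) (fun n hn => ?_)
    · obtain ⟨ha1, ha2⟩ := Finset.mem_product.1 ha
      obtain ⟨⟨f1, f2, f3, f4⟩, -⟩ := hF a.1 ha1 _ (hcard a.2 (Finset.mem_filter.1 ha2).2)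
      exact Pts.Rel.of_pderiv P (i := a.2) (F := F a.1 (insert a.2 J))
        ⟨f1, f2, f3, fun n hn => f4 n (Finset.mem_filter.1 hn).1⟩
        (fun n hn => (Finset.mem_filter.1 hn).2)
    · obtain ⟨hn1, hn2⟩ := Finset.mem_sdiff.1 hn
      by_contra hcon
      apply hn2
      refine Finset.mem_filter.2 ⟨hn1, fun q hq i hi h0 => hcon ⟨(q, i), ?_, ?_⟩⟩
      · exact Finset.mem_product.2 ⟨hq, Finset.mem_filter.2 ⟨Finset.mem_univ _, hi⟩⟩
      · exact Finset.mem_filter.2 ⟨hn1, h0⟩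
  refine (hA.union hB).mono (fun n hn => ?_) le_rfl ?_
  · by_cases h : n ∈ W₀
    · exact Finset.mem_union_left _ h
    · exact Finset.mem_union_right _ (Finset.mem_sdiff.2 ⟨hn, h⟩)
  · refine Nat.add_le_add_left (Nat.mul_le_mul_right _ ?_) _
    rw [Finset.card_product]
    exact Nat.mul_le_mul hm ((Finset.card_filter_le _ _).trans (by simp))

end Vale.Agent.P018
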