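import Vale.Agent.P018.Dens
import Vale.Agent.P018.Rho

namespace Vale.Agent.P018

open NumberField MvPolynomial

theorem pow_card_le (A ε : ℝ) (hε : 0 < ε) : ∃ C : ℝ, 0 < C ∧ ∀ T : Finset ℕ,
    (∀ p ∈ T, p.Prime) → A ^ T.card ≤ C * (∏ p ∈ T, (p : ℝ)) ^ ε := by
  obtain ⟨B, hB⟩ : ∃ B, B = |A| + 1 := ⟨_, rfl⟩
  have B1 : 1 ≤ B := by rw [hB]; linarith [abs_nonneg A]
  obtain ⟨N, hN⟩ := Filter.eventually_atTop.1
    (((tendsto_rpow_atTop hε).comp tendsto_natCast_atTop_atTop).eventually_ge_atTop B)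
  refine ⟨B ^ N, by positivity, fun T hT => ?_⟩
  calc A ^ T.card ≤ |A| ^ T.card := by rw [← abs_pow]; exact le_abs_self _
    _ ≤ B ^ T.card := pow_le_pow_left₀ (abs_nonneg A) (by linarith) _
    _ = ∏ _p ∈ T, B := (Finset.prod_const B).symm
    _ ≤ ∏ p ∈ T, ((if p < N then B else 1) * (p : ℝ) ^ ε) := by
        refine Finset.prod_le_prod (fun _ _ => by linarith) fun p hp => ?_
        split_ifs with h
        · exact le_mul_of_one_le_right (by linarith)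
            (Real.one_le_rpow (by exact_mod_cast (hT p hp).one_le) hε.le)
        · rw [one_mul]
          exact hN p (not_lt.1 h)
    _ = B ^ (T.filter (· < N)).card * (∏ p ∈ T, (p : ℝ)) ^ ε := by
        rw [Finset.prod_mul_distrib, ← Finset.prod_filter, Finset.prod_const,
          Real.finset_prod_rpow _ _ (fun _ _ => Nat.cast_nonneg _)]
    _ ≤ _ := by
        refine mul_le_mul_of_nonneg_right (pow_le_pow_right₀ B1 ?_) (by positivity)
        exact (Finset.card_le_card fun p hp =>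
          Finset.mem_range.2 (Finset.mem_filter.1 hp).2).trans (Finset.card_range N).le

theorem inj_SvA {𝒯 : Finset (Finset ℕ)} (h : ∀ T ∈ 𝒯, ∀ p ∈ T, p.Prime) :
    Set.InjOn (fun T : Finset ℕ => ∏ p ∈ T, p) 𝒯 := by
  intro T hT T' hT' e
  rw [← Nat.primeFactors_prod (h T hT), ← Nat.primeFactors_prod (h T' hT')]
  exact congrArg _ e

theorem sum_head_le (A : ℝ) (hA : 0 ≤ A) : ∃ C : ℝ, 0 < C ∧ ∀ (Y : ℝ) (𝒯 : Finset (Finset ℕ)),
    1 ≤ Y → (∀ T ∈ 𝒯, (∀ p ∈ T, p.Prime) ∧ ∏ p ∈ T, (p : ℝ) ≤ Y) →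
    ∑ T ∈ 𝒯, A ^ T.card ≤ C * Y ^ (1 + 1 / 16 : ℝ) := by
  obtain ⟨C, C0, hC⟩ := pow_card_le A (1 / 16) (by norm_num)
  refine ⟨C, C0, fun Y 𝒯 hY h => ?_⟩
  have Y0 : 0 < Y := by linarith
  have h1 : 𝒯.card ≤ ⌊Y⌋₊ := by
    have := Finset.card_le_card_of_injOn (t := Finset.Icc 1 ⌊Y⌋₊) (fun T : Finset ℕ => ∏ p ∈ T, p)
      (fun T hT => ?_) (inj_SvA fun T hT => (h T hT).1)
    · simpa using this
    · refine Finset.mem_coe.2 (Finset.mem_Icc.2 ⟨Finset.prod_pos fun p hp => ((h T hT).1 p hp).pos,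
        Nat.le_floor ?_⟩)
      rw [Nat.cast_prod]
      exact (h T hT).2
  have h2 : (𝒯.card : ℝ) ≤ Y := le_trans (by exact_mod_cast h1) (Nat.floor_le Y0.le)
  calc _ ≤ (𝒯.card : ℝ) * (C * Y ^ (1 / 16 : ℝ)) := by
        rw [← nsmul_eq_mul]
        refine Finset.sum_le_card_nsmul _ _ _ fun T hT => (hC T (h T hT).1).trans ?_
        exact mul_le_mul_of_nonneg_left
          (Real.rpow_le_rpow (by positivity) (h T hT).2 (by norm_num)) C0.le
    _ ≤ Y * (C * Y ^ (1 / 16 : ℝ)) := mul_le_mul_of_nonneg_right h2 (by positivity)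
    _ = _ := by rw [Real.rpow_add Y0, Real.rpow_one]; ring

theorem sum_tail_le (A : ℝ) (hA : 0 ≤ A) : ∃ C : ℝ, 0 < C ∧ ∀ (Y : ℝ) (𝒯 : Finset (Finset ℕ)),
    1 ≤ Y → (∀ T ∈ 𝒯, (∀ p ∈ T, p.Prime) ∧ Y < ∏ p ∈ T, (p : ℝ)) →
    ∑ T ∈ 𝒯, A ^ T.card / (∏ p ∈ T, (p : ℝ)) ^ 2 ≤ C * Y ^ (-(1 / 2) : ℝ) := by
  obtain ⟨C, C0, hC⟩ := pow_card_le A (1 / 4) (by norm_num)
  have hs : Summable fun n : ℕ => (n : ℝ) ^ (-(5 / 4) : ℝ) :=
    Real.summable_nat_rpow.2 (by norm_num)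
  have z0 : 0 ≤ ∑' n : ℕ, (n : ℝ) ^ (-(5 / 4) : ℝ) := tsum_nonneg fun _ => by positivity
  refine ⟨C * (∑' n : ℕ, (n : ℝ) ^ (-(5 / 4) : ℝ) + 1), by positivity, fun Y 𝒯 hY h => ?_⟩
  have Y0 : 0 < Y := by linarith
  have h1 : ∑ T ∈ 𝒯, ((∏ p ∈ T, p : ℕ) : ℝ) ^ (-(5 / 4) : ℝ) ≤
      ∑' n : ℕ, (n : ℝ) ^ (-(5 / 4) : ℝ) := by
    rw [← Finset.sum_image (f := fun n : ℕ => (n : ℝ) ^ (-(5 / 4) : ℝ))
      (inj_SvA fun T hT => (h T hT).1)]
    exact hs.sum_le_tsum _ fun _ _ => by positivity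
  calc _ ≤ ∑ T ∈ 𝒯, C * Y ^ (-(1 / 2) : ℝ) * ((∏ p ∈ T, p : ℕ) : ℝ) ^ (-(5 / 4) : ℝ) := by
        refine Finset.sum_le_sum fun T hT => ?_
        rw [Nat.cast_prod]
        have g1 := hC T (h T hT).1
        have g2 := (h T hT).2
        generalize ∏ p ∈ T, (p : ℝ) = m at g1 g2 ⊢
        have m0 : 0 < m := by linarith
        have g3 : m ^ (-(1 / 2) : ℝ) ≤ Y ^ (-(1 / 2) : ℝ) :=
          Real.rpow_le_rpow_of_nonpos Y0 g2.le (by norm_num)
        calc _ ≤ C * m ^ (1 / 4 : ℝ) / m ^ 2 := div_le_div_of_nonneg_right g1 (by positivity)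
          _ = C * m ^ (-(1 / 2) : ℝ) * m ^ (-(5 / 4) : ℝ) := by
              rw [mul_div_assoc, mul_assoc, ← Real.rpow_add m0, ← Real.rpow_natCast,
                ← Real.rpow_sub m0]
              norm_num
          _ ≤ _ := mul_le_mul_of_nonneg_right (mul_le_mul_of_nonneg_left g3 C0.le) (by positivity)
    _ ≤ C * Y ^ (-(1 / 2) : ℝ) * (∑' n : ℕ, (n : ℝ) ^ (-(5 / 4) : ℝ) + 1) := by
        rw [← Finset.mul_sum]
        exact mul_le_mul_of_nonneg_left (by linarith) (by positivity)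
    _ = _ := by ring

theorem per_SvA {P : ℕ → Prop} [DecidablePred P] {a : ℕ} (ha : 0 < a)
    (hP : Function.Periodic P a) (X : ℕ) :
    |(((Finset.Icc 1 X).filter P).card : ℝ) - X * ((((Finset.range a).filter P).card : ℝ) / a)| ≤
      ((Finset.range a).filter P).card := by
  obtain ⟨c, hc⟩ : ∃ c, c = ((Finset.range a).filter P).card := ⟨_, rfl⟩
  have h0 : ∀ X, ((Finset.Ico X (X + a)).filter P).card = c := fun X => by
    rw [Nat.filter_Ico_card_eq_of_periodic _ _ _ hP, Nat.count_eq_card_filter_range, hc]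
  have h1 : ∀ X, ((Finset.Icc 1 (X + a)).filter P).card = ((Finset.Icc 1 X).filter P).card + c := by
    intro X
    have e1 : Finset.Icc 1 (X + a) = Finset.Icc 1 X ∪ Finset.Ico (X + 1) (X + 1 + a) := by
      ext n; simp only [Finset.mem_Icc, Finset.mem_union, Finset.mem_Ico]; omega
    have e2 : Disjoint ((Finset.Icc 1 X).filter P) ((Finset.Ico (X + 1) (X + 1 + a)).filter P) := by
      refine Finset.disjoint_filter_filter (Finset.disjoint_left.2 fun n h1 h2 => ?_)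
      simp only [Finset.mem_Icc, Finset.mem_Ico] at h1 h2; omega
    rw [e1, Finset.filter_union, Finset.card_union_of_disjoint e2, h0]
  have ha' : (0 : ℝ) < a := Nat.cast_pos.2 ha
  rw [← hc]
  induction X using Nat.strong_induction_on with
  | _ X ih =>
    by_cases hX : X < a
    · have e1 : ((Finset.Icc 1 X).filter P).card ≤ c := by
        rw [← h0 1]
        refine Finset.card_le_card (Finset.filter_subset_filter _ fun n hn => ?_)
        simp only [Finset.mem_Icc, Finset.mem_Ico] at hn ⊢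
        omega
      have e2 : (((Finset.Icc 1 X).filter P).card : ℝ) ≤ c := Nat.cast_le.2 e1
      have e4 : (0 : ℝ) ≤ X * (c / a) := by positivity
      have e5 : (X : ℝ) * (c / a) ≤ a * (c / a) :=
        mul_le_mul_of_nonneg_right (Nat.cast_le.2 hX.le) (by positivity)
      have e6 : (a : ℝ) * (c / a) = c := by field_simp
      have e7 : (0 : ℝ) ≤ ((Finset.Icc 1 X).filter P).card := Nat.cast_nonneg _
      rw [abs_le]; constructor <;> linarith
    · obtain ⟨Y, rfl⟩ : ∃ Y, X = Y + a := ⟨X - a, by omega⟩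
      have := ih Y (by omega)
      rw [h1]
      push_cast
      have e : (((Finset.Icc 1 Y).filter P).card : ℝ) + c - (Y + a) * (c / a) =
          ((Finset.Icc 1 Y).filter P).card - Y * (c / a) := by field_simp; ring
      rwa [e]

theorem perT_SvA (f : Polynomial ℤ) (k : ℕ) (T : Finset ℕ) :
    Function.Periodic (fun n : ℕ => ∀ p ∈ T, (p : ℤ) ^ k ∣ f.eval (n : ℤ)) (∏ p ∈ T, p ^ k) := by
  intro n
  refine propext (forall₂_congr fun p hp => ?_)
  have := per_Dens f (Finset.dvd_prod_of_mem (fun p => p ^ k) hp) n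
  rwa [Nat.cast_pow] at this

theorem cnt_SvA (f : Polynomial ℤ) (k : ℕ) (T : Finset ℕ) (hT : ∀ p ∈ T, p.Prime) :
    ((Finset.range (∏ p ∈ T, p ^ k)).filter (fun n : ℕ =>
      ∀ p ∈ T, (p : ℤ) ^ k ∣ f.eval (n : ℤ))).card = ∏ p ∈ T, rho f (p ^ k) := by
  induction T using Finset.induction_on with
  | empty => simp
  | insert p T hp ih =>
    have hp0 := hT p (Finset.mem_insert_self _ _)
    have hT' : ∀ q ∈ T, q.Prime := fun q hq => hT q (Finset.mem_insert_of_mem hq)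
    have hcop : (p ^ k).Coprime (∏ q ∈ T, q ^ k) :=
      Nat.Coprime.prod_right fun q hq => Nat.Coprime.pow _ _
        ((Nat.coprime_primes hp0 (hT' q hq)).2 fun h => hp (h ▸ hq))
    have ha : 0 < p ^ k := pow_pos hp0.pos k
    have hb : 0 < ∏ q ∈ T, q ^ k := Finset.prod_pos fun q hq => pow_pos (hT' q hq).pos k
    have hP : Function.Periodic (fun n : ℕ => (p : ℤ) ^ k ∣ f.eval (n : ℤ)) (p ^ k) := by
      intro n
      refine propext ?_
      have := per_Dens f (dvd_refl (p ^ k)) n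
      rwa [Nat.cast_pow] at this
    have h1 := crt_Dens hcop ha hb hP (perT_SvA f k T)
    rw [Finset.prod_insert hp, Finset.prod_insert hp, ← ih hT']
    simp only [Finset.forall_mem_insert]
    rw [h1, rho, Nat.cast_pow]

theorem cnt_T (f : Polynomial ℤ) (k : ℕ) (T : Finset ℕ) (hT : ∀ p ∈ T, p.Prime) (X : ℕ) :
    |((((Finset.Icc 1 X).filter (fun n : ℕ => ∀ p ∈ T, (p : ℤ) ^ k ∣ f.eval (n : ℤ))).card : ℕ) : ℝ)
      - X * ∏ p ∈ T, (rho f (p ^ k) : ℝ) / (p : ℝ) ^ k| ≤ ∏ p ∈ T, (rho f (p ^ k) : ℝ) := by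
  have h := per_SvA (Finset.prod_pos fun q hq => pow_pos (hT q hq).pos k) (perT_SvA f k T) X
  rw [cnt_SvA f k T hT] at h
  push_cast at h
  rw [Finset.prod_div_distrib]
  exact h

theorem rho_bdd (f : Polynomial ℤ) (hf : Irreducible (f.map (Int.castRingHom ℚ))) (k : ℕ)
    (hk : 1 ≤ k) : ∃ A : ℝ, 1 ≤ A ∧ ∀ p : ℕ, p.Prime → (rho f (p ^ k) : ℝ) ≤ A := by
  obtain ⟨p₀, h⟩ := rho_le f hf
  refine ⟨((f.natDegree + p₀ ^ k + 1 : ℕ) : ℝ), by exact_mod_cast Nat.le_add_left _ _,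
    fun p hp => Nat.cast_le.2 ?_⟩
  rcases le_or_gt p p₀ with g | g
  · have h1 := (rho_le_self f (p ^ k)).trans (Nat.pow_le_pow_left g k)
    omega
  · have h1 := h p hp g k hk
    omega

end Vale.Agent.P018
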