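import Vale.Agent.P018.SvA
import Vale.Agent.P018.Big

namespace Vale.Agent.P018

open NumberField MvPolynomial

open Filter Topology

section

open Finset

theorem prod_SvB (P : Finset ℕ) (g : ℕ → ℝ) :
    ∏ p ∈ P, (1 - g p) = ∑ T ∈ P.powerset, (-1) ^ T.card * ∏ p ∈ T, g p := by
  simp only [sub_eq_add_neg]
  rw [prod_one_add]
  exact sum_congr rfl fun T _ => prod_neg _

theorem ie_SvB (I P : Finset ℕ) (r : ℕ → ℕ → Prop) [∀ n p, Decidable (r n p)] :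
    ((I.filter fun n => ∀ p ∈ P, ¬ r n p).card : ℝ) =
      ∑ T ∈ P.powerset, (-1) ^ T.card * ((I.filter fun n => ∀ p ∈ T, r n p).card : ℝ) := by
  simp only [card_filter, Nat.cast_sum, mul_sum]
  rw [sum_comm]
  refine sum_congr rfl fun n _ => ?_
  have h := prod_SvB P fun p => if r n p then 1 else 0
  simp only [prod_boole] at h
  simp only [Nat.cast_ite, Nat.cast_one, Nat.cast_zero]
  refine Eq.trans ?_ (h.trans (sum_congr rfl fun T _ => by congr))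
  split_ifs with c
  · exact (prod_eq_one fun p hp => by simp [c p hp]).symm
  · push Not at c
    obtain ⟨p, hp, c⟩ := c
    exact (prod_eq_zero hp (by simp [c])).symm

theorem sub_SvB {Y z : ℝ} (hY : 1 ≤ Y) (B : Finset ℕ) : (∀ p ∈ B, (p : ℝ) ≤ z) →
    Y < ∏ p ∈ B, (p : ℝ) → ∃ T ⊆ B, Y < ∏ p ∈ T, (p : ℝ) ∧ ∏ p ∈ T, (p : ℝ) ≤ Y * z := by
  induction B using Finset.induction_on with
  | empty => intro _ h; rw [prod_empty] at h; linarith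
  | insert a B ha ih =>
    intro h1 h2
    by_cases c : Y < ∏ p ∈ B, (p : ℝ)
    · obtain ⟨T, t1, t2⟩ := ih (fun p hp => h1 p (mem_insert_of_mem hp)) c
      exact ⟨T, t1.trans (subset_insert _ _), t2⟩
    · refine ⟨_, Subset.rfl, h2, ?_⟩
      rw [prod_insert ha, mul_comm]
      exact mul_le_mul (not_lt.1 c) (h1 a (mem_insert_self _ _)) (Nat.cast_nonneg _) (by linarith)

theorem big_SvB (I P : Finset ℕ) (r : ℕ → ℕ → Prop) [∀ n p, Decidable (r n p)] {Y z M : ℝ}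
    (hY : 1 ≤ Y) (hz : ∀ p ∈ P, (p : ℝ) ≤ z)
    (hM : ∀ n ∈ I, (2 : ℝ) ^ (P.filter (r n)).card ≤ M) :
    ∑ T ∈ P.powerset.filter (fun T : Finset ℕ => Y < ∏ p ∈ T, (p : ℝ)),
      ((I.filter fun n => ∀ p ∈ T, r n p).card : ℝ) ≤
    M * ∑ T ∈ P.powerset.filter (fun T : Finset ℕ => Y < ∏ p ∈ T, (p : ℝ) ∧
      ∏ p ∈ T, (p : ℝ) ≤ Y * z), ((I.filter fun n => ∀ p ∈ T, r n p).card : ℝ) := by
  have sw : ∀ 𝒯 : Finset (Finset ℕ), ∑ T ∈ 𝒯, ((I.filter fun n => ∀ p ∈ T, r n p).card : ℝ) =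
      ∑ n ∈ I, ((𝒯.filter fun T => ∀ p ∈ T, r n p).card : ℝ) := fun 𝒯 => by
    simp only [card_filter, Nat.cast_sum]
    exact sum_comm
  rw [sw, sw, mul_sum]
  refine sum_le_sum fun n hn => ?_
  have M0 : 0 ≤ M := le_trans (by positivity) (hM n hn)
  rcases ((P.powerset.filter (fun T : Finset ℕ => Y < ∏ p ∈ T, (p : ℝ))).filter
    fun T => ∀ p ∈ T, r n p).eq_empty_or_nonempty with e | ⟨T, hT⟩
  · rw [e, card_empty, Nat.cast_zero]
    positivity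
  simp only [mem_filter, mem_powerset] at hT
  obtain ⟨T', t1, t2⟩ := sub_SvB (z := z) hY T (fun p hp => hz p (hT.1.1 hp)) hT.1.2
  have a1 : 1 ≤ ((P.powerset.filter (fun T : Finset ℕ => Y < ∏ p ∈ T, (p : ℝ) ∧
      ∏ p ∈ T, (p : ℝ) ≤ Y * z)).filter fun T => ∀ p ∈ T, r n p).card :=
    card_pos.2 ⟨T', mem_filter.2 ⟨mem_filter.2 ⟨mem_powerset.2 (t1.trans hT.1.1), t2⟩,
      fun p hp => hT.2 p (t1 hp)⟩⟩
  have a2 : ((P.powerset.filter (fun T : Finset ℕ => Y < ∏ p ∈ T, (p : ℝ))).filter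
      fun T => ∀ p ∈ T, r n p).card ≤ 2 ^ (P.filter (r n)).card := by
    rw [← card_powerset]
    refine card_le_card fun S hS => ?_
    simp only [mem_filter, mem_powerset] at hS
    exact mem_powerset.2 fun p hp => mem_filter.2 ⟨hS.1.1 hp, hS.2 p hp⟩
  refine le_trans (le_trans (by exact_mod_cast a2) (hM n hn)) (le_mul_of_one_le_right M0 ?_)
  exact_mod_cast a1

theorem two_SvB (f : Polynomial ℤ) (hf : Irreducible (f.map (Int.castRingHom ℚ)))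
    (hd : 4 ≤ f.natDegree) : ∃ C : ℝ, 0 < C ∧ ∀ (X n : ℕ) (B : Finset ℕ), n ∈ Icc 1 X →
    (∀ p ∈ B, p.Prime ∧ (p : ℤ) ∣ f.eval (n : ℤ)) →
    (2 : ℝ) ^ B.card ≤ C * (X : ℝ) ^ (1 / 16 : ℝ) := by
  have d0 : (0 : ℝ) < f.natDegree := by exact_mod_cast (by omega : 0 < f.natDegree)
  obtain ⟨C, C0, hC⟩ := pow_card_le 2 (1 / (16 * f.natDegree)) (by positivity)
  obtain ⟨Cf, hCf⟩ := eval_le_Big f
  refine ⟨C * (|Cf| + 1) ^ (1 / (16 * f.natDegree) : ℝ), by positivity, fun X n B hn hB => ?_⟩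
  rw [mem_Icc] at hn
  have h1 : ∏ p ∈ B, p ∣ (f.eval (n : ℤ)).natAbs :=
    Finset.prod_primes_dvd _ (fun p hp => (hB p hp).1.prime) fun p hp =>
      Int.natCast_dvd.1 (hB p hp).2
  have h2 := Nat.le_of_dvd (Int.natAbs_pos.2 (eval_ne_Big f hf hd n)) h1
  have h3 : ∏ p ∈ B, (p : ℝ) ≤ (|Cf| + 1) * (X : ℝ) ^ f.natDegree := by
    refine le_trans ?_ ((hCf n X hn.1 hn.2).trans
      (mul_le_mul_of_nonneg_right (by linarith [le_abs_self Cf]) (by positivity)))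
    rw [← Int.natCast_natAbs, Int.cast_natCast, ← Nat.cast_prod]
    exact Nat.cast_le.2 h2
  refine (hC B fun p hp => (hB p hp).1).trans ?_
  rw [mul_assoc]
  refine mul_le_mul_of_nonneg_left ((Real.rpow_le_rpow (by positivity) h3
    (by positivity)).trans (le_of_eq ?_)) C0.le
  rw [Real.mul_rpow (by positivity) (by positivity), ← Real.rpow_natCast,
    ← Real.rpow_mul (Nat.cast_nonneg _)]
  congr 2
  field_simp

theorem g_SvB {A : ℝ} {k : ℕ} (hk : 2 ≤ k) (ρ : ℕ → ℝ) (T : Finset ℕ) (hT : ∀ p ∈ T, p.Prime)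
    (h0 : ∀ p, 0 ≤ ρ p) (h1 : ∀ p : ℕ, p.Prime → ρ p ≤ A) :
    ∏ p ∈ T, ρ p ≤ A ^ T.card ∧ 0 ≤ ∏ p ∈ T, ρ p / (p : ℝ) ^ k ∧
      ∏ p ∈ T, ρ p / (p : ℝ) ^ k ≤ A ^ T.card / (∏ p ∈ T, (p : ℝ)) ^ 2 := by
  refine ⟨?_, prod_nonneg fun p _ => div_nonneg (h0 p) (by positivity), ?_⟩
  · rw [← prod_const]
    exact prod_le_prod (fun p _ => h0 p) fun p hp => h1 p (hT p hp)
  · rw [← prod_const, ← prod_pow, ← prod_div_distrib]
    refine prod_le_prod (fun p _ => div_nonneg (h0 p) (by positivity)) fun p hp => ?_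
    have p1 : (1 : ℝ) ≤ p := by exact_mod_cast (hT p hp).one_lt.le
    exact div_le_div₀ ((h0 p).trans (h1 p (hT p hp))) (h1 p (hT p hp)) (by positivity)
      (pow_le_pow_right₀ p1 hk)

end

theorem small_sieve (f : Polynomial ℤ) (hf : Irreducible (f.map (Int.castRingHom ℚ)))
    (hd : 4 ≤ f.natDegree) (k : ℕ) (hk : 2 ≤ k) : ∃ K : ℝ, ∀ X z : ℕ, 1 ≤ X →
    (z : ℝ) ≤ (X : ℝ) ^ (1 / 4 : ℝ) →
    |((((Finset.Icc 1 X).filter (fun n : ℕ => ∀ p ∈ (Finset.range (z + 1)).filter Nat.Prime,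
        ¬ (p : ℤ) ^ k ∣ f.eval (n : ℤ))).card : ℕ) : ℝ) -
      X * ∏ p ∈ (Finset.range (z + 1)).filter Nat.Prime,
        (1 - (rho f (p ^ k) : ℝ) / (p : ℝ) ^ k)| ≤ K * (X : ℝ) ^ (7 / 8 : ℝ) := by
  obtain ⟨A, A1, hA⟩ := rho_bdd f hf k (by omega)
  obtain ⟨C1, c1, H1⟩ := sum_head_le A (by linarith)
  obtain ⟨C2, c2, H2⟩ := sum_tail_le A (by linarith)
  obtain ⟨C3, c3, H3⟩ := two_SvB f hf hd
  refine ⟨C1 + C2 + C3 * (C2 + C1), fun X z X1 hz => ?_⟩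
  have x1 : (1 : ℝ) ≤ X := by exact_mod_cast X1
  have x0 : (0 : ℝ) < X := by linarith
  set P := (Finset.range (z + 1)).filter Nat.Prime with hP
  have pP : ∀ T ∈ P.powerset, ∀ p ∈ T, p.Prime := fun T hT p hp =>
    (Finset.mem_filter.1 (Finset.mem_powerset.1 hT hp)).2
  set Y := (X : ℝ) ^ (1 / 2 : ℝ) with hY
  have Y1 : 1 ≤ Y := Real.one_le_rpow x1 (by norm_num)
  set c : Finset ℕ → ℝ := fun T => (((Finset.Icc 1 X).filter
    (fun n : ℕ => ∀ p ∈ T, (p : ℤ) ^ k ∣ f.eval (n : ℤ))).card : ℕ) with hc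
  set g : Finset ℕ → ℝ := fun T => ∏ p ∈ T, (rho f (p ^ k) : ℝ) / (p : ℝ) ^ k with hg
  have G := fun T hT => g_SvB hk (fun p => (rho f (p ^ k) : ℝ)) T (pP T hT)
    (fun _ => Nat.cast_nonneg _) hA
  have e1 : ∀ T ∈ P.powerset, |c T - X * g T| ≤ A ^ T.card := fun T hT =>
    (cnt_T f k T (pP T hT) X).trans (G T hT).1
  have pw : ∀ a b : ℝ, a ≤ b → (X : ℝ) ^ a ≤ (X : ℝ) ^ b := fun a b h =>
    Real.rpow_le_rpow_of_exponent_le x1 h
  have tl : ∀ 𝒯 : Finset (Finset ℕ), (∀ T ∈ 𝒯, T ∈ P.powerset ∧ Y < ∏ p ∈ T, (p : ℝ)) →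
      ∑ T ∈ 𝒯, X * g T ≤ C2 * (X : ℝ) ^ (3 / 4 : ℝ) := fun 𝒯 h => by
    rw [← Finset.mul_sum]
    have a := (Finset.sum_le_sum fun T hT => (G T (h T hT).1).2.2).trans
      (H2 Y 𝒯 Y1 fun T hT => ⟨pP T (h T hT).1, (h T hT).2⟩)
    refine (mul_le_mul_of_nonneg_left a x0.le).trans (le_of_eq ?_)
    rw [hY, ← Real.rpow_mul x0.le, show (3 / 4 : ℝ) = 1 + 1 / 2 * -(1 / 2) by norm_num,
      Real.rpow_add x0, Real.rpow_one]
    ring
  have hd1 : ∑ T ∈ P.powerset.filter (fun T : Finset ℕ => ¬ Y < ∏ p ∈ T, (p : ℝ)),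
      |c T - X * g T| ≤ C1 * (X : ℝ) ^ (7 / 8 : ℝ) := by
    refine (Finset.sum_le_sum fun T hT => e1 T (Finset.mem_filter.1 hT).1).trans
      ((H1 Y _ Y1 fun T hT => ⟨pP T (Finset.mem_filter.1 hT).1,
        not_lt.1 (Finset.mem_filter.1 hT).2⟩).trans (mul_le_mul_of_nonneg_left ?_ c1.le))
    rw [hY, ← Real.rpow_mul x0.le]
    exact pw _ _ (by norm_num)
  have hd2 : ∑ T ∈ P.powerset.filter (fun T : Finset ℕ => Y < ∏ p ∈ T, (p : ℝ) ∧
      ∏ p ∈ T, (p : ℝ) ≤ Y * z), c T ≤ (C2 + C1) * (X : ℝ) ^ (13 / 16 : ℝ) := by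
    have a1 := tl (P.powerset.filter (fun T : Finset ℕ => Y < ∏ p ∈ T, (p : ℝ) ∧
      ∏ p ∈ T, (p : ℝ) ≤ Y * z)) fun T hT =>
        ⟨(Finset.mem_filter.1 hT).1, (Finset.mem_filter.1 hT).2.1⟩
    have a2 := H1 ((X : ℝ) ^ (3 / 4 : ℝ)) (P.powerset.filter (fun T : Finset ℕ =>
      Y < ∏ p ∈ T, (p : ℝ) ∧ ∏ p ∈ T, (p : ℝ) ≤ Y * z)) (Real.one_le_rpow x1 (by norm_num))
      fun T hT => ⟨pP T (Finset.mem_filter.1 hT).1, (Finset.mem_filter.1 hT).2.2.trans (by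
        rw [show (3 / 4 : ℝ) = 1 / 2 + 1 / 4 by norm_num, Real.rpow_add x0]
        exact mul_le_mul_of_nonneg_left hz (by linarith))⟩
    rw [← Real.rpow_mul x0.le] at a2
    have a3 := mul_le_mul_of_nonneg_left (pw (3 / 4) (13 / 16) (by norm_num)) c2.le
    have a4 := mul_le_mul_of_nonneg_left (pw (3 / 4 * (1 + 1 / 16)) (13 / 16) (by norm_num)) c1.le
    refine (Finset.sum_le_sum (g := fun T => X * g T + A ^ T.card) fun T hT => ?_).trans ?_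
    · linarith [(abs_le.1 (e1 T (Finset.mem_filter.1 hT).1)).2]
    · rw [Finset.sum_add_distrib]
      linarith
  have hd3 := big_SvB (Finset.Icc 1 X) P (fun n p => (p : ℤ) ^ k ∣ f.eval (n : ℤ)) (z := z) Y1
    (fun p hp => by
      exact_mod_cast Nat.lt_succ_iff.1 (Finset.mem_range.1 (Finset.mem_filter.1 hp).1))
    fun n hn => H3 X n _ hn fun p hp => ⟨(Finset.mem_filter.1 (Finset.mem_filter.1 hp).1).2,
      (dvd_pow_self _ (by omega)).trans (Finset.mem_filter.1 hp).2⟩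
  have hd4 : ∑ T ∈ P.powerset.filter (fun T : Finset ℕ => Y < ∏ p ∈ T, (p : ℝ)), c T ≤
      C3 * (C2 + C1) * (X : ℝ) ^ (7 / 8 : ℝ) := by
    refine hd3.trans ((mul_le_mul_of_nonneg_left hd2 (by positivity)).trans (le_of_eq ?_))
    rw [show (7 / 8 : ℝ) = 1 / 16 + 13 / 16 by norm_num, Real.rpow_add x0]
    ring
  have hd5 := tl (P.powerset.filter (fun T : Finset ℕ => Y < ∏ p ∈ T, (p : ℝ))) fun T hT =>
    Finset.mem_filter.1 hT
  have hd6 := mul_le_mul_of_nonneg_left (pw (3 / 4) (7 / 8) (by norm_num)) c2.le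
  have hd7 : ∑ T ∈ P.powerset.filter (fun T : Finset ℕ => Y < ∏ p ∈ T, (p : ℝ)),
      |c T - X * g T| ≤ ∑ T ∈ P.powerset.filter (fun T : Finset ℕ => Y < ∏ p ∈ T, (p : ℝ)),
      (c T + X * g T) := Finset.sum_le_sum fun T hT => by
    have b1 : 0 ≤ c T := Nat.cast_nonneg _
    have b2 : 0 ≤ X * g T := mul_nonneg x0.le (G T (Finset.mem_filter.1 hT).1).2.1
    rw [abs_le]
    constructor <;> linarith
  rw [Finset.sum_add_distrib] at hd7
  rw [ie_SvB (Finset.Icc 1 X) P (fun n p => (p : ℤ) ^ k ∣ f.eval (n : ℤ)), prod_SvB,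
    Finset.mul_sum, ← Finset.sum_sub_distrib]
  refine (Finset.abs_sum_le_sum_abs _ _).trans ((Finset.sum_le_sum
    (g := fun T => |c T - X * g T|) fun T _ => le_of_eq ?_).trans ?_)
  · rw [mul_left_comm, ← mul_sub, abs_mul, abs_pow, abs_neg, abs_one, one_pow, one_mul]
  · rw [← Finset.sum_filter_add_sum_filter_not _ (fun T : Finset ℕ => Y < ∏ p ∈ T, (p : ℝ))]
    linarith

end Vale.Agent.P018
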