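import Vale.Agent.P018.SvA
import Vale.Agent.P018.Euler

namespace Vale.Agent.P018

open NumberField MvPolynomial

open Filter Topology

theorem SvC_inv {z : ℕ} (hz : 1 ≤ z) (n : ℕ) :
    ∑ m ∈ Finset.Ioc z n, 1 / (m : ℝ) ^ 2 ≤ 1 / (z : ℝ) := by
  rcases le_total z n with h | h
  · have h1 := sum_Ioc_inv_sq_le_sub (α := ℝ) (by omega : z ≠ 0) h
    have h2 : (0 : ℝ) ≤ (n : ℝ)⁻¹ := by positivity
    simp only [one_div]
    linarith
  · rw [Finset.Ioc_eq_empty (by omega), Finset.sum_empty]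
    positivity

theorem SvC_prod (G : ℕ → ℝ) (h0 : ∀ m, 0 ≤ G m) (h1 : ∀ m, G m ≤ 1) {z n : ℕ} (h : z ≤ n) :
    |∏ m ∈ Finset.range (z + 1), (1 - G m) - ∏ m ∈ Finset.range (n + 1), (1 - G m)| ≤
      ∑ m ∈ Finset.Ioc z n, G m := by
  induction n, h using Nat.le_induction with
  | base => simp
  | succ n hn ih =>
    rw [Finset.sum_Ioc_succ_top hn, Finset.prod_range_succ _ (n + 1)]
    have a0 : 0 ≤ ∏ m ∈ Finset.range (n + 1), (1 - G m) :=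
      Finset.prod_nonneg fun m _ => by linarith [h1 m]
    have a1 : ∏ m ∈ Finset.range (n + 1), (1 - G m) ≤ 1 :=
      Finset.prod_le_one (fun m _ => by linarith [h1 m]) fun m _ => by linarith [h0 m]
    have a2 := mul_nonneg a0 (h0 (n + 1))
    have a3 := mul_le_of_le_one_left (h0 (n + 1)) a1
    rw [abs_le] at ih ⊢
    constructor <;> nlinarith [ih.1, ih.2]

theorem SvC_div {A r : ℝ} {p k : ℕ} (hA : 0 ≤ A) (hr : r ≤ A) (hp : p.Prime) (hk : 2 ≤ k) :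
    r / (p : ℝ) ^ k ≤ A * (1 / (p : ℝ) ^ 2) := by
  have h1 : (1 : ℝ) ≤ p := by exact_mod_cast hp.one_le
  rw [mul_one_div]
  exact div_le_div₀ hA hr (by positivity) (pow_le_pow_right₀ h1 hk)
theorem euler_tail (f : Polynomial ℤ) (hf : Irreducible (f.map (Int.castRingHom ℚ))) (k : ℕ)
    (hk : 2 ≤ k) : ∃ K : ℝ, ∀ c : ℝ, Tendsto (fun z : ℕ =>
      ∏ p ∈ (Finset.range (z + 1)).filter Nat.Prime,
        (1 - (rho f (p ^ k) : ℝ) / (p : ℝ) ^ k)) atTop (𝓝 c) → ∀ z : ℕ, 1 ≤ z →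
    |∏ p ∈ (Finset.range (z + 1)).filter Nat.Prime,
        (1 - (rho f (p ^ k) : ℝ) / (p : ℝ) ^ k) - c| ≤ K / z := by
  obtain ⟨A, hA, hr⟩ := rho_bdd f hf k (by omega)
  refine ⟨A, fun c hc z hz => ?_⟩
  obtain ⟨G, hG⟩ : ∃ G : ℕ → ℝ, ∀ p, G p =
    if p.Prime then (rho f (p ^ k) : ℝ) / (p : ℝ) ^ k else 0 := ⟨_, fun _ => rfl⟩
  have e : ∀ n : ℕ, ∏ p ∈ (Finset.range (n + 1)).filter Nat.Prime,
      (1 - (rho f (p ^ k) : ℝ) / (p : ℝ) ^ k) = ∏ m ∈ Finset.range (n + 1), (1 - G m) := by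
    intro n
    rw [Finset.prod_filter]
    refine Finset.prod_congr rfl fun p _ => ?_
    rw [hG]
    split_ifs <;> simp
  have h0 : ∀ m, 0 ≤ G m := by
    intro m
    rw [hG]
    split_ifs <;> positivity
  have h1 : ∀ m, G m ≤ 1 := by
    intro m
    rw [hG]
    split_ifs with h
    · have : (0 : ℝ) < m := by exact_mod_cast h.pos
      rw [div_le_one (by positivity)]
      exact_mod_cast rho_le_self f (m ^ k)
    · exact zero_le_one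
  have h2 : ∀ m, G m ≤ A * (1 / (m : ℝ) ^ 2) := by
    intro m
    rw [hG]
    split_ifs with h
    · exact SvC_div (by linarith) (hr m h) h hk
    · positivity
  simp only [e] at hc ⊢
  refine le_of_tendsto ((hc.const_sub _).abs) ?_
  filter_upwards [eventually_ge_atTop z] with n hn
  refine (SvC_prod G h0 h1 hn).trans ((Finset.sum_le_sum fun m _ => h2 m).trans ?_)
  rw [← Finset.mul_sum, ← mul_one_div A]
  exact mul_le_mul_of_nonneg_left (SvC_inv hz n) (by linarith)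

open Classical in
theorem middle2 (f : Polynomial ℤ) (hf : Irreducible (f.map (Int.castRingHom ℚ))) (k : ℕ)
    (hk : 2 ≤ k) : ∃ K : ℝ, ∀ (X z : ℕ) (U : ℝ), 1 ≤ z → 0 ≤ U →
    (((Finset.Icc 1 X).filter (fun n : ℕ => ∃ p : ℕ, p.Prime ∧ z < p ∧ (p : ℝ) ≤ U ∧
      (p : ℤ) ^ k ∣ f.eval (n : ℤ))).card : ℝ) ≤ K * (X / z + U) := by
  obtain ⟨A, hA, hr⟩ := rho_bdd f hf k (by omega)
  refine ⟨A, fun X z U hz hU => ?_⟩
  have h1 : (Finset.Icc 1 X).filter (fun n : ℕ => ∃ p : ℕ, p.Prime ∧ z < p ∧ (p : ℝ) ≤ U ∧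
      (p : ℤ) ^ k ∣ f.eval (n : ℤ)) ⊆ ((Finset.Ioc z ⌊U⌋₊).filter Nat.Prime).biUnion fun p =>
        (Finset.Icc 1 X).filter fun n : ℕ => ((p ^ k : ℕ) : ℤ) ∣ f.eval (n : ℤ) := by
    intro n hn
    obtain ⟨a, p, b1, b2, b3, b4⟩ := Finset.mem_filter.1 hn
    exact Finset.mem_biUnion.2 ⟨p, Finset.mem_filter.2
      ⟨Finset.mem_Ioc.2 ⟨b2, Nat.le_floor b3⟩, b1⟩, Finset.mem_filter.2 ⟨a, by exact_mod_cast b4⟩⟩
  have h2 := (Finset.card_le_card h1).trans Finset.card_biUnion_le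
  have h3 : ∀ p ∈ (Finset.Ioc z ⌊U⌋₊).filter Nat.Prime,
      ((((Finset.Icc 1 X).filter fun n : ℕ => ((p ^ k : ℕ) : ℤ) ∣ f.eval (n : ℤ)).card : ℕ) : ℝ) ≤
        A * X * (1 / (p : ℝ) ^ 2) + A := by
    intro p hp
    have hp' := (Finset.mem_filter.1 hp).2
    refine (cnt_le f (p ^ k) (pow_pos hp'.pos k) X).trans ?_
    have a1 := SvC_div (by linarith) (hr p hp') hp' hk
    have a2 := mul_le_mul_of_nonneg_left a1 (Nat.cast_nonneg (α := ℝ) X)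
    have a3 : (rho f (p ^ k) : ℝ) * ((X : ℝ) / ((p ^ k : ℕ) : ℝ) + 1) =
        X * ((rho f (p ^ k) : ℝ) / (p : ℝ) ^ k) + rho f (p ^ k) := by
      push_cast
      ring
    rw [a3]
    linarith [hr p hp']
  have h4 : ∑ p ∈ (Finset.Ioc z ⌊U⌋₊).filter Nat.Prime, (A * X * (1 / (p : ℝ) ^ 2) + A) ≤
      ∑ p ∈ Finset.Ioc z ⌊U⌋₊, (A * X * (1 / (p : ℝ) ^ 2) + A) :=
    Finset.sum_le_sum_of_subset_of_nonneg (Finset.filter_subset _ _) fun _ _ _ => by positivity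
  have h5 : ((Finset.Ioc z ⌊U⌋₊).card : ℝ) ≤ U := by
    rw [Nat.card_Ioc]
    exact le_trans (by exact_mod_cast Nat.sub_le _ _) (Nat.floor_le hU)
  have h6 := mul_le_mul_of_nonneg_left (SvC_inv hz ⌊U⌋₊) (show 0 ≤ A * X by positivity)
  have h7 := mul_le_mul_of_nonneg_right h5 (show 0 ≤ A by linarith)
  have h8 : ∑ p ∈ Finset.Ioc z ⌊U⌋₊, (A * X * (1 / (p : ℝ) ^ 2) + A) =
      A * X * ∑ p ∈ Finset.Ioc z ⌊U⌋₊, 1 / (p : ℝ) ^ 2 + (Finset.Ioc z ⌊U⌋₊).card * A := by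
    rw [Finset.sum_add_distrib, ← Finset.mul_sum, Finset.sum_const, nsmul_eq_mul]
  calc _ ≤ ((∑ p ∈ (Finset.Ioc z ⌊U⌋₊).filter Nat.Prime, ((Finset.Icc 1 X).filter
        fun n : ℕ => ((p ^ k : ℕ) : ℤ) ∣ f.eval (n : ℤ)).card : ℕ) : ℝ) := by exact_mod_cast h2
    _ ≤ ∑ p ∈ (Finset.Ioc z ⌊U⌋₊).filter Nat.Prime, (A * X * (1 / (p : ℝ) ^ 2) + A) := by
      rw [Nat.cast_sum]
      exact Finset.sum_le_sum h3
    _ ≤ A * X * (1 / z) + U * A := by linarith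
    _ = _ := by ring

end Vale.Agent.P018
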