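import Vale.Agent.P018.SvB
import Vale.Agent.P018.SvC

namespace Vale.Agent.P018

open NumberField MvPolynomial

open Filter Topology

open Classical in
theorem sieve2 (f : Polynomial ℤ) (hf : Irreducible (f.map (Int.castRingHom ℚ)))
    (hd : 4 ≤ f.natDegree) (k : ℕ) (hk : 2 ≤ k) (δ K₀ : ℝ) (h0 : 0 < δ) (h1 : δ ≤ 1 / 8)
    (hbig : ∀ᶠ X : ℕ in atTop,
      (((Finset.Icc 1 X).filter (fun n : ℕ => ∃ p : ℕ, p.Prime ∧ (X : ℝ) ^ (1 - δ) < p ∧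
        (p : ℤ) ^ k ∣ f.eval (n : ℤ))).card : ℝ) ≤ K₀ * (X : ℝ) ^ (1 - δ)) :
    ∃ c K : ℝ, HasProd (fun p : Nat.Primes => 1 - (rho f (p ^ k) : ℝ) / ((p : ℕ) : ℝ) ^ k) c ∧
      ((∀ p : ℕ, p.Prime → rho f (p ^ k) < p ^ k) → 0 < c) ∧ ∀ᶠ X : ℕ in atTop,
      |((((Finset.Icc 1 X).filter (fun n : ℕ =>
        ∀ p : ℕ, p.Prime → ¬ (p : ℤ) ^ k ∣ f.eval (n : ℤ))).card : ℕ) : ℝ) - c * X| ≤
        K * (X : ℝ) ^ (1 - δ) := by
  obtain ⟨c, e1, e2, e3⟩ := euler f hf k hk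
  obtain ⟨K1, s1⟩ := small_sieve f hf hd k hk
  obtain ⟨K2, s2⟩ := euler_tail f hf k hk
  obtain ⟨K3, s3⟩ := middle2 f hf k hk
  refine ⟨c, |K1| + 2 * |K2| + 3 * |K3| + |K₀|, e1, e2, ?_⟩
  filter_upwards [hbig, eventually_ge_atTop 1] with X hb hX
  have X1 : (1 : ℝ) ≤ X := by exact_mod_cast hX
  have X0 : (0 : ℝ) < X := by linarith
  obtain ⟨r, hr⟩ : ∃ r : ℝ, r = (X : ℝ) ^ (1 / 4 : ℝ) := ⟨_, rfl⟩
  obtain ⟨U, hU⟩ : ∃ U : ℝ, U = (X : ℝ) ^ (1 - δ) := ⟨_, rfl⟩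
  have r1 : 1 ≤ r := hr ▸ Real.one_le_rpow X1 (by norm_num)
  have U0 : 0 ≤ U := by rw [hU]; positivity
  have z1 : 1 ≤ ⌊r⌋₊ := Nat.le_floor (by exact_mod_cast r1)
  have z1' : (1 : ℝ) ≤ ⌊r⌋₊ := by exact_mod_cast z1
  have z2 : (⌊r⌋₊ : ℝ) ≤ r := Nat.floor_le (by linarith)
  have z3 : r ≤ 2 * ⌊r⌋₊ := by linarith [Nat.lt_floor_add_one r]
  have u1 : (X : ℝ) ^ (7 / 8 : ℝ) ≤ U := hU ▸ Real.rpow_le_rpow_of_exponent_le X1 (by linarith)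
  have u2 : (X : ℝ) / ⌊r⌋₊ ≤ 2 * U := by
    have a : (X : ℝ) ≤ r * U := by
      rw [hr, hU, ← Real.rpow_add X0]
      calc (X : ℝ) = (X : ℝ) ^ (1 : ℝ) := (Real.rpow_one _).symm
        _ ≤ _ := Real.rpow_le_rpow_of_exponent_le X1 (by linarith)
    rw [div_le_iff₀ (by linarith)]
    nlinarith
  have a1 := s1 X ⌊r⌋₊ hX (hr ▸ z2)
  have a2 := s2 c e3 ⌊r⌋₊ z1
  have a3 := s3 X ⌊r⌋₊ U z1 U0
  rw [← hU] at hb ⊢
  set z := ⌊r⌋₊
  set P := ∏ p ∈ (Finset.range (z + 1)).filter Nat.Prime, (1 - (rho f (p ^ k) : ℝ) / (p : ℝ) ^ k)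
  set A := (Finset.Icc 1 X).filter (fun n : ℕ =>
    ∀ p : ℕ, p.Prime → ¬ (p : ℤ) ^ k ∣ f.eval (n : ℤ))
  set B := (Finset.Icc 1 X).filter (fun n : ℕ =>
    ∀ p ∈ (Finset.range (z + 1)).filter Nat.Prime, ¬ (p : ℤ) ^ k ∣ f.eval (n : ℤ))
  set M := (Finset.Icc 1 X).filter (fun n : ℕ =>
    ∃ p : ℕ, p.Prime ∧ z < p ∧ (p : ℝ) ≤ U ∧ (p : ℤ) ^ k ∣ f.eval (n : ℤ))
  set G := (Finset.Icc 1 X).filter (fun n : ℕ =>
    ∃ p : ℕ, p.Prime ∧ U < p ∧ (p : ℤ) ^ k ∣ f.eval (n : ℤ))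
  have h5 : A ⊆ B := fun n hn => Finset.mem_filter.2 ⟨(Finset.mem_filter.1 hn).1, fun p hp =>
    (Finset.mem_filter.1 hn).2 p (Finset.mem_filter.1 hp).2⟩
  have h6 : B ⊆ A ∪ M ∪ G := fun n hn => by
    obtain ⟨n1, n2⟩ := Finset.mem_filter.1 hn
    by_cases h : ∀ p : ℕ, p.Prime → ¬ (p : ℤ) ^ k ∣ f.eval (n : ℤ)
    · exact Finset.mem_union_left _ (Finset.mem_union_left _ (Finset.mem_filter.2 ⟨n1, h⟩))
    simp only [not_forall, not_not] at h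
    obtain ⟨p, hp, hd⟩ := h
    have hz : z < p := by
      by_contra hz
      exact n2 p (Finset.mem_filter.2 ⟨Finset.mem_range.2 (by omega), hp⟩) hd
    by_cases hpX : (p : ℝ) ≤ U
    · exact Finset.mem_union_left _ (Finset.mem_union_right _
        (Finset.mem_filter.2 ⟨n1, p, hp, hz, hpX, hd⟩))
    · exact Finset.mem_union_right _ (Finset.mem_filter.2 ⟨n1, p, hp, not_le.1 hpX, hd⟩)
  have h7 : (A.card : ℝ) ≤ B.card := by exact_mod_cast Finset.card_le_card h5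
  have h8 : (B.card : ℝ) ≤ A.card + M.card + G.card := by
    exact_mod_cast (Finset.card_le_card h6).trans ((Finset.card_union_le _ _).trans
      (Nat.add_le_add_right (Finset.card_union_le _ _) _))
  have b1 : |(B.card : ℝ) - X * P| ≤ |K1| * U :=
    a1.trans ((mul_le_mul_of_nonneg_right (le_abs_self _) (by positivity)).trans (by gcongr))
  have b2 : |X * P - c * X| ≤ 2 * |K2| * U := by
    rw [show X * P - c * X = X * (P - c) by ring, abs_mul, abs_of_pos X0]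
    calc X * |P - c| ≤ X * (|K2| / z) := by
          gcongr
          exact a2.trans (by gcongr; exact le_abs_self _)
      _ = |K2| * (X / z) := by ring
      _ ≤ |K2| * (2 * U) := by gcongr
      _ = _ := by ring
  have b3 : (M.card : ℝ) ≤ 3 * |K3| * U := by
    calc (M.card : ℝ) ≤ K3 * (X / z + U) := a3
      _ ≤ |K3| * (X / z + U) := mul_le_mul_of_nonneg_right (le_abs_self _) (by positivity)
      _ ≤ |K3| * (2 * U + U) := by gcongr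
      _ = _ := by ring
  have b4 : (G.card : ℝ) ≤ |K₀| * U := hb.trans (mul_le_mul_of_nonneg_right (le_abs_self _) U0)
  have c3 : 0 ≤ 3 * |K3| * U := by positivity
  have c4 : 0 ≤ |K₀| * U := by positivity
  rw [abs_le] at b1 b2 ⊢
  constructor <;> nlinarith [b1.1, b1.2, b2.1, b2.2]

end Vale.Agent.P018
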